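import Vale.Agent.P367.CDefs
import Vale.Agent.P146L.One

/-! # P367, classical part: choice of the parameters -/

namespace Vale.Agent.P367

open MeasureTheory ProbabilityTheory Vale.Agent.P157 Vale.Agent.P146L Vale.Agent.P146L.One Set

namespace CAsmAux

theorem large (a b : ℝ) (hb : 0 < b) : ∃ L : ℕ, 2 ≤ L ∧ a * (1 / (L : ℝ)) < b := by
  obtain ⟨L, hL⟩ := exists_nat_gt (max 2 (a / b))
  have h2 : (2 : ℝ) < L := (le_max_left _ _).trans_lt hL
  have h3 : a / b < L := (le_max_right _ _).trans_lt hL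
  refine ⟨L, by exact_mod_cast h2.le, ?_⟩
  rw [mul_one_div, div_lt_iff₀ (by linarith)]
  rw [div_lt_iff₀ hb] at h3
  linarith

theorem fine (B L e : ℝ) (hB : 0 < B) (hL : 0 ≤ L) (he : 0 < e) : ∃ N : ℕ, 1 ≤ N ∧
    (L + 1) * (B / N) ≤ e ∧ L * N * (B / N * √(B / N)) ≤ e := by
  obtain ⟨N, N2, hN⟩ := large ((L + 1) * B + B * (L * B / e) ^ 2) (min e 1) (lt_min he one_pos)
  have hN0 : (0 : ℝ) < N := by
    have : (2 : ℝ) ≤ N := by exact_mod_cast N2
    linarith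
  have a1 : 0 ≤ (L + 1) * B * (1 / (N : ℝ)) := by positivity
  have a2 : 0 ≤ B * (L * B / e) ^ 2 * (1 / (N : ℝ)) := by positivity
  rw [add_mul] at hN
  refine ⟨N, by omega, ?_, ?_⟩
  · have : (L + 1) * (B / N) = (L + 1) * B * (1 / (N : ℝ)) := by ring
    linarith [min_le_left e 1]
  · have e1 : L * N * (B / N * √(B / N)) = L * B * √(B / N) := by field_simp
    rw [e1]
    refine (abs_le_of_sq_le_sq' ?_ he.le).2
    rw [mul_pow, Real.sq_sqrt (by positivity)]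
    have e2 : (L * B) ^ 2 * (B / N) = e ^ 2 * (B * (L * B / e) ^ 2 * (1 / (N : ℝ))) := by
      field_simp
    rw [e2]
    exact mul_le_of_le_one_right (sq_nonneg e) (by linarith [min_le_right e 1])

end CAsmAux

open CAsmAux in
theorem asm (h1 : S_ub) (h2 : S_cvx3) (h3 : S_flat) (h4 : S_atom) (h5 : S_top) (h6 : S_fix) :
    S_main := by
  intro ε hε
  have hc11 := One.c11 One.dP
  have hgd := One.gd (One.g0 hc11) One.rrT One.ghs
  have hf1 := One.flow1 One.stepT One.sv One.hold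
  have hf2 := One.flow2 One.stepT One.sv
  have hfl := One.fl One.norm
  have hlev := One.lev One.norm
  have hglo := One.glo hgd hfl hlev hf1 hf2
  have hopt := One.opt hlev (One.sens hgd One.stepT hfl hlev One.sens1) One.move
    (One.kkt One.move) hglo
  obtain ⟨β, hβ⟩ : ∃ β : ℝ, β = 6 / ε := ⟨_, rfl⟩
  have β0 : 0 < β := by rw [hβ]; positivity
  have βε : β * ε = 6 := by rw [hβ]; field_simp
  have hB : 0 < β ^ 2 := by positivity
  obtain ⟨Λ, Λ1, hglo⟩ := hglo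
  obtain ⟨C, C0, hopt⟩ := hopt β β0
  obtain ⟨η, hη⟩ : ∃ η : ℝ, η = 1 / (6 * β ^ 4) := ⟨_, rfl⟩
  have η0 : 0 < η := by rw [hη]; positivity
  have ηβ : 6 * η * β ^ 4 = 1 := by rw [hη]; field_simp
  obtain ⟨y, hy⟩ : ∃ y : ℝ, y = min β (1 / (β ^ 2 * Λ)) := ⟨_, rfl⟩
  have y0 : 0 < y := by rw [hy]; exact lt_min β0 (by positivity)
  have y1 : y ^ 2 ≤ 2 * β ^ 2 := by
    have : y ≤ β := hy ▸ min_le_left _ _
    nlinarith
  have y2 : y * β ^ 2 * Λ ≤ 1 := by
    have : y ≤ 1 / (β ^ 2 * Λ) := hy ▸ min_le_right _ _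
    rw [le_div_iff₀ (by positivity)] at this
    linarith
  obtain ⟨L, L2, hL⟩ := large (3 * Λ ^ 2 * C + 2 * β ^ 2 + 3 * β ^ 2 * C)
    (min (η ^ 3) (min η (y ^ 2))) (lt_min (by positivity) (lt_min η0 (by positivity)))
  have L0 : (0 : ℝ) < L := by
    have : (2 : ℝ) ≤ L := by exact_mod_cast L2
    linarith
  have D0 : 0 ≤ 1 / (L : ℝ) := by positivity
  have p1 : 0 ≤ 3 * Λ ^ 2 * C * (1 / (L : ℝ)) := by positivity
  have p2 : 0 ≤ 2 * β ^ 2 * (1 / (L : ℝ)) := by positivity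
  have p3 : 0 ≤ 3 * β ^ 2 * C * (1 / (L : ℝ)) := by positivity
  rw [add_mul, add_mul, lt_min_iff, lt_min_iff] at hL
  have hζ := grid_adm (show 1 ≤ L by omega)
  obtain ⟨q, hq, -⟩ := One.minq One.move L (grid L) β hζ
  have hc : CAdm L (β ^ 2 • q) := by
    refine ⟨fun a b hab => ?_, fun d hd => ?_⟩
    · exact mul_le_mul_of_nonneg_left (hq.1.adm.anti hab) hB.le
    · simp [hq.1.adm.zero d hd]
  have c0 : (β ^ 2 • q) 0 = β ^ 2 := by simp [hq.1.top]
  have cL : (β ^ 2 • q) L = 0 := by simp [hq.1.root]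
  have hG := (hglo L _ _ hζ hc).1
  rw [c0] at hG
  have hO := hopt L _ q (1 / L) hζ (fun k hk => (grid_mesh hk).le) hq
  have hcv := h2 L _ _ hζ hc cL
  have hfl := h3 (β ^ 2) Λ (C * (1 / L)) (1 / L) η _ L _ _ _ _ hB Λ1 D0 η0.le
    (by linarith [hL.1]) hc c0 hG hO (fun d _ hd => (hcv d (by omega)).1) (fun d a b hd ha hab hb => by
      have := (hcv d (by omega)).2 a b ha hab hb
      rwa [grid_last hd] at this)
  have k1 := hO.k0 1 le_rfl (by omega)
  have e1 : (β ^ 2 • q) 1 / β ^ 2 = q 1 := by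
    simp only [Pi.smul_apply, smul_eq_mul]
    field_simp
  have hat := h4 (β ^ 2) Λ (C * (1 / L)) y _ L _ _ _ _ hB Λ1 L2 y0 y1 y2 (by linarith [hL.2.2])
    hc c0 hG hO (by
      have := (h5 L _ _ hζ hc).2.2.1
      rwa [k1] at this)
  rw [e1] at hat k1
  obtain ⟨N, N1, hN1, hN2⟩ := fine (β ^ 2) L (min 1 (1 / β)) hB L0.le
    (lt_min one_pos (by positivity))
  obtain ⟨K, M, hM, hK⟩ := h6 β Λ (2 * η) _ L N _ q β0 (by positivity) N1 hζ hq.1 hG k1
    (fun d τ d1 dL a b c => by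
      have := hfl d τ d1 dL a b c
      linarith [hL.2.1])
  refine ⟨K, M, hM, fun n hn => ?_⟩
  have hu := h1 β L _ q β0 hζ hq.1 n hn
  have b1 : β ^ 2 * (1 - q 1) ^ 2 ≤ 2 := by
    rw [le_div_iff₀ hB] at hat
    linarith
  have b2 : β * (L * N * (β ^ 2 / N * √(β ^ 2 / N))) ≤ 1 := by
    have := hN2.trans (min_le_right _ _)
    rw [le_div_iff₀ β0] at this
    linarith
  have b3 := hN1.trans (min_le_left _ _)
  have b4 : Real.log 2 ≤ 1 := by linarith [Real.log_two_lt_d9]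
  refine le_of_mul_le_mul_left ?_ β0
  rw [mul_add, βε]
  linarith

end Vale.Agent.P367
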