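import Vale.Agent.P367.CDefs
import Vale.Agent.P146L.ONorm
import Vale.Agent.P146L.ORR
import Vale.Agent.P146L.OGhs
import Vale.Agent.P146L.OG0

/-! # P367, classical part: CBack -/

namespace Vale.Agent.P367

open MeasureTheory ProbabilityTheory Vale.Agent.P157 Vale.Agent.P146L Vale.Agent.P146L.One Set

namespace CBackAux

theorem d1_lc : d1 lc = Real.tanh := funext fun x => by
  have := (Real.hasDerivAt_cosh x).log (Real.cosh_pos x).ne'
  rw [Real.tanh_eq_sinh_div_cosh]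
  exact this.deriv

theorem d2_lc : d2 lc = fun x => 1 - Real.tanh x ^ 2 := funext fun x => by
  change deriv (d1 lc) x = _
  rw [d1_lc]
  exact (JetAux.hasDerivAt_tanh x).deriv

theorem d3_lc : d3 lc = fun x => -2 * (Real.tanh x - Real.tanh x ^ 3) := funext fun x => by
  change deriv (d2 lc) x = _
  rw [d2_lc]
  refine ((((JetAux.hasDerivAt_tanh x).fun_pow 2).const_sub 1).deriv).trans ?_
  push_cast
  ring

theorem d4_lc (x : ℝ) : d4 lc x = (6 * Real.tanh x ^ 2 - 2) * (1 - Real.tanh x ^ 2) := by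
  rw [d4, d3_lc]
  refine ((((JetAux.hasDerivAt_tanh x).fun_sub
    ((JetAux.hasDerivAt_tanh x).fun_pow 3)).const_mul (-2)).deriv).trans ?_
  push_cast
  ring

theorem pos_lc (x : ℝ) : 0 < d2 lc x := by
  rw [d2_lc]
  have h1 := Real.neg_one_lt_tanh x
  have h2 := Real.tanh_lt_one x
  simp only
  nlinarith

theorem hk_lc : HK 1 lc := fun x => by
  rw [d4_lc, d2_lc, d3_lc]
  exact le_of_eq (by ring)

theorem hk_mono {m m' : ℝ} {Φ : ℝ → ℝ} (h : HK m Φ) (hp : ∀ x, 0 < d2 Φ x) (hm : m' ≤ m) :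
    HK m' Φ := fun x => by
  have h1 := h x
  have h2 := mul_le_mul_of_nonneg_right hm (pow_pos (hp x) 3).le
  linarith

theorem rr_even (h1 : S_rg) {ζ : ℕ → ℝ} (hζ : Zok ζ) (s : ℕ → ℝ) (d : ℕ) :
    RR (X ζ (g1s s) lc d) ∧ ∀ x, X ζ (g1s s) lc d (-x) = X ζ (g1s s) lc d x := by
  induction d with
  | zero => exact ⟨ghs.1, fun x => congrArg Real.log (Real.cosh_neg x)⟩
  | succ d ih =>
    obtain ⟨A, hA⟩ := h1 d
    have h := hA ζ s hζ
    exact ⟨rrT (ζ d) (s d) _ (hζ.nn d) h.lg ih.2 h.lip ih.1,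
      T_even _ _ h.diff.continuous.measurable ih.2⟩

theorem hk_X (h1 : S_rg) (h2 : S_hk) {ζ : ℕ → ℝ} (hζ : Zok ζ) (s : ℕ → ℝ) (d : ℕ) :
    (∀ x, 0 < d2 (X ζ (g1s s) lc d) x) ∧ HK (ζ d) (X ζ (g1s s) lc d) := by
  induction d with
  | zero => exact ⟨pos_lc, hk_mono hk_lc pos_lc hζ.le1⟩
  | succ d ih =>
    obtain ⟨A, hA⟩ := h1 d
    have h := h2 A (ζ d) (s d) _ (hζ.nn d) (hA ζ s hζ) ih.1 ih.2
    exact ⟨h.1, hk_mono h.2 h.1 (hζ.anti (Nat.le_succ d))⟩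

end CBackAux

open CBackAux in
theorem back (h1 : S_rg) (h2 : S_hk) : S_back := by
  intro L ζ c hζ hc
  obtain ⟨A, hA⟩ := h1 (L + 1)
  refine ⟨A, fun r => ⟨hA ζ _ hζ, rr_even h1 hζ _ _⟩, fun d r hd k1 k2 => ?_⟩
  obtain ⟨A', hA'⟩ := h1 d
  have h3 := hk_X h1 h2 hζ (dq c) d
  have h4 := h2 A' (ζ d) (c d - r) _ (hζ.nn d) (hA' ζ _ hζ) h3.1 h3.2
  rw [← (One.norm L ζ c d r hζ hc hd k1 k2).1] at h4
  exact ⟨hA ζ _ hζ, (rr_even h1 hζ _ _).2, h4.1, h4.2⟩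

end Vale.Agent.P367
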