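import Vale.Agent.P367.CDefs
import Vale.Agent.P146L.ODP
import Vale.Agent.P146L.OG0

/-! # P367, classical part: CBn -/

namespace Vale.Agent.P367

open MeasureTheory ProbabilityTheory Vale.Agent.P157 Vale.Agent.P146L Vale.Agent.P146L.One Set

namespace CBnAux

theorem bnP (n : ℕ) : ∀ A : ℝ, ∃ A' : ℝ, ∀ (m h : ℝ) (Ψ φ : ℝ → ℝ), |m| ≤ 1 → LG Ψ →
    Differentiable ℝ Ψ → (∀ x, |d1 Ψ x| ≤ 1) → Bn n A (d1 Ψ) → Bn n A φ →
    Bn n A' (P m (g1 h) Ψ φ) := by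
  induction n with
  | zero =>
    exact fun A => ⟨A, fun m h Ψ φ _ hΨ _ _ _ hφ =>
      ⟨measurable_P m _ hΨ.1 hφ.meas, abs_P_le m _ Ψ hφ.bd⟩⟩
  | succ n ih =>
    intro A
    obtain ⟨B, hB⟩ := ih (max A (2 ^ n * (A * A)))
    refine ⟨max A (B + (B + 2 ^ n * (B * B))), fun m h Ψ φ hm hΨ hd hu h1 h2 => ?_⟩
    have k0 := h1.pred.mono (le_max_left A (2 ^ n * (A * A)))
    have k1 := hB m h Ψ _ hm hΨ hd hu k0 (h2.dn.mono (le_max_left _ _))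
    have k2 := hB m h Ψ _ hm hΨ hd hu k0 ((h1.pred.mul h2.pred).mono (le_max_right _ _))
    have k3 := hB m h Ψ _ hm hΨ hd hu k0 k0
    have k4 := hB m h Ψ _ hm hΨ hd hu k0 (h2.pred.mono (le_max_left _ _))
    have k5 := k2.sub (k3.mul k4)
    refine Bn.of_der (fun x => (dP m h A Ψ (d1 Ψ) φ (deriv φ) hΨ (fun y => (hd y).hasDerivAt) hu
      h2.der h2.bd h2.dn.bd x).2) (fun x => (abs_P_le m _ Ψ h2.bd x).trans (le_max_left _ _))
      ((k1.add (k5.const_mul m)).mono (le_trans ?_ (le_max_right _ _)))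
    exact add_le_add le_rfl (mul_le_of_le_one_left k5.nonneg hm)

theorem abs_tanh_le (x : ℝ) : |Real.tanh x| ≤ 1 :=
  (sq_le_one_iff_abs_le_one _).1 (JetAux.tanh_sq_le x)

theorem bn_tanh (n : ℕ) : ∃ A, Bn n A Real.tanh := by
  have hd := JetAux.hasDerivAt_tanh
  induction n with
  | zero =>
    exact ⟨1, (Differentiable.continuous fun x => (hd x).differentiableAt).measurable, abs_tanh_le⟩
  | succ n ih =>
    obtain ⟨A, hA⟩ := ih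
    refine ⟨max 1 (|1| + 2 ^ n * (A * A)), Bn.of_der hd
      (fun x => (abs_tanh_le x).trans (le_max_left _ _)) ?_⟩
    simpa only [sq] using ((Bn.const n 1).sub (hA.mul hA)).mono (le_max_right 1 _)

theorem der_lc (x : ℝ) : HasDerivAt lc (Real.tanh x) x := by
  rw [Real.tanh_eq_sinh_div_cosh]
  exact (Real.hasDerivAt_cosh x).log (Real.cosh_pos x).ne'

end CBnAux

theorem rgT : S_rgT := by
  intro A
  obtain ⟨A', hA⟩ := CBnAux.bnP 5 A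
  refine ⟨A', fun m h Ψ hm hΨ => ?_⟩
  have hd : ∀ x, HasDerivAt (T m (g1 h) Ψ) (P m (g1 h) Ψ (d1 Ψ) x) x := fun x =>
    (dP m h A Ψ (d1 Ψ) (d1 Ψ) (d2 Ψ) hΨ.lg hΨ.e0 hΨ.u1 hΨ.e1 hΨ.bn.bd hΨ.b2.bd x).1
  have e : d1 (T m (g1 h) Ψ) = P m (g1 h) Ψ (d1 Ψ) := funext fun x => (hd x).deriv
  have hb := abs_P_le m (g1 h) Ψ hΨ.u1
  refine ⟨⟨measurable_T m _ hΨ.lg.1, |T m (g1 h) Ψ 0| + 1, fun x => ?_⟩,
    fun x => (hd x).differentiableAt, e ▸ hb, e ▸ hA m h Ψ _ hm hΨ.lg hΨ.diff hΨ.u1 hΨ.bn hΨ.bn⟩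
  have h1 := convex_univ.norm_image_sub_le_of_norm_hasDerivWithin_le (C := 1)
    (fun z _ => (hd z).hasDerivWithinAt) (fun z _ => hb z) (mem_univ 0) (mem_univ x)
  rw [sub_zero, one_mul, Real.norm_eq_abs] at h1
  have h2 := abs_sub_abs_le_abs_sub (T m (g1 h) Ψ x) (T m (g1 h) Ψ 0)
  nlinarith [mul_nonneg (abs_nonneg (T m (g1 h) Ψ 0)) (norm_nonneg x)]

theorem rg : S_rg := by
  intro d
  induction d with
  | zero =>
    obtain ⟨A, hA⟩ := CBnAux.bn_tanh 5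
    have e : d1 lc = Real.tanh := funext fun x => (CBnAux.der_lc x).deriv
    exact ⟨A, fun ζ s _ => (⟨lg_lc, fun x => (CBnAux.der_lc x).differentiableAt,
      e ▸ CBnAux.abs_tanh_le, e ▸ hA⟩ : Rg A lc)⟩
  | succ d ih =>
    obtain ⟨A, hA⟩ := ih
    obtain ⟨A', hA'⟩ := rgT A
    exact ⟨A', fun ζ s hζ => hA' (ζ d) (s d) _
      (abs_le.2 ⟨by linarith [hζ.nn d], hζ.le_one d⟩) (hA ζ s hζ)⟩

end Vale.Agent.P367
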