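import Vale.Agent.P367.CDefs
import Vale.Agent.P146L.ORR

/-! # P367, classical part: CBridge -/

namespace Vale.Agent.P367

open MeasureTheory ProbabilityTheory Vale.Agent.P157 Vale.Agent.P146L Vale.Agent.P146L.One Set

namespace CBridgeAux

theorem rot {s h : ℝ} (hs : 0 ≤ s) (hh : 0 ≤ h) :
    ((g1 s).prod (g1 h)).map (fun z : ℝ × ℝ => (z.1 + z.2, z.1 - s / (s + h) * (z.1 + z.2)))
      = (g1 (s + h)).prod (g1 (s * h / (s + h))) := by
  have k : s * (1 - s / (s + h)) = h * (s / (s + h)) ∧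
      s * (1 - s / (s + h)) ^ 2 + h * (s / (s + h)) ^ 2 = s * h / (s + h) := by
    rcases (add_nonneg hs hh).eq_or_lt with e | e
    · obtain rfl : s = 0 := by linarith
      simp
    · constructor <;> field_simp <;> ring
  have e := gauss_lin (ι := Fin 2) (κ := Fin 2) ![![1, 1], ![1 - s / (s + h), -(s / (s + h))]]
    (s := ![s, h]) (s' := ![s + h, s * h / (s + h)])
    (fun i => by fin_cases i <;> assumption) (fun a b => by
      fin_cases a <;> fin_cases b <;> simp [Fin.sum_univ_two] <;> linarith [k.1, k.2])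
  have m1 := (measurePreserving_piFinTwo (α := fun _ : Fin 2 => ℝ)
    fun i => g1 (![s, h] i)).map_eq
  have m2 := (measurePreserving_piFinTwo (α := fun _ : Fin 2 => ℝ)
    fun i => g1 (![s + h, s * h / (s + h)] i)).map_eq
  simp only [Matrix.cons_val_zero, Matrix.cons_val_one] at m1 m2
  rw [← m1, ← m2]
  unfold gv at e
  rw [← e, Measure.map_map (by fun_prop) (MeasurableEquiv.measurable _),
    Measure.map_map (MeasurableEquiv.measurable _) (by fun_prop)]
  congr 1
  funext z
  simp [MeasurableEquiv.piFinTwo, Fin.sum_univ_two]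
  ring

theorem key {m s h : ℝ} {Ψ θ F : ℝ → ℝ} (hs : 0 ≤ s) (hh : 0 ≤ h) (hΨ : LG Ψ) (hθ : LG θ)
    (hF : BM F) :
    ∫ x, Real.exp (1 * (m * T m (g1 h) Ψ x - θ x)) * P m (g1 h) Ψ F x ∂g1 s =
      ∫ x, Real.exp (1 * (m * Ψ x - T (-1) (g1 (s * h / (s + h))) θ (s / (s + h) * x))) * F x
        ∂g1 (s + h) := by
  set ρ := s / (s + h) with hρ
  set v := s * h / (s + h) with hv
  let φ : ℝ × ℝ → ℝ × ℝ := fun z => (z.1 + z.2, z.1 - ρ * (z.1 + z.2))
  have hφ : Measurable φ := by fun_prop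
  have hr : ((g1 s).prod (g1 h)).map φ = (g1 (s + h)).prod (g1 v) := rot hs hh
  let G : ℝ × ℝ → ℝ := fun z => Real.exp (m * Ψ z.1 - θ (ρ * z.1 + z.2)) * F z.1
  have hG : Measurable G :=
    (((hΨ.1.comp measurable_fst).const_mul m).sub (hθ.1.comp (by fun_prop))).exp.mul
      (hF.1.comp measurable_fst)
  have eG : ∀ z : ℝ × ℝ, G (φ z) = Real.exp (m * Ψ (z.1 + z.2) - θ z.1) * F (z.1 + z.2) :=
    fun z => by simp [G, φ]
  have e1 : EInt ((g1 (s + h)).prod (g1 v)) fun z : ℝ × ℝ => Ψ z.1 :=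
    CascAux.eint_map measurable_fst (by simpa using hΨ.eint (noise_g1 (s + h)) 0)
  have e2 : EInt ((g1 s).prod (g1 h)) fun z : ℝ × ℝ => θ z.1 :=
    CascAux.eint_map measurable_fst (by simpa using hθ.eint (noise_g1 s) 0)
  rw [← hr] at e1
  have e3 := (((CascAux.eint_map hφ e1).const_mul m).sub e2).2 1
  obtain ⟨C, hC⟩ := hF.2
  have i1 : Integrable (fun z => G (φ z)) ((g1 s).prod (g1 h)) := by
    simp only [eG]
    simp only [one_mul] at e3
    exact e3.mul_bdd (c := C) (hF.1.comp measurable_add).aestronglyMeasurable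
      (ae_of_all _ fun z => hC _)
  have i2 : Integrable G ((g1 (s + h)).prod (g1 v)) := by
    rw [← hr]
    exact (integrable_map_measure hG.aestronglyMeasurable hφ.aemeasurable).2 i1
  have a1 := integral_map (μ := (g1 s).prod (g1 h)) hφ.aemeasurable hG.aestronglyMeasurable
  rw [hr, integral_prod _ i2, integral_prod _ i1] at a1
  refine Eq.trans (integral_congr_ae (ae_of_all _ fun x => ?_))
    (a1.symm.trans (integral_congr_ae (ae_of_all _ fun x => ?_)))
  · have b1 := (hΨ.eint (noise_g1 h) x).2 m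
    simp only [eG, one_mul, Real.exp_sub, T, P, gexp_eq, exp_mul_lse b1]
    have b2 := (integral_exp_pos b1).ne'
    simp only [div_mul_eq_mul_div, integral_div]
    field_simp
  · have b1 := exp_mul_lse ((hθ.eint (noise_g1 v) (ρ * x)).2 (-1))
    simp only [G, one_mul, T, sub_eq_add_neg, Real.exp_add]
    simp only [neg_one_mul] at b1
    rw [b1, integral_mul_const, integral_const_mul]

end CBridgeAux

theorem bridge : S_bridge := by
  intro m s h Ψ θ F _ hs hh hΨ hθ hF
  have e := CBridgeAux.key (m := m) hs hh hΨ hθ (BM.const 1)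
  have e1 : ∀ x, P m (g1 h) Ψ (fun _ => 1) x = 1 := fun x =>
    gexp_const m (hΨ.eint (noise_g1 h) x) 1
  simp only [e1, mul_one] at e
  rw [gexp_eq, gexp_eq, CBridgeAux.key hs hh hΨ hθ hF, e]

end Vale.Agent.P367
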