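import Vale.Agent.P367.CDefs

/-! # P367, classical part: CCala -/

namespace Vale.Agent.P367

open MeasureTheory ProbabilityTheory Vale.Agent.P157 Vale.Agent.P146L Vale.Agent.P146L.One Set

namespace CCalaAux

theorem cal_der {s n U l : ℝ → ℝ} {c b x : ℝ} (hs : HasDerivAt s c x)
    (hn : HasDerivAt n (U x * n x) x) (hU : HasDerivAt U (-U x * s x - U x ^ 2) x)
    (hl : HasDerivAt l b x) :
    HasDerivAt (fun y => cal (s y) (n y) (U y) (l y)) (cal' (s x) (n x) (U x) (l x) c b) x := by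
  have h := ((((((hs.fun_pow 3).const_mul (-3 / 8)).fun_sub
    (((hs.fun_pow 2).const_mul (1 / 2)).fun_mul hn)).fun_add
    ((hs.const_mul (15 / 4)).fun_mul (hU.fun_mul hn))).fun_add
    ((hn.const_mul (7 / 4)).fun_mul (hU.fun_mul hn))).fun_add
    (hl.fun_mul (((hs.fun_pow 2).div_const 3).fun_add
      ((hs.const_mul (3 / 4)).fun_mul hn)))).fun_add (((hs.fun_pow 2).fun_mul hU).div_const 6)
  refine HasDerivAt.congr_deriv h ?_
  unfold cal'
  push_cast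
  ring

end CCalaAux

theorem cala (h1 : S_crt) (h2 : S_geo) (h3 : S_geo2) : S_cala := by
  intro A A' m τ Φ θ hm hτ hB hT x hx
  obtain ⟨hu, g1, g2, g3⟩ := (h2 A m Φ hm hB).2 x hx
  obtain ⟨l0, l1⟩ := h3 A' m τ θ hτ hT x hx.le
  have hv := hB.pos x
  have e0 := hB.rg.e0 x
  have e1 := hB.rg.e1 x
  have e2 := hB.rg.e2 x
  have e3 := hB.rg.e3 x
  have hs : HasDerivAt (fun y => -d3 Φ y / d2 Φ y)
      ((d3 Φ x ^ 2 - d2 Φ x * d4 Φ x) / d2 Φ x ^ 2) x :=
    (e3.fun_neg.fun_div e2 hv.ne').congr_deriv (by ring)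
  have hn : HasDerivAt (fun y => m * d1 Φ y) (d2 Φ x / d1 Φ x * (m * d1 Φ x)) x :=
    (e1.const_mul m).congr_deriv (by field_simp)
  have hU : HasDerivAt (fun y => d2 Φ y / d1 Φ y)
      (-(d2 Φ x / d1 Φ x) * (-d3 Φ x / d2 Φ x) - (d2 Φ x / d1 Φ x) ^ 2) x :=
    (e2.fun_div e1 hu.ne').congr_deriv (by field_simp)
  have hl : HasDerivAt (fun y => y / τ + d1 θ y) (1 / τ + d2 θ x) x :=
    ((hasDerivAt_id' x).div_const τ).fun_add (hT.rg.e1 x)
  have hd : HasDerivAt (dens m τ Φ θ)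
      (dens m τ Φ θ x * (m * d1 Φ x - (x / τ + d1 θ x))) x :=
    ((((e0.const_mul m).fun_sub (hT.rg.e0 x)).fun_sub
      (((hasDerivAt_id' x).fun_pow 2).div_const (2 * τ))).exp).congr_deriv (by
        unfold dens
        push_cast
        field_simp
        ring)
  have hc := CCalaAux.cal_der hs hn hU hl
  refine ⟨_, (hd.fun_mul (e2.fun_pow 2)).fun_mul hc, ?_⟩
  have hU0 : 0 ≤ d2 Φ x / d1 Φ x := by positivity
  have g4 : 1 ≤ x * (d2 Φ x / d1 Φ x + -d3 Φ x / d2 Φ x / 2) := by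
    have : x * (d2 Φ x / d1 Φ x + -d3 Φ x / d2 Φ x / 2) =
        x * (d2 Φ x + -d3 Φ x / d2 Φ x * d1 Φ x / 2) / d1 Φ x := by field_simp
    rw [this, le_div_iff₀ hu, one_mul]
    exact g3
  have hb : 1 / τ + d2 θ x ≤ (x / τ + d1 θ x) * (d2 Φ x / d1 Φ x + -d3 Φ x / d2 Φ x / 2) := by
    refine le_of_mul_le_mul_left ?_ hx
    nlinarith [mul_le_mul_of_nonneg_left g4 l0]
  have key := h1 _ _ _ _ ((d3 Φ x ^ 2 - d2 Φ x * d4 Φ x) / d2 Φ x ^ 2) _
    (mul_nonneg hm hu.le) g2 hU0 l0 hb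
  have hD : 0 ≤ dens m τ Φ θ x * d2 Φ x ^ 2 := mul_nonneg (Real.exp_pos _).le (sq_nonneg _)
  refine le_trans (le_of_eq ?_) ((mul_le_mul_of_nonneg_left key hD).trans (le_of_eq ?_))
  · generalize cal' _ _ _ _ _ _ = p
    generalize cal _ _ _ _ = q
    push_cast
    field_simp
    ring
  · unfold fd0
    field_simp
    ring

end Vale.Agent.P367
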