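import Vale.Agent.P367.CDefs
import Vale.Agent.P146L.OLemA

/-! # P367, classical part: CCalb -/

namespace Vale.Agent.P367

open MeasureTheory ProbabilityTheory Vale.Agent.P157 Vale.Agent.P146L Vale.Agent.P146L.One Set

namespace CCalbAux

open Filter Topology OLemAAux

theorem bound {A m x u v w l L : ℝ} (hm : 0 ≤ m) (hm1 : m ≤ 1) (hx : 0 < x) (hu : 0 < u)
    (hv : 0 < v) (u1 : u ≤ 1) (u2 : u ≤ A * x) (v1 : v ≤ A) (w1 : |w| ≤ A) (w2 : |w| ≤ A * x)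
    (g : w ^ 2 ≤ 2 * A * v) (g2 : x * v ≤ u) (hl : |l| ≤ L) :
    |v ^ 2 * cal (-w / v) (m * u) (v / u) l| ≤
      (2 * A ^ 2 + 4 * A ^ 3 + 2 * A ^ 4 + 2 * A ^ 2 * L) * x := by
  have hA : 0 < A := hv.trans_le v1
  have e : v ^ 2 * cal (-w / v) (m * u) (v / u) l = 3 / 8 * (w * (w ^ 2 / v)) - 1 / 2 * (m * w ^ 2 * u)
      - 15 / 4 * (m * w * v ^ 2) + 7 / 4 * (m ^ 2 * u * v ^ 3)
      + l * (w ^ 2 / 3 - 3 / 4 * (m * w * v * u)) + 1 / 6 * (w ^ 2 * (v / u)) := by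
    unfold cal
    field_simp
    ring
  have q : w ^ 2 ≤ A * (A * x) := by
    rw [← sq_abs, sq]
    gcongr
  have t1 : |w * (w ^ 2 / v)| ≤ A * x * (2 * A) := by
    rw [abs_mul, abs_of_nonneg (by positivity : 0 ≤ w ^ 2 / v)]
    exact mul_le_mul w2 ((div_le_iff₀ hv).2 g) (by positivity) (by positivity)
  have t2 : m * w ^ 2 * u ≤ 1 * (A * (A * x)) * 1 := by gcongr
  have t2' : 0 ≤ m * w ^ 2 * u := by positivity
  have t3 : |m * w * v ^ 2| ≤ 1 * (A * x) * A ^ 2 := by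
    rw [abs_mul, abs_mul, abs_of_nonneg hm, abs_of_nonneg (sq_nonneg v)]
    gcongr
  have t4 : m ^ 2 * u * v ^ 3 ≤ 1 ^ 2 * (A * x) * A ^ 3 := by gcongr
  have t4' : 0 ≤ m ^ 2 * u * v ^ 3 := by positivity
  have t5 : |m * w * v * u| ≤ 1 * (A * x) * A * 1 := by
    rw [abs_mul, abs_mul, abs_mul, abs_of_nonneg hm, abs_of_pos hv, abs_of_pos hu]
    gcongr
  have p2 : 0 < A ^ 2 * x := by positivity
  have p3 : 0 < A ^ 3 * x := by positivity
  have p4 : 0 < A ^ 4 * x := by positivity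
  have t6 : |l * (w ^ 2 / 3 - 3 / 4 * (m * w * v * u))| ≤ L * (2 * A ^ 2 * x) := by
    rw [abs_mul]
    refine mul_le_mul hl ?_ (abs_nonneg _) ((abs_nonneg _).trans hl)
    rw [abs_le] at t5 ⊢
    constructor <;> nlinarith [sq_nonneg w]
  have t7 : w ^ 2 * (v / u) ≤ (A * x) ^ 2 * (1 / x) := by
    refine mul_le_mul ?_ ?_ (by positivity) (by positivity)
    · rw [← sq_abs]
      gcongr
    · rw [div_le_div_iff₀ hu hx]
      linarith
  have t7' : 0 ≤ w ^ 2 * (v / u) := by positivity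
  have e7 : (A * x) ^ 2 * (1 / x) = A ^ 2 * x := by field_simp
  rw [e]
  rw [abs_le] at t1 t3 t6 ⊢
  constructor <;> nlinarith

theorem HF_le (h1 : S_geo) {A A' m τ : ℝ} {Φ θ : ℝ → ℝ} (hm : 0 ≤ m) (hm1 : m ≤ 1) (hτ : 0 < τ)
    (hΦ : Bk A m Φ) (hθ : TH A' m θ) : ∃ C : ℝ, 0 ≤ C ∧ ∀ x, 0 < x →
      ‖HF m τ Φ θ x‖ ≤ C * ((1 + x) * x * Real.exp (-(1 / (4 * τ)) * x ^ 2)) := by
  obtain ⟨g1, g2⟩ := h1 A m Φ hm hΦ
  have hA := hΦ.rg.bn.nonneg
  have lg : LG fun x => m * Φ x - θ x := by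
    refine LG.sub ?_ hθ.rg.lg
    obtain ⟨k, C, hC⟩ := hΦ.rg.lg
    refine ⟨k.const_mul m, m * C, fun w => ?_⟩
    rw [abs_mul, abs_of_nonneg hm, mul_assoc]
    exact mul_le_mul_of_nonneg_left (hC w) hm
  obtain ⟨D, hD, hρ⟩ := rho_le lg zero_le_one hτ
  have u0 : d1 Φ 0 = 0 := by
    have := d1_neg hΦ.even 0
    rw [neg_zero] at this
    linarith
  have w0 : d3 Φ 0 = 0 := by
    have := d3_neg hΦ.even 0
    rw [neg_zero] at this
    linarith
  refine ⟨D * (2 * A ^ 2 + 4 * A ^ 3 + 2 * A ^ 4 + 2 * A ^ 2 * (1 / τ + 1)), by positivity,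
    fun x hx => ?_⟩
  obtain ⟨k1, k2, -⟩ := g2 x hx
  have a1 := hΦ.rg.bn.lip x 0
  have a2 := hΦ.rg.b3.lip x 0
  rw [u0, sub_zero, sub_zero, abs_of_pos hx] at a1
  rw [w0, sub_zero, sub_zero, abs_of_pos hx] at a2
  have hl : |x / τ + d1 θ x| ≤ (1 / τ + 1) * (1 + x) := by
    have b1 := hθ.rg.u1 x
    have b2 : 0 < 1 / τ := by positivity
    have b3 : x / τ = 1 / τ * x := by ring
    have b4 : 0 < 1 / τ * x := by positivity
    rw [abs_le] at b1 ⊢
    constructor <;> nlinarith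
  have b := bound hm hm1 hx k1 (hΦ.pos x) ((le_abs_self _).trans (hΦ.rg.u1 x))
    ((le_abs_self _).trans a1) ((le_abs_self _).trans (hΦ.rg.b2.bd x)) (hΦ.rg.b3.bd x) a2 (g1 x)
    k2 hl
  have d := hρ x
  have e : rhoA 1 τ (fun x => m * Φ x - θ x) x = dens m τ Φ θ x := by
    simp only [rhoA, dens, one_mul]
  have d0 := rho_pos 1 τ (fun x => m * Φ x - θ x) x
  rw [e] at d d0
  unfold HF
  rw [Real.norm_eq_abs, mul_assoc, abs_mul, abs_of_pos d0]
  refine (mul_le_mul d b (abs_nonneg _) (by positivity)).trans ?_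
  have c : 0 ≤ D * Real.exp (-(1 / (4 * τ)) * x ^ 2) * (2 * A ^ 2 + 4 * A ^ 3 + 2 * A ^ 4) * x * x := by
    positivity
  nlinarith

end CCalbAux

open Filter Topology in
theorem calb (h1 : S_geo) : S_calb := by
  intro A A' m τ Φ θ hm hm1 hτ hΦ hθ
  obtain ⟨C, hC, h⟩ := CCalbAux.HF_le h1 hm hm1 hτ hΦ hθ
  have hb : 0 < 1 / (4 * τ) := by positivity
  generalize 1 / (4 * τ) = b at h hb
  constructor
  · refine squeeze_zero_norm' (eventually_mem_nhdsWithin.mono fun x hx => h x hx) ?_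
    have c : Continuous fun x : ℝ => C * ((1 + x) * x * Real.exp (-b * x ^ 2)) := by fun_prop
    simpa using (c.tendsto 0).mono_left (nhdsWithin_le_nhds (s := Ioi (0 : ℝ)))
  · have t := ((Real.tendsto_pow_mul_exp_neg_atTop_nhds_zero 1).comp
      ((tendsto_pow_atTop (α := ℝ) two_ne_zero).const_mul_atTop hb)).const_mul (C * 2 / b)
    rw [mul_zero] at t
    refine squeeze_zero_norm' ?_ t
    filter_upwards [eventually_ge_atTop 1] with x hx
    refine (h x (by linarith)).trans ?_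
    have e : C * 2 / b * ((b * x ^ 2) ^ 1 * Real.exp (-(b * x ^ 2))) =
        C * (2 * x ^ 2 * Real.exp (-b * x ^ 2)) := by
      rw [neg_mul]
      field_simp
    simp only [Function.comp]
    rw [e]
    exact mul_le_mul_of_nonneg_left
      (mul_le_mul_of_nonneg_right (by nlinarith) (Real.exp_pos _).le) hC

end Vale.Agent.P367
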