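import Vale.Agent.P367.CDefs

/-! # P367, classical part: CCdf -/

namespace Vale.Agent.P367

open MeasureTheory ProbabilityTheory Vale.Agent.P157 Vale.Agent.P146L Vale.Agent.P146L.One Set

namespace CCdfAux

theorem bmI (y : ℝ) : BM ((Iic y).indicator (1 : ℝ → ℝ)) :=
  ⟨measurable_one.indicator measurableSet_Iic, 1, fun w => by
    by_cases h : w ∈ Iic y <;> simp [h]⟩

theorem cdf_int (μ : Measure ℝ) [IsProbabilityMeasure μ] (y : ℝ) :
    cdf μ y = ∫ z, (Iic y).indicator (1 : ℝ → ℝ) z ∂μ := by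
  rw [cdf_eq_real, integral_indicator_one measurableSet_Iic]

theorem anti {D : ℝ → ℝ} (hD : Antitone D) (y a b : ℝ) :
    0 ≤ (D a - D b) * ((Iic y).indicator (1 : ℝ → ℝ) a - (Iic y).indicator 1 b) := by
  by_cases ha : a ≤ y <;> by_cases hb : b ≤ y <;> simp [ha, hb]
  · exact hD (ha.trans (not_le.1 hb).le)
  · exact hD (hb.trans (not_le.1 ha).le)

theorem lin {h : ℝ} (hh : 0 < h) (c y : ℝ) :
    gexp (g1 h) 1 (fun z => c * z) ((Iic y).indicator 1)
      = cdf (gaussianReal 0 1) ((y - c * h) / √h) := by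
  have hm := (bmI y).1
  have k := cameron_martin_one hh (c * h) hm
  have e : ∀ z, (Iic y).indicator (1 : ℝ → ℝ) z * Real.exp (c * h * z / h - (c * h) ^ 2 / (2 * h))
      = Real.exp (c * z) * (Iic y).indicator 1 z / Real.exp (h * c ^ 2 / 2) := fun z => by
    rw [show c * h * z / h - (c * h) ^ 2 / (2 * h) = c * z - h * c ^ 2 / 2 by field_simp,
      Real.exp_sub]
    ring
  simp only [e, integral_div] at k
  rw [gexp_eq]
  simp only [one_mul]
  rw [integral_exp_g1 hh.le, ← k, g1_eq_map, integral_map (by fun_prop)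
    (f := fun z => (Iic y).indicator (1 : ℝ → ℝ) (c * h + z))
    (hm.comp (measurable_const_add _)).aestronglyMeasurable, cdf_int]
  refine integral_congr_ae (ae_of_all _ fun z => ?_)
  have : c * h + √h * z ≤ y ↔ z ≤ (y - c * h) / √h := by
    rw [le_div_iff₀ (Real.sqrt_pos.2 hh), le_sub_iff_add_le', mul_comm z]
  by_cases q : z ≤ (y - c * h) / √h <;> simp [q, this]

end CCdfAux

open CCdfAux in
theorem cdfb : S_cdf := by
  intro m h x y Ψ hm hh hΨ hl
  have hF : EInt (g1 h) fun z => m * Ψ (x + z) := (hΨ.eint (noise_g1 h) x).const_mul m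
  have := (hΨ.eint (noise_g1 h) x).prob_tilted m
  have e : cdf ((g1 h).tilted fun z => m * Ψ (x + z)) y
      = gexp (g1 h) 1 (fun z => m * Ψ (x + z)) ((Iic y).indicator 1) := by
    rw [cdf_int, ← gexp_eq_one, gexp]
  have b : ∀ u v, u ≤ v → |m * Ψ (x + v) - m * Ψ (x + u)| ≤ v - u := fun u v huv => by
    rw [← mul_sub, abs_mul]
    have := hl (x + v) (x + u)
    rw [add_sub_add_left_eq_sub, abs_of_nonneg (sub_nonneg.2 huv)] at this
    exact (mul_le_of_le_one_left (abs_nonneg _) hm).trans this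
  have l1 := lin hh 1 y
  have l2 := lin hh (-1) y
  rw [one_mul] at l1
  rw [neg_one_mul, sub_neg_eq_add] at l2
  rw [e, ← l1, ← l2]
  refine ⟨gexp_le_of_comono _ (MlrAux.eint_lin h 1) hF (bmI y).eint fun u v =>
      anti (D := fun z => m * Ψ (x + z) - 1 * z) (fun u v huv => ?_) y u v,
    gexp_le_of_comono _ hF (MlrAux.eint_lin h (-1)) (bmI y).eint fun u v =>
      anti (D := fun z => -1 * z - m * Ψ (x + z)) (fun u v huv => ?_) y u v⟩
  · have := abs_le.1 (b u v huv)
    beta_reduce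
    linarith
  · have := abs_le.1 (b u v huv)
    beta_reduce
    linarith

end Vale.Agent.P367
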