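import Vale.Agent.P367.CDefs
import Vale.Agent.P146L.RStein
import Vale.Agent.P146L.OFlow1
import Vale.Agent.P146L.OLemA

/-! # P367, classical part: CChain -/

namespace Vale.Agent.P367

open MeasureTheory ProbabilityTheory Vale.Agent.P157 Vale.Agent.P146L Vale.Agent.P146L.One Set

namespace CChainAux

variable {K : ℕ} {τ : ℕ → ℝ → ℝ → ℝ}

theorem co_lt (z : Fin K → ℝ) (j : Fin K) : co z j = z j := dif_pos j.2

theorem meas_co (j : ℕ) : Measurable fun z : Fin K → ℝ => co z j := by
  unfold co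
  split_ifs
  · exact measurable_pi_apply _
  · exact measurable_const

theorem co_neg (z : Fin K → ℝ) (j : ℕ) : co (-z) j = -co z j := by
  unfold co
  split_ifs <;> simp

/-- The position after `j` steps. -/
noncomputable def XX (τ : ℕ → ℝ → ℝ → ℝ) : ℕ → (Fin K → ℝ) → ℝ
  | 0, _ => 0
  | j + 1, z => XX τ j z + τ j (XX τ j z) (co z j)

theorem XX_meas (hτ : ∀ j, Measurable (Function.uncurry (τ j))) (j : ℕ) :
    Measurable (XX (K := K) τ j) := by
  induction j with
  | zero => exact measurable_const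
  | succ j ih => exact ih.add ((hτ j).comp (ih.prodMk (meas_co j)))

theorem XX_adapt (j : ℕ) (z z' : Fin K → ℝ) (h : ∀ i : Fin K, (i : ℕ) < j → z i = z' i) :
    XX τ j z = XX τ j z' := by
  induction j with
  | zero => rfl
  | succ j ih =>
    have e : co z j = co z' j := by
      unfold co
      split_ifs with hj
      · exact h ⟨j, hj⟩ (Nat.lt_succ_self j)
      · rfl
    simp only [XX]
    rw [ih fun i hi => h i (Nat.lt_succ_of_lt hi), e]

theorem XX_neg (hτ : ∀ j x t, τ j (-x) (-t) = -τ j x t) (j : ℕ) (z : Fin K → ℝ) :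
    XX τ j (-z) = -XX τ j z := by
  induction j with
  | zero => exact neg_zero.symm
  | succ j ih =>
    simp only [XX]
    rw [ih, co_neg, hτ, neg_add]

theorem XX_upd (j : Fin K) (z : Fin K → ℝ) (t : ℝ) :
    XX τ j (Function.update z j t) = XX τ j z :=
  XX_adapt j _ _ fun i hi => Function.update_of_ne (fun e => by simp [e] at hi) _ _

theorem co_upd (j : Fin K) (z : Fin K → ℝ) (t : ℝ) : co (Function.update z j t) j = t := by
  rw [co_lt, Function.update_self]

theorem XX_upd' (j : Fin K) (z : Fin K → ℝ) (t : ℝ) :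
    XX τ (j + 1) (Function.update z j t) = XX τ j z + τ j (XX τ j z) t := by
  simp only [XX]
  rw [XX_upd, co_upd]

theorem prob (K : ℕ) : IsProbabilityMeasure (gK K) := by
  unfold gK
  infer_instance

theorem mp (j : Fin K) :
    MeasurePreserving (fun p : (Fin K → ℝ) × ℝ => Function.update p.1 j p.2)
      ((gK K).prod (gaussianReal 0 1)) (gK K) := by
  have := RSteinAux.mp_upd (fun _ : Fin K => (1 : ℝ)) j
  simpa only [gv, g1_one, gK] using this

theorem fub (j : Fin K) {F : (Fin K → ℝ) → ℝ} (hF : Integrable F (gK K)) :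
    (Integrable (fun z => ∫ t, F (Function.update z j t) ∂gaussianReal 0 1) (gK K)) ∧
      ∫ z, F z ∂gK K = ∫ z, ∫ t, F (Function.update z j t) ∂gaussianReal 0 1 ∂gK K := by
  have := prob K
  have h1 := (mp j).integrable_comp_of_integrable hF
  refine ⟨h1.integral_prod_left, ?_⟩
  have h2 := integral_prod _ h1
  simp only [Function.comp_apply] at h2
  rw [← h2]
  conv_lhs => rw [← (mp j).map_eq]
  rw [integral_map (mp j).measurable.aemeasurable
    (by rw [(mp j).map_eq]; exact hF.aestronglyMeasurable)]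

theorem bm_comp {F : ℝ → ℝ} {Y : (Fin K → ℝ) → ℝ} (hF : BM F) (hY : Measurable Y) :
    BM fun z => F (Y z) :=
  let ⟨h1, C, h2⟩ := hF
  ⟨h1.comp hY, C, fun _ => h2 _⟩

theorem int_co (j : Fin K) : Integrable (fun z : Fin K → ℝ => co z j) (gK K) := by
  simp only [co_lt]
  exact (measurePreserving_eval (fun _ : Fin K => gaussianReal 0 1) j).integrable_comp_of_integrable
    ((memLp_id_gaussianReal 1).integrable le_rfl)

theorem abs_le_sqrt {D : (Fin K → ℝ) → ℝ} (hD : BM D) :
    ∫ z, |D z| ∂gK K ≤ √(∫ z, D z ^ 2 ∂gK K) := by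
  have := prob K
  refine Real.le_sqrt_of_sq_le ?_
  obtain ⟨a, ha⟩ : ∃ a, ∫ z, |D z| ∂gK K = a := ⟨_, rfl⟩
  have h0 : 0 ≤ ∫ z, (D z ^ 2 - 2 * a * |D z| + a ^ 2) ∂gK K :=
    integral_nonneg fun z => by
      have := sq_nonneg (|D z| - a)
      rw [sub_sq, sq_abs] at this
      show 0 ≤ D z ^ 2 - 2 * a * |D z| + a ^ 2
      linarith
  rw [integral_add ((hD.pow 2).sub (hD.abs.const_mul _)).integrable (integrable_const _),
    integral_sub (hD.pow 2).integrable (hD.abs.const_mul _).integrable, integral_const_mul, ha,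
    integral_const, probReal_univ, one_smul] at h0
  rw [ha]
  linarith

end CChainAux

open CChainAux in
theorem chain (h1 : S_trans) (h2 : S_one) : S_chain := by
  intro K A h m Φ E hc
  have := prob K
  have ex : ∀ j, ∃ τ : ℝ → ℝ → ℝ, Measurable (Function.uncurry τ) ∧
      (∀ x t, τ (-x) (-t) = -τ x t) ∧ (j < K → Tr (m j) (h j) (Φ (j + 1)) τ) := by
    intro j
    by_cases hj : j < K
    · have g := hc.g0 (j + 1) hj
      obtain ⟨τ, hτ⟩ := h1 (m j) (h j) (Φ (j + 1))
        (abs_le.2 ⟨by linarith [hc.m0 j hj], hc.m1 j hj⟩) (hc.h0 j hj) g.lg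
        (fun a b => by simpa using OFlow1Aux.lip_of_der g.der g.u1 a b) g.even
      exact ⟨τ, hτ.meas, hτ.odd, fun _ => hτ⟩
    · exact ⟨fun _ _ => 0, measurable_const, fun _ _ => neg_zero.symm, fun hj' => absurd hj' hj⟩
  choose τ τm τo τt using ex
  have one := fun (j : ℕ) (hj : j < K) =>
    h2 A (m j) (h j) (Φ (j + 1)) (τ j) (hc.h0 j hj) (hc.g0 (j + 1) hj) (τt j hj)
  have bu : ∀ j, j ≤ K → BM (d1 (Φ j)) := fun j hj => OFlow1Aux.bm0 (hc.g0 j hj).cu
  have bv : ∀ j, j ≤ K → BM (d2 (Φ j)) := fun j hj => OFlow1Aux.bm0 (hc.g0 j hj).cv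
  have xm := XX_meas (K := K) τm
  have key : ∀ j, j ≤ K → ∀ F, BM F → ∫ z, F (XX τ j z) ∂gK K = E j F := by
    intro j
    induction j with
    | zero =>
      intro _ F _
      simp only [XX]
      rw [integral_const, probReal_univ, one_smul, hc.start]
    | succ j ih =>
      intro hj F hF
      rw [hc.cons j hj F hF, ← ih (Nat.le_of_succ_le hj) _
        (hF.kernel (m j) (noise_g1 _) (hc.g0 (j + 1) hj).lg),
        (fub ⟨j, hj⟩ (bm_comp hF (xm (j + 1))).integrable).2]
      refine integral_congr_ae (ae_of_all _ fun z => ?_)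
      simp only [XX_upd' (⟨j, hj⟩ : Fin K)]
      exact (one j hj _).1 F hF
  have m1 : ∀ j, j < K → min (j + 1) K = j + 1 := fun j hj => min_eq_left hj
  have m0 : ∀ j, j < K → min j K = j := fun j hj => min_eq_left hj.le
  refine ⟨fun j z => d1 (Φ (min j K)) (XX τ (min j K) z), ⟨fun j => ?_, fun j z => ?_, fun z => ?_,
    fun j z z' hz => ?_, fun j z => ?_, fun j z => ?_⟩, fun j hj => ?_⟩
  · exact (bm_comp (bu _ (min_le_right _ _)) (xm _)).1
  · exact (hc.g0 _ (min_le_right _ _)).u1 _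
  · have e := OLemAAux.d1_neg (hc.g0 0 (Nat.zero_le K)).even 0
    rw [neg_zero] at e
    simp only [Nat.zero_min, XX]
    linarith
  · rw [XX_adapt _ z z' fun i hi => hz i (hi.trans_le (min_le_left _ _))]
  · rw [XX_neg τo, OLemAAux.d1_neg (hc.g0 _ (min_le_right _ _)).even]
  · simp only [m1 j j.2, m0 j j.2, XX_upd']
    rw [(one j j.2 _).2.1, ← hc.semi j j.2]
  · have bD : BM fun z : Fin K → ℝ =>
        d1 (Φ (j + 1)) (XX τ (j + 1) z) - d1 (Φ j) (XX τ j z) :=
      (bm_comp (bu _ hj) (xm _)).sub (bm_comp (bu _ hj.le) (xm _))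
    have u1 := XX_upd' (τ := τ) (⟨j, hj⟩ : Fin K)
    have u0 := XX_upd (τ := τ) (⟨j, hj⟩ : Fin K)
    have uc := co_upd (⟨j, hj⟩ : Fin K)
    simp only at u1 u0 uc
    have o := one j hj
    rw [← hc.semi j hj] at o
    simp only [nu, kap, m1 j hj, m0 j hj]
    constructor
    · have bP := ((bu _ hj).pow 2).kernel (m j) (noise_g1 (h j)) (hc.g0 (j + 1) hj).lg
      rw [Real.sq_sqrt (integral_nonneg fun _ => sq_nonneg _),
        (fub ⟨j, hj⟩ (bD.pow 2).integrable).2, hc.cons j hj _ ((bu _ hj).pow 2),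
        ← key j hj.le _ bP, ← key j hj.le _ ((bu _ hj.le).pow 2),
        ← integral_sub (bm_comp bP (xm j)).integrable
          (bm_comp ((bu _ hj.le).pow 2) (xm j)).integrable]
      refine integral_congr_ae (ae_of_all _ fun z => ?_)
      simp only [u1, u0]
      exact (o _).2.2.1
    · obtain ⟨C, hC⟩ := bD.2
      have iD := (int_co ⟨j, hj⟩).bdd_mul bD.1.aestronglyMeasurable (ae_of_all _ hC)
      have f1 := fub ⟨j, hj⟩ iD
      have f2 := fub ⟨j, hj⟩ bD.abs.integrable
      simp only [u1, u0, uc] at f1 f2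
      have iv := (bm_comp (bv _ hj.le) (xm j)).integrable (ν := gK K)
      have := integral_mono ((iv.sub f2.1).const_mul √(h j)) f1.1 fun z => (o _).2.2.2
      rw [← f1.2] at this
      refine le_trans ?_ this
      simp only [Pi.sub_apply]
      rw [integral_const_mul, integral_sub iv f2.1, ← f2.2, key j hj.le _ (bv _ hj.le)]
      exact mul_le_mul_of_nonneg_left (sub_le_sub_left (abs_le_sqrt bD) _) (Real.sqrt_nonneg _)

end Vale.Agent.P367
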