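import Vale.Agent.P367.CDefs

/-! # P367, classical part: the polynomial certificate -/

namespace Vale.Agent.P367

open MeasureTheory ProbabilityTheory Vale.Agent.P157 Vale.Agent.P146L Vale.Agent.P146L.One Set

namespace CCrtAux

/-- The remainder after completing the square in `c`. -/
noncomputable def R (s n U l : ℝ) : ℝ :=
  (5 / 36 * s ^ 2 - 5 / 8 * s * n + 47 / 64 * n ^ 2) * U ^ 2
    + (-5 / 18 * s ^ 2 + 7 / 8 * s * n + 11 / 32 * n ^ 2) * U * l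
    + (2 / 9 * s ^ 2 + 1 / 2 * s * n - 9 / 64 * n ^ 2) * l ^ 2
    + (17 / 48 * s ^ 3 - 121 / 64 * s ^ 2 * n + 27 / 8 * s * n ^ 2 - 7 / 4 * n ^ 3) * U
    + (-1 / 6 * s ^ 3 + 19 / 64 * s ^ 2 * n - 3 / 8 * s * n ^ 2) * l
    + (15 / 256 * s ^ 4 - 3 / 16 * s ^ 3 * n + 1 / 4 * s ^ 2 * n ^ 2)

theorem R_nonneg {y n U l : ℝ} (hy : 0 ≤ y) (hn : 0 ≤ n) (hU : 0 ≤ U) (hl : 0 ≤ l) :
    0 ≤ R (y + 2 * n) n U l := by
  have hC : 0 ≤ 2 / 9 * y ^ 2 + 25 / 18 * y * n + 1007 / 576 * n ^ 2 := by positivity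
  rcases hC.eq_or_lt with h0 | hC
  · have a1 : y ^ 2 = 0 := by nlinarith [mul_nonneg hy hn, sq_nonneg y, sq_nonneg n]
    have a2 : n ^ 2 = 0 := by nlinarith [mul_nonneg hy hn, sq_nonneg y, sq_nonneg n]
    rw [pow_eq_zero_iff two_ne_zero] at a1 a2
    simp [R, a1, a2]
  refine nonneg_of_mul_nonneg_right ?_ (mul_pos four_pos hC)
  have e : 4 * (2 / 9 * y ^ 2 + 25 / 18 * y * n + 1007 / 576 * n ^ 2) * R (y + 2 * n) n U l
      = (2 * (2 / 9 * y ^ 2 + 25 / 18 * y * n + 1007 / 576 * n ^ 2) * l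
          + (-5 / 18 * y ^ 2 - 5 / 9 * y * n) * U
          + (-1 / 6 * y ^ 3 - 45 / 64 * y ^ 2 * n - 19 / 16 * y * n ^ 2 - 43 / 48 * n ^ 3)) ^ 2
        + 4 * (2 / 9 * y ^ 2 + 25 / 18 * y * n + 1007 / 576 * n ^ 2)
          * (23 / 72 * y * n + 283 / 288 * n ^ 2) * U * l
        + (5 / 108 * y ^ 4 + 65 / 162 * y ^ 3 * n + n ^ 2 * (1 / 5 * (y - n) ^ 2
          + (2911 / 25920 * y ^ 2 + 7061 / 51840 * y * n + 32861 / 414720 * n ^ 2))) * U ^ 2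
        + (2 / 9 * y ^ 5 + 2765 / 1728 * y ^ 4 * n + 16543 / 6912 * y ^ 3 * n ^ 2
          + 1259 / 3072 * y ^ 2 * n ^ 3 + 6541 / 6912 * y * n ^ 4 + 13091 / 6912 * n ^ 5) * U
        + (7 / 288 * y ^ 6 + 131 / 384 * y ^ 5 * n + 3581 / 2304 * y ^ 4 * n ^ 2
          + 673 / 192 * y ^ 3 * n ^ 3 + 157 / 32 * y ^ 2 * n ^ 4 + 673 / 144 * y * n ^ 5
          + 325 / 144 * n ^ 6) := by
    unfold R
    ring
  rw [e]
  positivity

end CCrtAux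

open CCrtAux in
theorem crt : S_crt := by
  intro s n U l c b hn hs hU hl hb
  have h1 := R_nonneg (y := s - 2 * n) (by linarith) hn hU hl
  rw [sub_add_cancel] at h1
  have hs0 : 0 ≤ s := by linarith
  have h2 : 0 ≤ (s ^ 2 / 3 + 3 / 4 * s * n) * (l * (U + s / 2) - b) :=
    mul_nonneg (by positivity) (by linarith)
  have h3 := sq_nonneg (c - (7 / 8 * s ^ 2 - s * n + s * U / 3 + 2 / 3 * s * l + 15 / 4 * n * U
    + 3 / 4 * n * l) / 2)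
  unfold R at h1
  unfold cal cal'
  linarith

end Vale.Agent.P367
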