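import Vale.Agent.P367.CDefs
import Vale.Agent.P146L.OFl
import Vale.Agent.P146L.ONorm
import Vale.Agent.P146L.OGd
import Vale.Agent.P146L.OG0
import Vale.Agent.P146L.OC11
import Vale.Agent.P146L.ODP
import Vale.Agent.P146L.ORR
import Vale.Agent.P146L.OGhs
import Vale.Agent.P146L.OSv
import Vale.Agent.P146L.OHold
import Vale.Agent.P146L.OFlow1
import Vale.Agent.P146L.OFlow2

/-! # P367, classical part: CCvx -/

namespace Vale.Agent.P367

open MeasureTheory ProbabilityTheory Vale.Agent.P157 Vale.Agent.P146L Vale.Agent.P146L.One Set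

theorem cvx3 (h1 : S_flow3) (h2 : S_back) (h3 : S_rep) (h4 : S_frsb) : S_cvx3 := by
  intro L ζ c hζ hc hL d hd
  have hz := hζ.zok
  obtain ⟨K, hK, hgd⟩ := One.gd (One.g0 (One.c11 One.dP)) One.rrT One.ghs
  have hfl := (One.fl One.norm K L ζ c d hz hc hd.le fun r => (hgd ζ _ (L + 1) hz).1).1
  have m0 := hz.nn d
  have m1 : ζ d ≤ 1 := (hz.anti d.zero_le).trans hz.le1
  obtain ⟨-, hcb, hder⟩ := One.flow1 One.stepT One.sv One.hold K _ _ _ _ _ hK m0 m1 hfl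
  obtain ⟨C, -, hf2⟩ := One.flow2 One.stepT One.sv
  have hlow := (hf2 K _ _ _ _ _ hK m0 m1 hfl).2
  obtain ⟨A, hA, hB⟩ := h2 L ζ c hz hc
  have h3d := h1 K A _ _ _ _ _ m0 m1 hfl fun τ _ => (hA τ).1
  have c0 : 0 ≤ c (d + 1) := hL ▸ hc.anti hd
  have hpos : ∀ τ ∈ Ioo (c (d + 1)) (c d), 0 ≤ Er L ζ c τ (fd0 (ζ d) (Phi L ζ c τ)) := by
    intro τ hτ
    obtain ⟨A', θ, hθ, e⟩ := h3 L ζ c hζ hc hL d τ hd hτ.1.le hτ.2.le
    have r := (hA τ).1
    have bm : BM (fd0 (ζ d) (Phi L ζ c τ)) :=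
      ((r.b4.bm.pow 2).sub ((r.b2.bm.const_mul _).mul (r.b3.bm.pow 2))).add
        ((r.b2.bm.pow 4).const_mul _)
    rw [e _ bm]
    exact h4 A A' _ τ _ θ m0 m1 (c0.trans_lt hτ.1) (hB d τ hd.le hτ.1.le hτ.2.le) hθ
  have hmono : MonotoneOn (fc (ζ d) (Phi L ζ c) (Er L ζ c)) (Ioo (c (d + 1)) (c d)) := by
    refine monotoneOn_of_deriv_nonneg (convex_Ioo _ _)
      (fun τ hτ => (h3d τ hτ).continuousAt.continuousWithinAt) ?_ ?_ <;> rw [interior_Ioo]
    · exact fun τ hτ => (h3d τ hτ).differentiableAt.differentiableWithinAt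
    · exact fun τ hτ => (h3d τ hτ).deriv ▸ hpos τ hτ
  have hdiff : DifferentiableOn ℝ (fb (Phi L ζ c) (Er L ζ c))
      (interior (Icc (c (d + 1)) (c d))) := by
    rw [interior_Icc]
    exact fun τ hτ => (hder τ hτ).2.differentiableAt.differentiableWithinAt
  refine ⟨MonotoneOn.convexOn_of_deriv (convex_Icc _ _) hcb hdiff ?_, fun a b ha hab hb => ?_⟩
  · rw [interior_Icc]
    exact hmono.congr fun τ hτ => (hder τ hτ).2.deriv.symm
  · have := (convex_Icc _ _).mul_sub_le_image_sub_of_le_deriv hcb hdiff (C := -(2 * ζ d))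
      (fun τ hτ => by
        rw [interior_Icc] at hτ
        rw [(hder τ hτ).2.deriv]
        exact (hlow τ (Ioo_subset_Icc_self hτ)).2.2.1) a ⟨ha, hab.trans hb⟩ b ⟨ha.trans hab, hb⟩ hab
    linarith

end Vale.Agent.P367
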