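import Vale.Agent.P367.CStmt
import Vale.Agent.P146L.ODefs

/-! # P367, classical part: definitions and interface statements -/

namespace Vale.Agent.P367

open MeasureTheory ProbabilityTheory Vale.Agent.P157 Vale.Agent.P146L Vale.Agent.P146L.One Set

/-! ## Regularity classes -/

/-- Functions with `n` derivatives, all bounded by `A`. -/
def Bn : ℕ → ℝ → (ℝ → ℝ) → Prop
  | 0, A, f => Measurable f ∧ ∀ x, |f x| ≤ A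
  | n + 1, A, f => Differentiable ℝ f ∧ (∀ x, |f x| ≤ A) ∧ Bn n A (deriv f)

namespace Bn

variable {n : ℕ} {A B : ℝ} {f g : ℝ → ℝ}

theorem bd (h : Bn n A f) (x : ℝ) : |f x| ≤ A := by
  cases n with
  | zero => exact h.2 x
  | succ n => exact h.2.1 x

theorem nonneg (h : Bn n A f) : 0 ≤ A := (abs_nonneg _).trans (h.bd 0)

theorem meas (h : Bn n A f) : Measurable f := by
  cases n with
  | zero => exact h.1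
  | succ n => exact h.1.continuous.measurable

theorem bm (h : Bn n A f) : BM f := ⟨h.meas, A, h.bd⟩

theorem diff (h : Bn (n + 1) A f) : Differentiable ℝ f := h.1

theorem der (h : Bn (n + 1) A f) (x : ℝ) : HasDerivAt f (deriv f x) x := (h.1 x).hasDerivAt

theorem dn (h : Bn (n + 1) A f) : Bn n A (deriv f) := h.2.2

theorem of_der {f' : ℝ → ℝ} (hd : ∀ x, HasDerivAt f (f' x) x) (hb : ∀ x, |f x| ≤ A)
    (h : Bn n A f') : Bn (n + 1) A f := by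
  have e : deriv f = f' := funext fun x => (hd x).deriv
  exact ⟨fun x => (hd x).differentiableAt, hb, e ▸ h⟩

theorem pred (h : Bn (n + 1) A f) : Bn n A f := by
  induction n generalizing f with
  | zero => exact ⟨h.meas, h.bd⟩
  | succ n ih => exact ⟨h.1, h.bd, ih h.dn⟩

theorem of_le {k : ℕ} (hk : k ≤ n) (h : Bn n A f) : Bn k A f := by
  induction n, hk using Nat.le_induction with
  | base => exact h
  | succ n _ ih => exact ih h.pred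

theorem mono (h : Bn n A f) (hAB : A ≤ B) : Bn n B f := by
  induction n generalizing f with
  | zero => exact ⟨h.1, fun x => (h.2 x).trans hAB⟩
  | succ n ih => exact ⟨h.1, fun x => (h.bd x).trans hAB, ih h.dn⟩

theorem lip (h : Bn (n + 1) A f) (x y : ℝ) : |f x - f y| ≤ A * |x - y| :=
  convex_univ.norm_image_sub_le_of_norm_hasDerivWithin_le
    (fun z _ => (h.der z).hasDerivWithinAt) (fun z _ => h.dn.bd z) (mem_univ y) (mem_univ x)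

theorem c11 (h : Bn (n + 2) A f) : C11 A f (deriv f) := ⟨h.der, h.bd, h.dn.bd, h.dn.lip⟩

theorem const (n : ℕ) (c : ℝ) : Bn n |c| fun _ => c := by
  induction n generalizing c with
  | zero => exact ⟨measurable_const, fun _ => le_rfl⟩
  | succ n ih =>
    exact of_der (f' := fun _ => 0) (fun x => hasDerivAt_const x c) (fun _ => le_rfl)
      ((ih 0).mono (by simp))

theorem add (hf : Bn n A f) (hg : Bn n B g) : Bn n (A + B) fun x => f x + g x := by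
  induction n generalizing f g with
  | zero => exact ⟨hf.1.add hg.1, fun x => (abs_add_le _ _).trans (add_le_add (hf.2 x) (hg.2 x))⟩
  | succ n ih =>
    exact of_der (fun x => (hf.der x).add (hg.der x))
      (fun x => (abs_add_le _ _).trans (add_le_add (hf.bd x) (hg.bd x))) (ih hf.dn hg.dn)

theorem const_mul (hf : Bn n A f) (c : ℝ) : Bn n (|c| * A) fun x => c * f x := by
  have hb : ∀ {k : ℕ} {f : ℝ → ℝ}, Bn k A f → ∀ x, |c * f x| ≤ |c| * A := fun h x => by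
    rw [abs_mul]
    exact mul_le_mul_of_nonneg_left (h.bd x) (abs_nonneg c)
  induction n generalizing f with
  | zero => exact ⟨hf.1.const_mul c, hb hf⟩
  | succ n ih => exact of_der (fun x => (hf.der x).const_mul c) (hb hf) (ih hf.dn)

theorem sub (hf : Bn n A f) (hg : Bn n B g) : Bn n (A + B) fun x => f x - g x := by
  have := hf.add (hg.const_mul (-1))
  simpa [sub_eq_add_neg] using this

theorem mul (hf : Bn n A f) (hg : Bn n B g) : Bn n (2 ^ n * (A * B)) fun x => f x * g x := by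
  have hb : ∀ {k : ℕ} {f g : ℝ → ℝ}, Bn k A f → Bn k B g → ∀ x, |f x * g x| ≤ A * B :=
    fun h h' x => by
      rw [abs_mul]
      exact mul_le_mul (h.bd x) (h'.bd x) (abs_nonneg _) h.nonneg
  induction n generalizing f g with
  | zero => exact ⟨hf.1.mul hg.1, fun x => by simpa using hb hf hg x⟩
  | succ n ih =>
    have h0 := mul_nonneg hf.nonneg hg.nonneg
    refine of_der (fun x => (hf.der x).mul (hg.der x)) (fun x => (hb hf hg x).trans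
      (le_mul_of_one_le_left h0 (one_le_pow₀ one_le_two))) ?_
    exact ((ih hf.dn hg.pred).add (ih hf.pred hg.dn)).mono (le_of_eq (by ring))

theorem scale (hf : Bn n A f) {ρ : ℝ} (hρ : |ρ| ≤ 1) : Bn n A fun x => f (ρ * x) := by
  induction n generalizing f with
  | zero => exact ⟨hf.1.comp (measurable_const_mul ρ), fun x => hf.2 _⟩
  | succ n ih =>
    refine of_der (f' := fun x => ρ * deriv f (ρ * x)) (fun x => ?_) (fun x => hf.bd _)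
      (((ih hf.dn).const_mul ρ).mono (mul_le_of_le_one_left hf.nonneg hρ))
    have := (hf.der (ρ * x)).comp x ((hasDerivAt_id x).const_mul ρ)
    simpa [Function.comp_def, mul_comm] using this

end Bn

/-- Fourth derivative. -/
noncomputable def d4 (Φ : ℝ → ℝ) : ℝ → ℝ := deriv (d3 Φ)

/-- Smooth potentials with slope at most one. -/
structure Rg (A : ℝ) (Φ : ℝ → ℝ) : Prop where
  lg : LG Φ
  diff : Differentiable ℝ Φ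
  u1 : ∀ x, |d1 Φ x| ≤ 1
  bn : Bn 5 A (d1 Φ)

namespace Rg

variable {A : ℝ} {Φ : ℝ → ℝ}

theorem b2 (h : Rg A Φ) : Bn 4 A (d2 Φ) := h.bn.dn

theorem b3 (h : Rg A Φ) : Bn 3 A (d3 Φ) := h.b2.dn

theorem b4 (h : Rg A Φ) : Bn 2 A (d4 Φ) := h.b3.dn

theorem e0 (h : Rg A Φ) (x : ℝ) : HasDerivAt Φ (d1 Φ x) x := (h.diff x).hasDerivAt

theorem e1 (h : Rg A Φ) (x : ℝ) : HasDerivAt (d1 Φ) (d2 Φ x) x := h.bn.der x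

theorem e2 (h : Rg A Φ) (x : ℝ) : HasDerivAt (d2 Φ) (d3 Φ x) x := h.b2.der x

theorem e3 (h : Rg A Φ) (x : ℝ) : HasDerivAt (d3 Φ) (d4 Φ x) x := h.b3.der x

theorem lip (h : Rg A Φ) (x y : ℝ) : |Φ x - Φ y| ≤ |x - y| := by
  simpa using convex_univ.norm_image_sub_le_of_norm_hasDerivWithin_le (C := 1)
    (fun z _ => (h.e0 z).hasDerivWithinAt) (fun z _ => h.u1 z) (mem_univ y) (mem_univ x)

end Rg

/-- `ψ'' / (m ψ)` for `ψ = exp (m Φ)`. -/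
noncomputable def H2 (m : ℝ) (Φ : ℝ → ℝ) (x : ℝ) : ℝ := d2 Φ x + m * d1 Φ x ^ 2

/-- The third derivative of `exp (m Φ)`, normalized. -/
noncomputable def H3 (m : ℝ) (Φ : ℝ → ℝ) (x : ℝ) : ℝ :=
  d3 Φ x + 3 * m * (d1 Φ x * d2 Φ x) + m ^ 2 * d1 Φ x ^ 3

/-- The fourth derivative of `exp (m Φ)`, normalized. -/
noncomputable def H4 (m : ℝ) (Φ : ℝ → ℝ) (x : ℝ) : ℝ :=
  d4 Φ x + 4 * m * (d1 Φ x * d3 Φ x) + 3 * m * d2 Φ x ^ 2 + 6 * m ^ 2 * (d1 Φ x ^ 2 * d2 Φ x)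
    + m ^ 3 * d1 Φ x ^ 4

/-- The Hankel determinant of order three of `exp (m Φ)` is nonpositive. -/
def HK (m : ℝ) (Φ : ℝ → ℝ) : Prop := ∀ x, d2 Φ x * d4 Φ x - d3 Φ x ^ 2 + 2 * m * d2 Φ x ^ 3 ≤ 0

/-- The backward invariants. -/
structure Bk (A m : ℝ) (Φ : ℝ → ℝ) : Prop where
  rg : Rg A Φ
  even : ∀ x, Φ (-x) = Φ x
  pos : ∀ x, 0 < d2 Φ x
  hk : HK m Φ

/-- The forward invariants. -/
structure TH (A m : ℝ) (θ : ℝ → ℝ) : Prop where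
  rg : Rg A θ
  even : ∀ x, θ (-x) = θ x
  um : ∀ x, |d1 θ x| ≤ m
  rr : RR θ

/-- `w ^ 2 - 2 m v ^ 3`. -/
noncomputable def fc0 (m : ℝ) (Φ : ℝ → ℝ) (x : ℝ) : ℝ := d3 Φ x ^ 2 - 2 * m * d2 Φ x ^ 3

/-- `z ^ 2 - 12 m v w ^ 2 + 6 m ^ 2 v ^ 4`. -/
noncomputable def fd0 (m : ℝ) (Φ : ℝ → ℝ) (x : ℝ) : ℝ :=
  d4 Φ x ^ 2 - 12 * m * d2 Φ x * d3 Φ x ^ 2 + 6 * m ^ 2 * d2 Φ x ^ 4

/-- The calibration. -/
noncomputable def cal (s n U l : ℝ) : ℝ :=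
  -3 / 8 * s ^ 3 - 1 / 2 * s ^ 2 * n + 15 / 4 * s * (U * n) + 7 / 4 * n * (U * n)
    + l * (s ^ 2 / 3 + 3 / 4 * s * n) + s ^ 2 * U / 6

/-- Its derivative along `s' = c`, `n' = U n`, `U' = -U s - U ^ 2`, `l' = b`. -/
noncomputable def cal' (s n U l c b : ℝ) : ℝ :=
  (-9 / 8 * s ^ 2 - s * n + 15 / 4 * (U * n) + l * (2 * s / 3 + 3 / 4 * n) + s * U / 3) * c
    + (-1 / 2 * s ^ 2 + 7 / 4 * (U * n) + l * (3 / 4 * s)) * (U * n)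
    + (15 / 4 * s + 7 / 4 * n) * (-(U * n) * s) + (s ^ 2 / 3 + 3 / 4 * s * n) * b
    + s ^ 2 / 6 * (-U * s - U ^ 2)

/-- The unnormalized density. -/
noncomputable def dens (m τ : ℝ) (Φ θ : ℝ → ℝ) (x : ℝ) : ℝ :=
  Real.exp (m * Φ x - θ x - x ^ 2 / (2 * τ))

/-- The calibration times the density. -/
noncomputable def HF (m τ : ℝ) (Φ θ : ℝ → ℝ) (x : ℝ) : ℝ :=
  dens m τ Φ θ x * d2 Φ x ^ 2 *
    cal (-d3 Φ x / d2 Φ x) (m * d1 Φ x) (d2 Φ x / d1 Φ x) (x / τ + d1 θ x)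

/-- `Φ - x Φ'`. -/
noncomputable def sS (Φ : ℝ → ℝ) (x : ℝ) : ℝ := Φ x - x * d1 Φ x

/-- A transport of the standard Gaussian to the tilted step. -/
structure Tr (m h : ℝ) (Ψ : ℝ → ℝ) (τ : ℝ → ℝ → ℝ) : Prop where
  meas : Measurable (Function.uncurry τ)
  odd : ∀ x t, τ (-x) (-t) = -τ x t
  near : ∀ x t, |τ x t - √h * t| ≤ h
  push : ∀ x, (gaussianReal 0 1).map (τ x) = (g1 h).tilted fun y => m * Ψ (x + y)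

/-- A chain of `K` tilted Gaussian steps started at the origin. -/
structure Ch (K : ℕ) (A : ℝ) (h m : ℕ → ℝ) (Φ : ℕ → ℝ → ℝ) (E : ℕ → (ℝ → ℝ) → ℝ) : Prop where
  h0 : ∀ j, j < K → 0 ≤ h j
  m0 : ∀ j, j < K → 0 ≤ m j
  m1 : ∀ j, j < K → m j ≤ 1
  g0 : ∀ j, j ≤ K → G0 A (Φ j)
  semi : ∀ j, j < K → Φ j = T (m j) (g1 (h j)) (Φ (j + 1))
  cons : ∀ j, j < K → ∀ F, BM F → E (j + 1) F = E j (P (m j) (g1 (h j)) (Φ (j + 1)) F)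
  start : ∀ F, E 0 F = F 0

/-- A time grid that divides each of the blocks `L - 1, ..., 1` into `N` equal parts. -/
structure Gr (L N : ℕ) (c t : ℕ → ℝ) (e : ℕ → ℕ) : Prop where
  t0 : t 0 = 0
  tK : t ((L - 1) * N) = c 1
  e1 : ∀ j, j < (L - 1) * N → 1 ≤ e j ∧ e j < L
  lo : ∀ j, j < (L - 1) * N → c (e j + 1) ≤ t j
  hi : ∀ j, j < (L - 1) * N → t (j + 1) ≤ c (e j)
  step : ∀ j, j ≤ (L - 1) * N → 0 ≤ t (j + 1) - t j ∧ t (j + 1) - t j ≤ c 0 / N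
  tv : ∑ j ∈ Finset.range ((L - 1) * N), |(t (j + 2) - t (j + 1)) - (t (j + 1) - t j)|
    ≤ L * (c 0 / N)
  tele : ∀ (a : ℕ → ℝ) (G : ℝ → ℝ), ∑ j ∈ Finset.range ((L - 1) * N), a (e j) * (G (t (j + 1)) - G (t j))
    = ∑ d ∈ Finset.Ico 1 L, a d * (G (c d) - G (c (d + 1)))

/-! ## Interface statements -/

/-- Guerra's bound for the ground state. -/
def S_ub : Prop := ∀ (β : ℝ) (L : ℕ) (ζ q : ℕ → ℝ), 0 < β → ZAdm L ζ → QP L q → ∀ n : ℕ, 1 ≤ n →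
  β * gse n ≤ GG L ζ β q + Real.log 2

/-- One step keeps the regularity. -/
def S_rgT : Prop := ∀ A : ℝ, ∃ A' : ℝ, ∀ (m h : ℝ) (Ψ : ℝ → ℝ), |m| ≤ 1 → Rg A Ψ →
  Rg A' (T m (g1 h) Ψ)

/-- Regularity of the cascade started from `log cosh`. -/
def S_rg : Prop := ∀ d : ℕ, ∃ A : ℝ, ∀ ζ s : ℕ → ℝ, Zok ζ → Rg A (X ζ (g1s s) lc d)

/-- The first four derivatives after one step. -/
def S_dT : Prop := ∀ (m h A : ℝ) (Ψ : ℝ → ℝ), Rg A Ψ → ∀ x,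
  d1 (T m (g1 h) Ψ) x = P m (g1 h) Ψ (d1 Ψ) x ∧
  d2 (T m (g1 h) Ψ) x = P m (g1 h) Ψ (H2 m Ψ) x - m * P m (g1 h) Ψ (d1 Ψ) x ^ 2 ∧
  d3 (T m (g1 h) Ψ) x = P m (g1 h) Ψ (H3 m Ψ) x
    - 3 * m * (P m (g1 h) Ψ (d1 Ψ) x * P m (g1 h) Ψ (H2 m Ψ) x)
    + 2 * m ^ 2 * P m (g1 h) Ψ (d1 Ψ) x ^ 3 ∧
  d4 (T m (g1 h) Ψ) x = P m (g1 h) Ψ (H4 m Ψ) x
    - 4 * m * (P m (g1 h) Ψ (d1 Ψ) x * P m (g1 h) Ψ (H3 m Ψ) x)
    - 3 * m * P m (g1 h) Ψ (H2 m Ψ) x ^ 2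
    + 12 * m ^ 2 * (P m (g1 h) Ψ (d1 Ψ) x ^ 2 * P m (g1 h) Ψ (H2 m Ψ) x)
    - 6 * m ^ 3 * P m (g1 h) Ψ (d1 Ψ) x ^ 4

/-- Gaussian integration by parts under the tilted step. -/
def S_ibp : Prop := ∀ (m h C x : ℝ) (Ψ u φ φ' : ℝ → ℝ), 0 ≤ h → LG Ψ →
  (∀ y, HasDerivAt Ψ (u y) y) → (∀ y, |u y| ≤ 1) → (∀ y, HasDerivAt φ (φ' y) y) →
  (∀ y, |φ y| ≤ C * (1 + |y|)) → (∀ y, |φ' y| ≤ C * (1 + |y|)) →
  gexp (g1 h) m (fun y => Ψ (x + y)) (fun y => y * φ y)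
    = h * gexp (g1 h) m (fun y => Ψ (x + y)) fun y => φ' y + m * (u (x + y) * φ y)

/-- `H2` is a concave function of the slope. -/
def S_det : Prop := ∀ (A m : ℝ) (Ψ : ℝ → ℝ), Rg A Ψ → (∀ x, 0 < d2 Ψ x) → HK m Ψ →
  ∀ a b c : ℝ, a ≤ b → b ≤ c →
    (d1 Ψ b - d1 Ψ a) * (H2 m Ψ c - H2 m Ψ b) ≤ (d1 Ψ c - d1 Ψ b) * (H2 m Ψ b - H2 m Ψ a)

/-- One step keeps the backward invariants. -/
def S_hk : Prop := ∀ (A m h : ℝ) (Ψ : ℝ → ℝ), 0 ≤ m → Rg A Ψ → (∀ x, 0 < d2 Ψ x) → HK m Ψ →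
  (∀ x, 0 < d2 (T m (g1 h) Ψ) x) ∧ HK m (T m (g1 h) Ψ)

/-- The backward invariants along the Parisi flow. -/
def S_back : Prop := ∀ (L : ℕ) (ζ c : ℕ → ℝ), Zok ζ → CAdm L c → ∃ A : ℝ,
  (∀ r, Rg A (Phi L ζ c r) ∧ RR (Phi L ζ c r) ∧ ∀ x, Phi L ζ c r (-x) = Phi L ζ c r x) ∧
  ∀ d r, d ≤ L → c (d + 1) ≤ r → r ≤ c d → Bk A (ζ d) (Phi L ζ c r)

/-- Pointwise consequences of the backward invariants. -/
def S_geo : Prop := ∀ (A m : ℝ) (Φ : ℝ → ℝ), 0 ≤ m → Bk A m Φ →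
  (∀ x, d3 Φ x ^ 2 ≤ 2 * A * d2 Φ x) ∧ ∀ x, 0 < x → 0 < d1 Φ x ∧ x * d2 Φ x ≤ d1 Φ x ∧
    2 * (m * d1 Φ x) ≤ -d3 Φ x / d2 Φ x ∧
    d1 Φ x ≤ x * (d2 Φ x + -d3 Φ x / d2 Φ x * d1 Φ x / 2)

/-- Pointwise consequences of the forward invariants. -/
def S_geo2 : Prop := ∀ (A m τ : ℝ) (θ : ℝ → ℝ), 0 < τ → TH A m θ → ∀ x, 0 ≤ x →
  0 ≤ x / τ + d1 θ x ∧ x * (1 / τ + d2 θ x) ≤ x / τ + d1 θ x

/-- The step of exponent `-1` preserves `RR`. -/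
def S_rrN : Prop := ∀ (h : ℝ) (θ : ℝ → ℝ), LG θ → (∀ x, θ (-x) = θ x) →
  (∀ x y, |θ x - θ y| ≤ |x - y|) → RR θ → RR (T (-1) (g1 h) θ)

/-- The forward invariants: start, step and jump. -/
def S_th : Prop := (∀ m : ℝ, 0 ≤ m → TH 0 m fun _ => 0) ∧
  (∀ (A m v ρ : ℝ) (θ : ℝ → ℝ), TH A m θ → 0 ≤ ρ → ρ ≤ 1 →
    ∃ A', TH A' m fun x => T (-1) (g1 v) θ (ρ * x)) ∧
  ∀ (A A' m a : ℝ) (θ Φ : ℝ → ℝ), TH A m θ → 0 ≤ a → m + a ≤ 1 → Rg A' Φ →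
    (∀ x, Φ (-x) = Φ x) → RR Φ → ∃ A'', TH A'' (m + a) fun x => θ x + a * Φ x

/-- The Gaussian bridge. -/
def S_bridge : Prop := ∀ (m s h : ℝ) (Ψ θ F : ℝ → ℝ), 0 ≤ m → 0 ≤ s → 0 ≤ h → LG Ψ → LG θ →
  BM F → gexp (g1 s) 1 (fun x => m * T m (g1 h) Ψ x - θ x) (P m (g1 h) Ψ F)
    = gexp (g1 (s + h)) 1
      (fun x => m * Ψ x - T (-1) (g1 (s * h / (s + h))) θ (s / (s + h) * x)) F

/-- The law at time `r`. -/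
def S_rep : Prop := ∀ (L : ℕ) (ζ c : ℕ → ℝ), ZAdm L ζ → CAdm L c → c L = 0 → ∀ d r, d < L →
  c (d + 1) ≤ r → r ≤ c d → ∃ (A : ℝ) (θ : ℝ → ℝ), TH A (ζ d) θ ∧ ∀ F, BM F →
    Er L ζ c r F = gexp (g1 r) 1 (fun x => ζ d * Phi L ζ c r x - θ x) F

/-- The polynomial certificate. -/
def S_crt : Prop := ∀ s n U l c b : ℝ, 0 ≤ n → 2 * n ≤ s → 0 ≤ U → 0 ≤ l → b ≤ l * (U + s / 2) →
  cal' s n U l c b - (l - n + 2 * s) * cal s n U l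
    ≤ (s ^ 2 - c) ^ 2 - 12 * (U * n) * s ^ 2 + 6 * (U * n) ^ 2

/-- The derivative of the calibration. -/
def S_cala : Prop := ∀ (A A' m τ : ℝ) (Φ θ : ℝ → ℝ), 0 ≤ m → 0 < τ → Bk A m Φ → TH A' m θ →
  ∀ x, 0 < x → ∃ H', HasDerivAt (HF m τ Φ θ) H' x ∧ H' ≤ dens m τ Φ θ x * fd0 m Φ x

/-- The boundary values of the calibration. -/
def S_calb : Prop := ∀ (A A' m τ : ℝ) (Φ θ : ℝ → ℝ), 0 ≤ m → m ≤ 1 → 0 < τ → Bk A m Φ →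
  TH A' m θ → Filter.Tendsto (HF m τ Φ θ) (nhdsWithin 0 (Ioi 0)) (nhds 0) ∧
    Filter.Tendsto (HF m τ Φ θ) Filter.atTop (nhds 0)

/-- The third derivative of the overlap function is nonnegative. -/
def S_frsb : Prop := ∀ (A A' m τ : ℝ) (Φ θ : ℝ → ℝ), 0 ≤ m → m ≤ 1 → 0 < τ → Bk A m Φ →
  TH A' m θ → 0 ≤ gexp (g1 τ) 1 (fun x => m * Φ x - θ x) (fd0 m Φ)

/-- Third cumulants in small steps. -/
def S_k3 : Prop := ∃ C : ℝ, 0 ≤ C ∧ ∀ (m h A : ℝ) (Ψ f : ℝ → ℝ), 0 ≤ m → m ≤ 1 → 0 ≤ h → h ≤ 1 →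
  LG Ψ → (∀ x y, |Ψ x - Ψ y| ≤ |x - y|) → (∀ x, |f x| ≤ A) →
  (∀ x y, |f x - f y| ≤ A * |x - y|) → ∀ x,
  |P m (g1 h) Ψ (fun y => f y ^ 3) x - 3 * (P m (g1 h) Ψ f x * P m (g1 h) Ψ (fun y => f y ^ 2) x)
    + 2 * P m (g1 h) Ψ f x ^ 3| ≤ C * A ^ 3 * (h * √h)

/-- Expansion of `w ^ 2 - 2 m v ^ 3` in small steps. -/
def S_exp3 : Prop := ∀ A : ℝ, ∃ C : ℝ, ∀ (m h : ℝ) (Ψ : ℝ → ℝ), 0 ≤ m → m ≤ 1 → 0 ≤ h → h ≤ 1 →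
  Rg A Ψ → ∀ x, |P m (g1 h) Ψ (fc0 m Ψ) x - fc0 m (T m (g1 h) Ψ) x - h * fd0 m Ψ x|
    ≤ C * (h * √h)

/-- The third time derivative along a flow. -/
def S_flow3 : Prop := ∀ (K A m a b : ℝ) (Φ : ℝ → ℝ → ℝ) (E : ℝ → (ℝ → ℝ) → ℝ), 0 ≤ m → m ≤ 1 →
  Flo K m a b Φ E → (∀ τ ∈ Icc a b, Rg A (Φ τ)) →
  ∀ τ ∈ Ioo a b, HasDerivAt (fc m Φ E) (E τ (fd0 m (Φ τ))) τ

/-- `E v ^ 2` is convex on every block, with slope bounded below. -/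
def S_cvx3 : Prop := ∀ (L : ℕ) (ζ c : ℕ → ℝ), ZAdm L ζ → CAdm L c → c L = 0 → ∀ d, d < L →
  ConvexOn ℝ (Icc (c (d + 1)) (c d)) (fb (Phi L ζ c) (Er L ζ c)) ∧
  ∀ a b, c (d + 1) ≤ a → a ≤ b → b ≤ c d →
    -(2 * ζ d * (b - a)) ≤ fb (Phi L ζ c) (Er L ζ c) b - fb (Phi L ζ c) (Er L ζ c) a

/-- Marginality on the blocks below the top atom. -/
def S_flat : Prop := ∀ (B Λ E D ε V : ℝ) (L : ℕ) (ζ c : ℕ → ℝ) (γ g : ℝ → ℝ), 0 < B → 1 ≤ Λ →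
  0 ≤ D → 0 ≤ ε → 3 * Λ ^ 2 * E ≤ ε ^ 3 → CAdm L c → c 0 = B → Glo B Λ L ζ c V γ g →
  Opt B E L c γ → (∀ d, 1 ≤ d → d + 1 < L → ConvexOn ℝ (Icc (c (d + 1)) (c d)) g) →
  (∀ d a b, d + 1 = L → c (d + 1) ≤ a → a ≤ b → b ≤ c d → -(2 * D * (b - a)) ≤ g b - g a) →
  ∀ d τ, 1 ≤ d → d < L → c (d + 1) < c d → c (d + 1) ≤ τ → τ ≤ c d → g τ ≤ 1 / B + ε + 2 * D * B

/-- The top atom is close to one. -/
def S_atom : Prop := ∀ (B Λ E y V : ℝ) (L : ℕ) (ζ c : ℕ → ℝ) (γ g : ℝ → ℝ), 0 < B → 1 ≤ Λ →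
  2 ≤ L → 0 < y → y ^ 2 ≤ 2 * B → y * B * Λ ≤ 1 → 3 * B * E < y ^ 2 → CAdm L c → c 0 = B →
  Glo B Λ L ζ c V γ g → Opt B E L c γ → (1 - c 1 / B) ^ 2 ≤ g (c 1) → (1 - c 1 / B) ^ 2 ≤ 2 / B

/-- The tilted step lies between two shifted Gaussians. -/
def S_cdf : Prop := ∀ (m h x y : ℝ) (Ψ : ℝ → ℝ), |m| ≤ 1 → 0 < h → LG Ψ →
  (∀ a b, |Ψ a - Ψ b| ≤ |a - b|) →
  cdf (gaussianReal 0 1) ((y - h) / √h) ≤ cdf ((g1 h).tilted fun z => m * Ψ (x + z)) y ∧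
  cdf ((g1 h).tilted fun z => m * Ψ (x + z)) y ≤ cdf (gaussianReal 0 1) ((y + h) / √h)

/-- The monotone transport. -/
def S_trans : Prop := ∀ (m h : ℝ) (Ψ : ℝ → ℝ), |m| ≤ 1 → 0 ≤ h → LG Ψ →
  (∀ a b, |Ψ a - Ψ b| ≤ |a - b|) → (∀ x, Ψ (-x) = Ψ x) → ∃ τ, Tr m h Ψ τ

/-- One step of the martingale. -/
def S_one : Prop := ∀ (A m h : ℝ) (Ψ : ℝ → ℝ) (τ : ℝ → ℝ → ℝ), 0 ≤ h → G0 A Ψ → Tr m h Ψ τ →
  ∀ x, (∀ F, BM F → ∫ t, F (x + τ x t) ∂gaussianReal 0 1 = P m (g1 h) Ψ F x) ∧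
    ∫ t, d1 Ψ (x + τ x t) ∂gaussianReal 0 1 = d1 (T m (g1 h) Ψ) x ∧
    ∫ t, (d1 Ψ (x + τ x t) - d1 (T m (g1 h) Ψ) x) ^ 2 ∂gaussianReal 0 1
      = P m (g1 h) Ψ (fun y => d1 Ψ y ^ 2) x - d1 (T m (g1 h) Ψ) x ^ 2 ∧
    √h * (d2 (T m (g1 h) Ψ) x
        - ∫ t, |d1 Ψ (x + τ x t) - d1 (T m (g1 h) Ψ) x| ∂gaussianReal 0 1)
      ≤ ∫ t, (d1 Ψ (x + τ x t) - d1 (T m (g1 h) Ψ) x) * t ∂gaussianReal 0 1

/-- The martingale of a chain. -/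
def S_chain : Prop := ∀ (K : ℕ) (A : ℝ) (h m : ℕ → ℝ) (Φ : ℕ → ℝ → ℝ)
  (E : ℕ → (ℝ → ℝ) → ℝ), Ch K A h m Φ E → ∃ M, Mart K M ∧ ∀ j, j < K →
    nu K M j ^ 2 = E (j + 1) (fun x => d1 (Φ (j + 1)) x ^ 2) - E j (fun x => d1 (Φ j) x ^ 2) ∧
    √(h j) * (E j (d2 (Φ j)) - nu K M j) ≤ kap K M j

/-- The entropy inequality along a chain. -/
def S_ent : Prop := ∀ (K : ℕ) (A ρ : ℝ) (h m : ℕ → ℝ) (Φ : ℕ → ℝ → ℝ)
  (E : ℕ → (ℝ → ℝ) → ℝ), Ch K A h m Φ E → (∀ x, sS (Φ K) x ≤ ρ) →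
  Φ 0 0 ≤ ρ + ∑ j ∈ Finset.range K,
    h j * (E j (d2 (Φ j)) + m j / 2 * E j fun x => d1 (Φ j) x ^ 2)

/-- The top block, the bottom value, and the Abel summation. -/
def S_top : Prop := ∀ (L : ℕ) (ζ c : ℕ → ℝ), ZAdm L ζ → CAdm L c →
  psi L ζ c lc = Phi L ζ c 0 0 ∧ (∀ x, sS (Phi L ζ c (c 1)) x ≤ (c 0 - c 1) / 2) ∧
  (1 - fa (Phi L ζ c) (Er L ζ c) (c 1)) ^ 2 ≤ fb (Phi L ζ c) (Er L ζ c) (c 1) ∧
  (∀ r, 0 ≤ fv (Phi L ζ c) (Er L ζ c) r ∧ fv (Phi L ζ c) (Er L ζ c) r ≤ 1 ∧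
    fb (Phi L ζ c) (Er L ζ c) r ≤ 1) ∧
  pairing L ζ c c = c 1 ^ 2 - ∑ d ∈ Finset.Ico 1 L, ζ d * (c d ^ 2 - c (d + 1) ^ 2)

/-- Existence of the grid. -/
def S_grid : Prop := ∀ (L N : ℕ) (c : ℕ → ℝ), 1 ≤ L → 1 ≤ N → CAdm L c → c L = 0 →
  ∃ t e, Gr L N c t e

/-- The value from below. -/
def S_real2 : Prop := ∀ (K : ℕ) (β δ : ℝ) (h ν κ v : ℕ → ℝ), 0 < β → 0 ≤ δ →
  (∀ j, j < K → 0 ≤ h j ∧ h j ≤ δ ∧ 0 ≤ ν j ∧ ν j ^ 2 ≤ h j ∧ 0 ≤ v j ∧ v j ≤ 1 ∧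
    √(h j) * (v j - ν j) ≤ κ j) → κ K = 0 →
  ∑ j ∈ Finset.range K, h j * v j ≤ β * ∑ j ∈ Finset.range K, ν j * κ (j + 1) + δ
    + ∑ j ∈ Finset.range K, |h (j + 1) - h j|
    + β ^ 2 * ∑ j ∈ Finset.range K, |ν j ^ 2 - h j / β ^ 2| + β * (K * (δ * √δ))

/-- The bound at fixed temperature and fixed grids. -/
def S_fix : Prop := ∀ (β Λ ε V : ℝ) (L N : ℕ) (ζ q : ℕ → ℝ), 0 < β → 0 ≤ ε → 1 ≤ N → ZAdm L ζ →
  QP L q → Glo (β ^ 2) Λ L ζ (β ^ 2 • q) V (fa (Phi L ζ (β ^ 2 • q)) (Er L ζ (β ^ 2 • q)))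
    (fb (Phi L ζ (β ^ 2 • q)) (Er L ζ (β ^ 2 • q))) →
  fa (Phi L ζ (β ^ 2 • q)) (Er L ζ (β ^ 2 • q)) (β ^ 2 * q 1) = q 1 →
  (∀ d τ, 1 ≤ d → d < L → β ^ 2 * q (d + 1) < β ^ 2 * q d → β ^ 2 * q (d + 1) ≤ τ →
    τ ≤ β ^ 2 * q d → fb (Phi L ζ (β ^ 2 • q)) (Er L ζ (β ^ 2 • q)) τ ≤ 1 / β ^ 2 + ε) →
  ∃ K M, Mart K M ∧ GG L ζ β q ≤ β ^ 2 * (1 - q 1) ^ 2 / 4 + 3 * ε * β ^ 4 + β * val K M
    + (L + 1) * (β ^ 2 / N) + β * (L * N * (β ^ 2 / N * √(β ^ 2 / N)))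

/-- The message passing value reaches the ground state energy. -/
def S_main : Prop := ∀ ε : ℝ, 0 < ε → ∃ K M, Mart K M ∧ ∀ n : ℕ, 1 ≤ n → gse n ≤ val K M + ε

end Vale.Agent.P367
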