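import Vale.Agent.P367.CDefs
import Vale.Agent.P146L.ODP

/-! # P367, classical part: CDer -/

namespace Vale.Agent.P367

open MeasureTheory ProbabilityTheory Vale.Agent.P157 Vale.Agent.P146L Vale.Agent.P146L.One Set

namespace CDerAux

variable {m h A B : ℝ} {Ψ φ ψ : ℝ → ℝ}

theorem key (hΨ : Rg A Ψ) (hφ : Bn 1 B φ)
    (e : ∀ y, HasDerivAt φ (ψ y - m * (d1 Ψ y * φ y)) y) (x : ℝ) :
    HasDerivAt (P m (g1 h) Ψ φ)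
      (P m (g1 h) Ψ ψ x - m * (P m (g1 h) Ψ (d1 Ψ) x * P m (g1 h) Ψ φ x)) x := by
  have hn := noise_g1 h
  have := hn.prob
  have k := (dP m h B Ψ (d1 Ψ) φ (deriv φ) hΨ.lg hΨ.e0 hΨ.u1 hφ.der hφ.bd hφ.dn.bd x).2
  have e1 : ψ = fun y => deriv φ y + m * (d1 Ψ y * φ y) := by
    funext y
    rw [(e y).deriv]
    ring
  have e2 : P m (g1 h) Ψ ψ x =
      P m (g1 h) Ψ (deriv φ) x + m * P m (g1 h) Ψ (fun y => d1 Ψ y * φ y) x := by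
    rw [e1, P, gexp_add m (hΨ.lg.eint hn x) (hφ.dn.bm.lg.eint hn x)
      (((hΨ.bn.bm.mul hφ.bm).const_mul m).lg.eint hn x), gexp_const_mul]
    rfl
  refine k.congr_deriv ?_
  rw [e2]
  ring

theorem bn2 (hΨ : Rg A Ψ) (m : ℝ) : ∃ B, Bn 1 B (H2 m Ψ) := by
  have u : Bn 1 A (d1 Ψ) := hΨ.bn.of_le (by norm_num)
  have e : H2 m Ψ = fun x => d2 Ψ x + m * (d1 Ψ x * d1 Ψ x) := by
    funext x
    rw [H2]
    ring
  rw [e]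
  exact ⟨_, (hΨ.b2.of_le (by norm_num)).add ((u.mul u).const_mul m)⟩

theorem bn3 (hΨ : Rg A Ψ) (m : ℝ) : ∃ B, Bn 1 B (H3 m Ψ) := by
  have u : Bn 1 A (d1 Ψ) := hΨ.bn.of_le (by norm_num)
  have e : H3 m Ψ = fun x => d3 Ψ x + 3 * m * (d1 Ψ x * d2 Ψ x) +
      m ^ 2 * (d1 Ψ x * d1 Ψ x * d1 Ψ x) := by
    funext x
    rw [H3]
    ring
  rw [e]
  exact ⟨_, ((hΨ.b3.of_le (by norm_num)).add ((u.mul (hΨ.b2.of_le (by norm_num))).const_mul _)).add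
    (((u.mul u).mul u).const_mul _)⟩

theorem der1 (hΨ : Rg A Ψ) (x : ℝ) : HasDerivAt (P m (g1 h) Ψ (d1 Ψ))
    (P m (g1 h) Ψ (H2 m Ψ) x - m * (P m (g1 h) Ψ (d1 Ψ) x * P m (g1 h) Ψ (d1 Ψ) x)) x :=
  key hΨ (hΨ.bn.of_le (by norm_num)) (fun y => (hΨ.e1 y).congr_deriv (by rw [H2]; ring)) x

theorem der2 (hΨ : Rg A Ψ) (x : ℝ) : HasDerivAt (P m (g1 h) Ψ (H2 m Ψ))
    (P m (g1 h) Ψ (H3 m Ψ) x - m * (P m (g1 h) Ψ (d1 Ψ) x * P m (g1 h) Ψ (H2 m Ψ) x)) x := by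
  obtain ⟨B, hB⟩ := bn2 hΨ m
  refine key hΨ hB (fun y => ?_) x
  refine ((hΨ.e2 y).fun_add (((hΨ.e1 y).fun_pow 2).const_mul m)).congr_deriv ?_
  rw [H2, H3]
  push_cast
  ring

theorem der3 (hΨ : Rg A Ψ) (x : ℝ) : HasDerivAt (P m (g1 h) Ψ (H3 m Ψ))
    (P m (g1 h) Ψ (H4 m Ψ) x - m * (P m (g1 h) Ψ (d1 Ψ) x * P m (g1 h) Ψ (H3 m Ψ) x)) x := by
  obtain ⟨B, hB⟩ := bn3 hΨ m
  refine key hΨ hB (fun y => ?_) x
  refine (((hΨ.e3 y).fun_add (((hΨ.e1 y).fun_mul (hΨ.e2 y)).const_mul (3 * m))).fun_add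
    (((hΨ.e1 y).fun_pow 3).const_mul (m ^ 2))).congr_deriv ?_
  rw [H3, H4]
  push_cast
  ring

end CDerAux

open CDerAux in
theorem dT : S_dT := by
  intro m h A Ψ hΨ
  have e1 : d1 (T m (g1 h) Ψ) = P m (g1 h) Ψ (d1 Ψ) := funext fun x =>
    (dP m h 0 Ψ (d1 Ψ) (fun _ => 0) (fun _ => 0) hΨ.lg hΨ.e0 hΨ.u1 (fun y => hasDerivAt_const y 0)
      (by simp) (by simp) x).1.deriv
  have e2 : d2 (T m (g1 h) Ψ) =
      fun x => P m (g1 h) Ψ (H2 m Ψ) x - m * P m (g1 h) Ψ (d1 Ψ) x ^ 2 := by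
    funext x
    rw [show d2 (T m (g1 h) Ψ) = deriv (d1 (T m (g1 h) Ψ)) from rfl, e1, (der1 hΨ x).deriv]
    ring
  have e3 : d3 (T m (g1 h) Ψ) = fun x => P m (g1 h) Ψ (H3 m Ψ) x
      - 3 * m * (P m (g1 h) Ψ (d1 Ψ) x * P m (g1 h) Ψ (H2 m Ψ) x)
      + 2 * m ^ 2 * P m (g1 h) Ψ (d1 Ψ) x ^ 3 := by
    funext x
    rw [show d3 (T m (g1 h) Ψ) = deriv (d2 (T m (g1 h) Ψ)) from rfl, e2,
      ((der2 hΨ x).fun_sub (((der1 hΨ x).fun_pow 2).const_mul m)).deriv]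
    push_cast
    ring
  intro x
  refine ⟨congrFun e1 x, congrFun e2 x, congrFun e3 x, ?_⟩
  rw [d4, e3, (((der3 hΨ x).fun_sub (((der1 hΨ x).fun_mul (der2 hΨ x)).const_mul (3 * m))).fun_add
    (((der1 hΨ x).fun_pow 3).const_mul (2 * m ^ 2))).deriv]
  push_cast
  ring

end Vale.Agent.P367
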