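import Vale.Agent.P367.CDefs

/-! # P367, classical part: CDet -/

namespace Vale.Agent.P367

open MeasureTheory ProbabilityTheory Vale.Agent.P157 Vale.Agent.P146L Vale.Agent.P146L.One Set

namespace CDetAux

variable {A m : ℝ} {Ψ : ℝ → ℝ}

/-- The slope of `H2` as a function of `d1`. -/
noncomputable def rr (m : ℝ) (Ψ : ℝ → ℝ) (x : ℝ) : ℝ := d3 Ψ x / d2 Ψ x + 2 * m * d1 Ψ x

theorem rr_anti (h : Rg A Ψ) (hp : ∀ x, 0 < d2 Ψ x) (hk : HK m Ψ) : Antitone (rr m Ψ) := by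
  have hd : ∀ x, HasDerivAt (rr m Ψ)
      ((d4 Ψ x * d2 Ψ x - d3 Ψ x * d3 Ψ x) / d2 Ψ x ^ 2 + 2 * m * d2 Ψ x) x := fun x =>
    ((h.e3 x).div (h.e2 x) (hp x).ne').add ((h.e1 x).const_mul (2 * m))
  refine antitone_of_hasDerivAt_nonpos hd fun x => ?_
  have h1 : (d4 Ψ x * d2 Ψ x - d3 Ψ x * d3 Ψ x) / d2 Ψ x ^ 2 + 2 * m * d2 Ψ x =
      (d2 Ψ x * d4 Ψ x - d3 Ψ x ^ 2 + 2 * m * d2 Ψ x ^ 3) / d2 Ψ x ^ 2 := by
    have := (hp x).ne'
    field_simp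
  show _ ≤ (0 : ℝ)
  rw [h1]
  exact div_nonpos_of_nonpos_of_nonneg (hk x) (sq_nonneg _)

theorem der_g (h : Rg A Ψ) (hp : ∀ x, 0 < d2 Ψ x) (k x : ℝ) :
    HasDerivAt (fun y => H2 m Ψ y - k * d1 Ψ y) (d2 Ψ x * (rr m Ψ x - k)) x := by
  have h1 := ((h.e2 x).add (((h.e1 x).fun_pow 2).const_mul m)).sub ((h.e1 x).const_mul k)
  refine h1.congr_deriv ?_
  have := (hp x).ne'
  unfold rr
  field_simp
  simp
  ring

end CDetAux

open CDetAux in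
theorem det3 : S_det := by
  intro A m Ψ h hp hk a b c hab hbc
  have hr := rr_anti h hp hk
  have hu : Monotone (d1 Ψ) := monotone_of_hasDerivAt_nonneg h.e1 fun x => (hp x).le
  have hd := der_g (m := m) h hp (rr m Ψ b)
  have hc : Continuous fun y => H2 m Ψ y - rr m Ψ b * d1 Ψ y :=
    continuous_iff_continuousAt.2 fun x => (hd x).continuousAt
  have h1 : MonotoneOn (fun y => H2 m Ψ y - rr m Ψ b * d1 Ψ y) (Iic b) :=
    monotoneOn_of_hasDerivWithinAt_nonneg (convex_Iic b) hc.continuousOn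
      (fun x _ => (hd x).hasDerivWithinAt) fun x hx =>
        mul_nonneg (hp x).le (sub_nonneg.2 (hr (mem_Iic.1 (interior_subset hx))))
  have h2 : AntitoneOn (fun y => H2 m Ψ y - rr m Ψ b * d1 Ψ y) (Ici b) :=
    antitoneOn_of_hasDerivWithinAt_nonpos (convex_Ici b) hc.continuousOn
      (fun x _ => (hd x).hasDerivWithinAt) fun x hx =>
        mul_nonpos_of_nonneg_of_nonpos (hp x).le (sub_nonpos.2 (hr (mem_Ici.1 (interior_subset hx))))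
  have h3 : H2 m Ψ a - rr m Ψ b * d1 Ψ a ≤ H2 m Ψ b - rr m Ψ b * d1 Ψ b := h1 hab self_mem_Iic hab
  have h4 : H2 m Ψ c - rr m Ψ b * d1 Ψ c ≤ H2 m Ψ b - rr m Ψ b * d1 Ψ b := h2 self_mem_Ici hbc hbc
  nlinarith [mul_le_mul_of_nonneg_left h3 (sub_nonneg.2 (hu hbc)),
    mul_le_mul_of_nonneg_left h4 (sub_nonneg.2 (hu hab))]

end Vale.Agent.P367
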