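import Vale.Agent.P367.CDefs
import Vale.Agent.P146L.ODP
import Vale.Agent.P146L.OFlow1
import Vale.Agent.P146L.OFl

/-! # P367, classical part: CEnt -/

namespace Vale.Agent.P367

open MeasureTheory ProbabilityTheory Vale.Agent.P157 Vale.Agent.P146L Vale.Agent.P146L.One Set

namespace CEntAux

theorem lg_id : LG fun y : ℝ => y :=
  ⟨measurable_id, 1, fun w => by rw [one_mul, Real.norm_eq_abs]; linarith⟩

theorem e_id (h : ℝ) : EInt (g1 h) fun y : ℝ => y := by
  simpa using lg_id.eint (noise_g1 h) 0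

theorem lse_lin {m h : ℝ} (hh : 0 ≤ h) (l : ℝ) :
    lse (g1 h) m (fun y => l * y) = m * h * l ^ 2 / 2 := by
  unfold lse
  split_ifs with h0
  · rw [integral_const_mul, integral_id_g1, h0]
    simp
  · have e : ∀ y : ℝ, m * (l * y) = (m * l) * y := fun y => by ring
    simp only [e]
    rw [integral_exp_g1 hh, Real.log_exp]
    field_simp

theorem e_mul (h : ℝ) {f : ℝ → ℝ} (hf : Measurable f) (hb : ∀ y, |f y| ≤ 1) :
    EInt (g1 h) fun y => y * f y := by
  refine (e_id h).of_le (C := 0) (D := 1) (measurable_id.mul hf) fun y => ?_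
  rw [abs_mul, zero_add, one_mul]
  exact mul_le_of_le_one_right (abs_nonneg y) (hb y)

theorem step (h1 : S_ibp) {A m h : ℝ} {Ψ G : ℝ → ℝ} (h0 : 0 ≤ h) (m0 : 0 ≤ m) (hΨ : G0 A Ψ)
    (hG : BM G) (hle : ∀ x, sS Ψ x ≤ G x) (x : ℝ) :
    sS (T m (g1 h) Ψ) x ≤ P m (g1 h) Ψ G x
      + h * (d2 (T m (g1 h) Ψ) x + m / 2 * d1 (T m (g1 h) Ψ) x ^ 2) := by
  have hν := noise_g1 h
  have := hν.prob
  obtain ⟨s1, s2⟩ := stepT A m h Ψ hΨ
  have bu : BM (d1 Ψ) := OFlow1Aux.bm0 hΨ.cu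
  have bv : BM (d2 Ψ) := OFlow1Aux.bm1 hΨ.cu
  have eF : EInt (g1 h) fun y => Ψ (x + y) := hΨ.lg.eint hν x
  have eu : EInt (g1 h) fun y => d1 Ψ (x + y) := OFlAux.eb h bu x
  have ev : EInt (g1 h) fun y => d2 Ψ (x + y) := OFlAux.eb h bv x
  have euu : EInt (g1 h) fun y => d1 Ψ (x + y) ^ 2 := OFlAux.eb h (bu.pow 2) x
  have eyu : EInt (g1 h) fun y => y * d1 Ψ (x + y) := e_mul h eu.1 fun y => hΨ.u1 _
  have b1 : ∀ y : ℝ, (1 : ℝ) ≤ 1 * (1 + |y|) := fun y => by linarith [abs_nonneg y]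
  obtain ⟨l, hl⟩ : ∃ l, l = P m (g1 h) Ψ (d1 Ψ) x := ⟨_, rfl⟩
  have hl' : gexp (g1 h) m (fun y => Ψ (x + y)) (fun y => d1 Ψ (x + y)) = l := hl.symm
  have i1 := h1 m h 1 x Ψ (d1 Ψ) (fun _ => 1) (fun _ => 0) h0 hΨ.lg hΨ.der hΨ.u1
    (fun y => hasDerivAt_const y 1) (fun y => by rw [abs_one]; exact b1 y)
    (fun y => by rw [abs_zero]; linarith [b1 y])
  simp only [mul_one, zero_add] at i1
  rw [gexp_const_mul, hl'] at i1
  have i2 := h1 m h 1 x Ψ (d1 Ψ) (fun y => d1 Ψ (x + y)) (fun y => d2 Ψ (x + y)) h0 hΨ.lg hΨ.der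
    hΨ.u1 (fun y => (hΨ.cu.der (x + y)).comp_const_add x y)
    (fun y => (hΨ.u1 _).trans (b1 y))
    (fun y => (abs_le.2 ⟨by linarith [hΨ.v0 (x + y)], hΨ.v1 _⟩).trans (b1 y))
  simp only [← sq] at i2
  rw [gexp_add m eF ev (euu.const_mul m), gexp_const_mul] at i2
  have j := gexp_le_lse_sub m0 eF ((e_id h).const_mul l)
  rw [gexp_sub m eF ((e_id h).const_mul l) eF, gexp_const_mul, lse_lin h0, i1] at j
  have k := gexp_mono m eF ((eF.sub (eu.const_mul x)).sub eyu) (OFlAux.eb h hG x) fun y => by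
    have := hle (x + y)
    unfold sS at this
    linarith
  rw [gexp_sub m eF (eF.sub (eu.const_mul x)) eyu, gexp_sub m eF eF (eu.const_mul x),
    gexp_const_mul, hl', i2] at k
  rw [sS, s2, s1, ← hl]
  unfold T P
  nlinarith

variable {K : ℕ} {A : ℝ} {h m : ℕ → ℝ} {Φ : ℕ → ℝ → ℝ} {E : ℕ → (ℝ → ℝ) → ℝ}

theorem lin (H : Ch K A h m Φ E) (j : ℕ) (hj : j ≤ K) : ∀ (a b c : ℝ) (F G : ℝ → ℝ), BM F →
    BM G → E j (fun x => a * F x + b * G x + c) = a * E j F + b * E j G + c := by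
  induction j with
  | zero => intro a b c F G _ _; simp only [H.start]
  | succ j ih =>
    intro a b c F G hF hG
    have hν := noise_g1 (h j)
    have := hν.prob
    have hl := (H.g0 (j + 1) hj).lg
    rw [H.cons j hj _ (((hF.const_mul a).add (hG.const_mul b)).add (BM.const c)),
      H.cons j hj F hF, H.cons j hj G hG,
      ← ih (Nat.le_of_succ_le hj) a b c _ _ (BM.kernel _ hν hl hF) (BM.kernel _ hν hl hG)]
    refine congrArg (E j) (funext fun x => ?_)
    have eF := hl.eint hν x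
    have e1 := (OFlAux.eb (h j) hF x).const_mul a
    have e2 := (OFlAux.eb (h j) hG x).const_mul b
    unfold P
    rw [gexp_add _ eF (e1.add e2) (EInt.const c), gexp_add _ eF e1 e2, gexp_const_mul,
      gexp_const_mul, gexp_const _ eF]

theorem chain (h1 : S_ibp) (H : Ch K A h m Φ E) (k : ℕ) (hk : k ≤ K) : ∀ G : ℝ → ℝ, BM G →
    (∀ x, sS (Φ k) x ≤ G x) → Φ 0 0 ≤ E k G + ∑ j ∈ Finset.range k,
      h j * (E j (d2 (Φ j)) + m j / 2 * E j fun x => d1 (Φ j) x ^ 2) := by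
  induction k with
  | zero =>
    intro G _ hle
    have := hle 0
    rw [sS, zero_mul, sub_zero] at this
    rw [H.start, Finset.sum_range_zero, add_zero]
    exact this
  | succ k ih =>
    intro G hG hle
    have hk' : k ≤ K := Nat.le_of_succ_le hk
    have g1' := H.g0 (k + 1) hk
    have bP := BM.kernel (m k) (noise_g1 (h k)) g1'.lg hG
    have bv : BM (d2 (Φ k)) := OFlow1Aux.bm1 (H.g0 k hk').cu
    have bu : BM fun x => d1 (Φ k) x ^ 2 := (OFlow1Aux.bm0 (H.g0 k hk').cu).pow 2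
    have bw := ((bv.const_mul 1).add (bu.const_mul (m k / 2))).add (BM.const 0)
    have a := ih hk' _ (((bP.const_mul 1).add (bw.const_mul (h k))).add (BM.const 0)) fun x => by
      have := step h1 (H.h0 k hk) (H.m0 k hk) g1' hG hle x
      rw [← H.semi k hk] at this
      linarith
    rw [lin H k hk' _ _ _ _ _ bP bw, lin H k hk' _ _ _ _ _ bv bu, ← H.cons k hk G hG] at a
    rw [Finset.sum_range_succ]
    linarith

end CEntAux

theorem ent (h1 : S_ibp) : S_ent := by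
  intro K A ρ h m Φ E H hle
  have a := CEntAux.chain h1 H K le_rfl (fun _ => ρ) (BM.const ρ) hle
  have b := CEntAux.lin H K le_rfl 0 0 ρ _ _ (BM.const 0) (BM.const 0)
  simp only [zero_mul, add_zero, zero_add] at b
  rw [b] at a
  exact a

end Vale.Agent.P367
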