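import Vale.Agent.P367.CDefs
import Vale.Agent.P146L.OSv
import Vale.Agent.P146L.OFl

/-! # P367, classical part: CExp3 -/

namespace Vale.Agent.P367

open MeasureTheory ProbabilityTheory Vale.Agent.P157 Vale.Agent.P146L Vale.Agent.P146L.One Set

namespace CExp3Aux

theorem P_add (m h x : ℝ) {Ψ f g : ℝ → ℝ} (hΨ : LG Ψ) (hf : BM f) (hg : BM g) :
    P m (g1 h) Ψ (fun y => f y + g y) x = P m (g1 h) Ψ f x + P m (g1 h) Ψ g x := by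
  have := (noise_g1 h).prob
  exact gexp_add _ (hΨ.eint (noise_g1 h) x) (OFlAux.eb h hf x) (OFlAux.eb h hg x)

theorem P_sub (m h x : ℝ) {Ψ f g : ℝ → ℝ} (hΨ : LG Ψ) (hf : BM f) (hg : BM g) :
    P m (g1 h) Ψ (fun y => f y - g y) x = P m (g1 h) Ψ f x - P m (g1 h) Ψ g x := by
  have := (noise_g1 h).prob
  exact gexp_sub _ (hΨ.eint (noise_g1 h) x) (OFlAux.eb h hf x) (OFlAux.eb h hg x)

theorem P_mul (m h x c : ℝ) (Ψ f : ℝ → ℝ) :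
    P m (g1 h) Ψ (fun y => c * f y) x = c * P m (g1 h) Ψ f x := gexp_const_mul _ _ _ c

theorem scale {e t K K' : ℝ} (ht : 0 ≤ t) (h0 : 0 ≤ K) (hK : K ≤ K') (h : |e| ≤ K * t) :
    ∃ ε, |ε| ≤ K' ∧ e = t * ε := by
  rcases ht.eq_or_lt with rfl | ht
  · exact ⟨0, by rw [abs_zero]; linarith, by simpa using h⟩
  · refine ⟨e / t, le_trans ?_ hK, by field_simp⟩
    rw [abs_div, abs_of_pos ht, div_le_iff₀ ht]
    exact h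

/-- The normalized error. -/
noncomputable def Q (r m v w e1 e2 e3 e4 ku kv f1 f2 : ℝ) : ℝ :=
  e3 - 2 * m * kv - 6 * m * (v * e2 + r * f1 * w ^ 2 + r ^ 2 * f1 * e2)
    - 2 * (w * (3 * m * (e4 - e1 - e2) / 2 + m ^ 2 * ku)
      + r * f2 * (3 * m * (v * w + r * (e4 - e1 - e2) / 2) + m ^ 2 * r * ku))
    - r * (3 * m * (v * w + r * (e4 - e1 - e2) / 2) + m ^ 2 * r * ku) ^ 2
    + 2 * m * (3 * (v ^ 2 * m * e1 + (2 * v * r * f1 + r ^ 3 * f1 ^ 2) * (m * (v ^ 2 + r * e1)))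
      + 3 * (v + r ^ 2 * f1) * r * (m * (v ^ 2 + r * e1)) ^ 2 + r ^ 3 * (m * (v ^ 2 + r * e1)) ^ 3)

theorem Q_bdd (K : ℝ) : ∃ C, ∀ r m v w e1 e2 e3 e4 ku kv f1 f2 : ℝ, |r| ≤ K → |m| ≤ K → |v| ≤ K →
    |w| ≤ K → |e1| ≤ K → |e2| ≤ K → |e3| ≤ K → |e4| ≤ K → |ku| ≤ K → |kv| ≤ K → |f1| ≤ K →
    |f2| ≤ K → |Q r m v w e1 e2 e3 e4 ku kv f1 f2| ≤ C := by
  obtain ⟨C, hC⟩ := (isCompact_closedBall (0 : Fin 12 → ℝ) K).exists_bound_of_continuousOn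
    (f := fun p => Q (p 0) (p 1) (p 2) (p 3) (p 4) (p 5) (p 6) (p 7) (p 8) (p 9) (p 10) (p 11))
    (Continuous.continuousOn (by unfold Q; fun_prop))
  refine ⟨C, fun r m v w e1 e2 e3 e4 ku kv f1 f2 a0 a1 a2 a3 a4 a5 a6 a7 a8 a9 a10 a11 =>
    hC ![r, m, v, w, e1, e2, e3, e4, ku, kv, f1, f2] ?_⟩
  rw [mem_closedBall_zero_iff, pi_norm_le_iff_of_nonneg ((abs_nonneg _).trans a0)]
  intro i
  fin_cases i
  exacts [a0, a1, a2, a3, a4, a5, a6, a7, a8, a9, a10, a11]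

end CExp3Aux

open CExp3Aux in
theorem exp3 (h1 : S_dT) (h2 : S_k3) : S_exp3 := by
  intro A
  obtain ⟨C, hC0, hC⟩ := sv
  obtain ⟨D, hD0, hD⟩ := h2
  obtain ⟨K, hK⟩ : ∃ K, K = 1 + A + C * A + C * (A + A) ^ 2 + D * A ^ 3 := ⟨_, rfl⟩
  obtain ⟨B, hB⟩ := Q_bdd K
  refine ⟨B, fun m h Ψ m0 m1 h0 h1' rg x => ?_⟩
  have hA := rg.bn.nonneg
  have p1 : 0 ≤ C * A := by positivity
  have p2 : 0 ≤ C * A ^ 2 := by positivity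
  have p3 : 0 ≤ D * A ^ 3 := by positivity
  have p4 : C * (A + A) ^ 2 = 4 * (C * A ^ 2) := by ring
  have hs : 0 ≤ h * √h := by positivity
  have lg := rg.lg
  have bu := rg.bn.bm
  have bv := rg.b2.bm
  have bw := rg.b3.bm
  have cu := ((hC m h A Ψ m0 m1 h0 h1' lg rg.lip).2 _ _ rg.bn.c11 x).2
  obtain ⟨fv, cv⟩ := (hC m h A Ψ m0 m1 h0 h1' lg rg.lip).2 _ _ rg.b2.c11 x
  obtain ⟨fw, cw⟩ := (hC m h A Ψ m0 m1 h0 h1' lg rg.lip).2 _ _ rg.b3.c11 x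
  have cs := ((hC m h (A + A) Ψ m0 m1 h0 h1' lg rg.lip).2 _ _ (rg.bn.pred.add rg.b2).c11 x).2
  have ku := hD m h A Ψ _ m0 m1 h0 h1' lg rg.lip rg.bn.bd rg.bn.lip x
  have kv := hD m h A Ψ _ m0 m1 h0 h1' lg rg.lip rg.b2.bd rg.b2.lip x
  have s1 : (fun y => (d1 Ψ y + d2 Ψ y) ^ 2) =
      fun y => d1 Ψ y ^ 2 + 2 * (d1 Ψ y * d2 Ψ y) + d2 Ψ y ^ 2 := funext fun y => by ring
  rw [(rg.e1 x).deriv] at cu
  rw [(rg.e2 x).deriv] at cv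
  rw [(rg.e3 x).deriv] at cw
  rw [((rg.e1 x).fun_add (rg.e2 x)).deriv, s1, P_add m h x lg bu bv,
    P_add m h x lg ((bu.pow 2).add ((bu.mul bv).const_mul 2)) (bv.pow 2),
    P_add m h x lg (bu.pow 2) ((bu.mul bv).const_mul 2), P_mul] at cs
  obtain ⟨-, t2, t3, -⟩ := h1 m h A Ψ rg x
  have q2 : P m (g1 h) Ψ (H2 m Ψ) x =
      P m (g1 h) Ψ (d2 Ψ) x + m * P m (g1 h) Ψ (fun y => d1 Ψ y ^ 2) x := by
    rw [← P_mul, ← P_add m h x lg bv ((bu.pow 2).const_mul m)]; rfl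
  have q3 : P m (g1 h) Ψ (H3 m Ψ) x = P m (g1 h) Ψ (d3 Ψ) x
      + 3 * m * P m (g1 h) Ψ (fun y => d1 Ψ y * d2 Ψ y) x
      + m ^ 2 * P m (g1 h) Ψ (fun y => d1 Ψ y ^ 3) x := by
    rw [← P_mul, ← P_mul, ← P_add m h x lg bw ((bu.mul bv).const_mul _),
      ← P_add m h x lg (bw.add ((bu.mul bv).const_mul _)) ((bu.pow 3).const_mul _)]
    rfl
  have q0 : P m (g1 h) Ψ (fc0 m Ψ) x = P m (g1 h) Ψ (fun y => d3 Ψ y ^ 2) x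
      - 2 * m * P m (g1 h) Ψ (fun y => d2 Ψ y ^ 3) x := by
    rw [← P_mul, ← P_sub m h x lg (bw.pow 2) ((bv.pow 3).const_mul _)]; rfl
  obtain ⟨e1, a1, b1⟩ := scale (K' := K) hs p2 (by linarith) cu
  obtain ⟨e2, a2, b2⟩ := scale (K' := K) hs p2 (by linarith) cv
  obtain ⟨e3, a3, b3⟩ := scale (K' := K) hs p2 (by linarith) cw
  obtain ⟨e4, a4, b4⟩ := scale (K' := K) hs (by positivity) (by linarith) cs
  obtain ⟨e5, a5, b5⟩ := scale (K' := K) hs p3 (by linarith) ku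
  obtain ⟨e6, a6, b6⟩ := scale (K' := K) hs p3 (by linarith) kv
  obtain ⟨f1, a7, b7⟩ := scale (K' := K) h0 p1 (by linarith) fv
  obtain ⟨f2, a8, b8⟩ := scale (K' := K) h0 p1 (by linarith) fw
  have hr : |√h| ≤ K := by
    rw [abs_of_nonneg (Real.sqrt_nonneg h)]
    linarith [Real.sqrt_le_one.2 h1']
  have key := hB √h m (d2 Ψ x) (d3 Ψ x) e1 e2 e3 e4 e5 e6 f1 f2 hr
    (by rw [abs_of_nonneg m0]; linarith) (by linarith [rg.b2.bd x]) (by linarith [rg.b3.bd x])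
    a1 a2 a3 a4 a5 a6 a7 a8
  have e : P m (g1 h) Ψ (fc0 m Ψ) x - fc0 m (T m (g1 h) Ψ) x - h * fd0 m Ψ x =
      h * √h * Q √h m (d2 Ψ x) (d3 Ψ x) e1 e2 e3 e4 e5 e6 f1 f2 := by
    rw [q0, fc0, t2, t3, q2, q3, fd0]
    generalize P m (g1 h) Ψ (d1 Ψ) x = a at *
    rw [sub_sub, sub_eq_iff_eq_add] at b1 b2 b3
    rw [sub_eq_iff_eq_add] at b7 b8
    have c4 : P m (g1 h) Ψ (fun y => d1 Ψ y * d2 Ψ y) x = a * P m (g1 h) Ψ (d2 Ψ) x +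
        h * (d2 Ψ x * d3 Ψ x) + h * √h * (e4 - e1 - e2) / 2 := by
      linear_combination (b4 - b1 - b2) / 2
    have c5 : P m (g1 h) Ψ (fun y => d1 Ψ y ^ 3) x = h * √h * e5 +
        3 * (a * P m (g1 h) Ψ (fun y => d1 Ψ y ^ 2) x) - 2 * a ^ 3 := by linear_combination b5
    have c6 : P m (g1 h) Ψ (fun y => d2 Ψ y ^ 3) x = h * √h * e6 +
        3 * (P m (g1 h) Ψ (d2 Ψ) x * P m (g1 h) Ψ (fun y => d2 Ψ y ^ 2) x) -
        2 * P m (g1 h) Ψ (d2 Ψ) x ^ 3 := by linear_combination b6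
    rw [c4, c5, c6, b1, b2, b3, b7, b8, Q]
    obtain ⟨r, hr0, rfl⟩ : ∃ r, 0 ≤ r ∧ h = r ^ 2 := ⟨√h, Real.sqrt_nonneg h, (Real.sq_sqrt h0).symm⟩
    rw [Real.sqrt_sq hr0]
    ring
  rw [e, abs_mul, abs_of_nonneg hs, mul_comm]
  exact mul_le_mul_of_nonneg_right key hs

end Vale.Agent.P367
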