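import Vale.Agent.P367.CDefs
import Vale.Agent.P146L.OFl
import Vale.Agent.P146L.ONorm
import Vale.Agent.P146L.OLev
import Vale.Agent.P146L.OGd
import Vale.Agent.P146L.OG0
import Vale.Agent.P146L.OC11
import Vale.Agent.P146L.ODP
import Vale.Agent.P146L.ORR
import Vale.Agent.P146L.OGhs

/-! # P367, classical part: the bound at fixed temperature and fixed grids -/

namespace Vale.Agent.P367

open MeasureTheory ProbabilityTheory Vale.Agent.P157 Vale.Agent.P146L Vale.Agent.P146L.One Set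

namespace CFixAux

theorem incr {B Λ V : ℝ} {L : ℕ} {ζ c : ℕ → ℝ} {γ g : ℝ → ℝ} (h : Glo B Λ L ζ c V γ g)
    {a b M : ℝ} (h0 : 0 ≤ a) (hab : a ≤ b) (hb : b ≤ B) (hM : ∀ τ, a ≤ τ → τ ≤ b → g τ ≤ M) :
    γ b - γ a ≤ M * (b - a) := by
  rw [h.ftc a b h0 hab hb]
  have hi : IntervalIntegrable g volume a b :=
    (h.cg.mono (Icc_subset_Icc h0 hb)).intervalIntegrable_of_Icc hab
  have := intervalIntegral.integral_mono_on hab hi (intervalIntegrable_const (c := M))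
    fun τ hτ => hM τ hτ.1 hτ.2
  simpa [mul_comm] using this

end CFixAux

open CFixAux in
theorem fix (h1 : S_chain) (h2 : S_ent) (h3 : S_top) (h4 : S_grid) (h5 : S_real2) : S_fix := by
  intro β Λ ε V L N ζ q β0 ε0 N1 hζ hq hG k1 hfl
  have hB : 0 < β ^ 2 := by positivity
  have hc : CAdm L (β ^ 2 • q) := by
    refine ⟨fun a b hab => ?_, fun d hd => ?_⟩
    · exact mul_le_mul_of_nonneg_left (hq.adm.anti hab) hB.le
    · simp [hq.adm.zero d hd]
  have cq : ∀ k, (β ^ 2 • q) k = β ^ 2 * q k := fun _ => rfl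
  have hp : pairing L ζ (β ^ 2 • q) (β ^ 2 • q) = β ^ 4 * pairing L ζ q q := by
    simp only [pairing, Finset.mul_sum, cq]
    exact Finset.sum_congr rfl fun k _ => by ring
  unfold GG
  simp only [← cq] at k1 hfl
  have c0 : (β ^ 2 • q) 0 = β ^ 2 := by simp [hq.top]
  have cL : (β ^ 2 • q) L = 0 := by simp [hq.root]
  have c1 := cq 1
  clear cq
  generalize β ^ 2 • q = c at *
  obtain ⟨A, -, hgd⟩ := One.gd (One.g0 (One.c11 One.dP)) One.rrT One.ghs
  have hΦ : ∀ r, Gd A (Phi L ζ c r) := fun r => (hgd ζ _ (L + 1) hζ.zok).1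
  obtain ⟨t, e, hg⟩ := h4 L N c hζ.one_le N1 hc cL
  obtain ⟨T1, T2, -, T4, T5⟩ := h3 L ζ c hζ hc
  have hF := fun d (hd : d ≤ L) => (One.fl One.norm A L ζ c d hζ.zok hc hd hΦ).1
  obtain ⟨K, hK⟩ : ∃ K, K = (L - 1) * N := ⟨_, rfl⟩
  have g1 := hg.tK
  have g2 := hg.e1
  have g3 := hg.lo
  have g4 := hg.hi
  have g5 := hg.step
  have g6 := hg.tv
  have g7 := hg.tele ζ fun x => x ^ 2
  rw [← hK] at g1 g2 g3 g4 g5 g6 g7
  rw [c0] at g5 g6
  have s0 : ∀ j, j < K → t j ≤ t (j + 1) := fun j hj => sub_nonneg.1 (g5 j hj.le).1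
  have t0 : ∀ j, j < K → 0 ≤ t j := fun j hj => (hc.nonneg _).trans (g3 j hj)
  have tB : ∀ j, j < K → t (j + 1) ≤ β ^ 2 := fun j hj =>
    (g4 j hj).trans (c0 ▸ hc.anti (Nat.zero_le _))
  have hch : Ch K A (fun j => t (j + 1) - t j) (fun j => ζ (e j)) (fun j => Phi L ζ c (t j))
      fun j => Er L ζ c (t j) :=
    ⟨fun j hj => (g5 j hj.le).1, fun j _ => hζ.zok.nn _, fun j _ => hζ.zok.le_one _,
      fun j _ => (hΦ _).g0,
      fun j hj => (hF _ (g2 j hj).2.le).semi _ _ (g3 j hj) (s0 j hj) (g4 j hj),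
      fun j hj => (hF _ (g2 j hj).2.le).cons _ _ (g3 j hj) (s0 j hj) (g4 j hj),
      fun F => by rw [hg.t0]; exact (One.lev One.norm L ζ c hζ hc).2.1 F⟩
  obtain ⟨M, hM, hν⟩ := h1 K A _ _ _ _ hch
  have hent := h2 K A ((c 0 - c 1) / 2) _ _ _ _ hch (by rw [g1]; exact T2)
  simp only [hg.t0] at hent
  change ∀ j, j < K → nu K M j ^ 2 = fa (Phi L ζ c) (Er L ζ c) (t (j + 1))
    - fa (Phi L ζ c) (Er L ζ c) (t j) ∧ √(t (j + 1) - t j) * (fv (Phi L ζ c) (Er L ζ c) (t j)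
      - nu K M j) ≤ kap K M j at hν
  change _ ≤ _ + ∑ j ∈ Finset.range K, (t (j + 1) - t j) * (fv (Phi L ζ c) (Er L ζ c) (t j)
    + ζ (e j) / 2 * fa (Phi L ζ c) (Er L ζ c) (t j)) at hent
  generalize fa (Phi L ζ c) (Er L ζ c) = γ at *
  generalize fb (Phi L ζ c) (Er L ζ c) = g at *
  generalize fv (Phi L ζ c) (Er L ζ c) = v at *
  have i1 : ∀ j, j < K → γ (t (j + 1)) - γ (t j) ≤ (1 / β ^ 2 + ε) * (t (j + 1) - t j) := by
    intro j hj
    rcases (hc.anti (Nat.le_succ (e j))).eq_or_lt with h | h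
    · have : t (j + 1) = t j := le_antisymm (by linarith [g3 j hj, g4 j hj]) (s0 j hj)
      simp [this]
    · exact incr hG (t0 j hj) (s0 j hj) (tB j hj) fun τ a b =>
        hfl _ τ (g2 j hj).1 (g2 j hj).2 h ((g3 j hj).trans a) (b.trans (g4 j hj))
  have i2 : ∀ j, j ≤ K → γ (t j) ≤ (1 / β ^ 2 + ε) * t j := by
    intro j hj
    induction j with
    | zero => simp [hg.t0, hG.γ0]
    | succ j ih => linarith [ih (by omega), i1 j hj]
  have hr := h5 K β (β ^ 2 / N) (fun j => t (j + 1) - t j) (nu K M) (kap K M) (fun j => v (t j))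
    β0 (by positivity) (fun j hj => ⟨(g5 j hj.le).1, (g5 j hj.le).2, Real.sqrt_nonneg _, by
      rw [(hν j hj).1]
      simpa using incr hG (t0 j hj) (s0 j hj) (tB j hj) fun τ _ _ => (T4 τ).2.2,
      (T4 _).1, (T4 _).2.1, (hν j hj).2⟩) (by simp [kap, co])
  have c1B : c 1 ≤ β ^ 2 := c0 ▸ hc.anti (Nat.zero_le _)
  have a1 : ∑ j ∈ Finset.range K, |nu K M j ^ 2 - (t (j + 1) - t j) / β ^ 2| ≤ 2 * ε * β ^ 2 := by
    have b1 : ∑ j ∈ Finset.range K, |nu K M j ^ 2 - (t (j + 1) - t j) / β ^ 2|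
        ≤ ∑ j ∈ Finset.range K, (((2 * ε + 1 / β ^ 2) * t (j + 1) - γ (t (j + 1)))
          - ((2 * ε + 1 / β ^ 2) * t j - γ (t j))) := by
      refine Finset.sum_le_sum fun j hj => ?_
      rw [Finset.mem_range] at hj
      rw [(hν j hj).1, div_eq_mul_one_div]
      have := i1 j hj
      have := mul_nonneg ε0 (g5 j hj.le).1
      exact abs_le.2 ⟨by linarith, by linarith⟩
    rw [Finset.sum_range_sub fun j => (2 * ε + 1 / β ^ 2) * t j - γ (t j), g1, hg.t0, hG.γ0,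
      k1] at b1
    have b2 : 1 / β ^ 2 * c 1 = q 1 := by rw [c1]; field_simp
    nlinarith [mul_le_mul_of_nonneg_left c1B ε0]
  have a2 : ∑ j ∈ Finset.range K, (t (j + 1) - t j) * (v (t j) + ζ (e j) / 2 * γ (t j))
      ≤ ∑ j ∈ Finset.range K, ((t (j + 1) - t j) * v (t j)
        + 1 / (4 * β ^ 2) * (ζ (e j) * (t (j + 1) ^ 2 - t j ^ 2))
        + ε * β ^ 2 / 2 * (t (j + 1) - t j)) := by
    refine Finset.sum_le_sum fun j hj => ?_
    rw [Finset.mem_range] at hj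
    have b0 := (g5 j hj.le).1
    have b1 := hζ.zok.nn (e j)
    have b2 := hζ.zok.le_one (e j)
    have b3 : γ (t j) ≤ 1 / β ^ 2 * t j + ε * β ^ 2 := by
      have := mul_le_mul_of_nonneg_left ((s0 j hj).trans (tB j hj)) ε0
      linarith [i2 j hj.le]
    have b4 := mul_le_mul_of_nonneg_left b3 (mul_nonneg b0 b1)
    have b5 : (t (j + 1) - t j) * ζ (e j) * (ε * β ^ 2) ≤ (t (j + 1) - t j) * 1 * (ε * β ^ 2) :=
      mul_le_mul_of_nonneg_right (mul_le_mul_of_nonneg_left b2 b0) (by positivity)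
    have b6 : 0 ≤ 1 / β ^ 2 * (ζ (e j) * (t (j + 1) - t j) ^ 2) := by positivity
    have b7 : 1 / (4 * β ^ 2) = 1 / β ^ 2 / 4 := by field_simp
    rw [b7]
    linarith
  rw [Finset.sum_add_distrib, Finset.sum_add_distrib, ← Finset.mul_sum, ← Finset.mul_sum, g7,
    Finset.sum_range_sub, g1, hg.t0] at a2
  have a3 : 1 / (4 * β ^ 2) * ∑ d ∈ Finset.Ico 1 L, ζ d * (c d ^ 2 - c (d + 1) ^ 2)
      = β ^ 2 / 4 * (q 1 ^ 2 - pairing L ζ q q) := by
    have : ∑ d ∈ Finset.Ico 1 L, ζ d * (c d ^ 2 - c (d + 1) ^ 2)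
        = β ^ 4 * (q 1 ^ 2 - pairing L ζ q q) := by
      rw [mul_sub, ← hp, T5, c1]
      ring
    rw [this]
    field_simp
  have a4 : (K : ℝ) ≤ L * N := by
    rw [hK]
    exact_mod_cast Nat.mul_le_mul_right N (Nat.sub_le L 1)
  have a5 : β * (K * (β ^ 2 / N * √(β ^ 2 / N))) ≤ β * (L * N * (β ^ 2 / N * √(β ^ 2 / N))) :=
    mul_le_mul_of_nonneg_left (mul_le_mul_of_nonneg_right a4 (by positivity)) β0.le
  have a6 := mul_le_mul_of_nonneg_left a1 hB.le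
  have a7 : ε * β ^ 2 / 2 * (c 1 - 0) ≤ ε * β ^ 2 / 2 * β ^ 2 :=
    mul_le_mul_of_nonneg_left (by linarith) (by positivity)
  have a8 : 0 ≤ ε * β ^ 4 := by positivity
  refine ⟨K, M, hM, ?_⟩
  rw [T1]
  unfold val
  rw [c0, c1] at hent
  linarith

end Vale.Agent.P367
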