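import Vale.Agent.P367.CDefs

/-! # P367, classical part: CFlat -/

namespace Vale.Agent.P367

open MeasureTheory ProbabilityTheory Vale.Agent.P157 Vale.Agent.P146L Vale.Agent.P146L.One Set

namespace CFlatAux

theorem poly (p q s a b : ℝ) : ∫ τ in a..b, (p + q * τ + s * τ ^ 2)
    = p * (b - a) + q * (b ^ 2 - a ^ 2) / 2 + s * (b ^ 3 - a ^ 3) / 3 := by
  have h : ∀ x : ℝ, HasDerivAt (fun τ : ℝ => p * τ + q / 2 * τ ^ 2 + s / 3 * τ ^ 3)
      (p + q * x + s * x ^ 2) x := fun x => by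
    have := (((hasDerivAt_id' x).const_mul p).add ((hasDerivAt_pow 2 x).const_mul (q / 2))).add
      ((hasDerivAt_pow 3 x).const_mul (s / 3))
    exact this.congr_deriv (by push_cast; ring)
  rw [intervalIntegral.integral_eq_sub_of_hasDerivAt (fun x _ => h x)
    (Continuous.intervalIntegrable (by fun_prop) _ _)]
  ring

theorem low {φ : ℝ → ℝ} {a b : ℝ} (p q s : ℝ) (hab : a ≤ b) (hc : ContinuousOn φ (Icc a b))
    (h : ∀ τ ∈ Icc a b, p + q * τ + s * τ ^ 2 ≤ φ τ) :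
    p * (b - a) + q * (b ^ 2 - a ^ 2) / 2 + s * (b ^ 3 - a ^ 3) / 3 ≤ ∫ τ in a..b, φ τ := by
  rw [← poly]
  exact intervalIntegral.integral_mono_on hab (Continuous.intervalIntegrable (by fun_prop) _ _)
    (hc.intervalIntegrable_of_Icc hab) h

theorem upp {φ : ℝ → ℝ} {a b : ℝ} (p q s : ℝ) (hab : a ≤ b) (hc : ContinuousOn φ (Icc a b))
    (h : ∀ τ ∈ Icc a b, φ τ ≤ p + q * τ + s * τ ^ 2) :
    ∫ τ in a..b, φ τ ≤ p * (b - a) + q * (b ^ 2 - a ^ 2) / 2 + s * (b ^ 3 - a ^ 3) / 3 := by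
  rw [← poly]
  exact intervalIntegral.integral_mono_on hab (hc.intervalIntegrable_of_Icc hab)
    (Continuous.intervalIntegrable (by fun_prop) _ _) h

variable {B Λ V : ℝ} {L : ℕ} {ζ c : ℕ → ℝ} {γ g : ℝ → ℝ} {a b : ℝ}

theorem l0 (h : Glo B Λ L ζ c V γ g) (ha : 0 ≤ a) (hab : a ≤ b) (hb : b ≤ B) :
    (b - a) * g a - Λ * (b - a) ^ 2 / 2 ≤ γ b - γ a := by
  rw [h.ftc a b ha hab hb]
  refine le_trans (le_of_eq (by ring)) (low (g a + Λ * a) (-Λ) 0 hab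
    (h.cg.mono (Icc_subset_Icc ha hb)) fun τ hτ => ?_)
  have := (abs_le.1 (h.lip a τ ha hτ.1 (hτ.2.trans hb))).1
  linarith

theorem r0 (h : Glo B Λ L ζ c V γ g) (ha : 0 ≤ a) (hab : a ≤ b) (hb : b ≤ B) :
    (b - a) * g b - Λ * (b - a) ^ 2 / 2 ≤ γ b - γ a := by
  rw [h.ftc a b ha hab hb]
  refine le_trans (le_of_eq (by ring)) (low (g b - Λ * b) Λ 0 hab
    (h.cg.mono (Icc_subset_Icc ha hb)) fun τ hτ => ?_)
  have := (abs_le.1 (h.lip τ b (ha.trans hτ.1) hτ.2 hb)).2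
  linarith

theorem cG (h : Glo B Λ L ζ c V γ g) (ha : 0 ≤ a) (hb : b ≤ B) :
    ContinuousOn (fun τ => γ τ - τ / B) (Icc a b) :=
  (h.cγ.mono (Icc_subset_Icc ha hb)).sub (continuous_id.div_const B).continuousOn

theorem l1 (h : Glo B Λ L ζ c V γ g) (ha : 0 ≤ a) {t : ℝ} (ht : 0 ≤ t) (hb : a + t ≤ B)
    (e : γ a = a / B) :
    (g a - 1 / B) * t ^ 2 / 2 - Λ * t ^ 3 / 6 ≤ ∫ τ in a..(a + t), (γ τ - τ / B) := by
  refine le_trans (le_of_eq (by ring)) (low (-(a * (g a - 1 / B)) - Λ * a ^ 2 / 2)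
    (g a - 1 / B + Λ * a) (-Λ / 2) (by linarith) (cG h ha hb) fun τ hτ => ?_)
  have := l0 h ha hτ.1 (hτ.2.trans hb)
  rw [e] at this
  refine le_trans (le_of_eq ?_) (sub_le_sub_right (le_sub_iff_add_le.1 this) (τ / B))
  ring

theorem r1 (h : Glo B Λ L ζ c V γ g) (hb : b ≤ B) {t : ℝ} (ht : 0 ≤ t) (ha : 0 ≤ b - t)
    (e : γ b = b / B) :
    ∫ τ in (b - t)..b, (γ τ - τ / B) ≤ -((g b - 1 / B) * t ^ 2 / 2 - Λ * t ^ 3 / 6) := by
  refine le_trans (upp (-(b * (g b - 1 / B)) + Λ * b ^ 2 / 2) (g b - 1 / B - Λ * b) (Λ / 2)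
    (by linarith) (cG h ha hb) fun τ hτ => ?_) (le_of_eq (by ring))
  have := r0 h (ha.trans hτ.1) hτ.2 hb
  rw [e] at this
  refine le_trans (sub_le_sub_right (le_sub_comm.1 this) (τ / B)) (le_of_eq ?_)
  ring

theorem cube {x r E ε : ℝ} (hΛ : 1 ≤ Λ) (hε : 0 ≤ ε) (hE : 3 * Λ ^ 2 * E ≤ ε ^ 3) (hr : 0 < r)
    (h0 : r * x - Λ * r ^ 2 / 2 ≤ 0)
    (h : ∀ t, 0 ≤ t → t ≤ r → x * t ^ 2 / 2 - Λ * t ^ 3 / 6 ≤ E) : x ≤ ε := by
  by_contra hx
  push Not at hx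
  have hL : 0 < Λ := by linarith
  have x0 : 0 < x := hε.trans_lt hx
  have h1 : x ≤ Λ * r / 2 := le_of_mul_le_mul_left (by linarith) hr
  have h2 : x / Λ ≤ r := by
    rw [div_le_iff₀ hL]
    nlinarith [mul_pos hL hr]
  have h3 := h (x / Λ) (div_pos x0 hL).le h2
  have h4 : x * (x / Λ) ^ 2 / 2 - Λ * (x / Λ) ^ 3 / 6 = x ^ 3 / (3 * Λ ^ 2) := by
    field_simp
    ring
  rw [h4, div_le_iff₀ (by positivity)] at h3
  have h5 : ε ^ 3 < x ^ 3 := pow_lt_pow_left₀ hx hε (by norm_num)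
  linarith

end CFlatAux

open CFlatAux in
theorem flat : S_flat := by
  intro B Λ E D ε V L ζ c γ g hB hΛ hD hε hE hc c0 hG hO hcv hlast d τ h1 hd hlt ha hb
  have a0 := hc.nonneg (d + 1)
  have bB : c d ≤ B := c0 ▸ hc.anti (Nat.zero_le d)
  have ea := hO.k0 (d + 1) (by omega) hd
  have eb := hO.k0 d h1 hd.le
  have hr : 0 < c d - c (d + 1) := sub_pos.2 hlt
  have gb : g (c d) - 1 / B ≤ ε := by
    refine cube hΛ hε hE hr ?_ fun t t0 t1 => ?_
    · have := r0 hG a0 hlt.le bB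
      rw [ea, eb] at this
      refine le_trans (le_of_eq ?_) (sub_nonpos.2 this)
      ring
    · have k1 := r1 hG bB t0 (by linarith) eb
      have k2 := hO.dn d (c d - t) h1 hd (by linarith) (by linarith)
      linarith
  have hDB : 0 ≤ 2 * D * B := by positivity
  rcases Nat.lt_or_ge (d + 1) L with k | k
  · have ga : g (c (d + 1)) - 1 / B ≤ ε := by
      refine cube hΛ hε hE hr ?_ fun t t0 t1 => ?_
      · have := l0 hG a0 hlt.le bB
        rw [ea, eb] at this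
        refine le_trans (le_of_eq ?_) (sub_nonpos.2 this)
        ring
      · exact (l1 hG a0 t0 (by linarith) ea).trans
          (hO.up d (c (d + 1) + t) k (by linarith) (by linarith))
    have := (hcv d h1 k).le_max_of_mem_Icc (left_mem_Icc.2 hlt.le) (right_mem_Icc.2 hlt.le)
      (⟨ha, hb⟩ : τ ∈ Icc (c (d + 1)) (c d))
    rcases le_max_iff.1 this with m | m <;> linarith
  · have := hlast d τ (c d) (by omega) ha hb le_rfl
    have : 2 * D * (c d - τ) ≤ 2 * D * B :=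
      mul_le_mul_of_nonneg_left (by linarith) (by positivity)
    linarith

open CFlatAux in
theorem atom : S_atom := by
  intro B Λ E y V L ζ c γ g hB hΛ hL hy h2 h3 h4 hc c0 hG hO hg
  by_contra hx
  push Not at hx
  have a0 := hc.nonneg 1
  have aB : c 1 ≤ B := c0 ▸ hc.anti zero_le_one
  have e1 : (1 - c 1 / B) ^ 2 = (B - c 1) ^ 2 / B ^ 2 := by field_simp
  have k1 : y ^ 2 < (B - c 1) ^ 2 := by
    rw [e1, div_lt_div_iff₀ hB (by positivity)] at hx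
    have : 2 * B < (B - c 1) ^ 2 := lt_of_mul_lt_mul_right (by nlinarith) hB.le
    linarith
  have k2 : y < B - c 1 := lt_of_pow_lt_pow_left₀ 2 (by linarith) k1
  have k3 := (l1 hG a0 hy.le (by linarith) (hO.k0 1 le_rfl (by omega))).trans
    (hO.up 0 (c 1 + y) (by omega) (by simpa using hy.le) (by linarith))
  have k4 : 1 / B ≤ g (c 1) - 1 / B := by
    have : 2 / B = 1 / B + 1 / B := by ring
    linarith
  have k5 : Λ * y ≤ 1 / B := by
    rw [le_div_iff₀ hB]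
    linarith
  have y2 : 0 < y ^ 2 := by positivity
  have k6 : 1 / B * y ^ 2 / 3 ≤ E := by
    nlinarith [mul_le_mul_of_nonneg_right k4 y2.le, mul_le_mul_of_nonneg_right k5 y2.le]
  have k7 : 1 / B * y ^ 2 / 3 = y ^ 2 / (3 * B) := by field_simp
  rw [k7, div_le_iff₀ (by positivity)] at k6
  linarith

end Vale.Agent.P367
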