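import Vale.Agent.P367.CDefs
import Vale.Agent.P146L.OSv
import Vale.Agent.P146L.OHold
import Vale.Agent.P146L.OFlow1

/-! # P367, classical part: CFlow3 -/

namespace Vale.Agent.P367

open MeasureTheory ProbabilityTheory Vale.Agent.P157 Vale.Agent.P146L Vale.Agent.P146L.One Set

namespace CFlow3Aux

theorem fd (A m : ℝ) : ∃ B, ∀ Ψ, Rg A Ψ → Bn 1 B (fd0 m Ψ) := by
  refine ⟨?_, fun Ψ h => ?_⟩
  swap
  · have v := h.b2.of_le (k := 1) (by norm_num)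
    have w := h.b3.of_le (k := 1) (by norm_num)
    have z := h.b4.pred
    have e : fd0 m Ψ = fun x => d4 Ψ x * d4 Ψ x - 12 * m * (d2 Ψ x * (d3 Ψ x * d3 Ψ x)) +
        6 * m ^ 2 * (d2 Ψ x * d2 Ψ x * (d2 Ψ x * d2 Ψ x)) := by
      funext x; unfold fd0; ring
    rw [e]
    exact ((z.mul z).sub ((v.mul (w.mul w)).const_mul _)).add
      (((v.mul v).mul (v.mul v)).const_mul _)

theorem fc {A m : ℝ} {Ψ : ℝ → ℝ} (h : Rg A Ψ) : BM (fc0 m Ψ) :=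
  (h.b3.bm.pow 2).sub ((h.b2.bm.pow 3).const_mul _)

end CFlow3Aux

open OFlow1Aux in
theorem flow3 (h1 : S_exp3) : S_flow3 := by
  intro K A m a b Φ E m0 m1 hF hR
  obtain ⟨C, -, hsv⟩ := One.sv
  obtain ⟨D, hD⟩ := h1 A
  obtain ⟨B, hB⟩ := CFlow3Aux.fd A m
  refine (One.hold a b (D + C * B) B (fc m Φ E) (fun τ => E τ (fd0 m (Φ τ)))
    (fun t ht => bound hF ht (hB _ (hR t ht)).bm (hB _ (hR t ht)).bd)
    fun s t hs hst ht hh => ?_).2.2
  have is : s ∈ Icc a b := ⟨hs, hst.trans ht⟩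
  have it : t ∈ Icc a b := ⟨hs.trans hst, ht⟩
  have h0 : 0 ≤ t - s := sub_nonneg.2 hst
  have r := hR t it
  change |E t (fc0 m (Φ t)) - E s (fc0 m (Φ s)) - _| ≤ _
  rw [hF.cons s t hs hst ht _ (CFlow3Aux.fc r), hF.cons s t hs hst ht _ (hB _ r).bm]
  refine comb hF is ((CFlow3Aux.fc r).kernel m (noise_g1 _) r.lg) (CFlow3Aux.fc (hR s is))
    ((hB _ r).bm.kernel m (noise_g1 _) r.lg) fun x => ?_
  rw [hF.semi s t hs hst ht]
  have e1 := abs_le.1 (hD m (t - s) (Φ t) m0 m1 h0 hh r x)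
  have e2 := abs_le.1 ((hsv m (t - s) B (Φ t) m0 m1 h0 hh r.lg r.lip).1 _ (hB _ r).bd
    (hB _ r).lip x)
  have e3 := mul_le_mul_of_nonneg_left e2.1 h0
  have e4 := mul_le_mul_of_nonneg_left e2.2 h0
  exact abs_le.2 ⟨by linarith [e1.1], by linarith [e1.2]⟩

end Vale.Agent.P367
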