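import Vale.Agent.P367.CDefs
import Vale.Agent.P146L.OLemA

/-! # P367, classical part: CFrsb -/

namespace Vale.Agent.P367

open MeasureTheory ProbabilityTheory Vale.Agent.P157 Vale.Agent.P146L Vale.Agent.P146L.One Set

namespace CFrsbAux

open Filter Topology OLemAAux

/-- A calibration vanishing at both ends bounds the integral from below. -/
theorem half_gen {f H : ℝ → ℝ} (cf : Continuous f) (hint : Integrable f)
    (hd : ∀ x, 0 < x → ∃ H', HasDerivAt H H' x ∧ H' ≤ f x) (h0 : Tendsto H (𝓝[>] 0) (𝓝 0))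
    (h1 : Tendsto H atTop (𝓝 0)) : 0 ≤ ∫ x in Ioi (0 : ℝ), f x := by
  have hI : ∀ x, HasDerivAt (fun y => ∫ t in (0 : ℝ)..y, f t) (f x) x := fun x =>
    (cf.integral_hasStrictDerivAt 0 x).hasDerivAt
  have hG : ∀ x, 0 < x → ∃ G', HasDerivAt (fun y => (∫ t in (0 : ℝ)..y, f t) - H y) G' x ∧
      0 ≤ G' := fun x hx => by
    obtain ⟨H', a, b⟩ := hd x hx
    exact ⟨_, (hI x).fun_sub a, sub_nonneg.2 b⟩
  have hm : MonotoneOn (fun y => (∫ t in (0 : ℝ)..y, f t) - H y) (Ioi 0) := by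
    refine monotoneOn_of_deriv_nonneg (convex_Ioi 0) (fun x hx => ?_) (fun x hx => ?_)
      fun x hx => ?_
    · obtain ⟨G', a, -⟩ := hG x hx
      exact a.continuousAt.continuousWithinAt
    · obtain ⟨G', a, -⟩ := hG x (interior_subset hx)
      exact a.differentiableAt.differentiableWithinAt
    · obtain ⟨G', a, b⟩ := hG x (interior_subset hx)
      rwa [a.deriv]
  have l1 := (intervalIntegral_tendsto_integral_Ioi 0 hint.integrableOn tendsto_id).sub h1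
  have l0 := (((hI 0).continuousAt.tendsto).mono_left
    (nhdsWithin_le_nhds (s := Ioi (0 : ℝ)))).sub h0
  rw [intervalIntegral.integral_same, sub_zero] at l0
  rw [sub_zero] at l1
  refine le_of_tendsto l0 (eventually_mem_nhdsWithin.mono fun a ha => ge_of_tendsto l1 ?_)
  filter_upwards [eventually_ge_atTop a] with b hb
  exact hm ha (lt_of_lt_of_le ha hb) hb

theorem lg_mul {Φ : ℝ → ℝ} (h : LG Φ) (m : ℝ) : LG fun x => m * Φ x := by
  obtain ⟨h1, C, hC⟩ := h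
  refine ⟨h1.const_mul m, |m| * C, fun x => ?_⟩
  rw [abs_mul, mul_assoc]
  exact mul_le_mul_of_nonneg_left (hC x) (abs_nonneg m)

theorem d4_neg {Φ : ℝ → ℝ} (h : ∀ x, Φ (-x) = Φ x) (x : ℝ) : d4 Φ (-x) = d4 Φ x :=
  d2_neg (Φ := d2 Φ) (d2_neg h) x

theorem bm_fd0 {A : ℝ} {Φ : ℝ → ℝ} (h : Rg A Φ) (m : ℝ) : BM (fd0 m Φ) :=
  ((h.b4.bm.pow 2).sub ((h.b2.bm.const_mul (12 * m)).mul (h.b3.bm.pow 2))).add
    ((h.b2.bm.pow 4).const_mul (6 * m ^ 2))

theorem cont_fd0 {A : ℝ} {Φ : ℝ → ℝ} (h : Rg A Φ) (m : ℝ) : Continuous (fd0 m Φ) := by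
  have c2 := h.b2.diff.continuous
  have c3 := h.b3.diff.continuous
  have c4 := h.b4.diff.continuous
  unfold fd0
  fun_prop

theorem f_abs {m τ : ℝ} {Φ θ : ℝ → ℝ} (h : ∀ x, Φ (-x) = Φ x) (h' : ∀ x, θ (-x) = θ x) (x : ℝ) :
    dens m τ Φ θ |x| * fd0 m Φ |x| = dens m τ Φ θ x * fd0 m Φ x := by
  rcases abs_cases x with ⟨e, -⟩ | ⟨e, -⟩
  · rw [e]
  · rw [e]
    unfold dens fd0
    rw [d2_neg h, d3_neg h, d4_neg h, h, h', neg_sq, neg_sq]

theorem f_int {A A' m τ : ℝ} {Φ θ : ℝ → ℝ} (hτ : 0 < τ) (h : Rg A Φ) (h' : Rg A' θ) :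
    Continuous (fun x => dens m τ Φ θ x * fd0 m Φ x) ∧
      Integrable fun x => dens m τ Φ θ x * fd0 m Φ x := by
  have c1 := h.diff.continuous
  have c2 := h'.diff.continuous
  have cd : Continuous (dens m τ Φ θ) := by
    unfold dens
    fun_prop
  have cf : Continuous fun x => dens m τ Φ θ x * fd0 m Φ x := cd.mul (cont_fd0 h m)
  obtain ⟨D, hD, hρ⟩ := rho_le (τ := τ) ((lg_mul h.lg m).sub h'.lg) zero_le_one hτ
  obtain ⟨-, C, hC⟩ := bm_fd0 h m
  have hb : 0 < 1 / (4 * τ) := by positivity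
  refine ⟨cf, (((integrable_exp_neg_mul_sq hb).const_mul D).mul_const C).mono'
    cf.aestronglyMeasurable (ae_of_all _ fun x => ?_)⟩
  have p : 0 < dens m τ Φ θ x := Real.exp_pos _
  have q := hρ x
  unfold rhoA at q
  rw [one_mul] at q
  rw [Real.norm_eq_abs, abs_mul, abs_of_pos p]
  exact mul_le_mul q (hC x) (abs_nonneg _) (by positivity)

end CFrsbAux

open CFrsbAux in
theorem frsb (h1 : S_cala) (h2 : S_calb) : S_frsb := by
  intro A A' m τ Φ θ hm hm1 hτ hΦ hθ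
  rw [gexp_eq]
  refine div_nonneg ?_ (integral_nonneg fun x => (Real.exp_pos _).le)
  have hv : τ.toNNReal ≠ 0 := by simpa using hτ
  unfold g1
  rw [integral_gaussianReal_eq_integral_smul hv]
  have e : ∀ x : ℝ, gaussianPDFReal 0 τ.toNNReal x •
      (Real.exp (1 * (m * Φ x - θ x)) * fd0 m Φ x) =
      (√(2 * Real.pi * τ))⁻¹ * (dens m τ Φ θ |x| * fd0 m Φ |x|) := by
    intro x
    rw [f_abs hΦ.even hθ.even, one_mul, smul_eq_mul]
    unfold gaussianPDFReal dens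
    rw [Real.coe_toNNReal _ hτ.le, sub_zero, sub_eq_add_neg _ (x ^ 2 / (2 * τ)), Real.exp_add,
      neg_div]
    ring
  simp only [e]
  rw [integral_const_mul, integral_comp_abs (f := fun x => dens m τ Φ θ x * fd0 m Φ x)]
  obtain ⟨cf, hint⟩ := f_int (m := m) hτ hΦ.rg hθ.rg
  obtain ⟨l0, l1⟩ := h2 A A' m τ Φ θ hm hm1 hτ hΦ hθ
  have := half_gen cf hint (h1 A A' m τ Φ θ hm hτ hΦ hθ) l0 l1
  positivity

end Vale.Agent.P367
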