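import Vale.Agent.P367.CDefs
import Vale.Agent.P146L.OLemA
import Vale.Agent.P146L.OGhs

/-! # P367, classical part: CGeo -/

namespace Vale.Agent.P367

open MeasureTheory ProbabilityTheory Vale.Agent.P157 Vale.Agent.P146L Vale.Agent.P146L.One Set

namespace CGeoAux

/-- A function with nonnegative derivative increases. -/
theorem grow {f f' : ℝ → ℝ} {a b : ℝ} (hab : a ≤ b) (hd : ∀ y, HasDerivAt f (f' y) y)
    (h : ∀ y, a < y → y < b → 0 ≤ f' y) : f a ≤ f b := by
  rcases hab.eq_or_lt with rfl | hlt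
  · exact le_rfl
  obtain ⟨c, hc, e⟩ := exists_hasDerivAt_eq_slope f f' hlt
    (fun y _ => (hd y).continuousAt.continuousWithinAt) fun y _ => hd y
  have h1 := h c hc.1 hc.2
  rw [e] at h1
  have h2 := (div_nonneg_iff.1 h1).resolve_right fun h3 => absurd h3.2 (by linarith)
  linarith [h2.1]

/-- The inequality of Glaeser. -/
theorem glaeser {A : ℝ} {v w : ℝ → ℝ} (hd : ∀ x, HasDerivAt v (w x) x) (h0 : ∀ x, 0 ≤ v x)
    (hl : ∀ x y, |w x - w y| ≤ A * |x - y|) (x : ℝ) : w x ^ 2 ≤ 2 * A * v x := by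
  have hg : ∀ t, HasDerivAt (fun t => A / 2 * (t * t) + w x * t + v x - v (x + t))
      (A * t + w x - w (x + t)) t := fun t => by
    have := (((((hasDerivAt_id' t).fun_mul (hasDerivAt_id' t)).const_mul (A / 2)).fun_add
      ((hasDerivAt_id' t).const_mul (w x))).add_const (v x)).fun_sub
      ((hd (x + t)).comp_const_add x t)
    exact this.congr_deriv (by ring)
  have key : ∀ t, 0 ≤ A / 2 * (t * t) + w x * t + v x := fun t => by
    have h1 := h0 (x + t)
    rcases le_total 0 t with ht | ht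
    · have := grow ht hg fun y hy _ => by
        have h2 := (le_abs_self _).trans (hl (x + y) x)
        rw [add_sub_cancel_left, abs_of_pos hy] at h2
        linarith
      simp only [mul_zero, add_zero, zero_add, sub_self] at this
      linarith
    · have := grow ht (fun y => (hg y).fun_neg) fun y _ hy => by
        have h2 := (neg_le_abs _).trans (hl (x + y) x)
        rw [add_sub_cancel_left, abs_of_neg hy] at h2
        linarith
      simp only [mul_zero, add_zero, zero_add, sub_self, neg_zero] at this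
      linarith
  have := discrim_le_zero key
  unfold discrim at this
  linarith

theorem odd_zero {u : ℝ → ℝ} (h : ∀ x, u (-x) = -u x) : u 0 = 0 := by
  have := h 0
  rw [neg_zero] at this
  linarith

/-- The pointwise inequalities in terms of the four derivatives. -/
theorem core {m : ℝ} {u v w z : ℝ → ℝ} (hm : 0 ≤ m) (e1 : ∀ x, HasDerivAt u (v x) x)
    (e2 : ∀ x, HasDerivAt v (w x) x) (e3 : ∀ x, HasDerivAt w (z x) x) (u0 : u 0 = 0)
    (w0 : w 0 = 0) (hv : ∀ x, 0 < v x) (hk : ∀ x, v x * z x - w x ^ 2 + 2 * m * v x ^ 3 ≤ 0)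
    {x : ℝ} (hx : 0 < x) :
    0 < u x ∧ x * v x ≤ u x ∧ 2 * (m * u x) ≤ -w x / v x ∧
      u x ≤ x * (v x + -w x / v x * u x / 2) := by
  have upos : ∀ y, 0 < y → 0 < u y := fun y hy => by
    have := strictMono_of_deriv_pos (f := u) (fun t => by rw [(e1 t).deriv]; exact hv t) hy
    rwa [u0] at this
  have hs : ∀ y, HasDerivAt (fun y => -w y / v y) ((w y ^ 2 - v y * z y) / v y ^ 2) y := fun y =>
    ((e3 y).fun_neg.fun_div (e2 y) (hv y).ne').congr_deriv (by ring)
  have hs1 : ∀ y, 2 * (m * v y) ≤ (w y ^ 2 - v y * z y) / v y ^ 2 := fun y => by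
    rw [le_div_iff₀ (pow_pos (hv y) 2)]
    have := hk y
    nlinarith
  have h3 : ∀ y, 0 < y → 2 * (m * u y) ≤ -w y / v y := fun y hy => by
    have := grow hy.le (fun t => (hs t).fun_sub (((e1 t).const_mul m).const_mul 2))
      fun t _ _ => sub_nonneg.2 (hs1 t)
    simp only [u0, w0, neg_zero, zero_div, mul_zero, sub_self] at this
    linarith
  have s0 : ∀ y, 0 < y → 0 ≤ -w y / v y := fun y hy =>
    (mul_nonneg zero_le_two (mul_nonneg hm (upos y hy).le)).trans (h3 y hy)
  have w1 : ∀ y, 0 < y → w y ≤ 0 := fun y hy => by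
    have := mul_nonneg (s0 y hy) (hv y).le
    rw [div_mul_cancel₀ _ (hv y).ne'] at this
    linarith
  have h2 : ∀ y, 0 < y → y * v y ≤ u y := fun y hy => by
    have := grow hy.le (fun t => (e1 t).fun_sub ((hasDerivAt_id' t).fun_mul (e2 t)))
      fun t ht _ => by nlinarith [w1 t ht]
    simp only [u0, zero_mul, sub_self] at this
    linarith
  refine ⟨upos x hx, h2 x hx, h3 x hx, ?_⟩
  have := grow hx.le (fun t => ((hasDerivAt_id' t).fun_mul
    ((e2 t).fun_add (((hs t).fun_mul (e1 t)).div_const 2))).fun_sub (e1 t)) fun t ht _ => by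
      have a1 := s0 t ht
      have a2 := sub_nonneg.2 (h2 t ht)
      have a3 := (mul_nonneg zero_le_two (mul_nonneg hm (hv t).le)).trans (hs1 t)
      have a4 : -w t / v t * v t = -w t := div_mul_cancel₀ _ (hv t).ne'
      have a5 := mul_nonneg a1 a2
      have a6 := mul_nonneg ht.le (mul_nonneg a3 (upos t ht).le)
      generalize -w t / v t = s at *
      generalize (w t ^ 2 - v t * z t) / v t ^ 2 = s' at *
      have a7 : w t = -(s * v t) := by linarith
      rw [a7]
      nlinarith
  simp only [u0, zero_mul, sub_self] at this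
  linarith

end CGeoAux

theorem geo : S_geo := by
  intro A m Φ hm h
  refine ⟨CGeoAux.glaeser h.rg.e2 (fun x => (h.pos x).le) h.rg.b3.lip, fun x hx => ?_⟩
  exact CGeoAux.core hm h.rg.e1 h.rg.e2 h.rg.e3 (CGeoAux.odd_zero (OLemAAux.d1_neg h.even))
    (CGeoAux.odd_zero (OLemAAux.d3_neg h.even)) h.pos h.hk hx

theorem geo2 : S_geo2 := by
  intro A m τ θ hτ h x hx
  have u0 : d1 θ 0 = 0 := CGeoAux.odd_zero (OLemAAux.d1_neg h.even)
  have anti : AntitoneOn (d2 θ) (Ici 0) := fun a ha b _ hab => by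
    have ha0 : (0 : ℝ) ≤ a := ha
    have := OGhsAux.second h.rg.e0 h.rg.e1 h.rr (s := (a + b) / 2) (t := (b - a) / 2)
      (by linarith) (by linarith)
    have e1 : (a + b) / 2 + (b - a) / 2 = b := by ring
    have e2 : (a + b) / 2 - (b - a) / 2 = a := by ring
    rwa [e1, e2] at this
  have hl : ∀ y, HasDerivAt (fun y => y / τ + d1 θ y) (1 / τ + d2 θ y) y := fun y =>
    ((hasDerivAt_id' y).div_const τ).fun_add (h.rg.e1 y)
  have h2 : x * (1 / τ + d2 θ x) ≤ x / τ + d1 θ x := by
    have := CGeoAux.grow hx (fun t => (hl t).fun_sub ((hasDerivAt_id' t).fun_mul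
      ((h.rg.e2 t).const_add (1 / τ)))) fun t ht _ => by
        nlinarith [OGhsAux.der_nonpos ht.le (h.rg.e2 t) anti]
    simp only [u0, zero_mul, zero_div, add_zero, sub_self] at this
    linarith
  refine ⟨le_of_not_gt fun hneg => ?_, h2⟩
  have h3 : 1 / τ + d2 θ x < 0 := lt_of_not_ge fun h4 => by
    have := mul_nonneg hx h4
    linarith
  have h4 := CGeoAux.grow (le_max_left x τ) (fun t => (hl t).fun_neg) fun t ht _ => by
    have := anti hx (hx.trans ht.le) ht.le
    linarith
  have h5 : 1 ≤ max x τ / τ := (one_le_div hτ).2 (le_max_right _ _)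
  have h6 := (abs_le.1 (h.rg.u1 (max x τ))).1
  linarith

end Vale.Agent.P367
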