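import Vale.Agent.P367.CDefs

/-! # P367, classical part: CGrid -/

namespace Vale.Agent.P367

open MeasureTheory ProbabilityTheory Vale.Agent.P157 Vale.Agent.P146L Vale.Agent.P146L.One Set

namespace CGridAux

theorem block (F : ℕ → ℝ) (N a : ℕ) : ∑ j ∈ Finset.range (a * N), F j =
    ∑ i ∈ Finset.range a, ∑ b ∈ Finset.range N, F (i * N + b) := by
  induction a with
  | zero => simp
  | succ a ih => rw [Nat.succ_mul, Finset.sum_range_add, ih, Finset.sum_range_succ]

theorem dv {N b : ℕ} (i : ℕ) (hb : b < N) : (i * N + b) / N = i := by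
  rw [add_comm, Nat.add_mul_div_right _ _ (Nat.zero_lt_of_lt hb), Nat.div_eq_of_lt hb, zero_add]

theorem tval (C : ℕ → ℝ) {N : ℕ} (hN : 1 ≤ N) (a : ℕ) :
    ∑ j ∈ Finset.range (a * N), (C (j / N + 1) - C (j / N)) / N = C a - C 0 := by
  rw [block, ← Finset.sum_range_sub]
  refine Finset.sum_congr rfl fun i _ => ?_
  rw [Finset.sum_congr rfl fun b hb => by rw [dv i (Finset.mem_range.mp hb)], Finset.sum_const,
    Finset.card_range, nsmul_eq_mul, mul_div_cancel₀ _ (Nat.cast_ne_zero.mpr (by omega))]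

theorem tvar (H : ℕ → ℝ) {N : ℕ} (hN : 1 ≤ N) {B : ℝ} (hH : ∀ a, 0 ≤ H a ∧ H a ≤ B) (a : ℕ) :
    ∑ j ∈ Finset.range (a * N), |H ((j + 1) / N) - H (j / N)| ≤ a * B := by
  obtain ⟨n, rfl⟩ : ∃ n, N = n + 1 := ⟨N - 1, by omega⟩
  rw [block]
  refine (Finset.sum_le_card_nsmul _ _ B fun i _ => ?_).trans_eq
    (by rw [Finset.card_range, nsmul_eq_mul])
  rw [Finset.sum_range_succ, Finset.sum_eq_zero, zero_add, abs_le]
  · constructor <;>
      linarith [hH ((i * (n + 1) + n + 1) / (n + 1)), hH ((i * (n + 1) + n) / (n + 1))]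
  · intro b hb
    have h := Finset.mem_range.mp hb
    rw [add_assoc, dv i (by omega), dv i (by omega), sub_self, abs_zero]

end CGridAux

open CGridAux in
theorem gridE : S_grid := by
  intro L N c hL hN hc h0
  obtain ⟨M, rfl⟩ : ∃ M, L = M + 1 := ⟨L - 1, by omega⟩
  obtain ⟨H, hH⟩ : ∃ H : ℕ → ℝ, ∀ a, H a = (c (M + 1 - (a + 1)) - c (M + 1 - a)) / N :=
    ⟨_, fun _ => rfl⟩
  obtain ⟨t, ht⟩ : ∃ t : ℕ → ℝ, ∀ j, t j = ∑ i ∈ Finset.range j, H (i / N) := ⟨_, fun _ => rfl⟩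
  have hN0 : (0 : ℝ) ≤ N := Nat.cast_nonneg N
  have h1 : ∀ a, 0 ≤ H a ∧ H a ≤ c 0 / N := fun a => by
    rw [hH]
    refine ⟨div_nonneg (sub_nonneg.mpr (hc.anti (by omega))) hN0,
      div_le_div_of_nonneg_right ?_ hN0⟩
    linarith [hc.nonneg (M + 1 - a), hc.anti (Nat.zero_le (M + 1 - (a + 1)))]
  have h2 : ∀ j, t (j + 1) - t j = H (j / N) := fun j => by
    rw [ht, ht, Finset.sum_range_succ, add_sub_cancel_left]
  have h3 : ∀ a, t (a * N) = c (M + 1 - a) := fun a => by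
    have h4 := tval (fun a => c (M + 1 - a)) hN a
    simp only [Nat.sub_zero, h0, sub_zero] at h4
    rw [ht, ← h4]
    exact Finset.sum_congr rfl fun i _ => hH _
  have h4 : Monotone t := monotone_nat_of_le_succ fun j => by linarith [h2 j, (h1 (j / N)).1]
  have h5 : ∀ j, j < M * N → j / N < M := fun j hj => Nat.div_lt_of_lt_mul (mul_comm M N ▸ hj)
  refine ⟨t, fun j => M - j / N, ?_, ?_, fun j hj => ?_, fun j hj => ?_, fun j hj => ?_,
    fun j _ => ?_, ?_, fun a G => ?_⟩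
  · rw [ht, Finset.sum_range_zero]
  · rw [Nat.add_sub_cancel, h3, Nat.add_sub_cancel_left]
  · exact ⟨Nat.sub_pos_of_lt (h5 j hj), Nat.lt_succ_of_le (Nat.sub_le _ _)⟩
  · have h6 := h5 j hj
    have h7 := h4 (Nat.div_mul_le_self j N)
    rwa [h3, show M + 1 - j / N = M - j / N + 1 by omega] at h7
  · have h7 := h4 (show j + 1 ≤ (j / N + 1) * N by
      rw [mul_comm]
      exact Nat.lt_mul_div_succ j hN)
    rwa [h3, Nat.add_sub_add_right] at h7
  · rw [h2]
    exact h1 _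
  · simp only [h2]
    refine (tvar H hN h1 _).trans (mul_le_mul_of_nonneg_right ?_ ((h1 0).1.trans (h1 0).2))
    exact Nat.cast_le.mpr (Nat.sub_le _ _)
  · rw [Nat.add_sub_cancel, block, Finset.sum_Ico_eq_sum_range, Nat.add_sub_cancel,
      ← Finset.sum_range_reflect _ M]
    refine Finset.sum_congr rfl fun i hi => ?_
    have h6 := Finset.mem_range.mp hi
    rw [Finset.sum_congr rfl fun b hb => by rw [dv _ (Finset.mem_range.mp hb)], ← Finset.mul_sum]
    have h7 := Finset.sum_range_sub (fun b => G (t ((M - 1 - i) * N + b))) N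
    simp only [← add_assoc, add_zero] at h7
    rw [h7, ← Nat.succ_mul, h3, h3, show M - (M - 1 - i) = 1 + i by omega,
      show M + 1 - (M - 1 - i).succ = 1 + i by omega,
      show M + 1 - (M - 1 - i) = 1 + i + 1 by omega]

end Vale.Agent.P367
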