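import Vale.Agent.P367.CDefs
import Vale.Agent.P030.And

/-! # P367, classical part: CHk -/

namespace Vale.Agent.P367

open MeasureTheory ProbabilityTheory Vale.Agent.P157 Vale.Agent.P146L Vale.Agent.P146L.One Set

namespace CHkAux

variable {A m h : ℝ} {Ψ f f1 f2 : ℝ → ℝ}

theorem lg_id : LG fun y : ℝ => y :=
  ⟨measurable_id, 1, fun y => by rw [Real.norm_eq_abs]; linarith⟩

theorem le_lin {a C y : ℝ} (h : |a| ≤ C) : |a| ≤ C * (1 + |y|) :=
  h.trans (le_mul_of_one_le_right ((abs_nonneg _).trans h) (by linarith [abs_nonneg y]))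

theorem mom1 (h2 : S_ibp) (hh : 0 ≤ h) (hΨ : Rg A Ψ) (b : BM f) (b1 : BM f1)
    (hd : ∀ y, HasDerivAt f (f1 y - m * (d1 Ψ y * f y)) y) (x : ℝ) :
    gexp (g1 h) m (fun y => Ψ (x + y)) (fun y => f (x + y) * y) = h * P m (g1 h) Ψ f1 x := by
  obtain ⟨-, C', hC'⟩ := b1.sub ((hΨ.bn.bm.mul b).const_mul m)
  obtain ⟨-, C, hC⟩ := b
  have c0 := (abs_nonneg _).trans (hC 0)
  have c1 := (abs_nonneg _).trans (hC' 0)
  have := h2 m h (C + C') x Ψ (d1 Ψ) (fun y => f (x + y))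
    (fun y => f1 (x + y) - m * (d1 Ψ (x + y) * f (x + y))) hh hΨ.lg hΨ.e0 hΨ.u1
    (fun y => (hd (x + y)).comp_const_add x y) (fun y => le_lin ((hC _).trans (by linarith)))
    fun y => le_lin ((hC' _).trans (by linarith))
  simpa only [mul_comm _ (f _), sub_add_cancel, P] using this

theorem mom2 (h2 : S_ibp) (hh : 0 ≤ h) (hΨ : Rg A Ψ) (b : BM f) (b1 : BM f1) (b2 : BM f2)
    (hd : ∀ y, HasDerivAt f (f1 y - m * (d1 Ψ y * f y)) y)
    (hd1 : ∀ y, HasDerivAt f1 (f2 y - m * (d1 Ψ y * f1 y)) y) (x : ℝ) :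
    gexp (g1 h) m (fun y => Ψ (x + y)) (fun y => f (x + y) * y ^ 2) =
      h * P m (g1 h) Ψ f x + h ^ 2 * P m (g1 h) Ψ f2 x := by
  obtain ⟨-, C', hC'⟩ := b1.sub ((hΨ.bn.bm.mul b).const_mul m)
  obtain ⟨C, hC⟩ := b.2
  obtain ⟨C1, hC1⟩ := b1.2
  have c0 := (abs_nonneg _).trans (hC 0)
  have c1 := (abs_nonneg _).trans (hC' 0)
  have h3 := h2 m h (C + C') x Ψ (d1 Ψ) (fun y => f (x + y) * y)
    (fun y => (f1 (x + y) - m * (d1 Ψ (x + y) * f (x + y))) * y + f (x + y) * 1) hh hΨ.lg hΨ.e0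
    hΨ.u1 (fun y => ((hd (x + y)).comp_const_add x y).mul (hasDerivAt_id' y))
    (fun y => by
      rw [abs_mul]
      nlinarith [mul_le_mul_of_nonneg_right (hC (x + y)) (abs_nonneg y), abs_nonneg y])
    fun y => (abs_add_le _ _).trans (by
      rw [abs_mul, mul_one]
      nlinarith [mul_le_mul_of_nonneg_right (hC' (x + y)) (abs_nonneg y), abs_nonneg y,
        hC (x + y)])
  have e1 : (fun y => y * (f (x + y) * y)) = fun y => f (x + y) * y ^ 2 := funext fun y => by ring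
  have e2 : (fun y => (f1 (x + y) - m * (d1 Ψ (x + y) * f (x + y))) * y + f (x + y) * 1 +
      m * (d1 Ψ (x + y) * (f (x + y) * y))) = fun y => f (x + y) + f1 (x + y) * y :=
    funext fun y => by ring
  have i0 : EInt (g1 h) fun y => 0 + y := lg_id.eint (noise_g1 h) 0
  have i1 : EInt (g1 h) fun y => f1 (x + y) * y :=
    i0.of_le ((b1.1.comp (measurable_const_add x)).mul measurable_id) (C := 0) (D := C1)
      fun y => by
        rw [zero_add, zero_add, abs_mul]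
        exact mul_le_mul_of_nonneg_right (hC1 _) (abs_nonneg y)
  rw [e1, e2, gexp_add m (hΨ.lg.eint (noise_g1 h) x) (b.lg.eint (noise_g1 h) x) i1,
    mom1 h2 hh hΨ b1 b2 hd1] at h3
  rw [h3, mul_add, ← mul_assoc, ← sq]
  rfl

theorem bH2 (hΨ : Rg A Ψ) (m : ℝ) : BM (H2 m Ψ) := hΨ.b2.bm.add ((hΨ.bn.bm.pow 2).const_mul m)

theorem bH3 (hΨ : Rg A Ψ) (m : ℝ) : BM (H3 m Ψ) :=
  (hΨ.b3.bm.add ((hΨ.bn.bm.mul hΨ.b2.bm).const_mul _)).add ((hΨ.bn.bm.pow 3).const_mul _)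

theorem bH4 (hΨ : Rg A Ψ) (m : ℝ) : BM (H4 m Ψ) :=
  (((hΨ.b4.bm.add ((hΨ.bn.bm.mul hΨ.b3.bm).const_mul _)).add ((hΨ.b2.bm.pow 2).const_mul _)).add
    (((hΨ.bn.bm.pow 2).mul hΨ.b2.bm).const_mul _)).add ((hΨ.bn.bm.pow 4).const_mul _)

theorem dH1 (hΨ : Rg A Ψ) (m y : ℝ) :
    HasDerivAt (d1 Ψ) (H2 m Ψ y - m * (d1 Ψ y * d1 Ψ y)) y :=
  (hΨ.e1 y).congr_deriv (by rw [H2]; ring)

theorem dH2 (hΨ : Rg A Ψ) (m y : ℝ) :
    HasDerivAt (H2 m Ψ) (H3 m Ψ y - m * (d1 Ψ y * H2 m Ψ y)) y :=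
  ((hΨ.e2 y).add (((hΨ.e1 y).pow 2).const_mul m)).congr_deriv (by
    rw [H2, H3]
    push_cast
    ring)

theorem dH3 (hΨ : Rg A Ψ) (m y : ℝ) :
    HasDerivAt (H3 m Ψ) (H4 m Ψ y - m * (d1 Ψ y * H3 m Ψ y)) y :=
  (((hΨ.e3 y).add (((hΨ.e1 y).mul (hΨ.e2 y)).const_mul (3 * m))).add
    (((hΨ.e1 y).pow 3).const_mul (m ^ 2))).congr_deriv (by
    rw [H3, H4]
    push_cast
    ring)

theorem sgn {U H : ℝ → ℝ} (h : ∀ a b c : ℝ, a ≤ b → b ≤ c →
    (U b - U a) * (H c - H b) ≤ (U c - U b) * (H b - H a)) (a b c : ℝ) :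
    ((U b - U a) * (H c - H b) - (U c - U b) * (H b - H a)) * ((b - a) * (c - a) * (c - b)) ≤ 0 := by
  have k : ∀ a b c : ℝ, a ≤ b → b ≤ c → ((U b - U a) * (H c - H b) - (U c - U b) * (H b - H a)) *
      ((b - a) * (c - a) * (c - b)) ≤ 0 := fun a b c h1 h2 =>
    mul_nonpos_of_nonpos_of_nonneg (sub_nonpos.2 (h a b c h1 h2))
      (mul_nonneg (mul_nonneg (sub_nonneg.2 h1) (sub_nonneg.2 (h1.trans h2))) (sub_nonneg.2 h2))
  rcases le_total a b with h1 | h1 <;> rcases le_total b c with h2 | h2 <;>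
    rcases le_total a c with h3 | h3
  · exact k a b c h1 h2
  · exact k a b c h1 h2
  · exact (k a c b h3 h2).trans_eq' (by ring)
  · exact (k c a b h3 h1).trans_eq' (by ring)
  · exact (k b a c h1 h3).trans_eq' (by ring)
  · exact (k b c a h2 h3).trans_eq' (by ring)
  · exact (k c b a h2 h1).trans_eq' (by ring)
  · exact (k c b a h2 h1).trans_eq' (by ring)

end CHkAux

open CHkAux in
theorem hk (h1 : S_dT) (h2 : S_ibp) (h3 : S_det) : S_hk := by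
  intro A m h Ψ hm hΨ hp hK
  rcases le_or_gt h 0 with hh | hh
  · rw [g1_of_nonpos hh, T_dirac]
    exact ⟨hp, hK⟩
  have hn := noise_g1 h
  refine ⟨fun x => ?_, fun x => ?_⟩
  · have hF := hΨ.lg.eint hn x
    have := hF.prob_tilted m
    have e1 := gexp_add m hF (hΨ.b2.bm.lg.eint hn x) (((hΨ.bn.bm.pow 2).const_mul m).lg.eint hn x)
    rw [gexp_const_mul] at e1
    have e2 := mul_le_mul_of_nonneg_left (sq_gexp_le m hF (hΨ.bn.bm.lg.eint hn x)) hm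
    have e3 : 0 < gexp (g1 h) m (fun z => Ψ (x + z)) fun z => d2 Ψ (x + z) := by
      refine (integral_pos_iff_support_of_nonneg (fun z => (hp _).le)
        (hF.tilted (hΨ.b2.bm.lg.eint hn x) m).integrable).2 ?_
      rw [show Function.support (fun z => d2 Ψ (x + z)) = univ from
        eq_univ_of_forall fun z => (hp _).ne', measure_univ]
      exact one_pos
    rw [(h1 m h A Ψ hΨ x).2.1]
    simp only [P, H2]
    linarith
  · have hF := hΨ.lg.eint hn x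
    have := hF.prob_tilted m
    have i0 : EInt (g1 h) fun y => y := by simpa only [zero_add] using lg_id.eint hn 0
    have ib : ∀ {f : ℝ → ℝ}, BM f → ∀ k : ℕ, Integrable (fun y => f (x + y) * y ^ k)
        ((g1 h).tilted fun y => m * Ψ (x + y)) := fun {f} b k => by
      obtain ⟨b1, C, hC⟩ := b
      exact ((hF.tilted i0 m).integrable_pow k).bdd_mul (c := C)
        (b1.comp (measurable_const_add x)).aestronglyMeasurable (ae_of_all _ fun y => hC _)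
    have k := (Vale.Agent.P030.And.andreief (μ := (g1 h).tilted fun y => m * Ψ (x + y))
      (f := fun i y => ![fun _ => 1, d1 Ψ, H2 m Ψ] i (x + y)) (g := fun (j : Fin 3) y => y ^ (j : ℕ))
      fun i j => by
        fin_cases i
        exacts [ib (BM.const 1) j, ib hΨ.bn.bm j, ib (bH2 hΨ m) j]).2
    have k1 := integral_nonpos (μ := Measure.pi fun _ : Fin 3 =>
      (g1 h).tilted fun y => m * Ψ (x + y)) (f := fun ω : Fin 3 → ℝ =>
        (Matrix.of fun i l => ![fun _ => 1, d1 Ψ, H2 m Ψ] i (x + ω l)).det *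
          (Matrix.of fun (j : Fin 3) l => ω l ^ (j : ℕ)).det) fun ω => by
      refine (sgn (U := fun y => d1 Ψ (x + y)) (H := fun y => H2 m Ψ (x + y))
        (fun a b c a1 a2 => h3 A m Ψ hΨ hp hK _ _ _ (by linarith) (by linarith))
        (ω 0) (ω 1) (ω 2)).trans_eq' ?_
      simp [Matrix.det_fin_three]
      ring
    rw [k] at k1
    have d0 : ∀ y, HasDerivAt (fun _ : ℝ => (1 : ℝ)) (m * d1 Ψ y - m * (d1 Ψ y * 1)) y :=
      fun y => (hasDerivAt_const y 1).congr_deriv (by ring)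
    have d0' : ∀ y, HasDerivAt (fun y => m * d1 Ψ y)
        (m * H2 m Ψ y - m * (d1 Ψ y * (m * d1 Ψ y))) y :=
      fun y => ((dH1 hΨ m y).const_mul m).congr_deriv (by ring)
    have a00 : P m (g1 h) Ψ (fun _ => 1) x = 1 := gexp_const m hF 1
    have a01 := mom1 h2 hh.le hΨ (BM.const 1) (hΨ.bn.bm.const_mul m) d0 x
    have a02 := mom2 h2 hh.le hΨ (BM.const 1) (hΨ.bn.bm.const_mul m) ((bH2 hΨ m).const_mul m)
      d0 d0' x
    have a11 := mom1 h2 hh.le hΨ hΨ.bn.bm (bH2 hΨ m) (dH1 hΨ m) x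
    have a12 := mom2 h2 hh.le hΨ hΨ.bn.bm (bH2 hΨ m) (bH3 hΨ m) (dH1 hΨ m) (dH2 hΨ m) x
    have a21 := mom1 h2 hh.le hΨ (bH2 hΨ m) (bH3 hΨ m) (dH2 hΨ m) x
    have a22 := mom2 h2 hh.le hΨ (bH2 hΨ m) (bH3 hΨ m) (bH4 hΨ m) (dH2 hΨ m) (dH3 hΨ m) x
    have p1 : P m (g1 h) Ψ (fun y => m * d1 Ψ y) x = m * P m (g1 h) Ψ (d1 Ψ) x :=
      gexp_const_mul _ _ _ _
    have p2 : P m (g1 h) Ψ (fun y => m * H2 m Ψ y) x = m * P m (g1 h) Ψ (H2 m Ψ) x :=
      gexp_const_mul _ _ _ _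
    rw [p1] at a01
    rw [p2, a00] at a02
    have e : (Matrix.of fun (i j : Fin 3) => ∫ y, ![fun _ => 1, d1 Ψ, H2 m Ψ] i (x + y) * y ^ (j : ℕ)
        ∂((g1 h).tilted fun y => m * Ψ (x + y))) =
        !![1, h * (m * P m (g1 h) Ψ (d1 Ψ) x), h * 1 + h ^ 2 * (m * P m (g1 h) Ψ (H2 m Ψ) x);
          P m (g1 h) Ψ (d1 Ψ) x, h * P m (g1 h) Ψ (H2 m Ψ) x,
            h * P m (g1 h) Ψ (d1 Ψ) x + h ^ 2 * P m (g1 h) Ψ (H3 m Ψ) x;
          P m (g1 h) Ψ (H2 m Ψ) x, h * P m (g1 h) Ψ (H3 m Ψ) x,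
            h * P m (g1 h) Ψ (H2 m Ψ) x + h ^ 2 * P m (g1 h) Ψ (H4 m Ψ) x] := by
      rw [← a02, ← a12, ← a22, ← a01, ← a11, ← a21]
      ext i j
      fin_cases i <;> fin_cases j <;> simp [P, gexp]
    rw [e, Matrix.det_fin_three] at k1
    obtain ⟨-, q2, q3, q4⟩ := h1 m h A Ψ hΨ x
    rw [q2, q3, q4]
    refine le_of_mul_le_mul_left (k1.trans_eq' ?_ |>.trans_eq (mul_zero _).symm)
      (show 0 < 6 * h ^ 3 by positivity)
    simp [Nat.factorial]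
    ring

end Vale.Agent.P367
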