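import Vale.Agent.P367.CDefs
import Vale.Agent.P146L.RStein

/-! # P367, classical part: CIbp -/

namespace Vale.Agent.P367

open MeasureTheory ProbabilityTheory Vale.Agent.P157 Vale.Agent.P146L Vale.Agent.P146L.One Set

namespace CIbpAux

theorem int {m h K x : ℝ} {Ψ G : ℝ → ℝ} (hΨ : LG Ψ) (hG : Measurable G)
    (hb : ∀ y, |G y| ≤ K * (1 + |y|) ^ 2) :
    Integrable (fun y => Real.exp (m * Ψ (x + y)) * G y) (g1 h) := by
  have hK : 0 ≤ K := by simpa using (abs_nonneg _).trans (hb 0)
  have e := hΨ.eint (noise_g1 h) x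
  refine ((((e.const_mul m).add ((CascAux.eint_norm (noise_g1 h)).const_mul 2)).2 1).const_mul
    K).mono' ((e.1.const_mul m).exp.mul hG).aestronglyMeasurable (ae_of_all _ fun y => ?_)
  rw [Real.norm_eq_abs, abs_mul, abs_of_pos (Real.exp_pos _), one_mul, Real.exp_add,
    mul_left_comm, Real.norm_eq_abs, two_mul, Real.exp_add, ← sq]
  exact mul_le_mul_of_nonneg_left ((hb y).trans (mul_le_mul_of_nonneg_left (pow_le_pow_left₀
    (by positivity) (by linarith [Real.add_one_le_exp |y|]) 2) hK)) (Real.exp_pos _).le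

end CIbpAux

theorem ibp : S_ibp := by
  intro m h C x Ψ u φ φ' hh hΨ d1 b1 d2 b2 b3
  have hC : 0 ≤ C := by simpa using (abs_nonneg _).trans (b2 0)
  have mφ : Measurable φ := (continuous_iff_continuousAt.2 fun y => (d2 y).continuousAt).measurable
  have md : ∀ {f f' : ℝ → ℝ}, (∀ y, HasDerivAt f (f' y) y) → Measurable f' := fun {f f'} k =>
    (funext fun y => (k y).deriv : deriv f = f') ▸ measurable_deriv f
  have q : ∀ y : ℝ, C * (1 + |y|) ≤ C * (1 + |y|) ^ 2 := fun y =>
    mul_le_mul_of_nonneg_left (by nlinarith [abs_nonneg y]) hC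
  have i0 := CIbpAux.int (m := m) (h := h) (x := x) hΨ mφ fun y => (b2 y).trans (q y)
  have i1 := CIbpAux.int (m := m) (h := h) (x := x) (K := C) (G := fun y => y * φ y) hΨ
    (measurable_id.mul mφ) fun y => by
    rw [abs_mul]
    nlinarith [b2 y, abs_nonneg y, abs_nonneg (φ y), mul_le_mul_of_nonneg_left (b2 y) (abs_nonneg y)]
  have i2 := CIbpAux.int (m := m) (h := h) (x := x) (K := C + |m| * C)
    (G := fun y => φ' y + m * (u (x + y) * φ y)) hΨ
    ((md d2).add ((((md d1).comp (measurable_const_add x)).mul mφ).const_mul m)) fun y => by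
      refine (abs_add_le _ _).trans ?_
      rw [abs_mul, abs_mul, add_mul, mul_assoc]
      exact add_le_add ((b3 y).trans (q y)) (mul_le_mul_of_nonneg_left ((mul_le_of_le_one_left
        (abs_nonneg _) (b1 _)).trans ((b2 y).trans (q y))) (abs_nonneg m))
  have key := RSteinAux.stein1 hh (g := fun y => (Real.exp (m * Ψ (x + y)) * φ y : ℝ))
    (g' := fun y => (Real.exp (m * Ψ (x + y)) * (φ' y + m * (u (x + y) * φ y)) : ℝ))
    (fun y => HasDerivAt.ofReal_comp
      ((((((d1 (x + y)).comp_const_add x y).const_mul m).exp.mul (d2 y))).congr_deriv (by ring)))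
    i0.ofReal (i1.ofReal.congr (ae_of_all _ fun y => (congrArg Complex.ofReal (mul_left_comm _ _ _)).trans
      (Complex.ofReal_mul _ _))) i2.ofReal
  simp only [← Complex.ofReal_mul, integral_complex_ofReal, Complex.ofReal_inj] at key
  rw [gexp_eq, gexp_eq, ← mul_div_assoc, ← key]
  simp only [mul_left_comm]

end Vale.Agent.P367
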