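import Vale.Agent.P367.CMain

/-! # P367, classical part: the interface with the quantum part -/

namespace Vale.Agent.P367

open MeasureTheory ProbabilityTheory Vale.Agent.P157

namespace CIfaceAux

variable {K : ℕ} {M : ℕ → (Fin K → ℝ) → ℝ}

theorem orth (j : Fin K) {Y W : (Fin K → ℝ) → ℝ} (hi : Integrable (fun z => Y z * W z) (gK K))
    (hY : ∀ z, ∫ t, Y (Function.update z j t) ∂gaussianReal 0 1 = 0)
    (hW : ∀ z t, W (Function.update z j t) = W z) : ∫ z, Y z * W z ∂gK K = 0 := by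
  rw [(CChainAux.fub j hi).2]
  simp only [hW, integral_mul_const, hY, zero_mul, integral_zero]

/-- Functions of the coordinates below `k`. -/
def Dep (k : ℕ) (W : (Fin K → ℝ) → ℝ) : Prop :=
  ∀ z z' : Fin K → ℝ, (∀ i : Fin K, (i : ℕ) < k → z i = z' i) → W z = W z'

theorem Dep.upd {k : ℕ} {W : (Fin K → ℝ) → ℝ} (h : Dep k W) (j : Fin K) (hj : k ≤ j)
    (z : Fin K → ℝ) (t : ℝ) : W (Function.update z j t) = W z :=
  h _ _ fun i hi => Function.update_of_ne (fun e => by rw [e] at hi; omega) _ _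

theorem bmM (h : Mart K M) (j : ℕ) : BM (M j) := ⟨h.meas j, 1, h.bd j⟩

theorem imul {Y W : (Fin K → ℝ) → ℝ} (hY : BM Y) (hW : Integrable W (gK K)) :
    Integrable (fun z => Y z * W z) (gK K) :=
  let ⟨h1, _, h2⟩ := hY
  hW.bdd_mul h1.aestronglyMeasurable (ae_of_all _ h2)

theorem md (h : Mart K M) (j : Fin K) (z : Fin K → ℝ) :
    ∫ t, (M (j + 1) (Function.update z j t) - M j (Function.update z j t)) ∂gaussianReal 0 1
      = 0 := by
  have e : ∀ t, M j (Function.update z j t) = M j z := Dep.upd (h.adapt j) j le_rfl z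
  have i : Integrable (fun t => M (j + 1) (Function.update z j t)) (gaussianReal 0 1) :=
    BM.integrable ⟨(h.meas _).comp (measurable_update z), 1, fun _ => h.bd _ _⟩
  simp only [e]
  rw [integral_sub i (integrable_const _), h.mart]
  simp

theorem down (h : Mart K M) {k a : ℕ} (hka : k ≤ a) (ha : a ≤ K) {W : (Fin K → ℝ) → ℝ}
    (hW : Integrable W (gK K)) (hd : Dep k W) :
    ∫ z, M a z * W z ∂gK K = ∫ z, M k z * W z ∂gK K := by
  induction a, hka using Nat.le_induction with
  | base => rfl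
  | succ a hka ih =>
    rw [← ih (by omega), ← sub_eq_zero, ← integral_sub (imul (bmM h _) hW) (imul (bmM h _) hW)]
    simp only [← sub_mul]
    exact orth ⟨a, ha⟩ (imul ((bmM h _).sub (bmM h _)) hW) (md h ⟨a, ha⟩) (hd.upd ⟨a, ha⟩ hka)

/-- The sign. -/
noncomputable def sg (t : ℝ) : ℝ := if 0 ≤ t then 1 else -1

theorem sg_meas : Measurable sg :=
  Measurable.ite measurableSet_Ici measurable_const measurable_const

theorem sg_mul (t : ℝ) : sg t * sg t = 1 := by
  unfold sg
  split_ifs <;> norm_num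

theorem sg_abs (t : ℝ) : |sg t| ≤ 1 := by
  unfold sg
  split_ifs <;> norm_num

theorem sg_int : ∫ t, sg t ∂gaussianReal 0 1 = 0 := by
  have h1 : ∫ t, sg t ∂gaussianReal 0 1 = ∫ t, sg (-t) ∂gaussianReal 0 1 := by
    rw [← g1_one]
    conv_lhs => rw [← g1_map_neg]
    exact integral_map measurable_neg.aemeasurable sg_meas.aestronglyMeasurable
  haveI : NullSingletonClass (gaussianReal 0 1) := nullSingletonClass_gaussianReal one_ne_zero
  have h2 : ∫ t, sg (-t) ∂gaussianReal 0 1 = ∫ t, -sg t ∂gaussianReal 0 1 := by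
    refine integral_congr_ae ?_
    filter_upwards [(Set.countable_singleton (0 : ℝ)).ae_notMem (gaussianReal 0 1)] with t ht
    have h0 : t ≠ 0 := ht
    unfold sg
    rcases h0.lt_or_gt with h | h
    · rw [if_pos (by linarith), if_neg (by linarith), neg_neg]
    · rw [if_neg (by linarith), if_pos h.le]
  rw [integral_neg] at h2
  linarith

/-- The normalized increments. -/
noncomputable def Y (K : ℕ) (M : ℕ → (Fin K → ℝ) → ℝ) (j : ℕ) (z : Fin K → ℝ) : ℝ :=
  if nu K M j = 0 then sg (co z j) else (nu K M j)⁻¹ * (M (j + 1) z - M j z)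

theorem Y_bm (h : Mart K M) (j : ℕ) : BM (Y K M j) := by
  unfold Y
  split_ifs
  · exact ⟨sg_meas.comp (CChainAux.meas_co j), 1, fun _ => sg_abs _⟩
  · exact ((bmM h _).sub (bmM h _)).const_mul _

theorem Y_dep (h : Mart K M) (j : ℕ) : Dep (j + 1) (Y K M j) := by
  intro z z' e
  unfold Y
  rw [h.adapt (j + 1) z z' e, h.adapt j z z' fun i hi => e i (by omega)]
  unfold co
  split_ifs with h1 h2
  · rw [e ⟨j, h2⟩ (Nat.lt_succ_self j)]
  all_goals rfl

theorem Y_md (h : Mart K M) (j : Fin K) (z : Fin K → ℝ) :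
    ∫ t, Y K M j (Function.update z j t) ∂gaussianReal 0 1 = 0 := by
  unfold Y
  split_ifs
  · simp only [CChainAux.co_upd, sg_int]
  · rw [integral_const_mul, md h, mul_zero]

theorem nu_sq (j : ℕ) : ∫ z, (M (j + 1) z - M j z) ^ 2 ∂gK K = nu K M j ^ 2 :=
  (Real.sq_sqrt (integral_nonneg fun _ => sq_nonneg _)).symm

theorem Y_sq (j : ℕ) : ∫ z, Y K M j z * Y K M j z ∂gK K = 1 := by
  have := CChainAux.prob K
  unfold Y
  split_ifs with h0
  · simp [sg_mul]
  · have e : ∀ z, (nu K M j)⁻¹ * (M (j + 1) z - M j z) * ((nu K M j)⁻¹ * (M (j + 1) z - M j z))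
        = (nu K M j)⁻¹ ^ 2 * (M (j + 1) z - M j z) ^ 2 := fun z => by ring
    simp only [e]
    rw [integral_const_mul, nu_sq]
    field_simp

theorem Y_inc (h : Mart K M) (j : ℕ) :
    ∫ z, (M (j + 1) z - M j z) * Y K M j z ∂gK K = nu K M j := by
  have := CChainAux.prob K
  unfold Y
  split_ifs with h0
  · have e := nu_sq (M := M) j
    rw [h0, zero_pow two_ne_zero, integral_eq_zero_iff_of_nonneg (fun _ => sq_nonneg _)
      (((bmM h _).sub (bmM h _)).pow 2).integrable] at e
    rw [h0]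
    refine integral_eq_zero_of_ae ?_
    filter_upwards [e] with z hz
    rw [pow_eq_zero_iff two_ne_zero |>.1 hz, zero_mul]
    rfl
  · have e : ∀ z, (M (j + 1) z - M j z) * ((nu K M j)⁻¹ * (M (j + 1) z - M j z))
        = (nu K M j)⁻¹ * (M (j + 1) z - M j z) ^ 2 := fun z => by ring
    simp only [e]
    rw [integral_const_mul, nu_sq]
    field_simp

/-- The directions. -/
noncomputable def D (K : ℕ) (M : ℕ → (Fin K → ℝ) → ℝ) : ℕ → (Fin K → ℝ) → ℝ
  | 0 => fun _ => 1
  | j + 1 => Y K M j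

theorem D_bm (h : Mart K M) (l : ℕ) : BM (D K M l) := by
  cases l with
  | zero => exact BM.const 1
  | succ j => exact Y_bm h j

theorem D_dep (h : Mart K M) (l : ℕ) : Dep l (D K M l) := by
  cases l with
  | zero => exact fun _ _ _ => rfl
  | succ j => exact Y_dep h j

theorem D_orth (h : Mart K M) {l l' : ℕ} (hl : l < l') (hK : l' ≤ K) :
    ∫ z, D K M l' z * D K M l z ∂gK K = 0 := by
  have := CChainAux.prob K
  obtain ⟨j, rfl⟩ : ∃ j, l' = j + 1 := ⟨l' - 1, by omega⟩
  exact orth ⟨j, hK⟩ ((D_bm h _).mul (D_bm h _)).integrable (Y_md h ⟨j, hK⟩)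
    ((D_dep h l).upd ⟨j, hK⟩ (Nat.lt_succ_iff.1 hl))

theorem D_sq (l : ℕ) : ∫ z, D K M l z * D K M l z ∂gK K = 1 := by
  have := CChainAux.prob K
  cases l with
  | zero => simp [D]
  | succ j => exact Y_sq j

theorem D_m (h : Mart K M) {l : ℕ} (hl : l ≤ K) :
    ∫ z, D K M l z * M K z ∂gK K = if l = 0 then 0 else nu K M (l - 1) := by
  have := CChainAux.prob K
  simp only [mul_comm (D K M l _)]
  rw [down h hl le_rfl (D_bm h l).integrable (D_dep h l)]
  cases l with
  | zero => simp [h.zero]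
  | succ j =>
    have i := (Y_bm h j).integrable (ν := gK K)
    have e1 := Y_inc h j
    have e2 := orth ⟨j, hl⟩ ((Y_bm h j).mul (bmM h j)).integrable (Y_md h ⟨j, hl⟩)
      (Dep.upd (h.adapt j) ⟨j, hl⟩ le_rfl)
    simp only [sub_mul] at e1
    simp only [mul_comm (Y K M j _)] at e2
    rw [integral_sub (imul (bmM h _) i) (imul (bmM h _) i), e2, sub_zero] at e1
    simpa [D] using e1

theorem m_z (h : Mart K M) (l : Fin K) : ∫ z, M K z * z l ∂gK K = kap K M l := by
  have i := CChainAux.int_co l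
  have d : Dep (l + 1) fun z : Fin K → ℝ => co z l := fun z z' e => by
    simp only [CChainAux.co_lt]
    exact e l (Nat.lt_succ_self _)
  have e2 := orth l (Y := fun z => co z l) (W := M l)
    (by simpa only [mul_comm] using imul (bmM h l) i)
    (fun z => by simp only [CChainAux.co_upd, integral_id_gaussianReal]) (Dep.upd (h.adapt l) l le_rfl)
  simp only [mul_comm (co _ _)] at e2
  unfold kap
  simp only [sub_mul]
  rw [integral_sub (imul (bmM h _) i) (imul (bmM h _) i), e2, sub_zero,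
    ← down h l.2 le_rfl i d]
  simp only [CChainAux.co_lt]

end CIfaceAux

open CIfaceAux in
theorem cStm : ∀ ε : ℝ, ε > 0 → ∃ (K : ℕ) (m : (Fin K → ℝ) → ℝ) (D : Fin K → (Fin K → ℝ) → ℝ),
    Measurable m ∧ (∀ z, |m z| ≤ 1) ∧ (∀ l, Measurable (D l) ∧ ∃ C, ∀ z, |D l z| ≤ C) ∧
    (∀ l z z', (∀ i : Fin K, i.val < l.val → z i = z' i) → D l z = D l z') ∧
    (∀ l l', ∫ z, D l z * D l' z ∂gK K = if l = l' then 1 else 0) ∧
    ∀ n ≥ 1, gse n - ε ≤ ∑ l, (∫ z, D l z * m z ∂gK K) * ∫ z, m z * z l ∂gK K := by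
  intro ε hε
  obtain ⟨K, M, h, hv⟩ := classical ε hε
  refine ⟨K, M K, fun l => D K M l, h.meas K, h.bd K, fun l => D_bm h l, fun l => D_dep h l,
    fun l l' => ?_, fun n hn => ?_⟩
  · rcases lt_trichotomy l l' with a | rfl | a
    · rw [if_neg a.ne]
      simpa only [mul_comm] using D_orth h a l'.2.le
    · rw [if_pos rfl]
      exact D_sq _
    · rw [if_neg a.ne']
      exact D_orth h a l.2.le
  · have e : ∑ l : Fin K, (∫ z, D K M l z * M K z ∂gK K) * ∫ z, M K z * z l ∂gK K
        = ∑ l ∈ Finset.range K, (if l = 0 then 0 else nu K M (l - 1)) * kap K M l := by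
      rw [← Fin.sum_univ_eq_sum_range fun l => (if l = 0 then 0 else nu K M (l - 1)) * kap K M l]
      exact Finset.sum_congr rfl fun l _ => by rw [D_m h l.2.le, m_z h]
    have e1 := Finset.sum_range_succ (fun l => (if l = 0 then 0 else nu K M (l - 1)) * kap K M l) K
    have e2 : kap K M K = 0 := by simp [kap, co]
    rw [Finset.sum_range_succ', e2] at e1
    have e3 := hv n hn
    unfold val at e3
    simp only [Nat.succ_ne_zero, if_false, if_true, Nat.add_sub_cancel] at e1
    linarith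

end Vale.Agent.P367
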