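import Vale.Agent.P367.CDefs
import Vale.Agent.P146L.OSv

/-! # P367, classical part: CK3 -/

namespace Vale.Agent.P367

open MeasureTheory ProbabilityTheory Vale.Agent.P157 Vale.Agent.P146L Vale.Agent.P146L.One Set

namespace CK3Aux

open OSvAux

theorem cum {C h A c : ℝ} {μ : Measure ℝ} (H : Mu C h μ) (hC : 0 ≤ C) (h0 : 0 ≤ h) (hA : 0 ≤ A)
    {g : ℝ → ℝ} (hc : Continuous g) (hb : ∀ z, |g z| ≤ A * |z|) :
    |∫ z, (g z + c) ^ 3 ∂μ - 3 * ((∫ z, (g z + c) ∂μ) * ∫ z, (g z + c) ^ 2 ∂μ) +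
      2 * (∫ z, (g z + c) ∂μ) ^ 3| ≤ (C + 3 * C ^ 2 + 2 * C ^ 3) * A ^ 3 * (h * √h) := by
  have := H.prob
  have hk : ∀ k z, |g z ^ k| ≤ A ^ k * |z| ^ k := fun k z => by
    rw [abs_pow, ← mul_pow]
    exact pow_le_pow_left₀ (abs_nonneg _) (hb z) k
  have i : ∀ k, Integrable (fun z => g z ^ k) μ := fun k => H.int_of (by fun_prop) k (hk k)
  have e : ∀ a b d r : ℝ, ∫ z, (a * g z ^ 3 + b * g z ^ 2 + d * g z ^ 1 + r) ∂μ =
      a * ∫ z, g z ^ 3 ∂μ + b * ∫ z, g z ^ 2 ∂μ + d * ∫ z, g z ^ 1 ∂μ + r := fun a b d r => by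
    have j1 : Integrable (fun z => a * g z ^ 3 + b * g z ^ 2) μ :=
      ((i 3).const_mul a).add ((i 2).const_mul b)
    have j2 : Integrable (fun z => a * g z ^ 3 + b * g z ^ 2 + d * g z ^ 1) μ :=
      j1.add ((i 1).const_mul d)
    rw [integral_add j2 (integrable_const r), integral_add j1 ((i 1).const_mul d),
      integral_add ((i 3).const_mul a) ((i 2).const_mul b)]
    simp [integral_const_mul]
  have e1 : (fun z => g z + c) = fun z => 0 * g z ^ 3 + 0 * g z ^ 2 + 1 * g z ^ 1 + c :=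
    funext fun z => by ring
  have e2 : (fun z => (g z + c) ^ 2) =
      fun z => 0 * g z ^ 3 + 1 * g z ^ 2 + 2 * c * g z ^ 1 + c ^ 2 := funext fun z => by ring
  have e3 : (fun z => (g z + c) ^ 3) =
      fun z => 1 * g z ^ 3 + 3 * c * g z ^ 2 + 3 * c ^ 2 * g z ^ 1 + c ^ 3 := funext fun z => by ring
  have b1 : |∫ z, g z ^ 1 ∂μ| ≤ A * (C * √h) := (H.abs_le 1 (hk 1)).trans (by
    simpa only [pow_one] using mul_le_mul_of_nonneg_left H.m1 hA)
  have b2 : |∫ z, g z ^ 2 ∂μ| ≤ A ^ 2 * (C * h) := (H.abs_le 2 (hk 2)).trans (by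
    simpa only [sq_abs] using mul_le_mul_of_nonneg_left H.m2 (sq_nonneg A))
  have b3 := (H.abs_le 3 (hk 3)).trans (mul_le_mul_of_nonneg_left H.m3 (pow_nonneg hA 3))
  rw [e1, e2, e3, e, e, e]
  generalize ∫ z, g z ^ 1 ∂μ = x at *
  generalize ∫ z, g z ^ 2 ∂μ = y at *
  generalize ∫ z, g z ^ 3 ∂μ = w at *
  have b4 : |x * y| ≤ A * (C * √h) * (A ^ 2 * (C * h)) := by
    rw [abs_mul]
    gcongr
  have b5 : |x ^ 3| ≤ (A * (C * √h)) ^ 3 := by
    rw [abs_pow]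
    gcongr
  rw [mul_pow, mul_pow, pow_succ √h, Real.sq_sqrt h0] at b5
  rw [abs_le] at *
  constructor <;> linarith

end CK3Aux

theorem k3 : S_k3 := by
  obtain ⟨C, hC, H⟩ := OSvAux.exists_mu
  refine ⟨C + 3 * C ^ 2 + 2 * C ^ 3, by positivity, fun m h A Ψ f m0 m1 h0 h1 hΨ hL hf hl x => ?_⟩
  have hA : 0 ≤ A := (abs_nonneg _).trans (hf 0)
  have hc := OSvAux.cont_of_lip hA hl
  simpa only [sub_add_cancel, P, gexp] using CK3Aux.cum (c := f x) (g := fun z => f (x + z) - f x)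
    (H m h Ψ m0 m1 h0 h1 hΨ hL x) hC h0 hA (by fun_prop) fun z => by simpa using hl (x + z) x

end Vale.Agent.P367
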