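import Vale.Agent.P367.CDefs
import Vale.Agent.P146L.ODP
import Vale.Agent.P146L.OFlow1

/-! # P367, classical part: COne -/

namespace Vale.Agent.P367

open MeasureTheory ProbabilityTheory Vale.Agent.P157 Vale.Agent.P146L Vale.Agent.P146L.One Set

namespace COneAux

theorem push {m h : ℝ} {Ψ : ℝ → ℝ} {τ : ℝ → ℝ → ℝ} (hT : Tr m h Ψ τ) (x : ℝ) {g : ℝ → ℝ}
    (hg : Measurable g) :
    ∫ t, g (τ x t) ∂gaussianReal 0 1 = gexp (g1 h) m (fun y => Ψ (x + y)) g := by
  have hm : Measurable (τ x) := hT.meas.of_uncurry_left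
  rw [gexp, ← hT.push x, integral_map hm.aemeasurable hg.aestronglyMeasurable]

theorem bm_comp {F σ : ℝ → ℝ} (hF : BM F) (hσ : Measurable σ) : BM fun t => F (σ t) :=
  let ⟨h1, C, h2⟩ := hF
  ⟨h1.comp hσ, C, fun _ => h2 _⟩

end COneAux

open COneAux in
theorem one (h1 : S_ibp) : S_one := by
  intro A m h Ψ τ h0 hG hT x
  have hm : Measurable (τ x) := hT.meas.of_uncurry_left
  have hm' : Measurable fun t => x + τ x t := hm.const_add x
  have p1 : ∀ F, BM F → ∫ t, F (x + τ x t) ∂gaussianReal 0 1 = P m (g1 h) Ψ F x := fun F hF =>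
    push hT x (g := fun y => F (x + y)) (hF.1.comp (measurable_const_add x))
  obtain ⟨s1, s2⟩ := stepT A m h Ψ hG
  have bu : BM (d1 Ψ) := OFlow1Aux.bm0 hG.cu
  have bv : BM (d2 Ψ) := OFlow1Aux.bm0 hG.cv
  have p2 : ∫ t, d1 Ψ (x + τ x t) ∂gaussianReal 0 1 = d1 (T m (g1 h) Ψ) x := by
    rw [s1]; exact p1 _ bu
  have hl : |d1 (T m (g1 h) Ψ) x| ≤ 1 := by rw [s1]; exact abs_P_le _ _ _ hG.u1 x
  have hl' : P m (g1 h) Ψ (d1 Ψ) x = d1 (T m (g1 h) Ψ) x := by rw [s1]
  have s3 := s2 x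
  rw [hl'] at s3
  generalize d1 (T m (g1 h) Ψ) x = l at p2 hl hl' s3 ⊢
  have i1 : Integrable (fun t => d1 Ψ (x + τ x t)) (gaussianReal 0 1) := (bm_comp bu hm').integrable
  have i2 : Integrable (fun t => d1 Ψ (x + τ x t) ^ 2) (gaussianReal 0 1) :=
    ((bm_comp bu hm').pow 2).integrable
  refine ⟨p1, p2, ?_, ?_⟩
  · have e : ∀ t, (d1 Ψ (x + τ x t) - l) ^ 2 =
        d1 Ψ (x + τ x t) ^ 2 - 2 * l * d1 Ψ (x + τ x t) + l ^ 2 := fun t => by ring
    have i4 : Integrable (fun t => d1 Ψ (x + τ x t) ^ 2 - 2 * l * d1 Ψ (x + τ x t))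
      (gaussianReal 0 1) := i2.sub (i1.const_mul _)
    simp only [e]
    rw [integral_add i4 (integrable_const _),
      integral_sub i2 (i1.const_mul _), integral_const_mul, p2, p1 _ (bu.pow 2)]
    simp only [integral_const, probReal_univ, one_smul]
    ring
  rcases h0.eq_or_lt with rfl | h0'
  · have e : ∀ t, τ x t = 0 := fun t => by simpa using hT.near x t
    simp only [e, Real.sqrt_zero, zero_mul]
    rw [integral_const_mul, integral_id_gaussianReal, mul_zero]
  have hs : 0 < √h := Real.sqrt_pos.2 h0'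
  have hD : ∀ y, |d1 Ψ y - l| ≤ 2 := fun y => (abs_sub _ _).trans (by linarith [hG.u1 y])
  have bD : BM fun t => d1 Ψ (x + τ x t) - l := (bm_comp bu hm').sub (BM.const l)
  have bR : BM fun t => τ x t - √h * t :=
    ⟨hm.sub (measurable_id.const_mul _), h, hT.near x⟩
  have i3 : Integrable (fun t => (d1 Ψ (x + τ x t) - l) * t) (gaussianReal 0 1) :=
    (IsGaussian.integrable_id (μ := gaussianReal 0 1)).bdd_mul bD.1.aestronglyMeasurable
      (ae_of_all _ fun t => hD _)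
  have hν := noise_g1 h
  have := hν.prob
  have eΨ := hG.lg.eint hν x
  have eu := bu.lg.eint hν x
  have eu2 := (bu.pow 2).lg.eint hν x
  have k1 : ∫ t, τ x t * (d1 Ψ (x + τ x t) - l) ∂gaussianReal 0 1 = h * d2 (T m (g1 h) Ψ) x := by
    rw [push hT x (g := fun y => y * (d1 Ψ (x + y) - l))
      (measurable_id.mul ((bu.1.comp (measurable_const_add x)).sub_const l)),
      h1 m h 2 x Ψ (d1 Ψ) (fun y => d1 Ψ (x + y) - l) (fun y => d2 Ψ (x + y)) h0 hG.lg hG.der hG.u1
        (fun y => ((hG.cu.der (x + y)).comp_const_add x y).sub_const l)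
        (fun y => (hD _).trans (by linarith [abs_nonneg y]))
        (fun y => by
          rw [abs_of_nonneg (hG.v0 _)]
          linarith [abs_nonneg y, hG.v1 (x + y)]), s3]
    have e : ∀ y, d2 Ψ (x + y) + m * (d1 Ψ (x + y) * (d1 Ψ (x + y) - l)) =
        d2 Ψ (x + y) + m * (d1 Ψ (x + y) ^ 2 - l * d1 Ψ (x + y)) := fun y => by ring
    simp only [e]
    rw [gexp_add m eΨ (bv.lg.eint hν x) ((eu2.sub (eu.const_mul l)).const_mul m), gexp_const_mul,
      gexp_sub m eΨ eu2 (eu.const_mul l), gexp_const_mul, sq l,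
      show gexp (g1 h) m (fun z => Ψ (x + z)) (fun z => d1 Ψ (x + z)) = l from hl']
    rfl
  have k2 : ∫ t, τ x t * (d1 Ψ (x + τ x t) - l) ∂gaussianReal 0 1 =
      ∫ t, (τ x t - √h * t) * (d1 Ψ (x + τ x t) - l) ∂gaussianReal 0 1 +
        √h * ∫ t, (d1 Ψ (x + τ x t) - l) * t ∂gaussianReal 0 1 := by
    rw [← integral_const_mul, ← integral_add (bR.mul bD).integrable (i3.const_mul _)]
    exact integral_congr_ae (ae_of_all _ fun t => by ring)
  have k3 : ∫ t, (τ x t - √h * t) * (d1 Ψ (x + τ x t) - l) ∂gaussianReal 0 1 ≤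
      h * ∫ t, |d1 Ψ (x + τ x t) - l| ∂gaussianReal 0 1 := by
    rw [← integral_const_mul]
    refine integral_mono (bR.mul bD).integrable (bD.abs.const_mul h).integrable fun t => ?_
    refine (le_abs_self _).trans ?_
    rw [abs_mul]
    exact mul_le_mul_of_nonneg_right (hT.near x t) (abs_nonneg _)
  refine le_of_mul_le_mul_left ?_ hs
  rw [← mul_assoc, Real.mul_self_sqrt h0]
  linarith

end Vale.Agent.P367
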