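import Vale.Agent.P367.CDefs
import Vale.Agent.P146L.ORR

/-! # P367, classical part: CRRn -/

namespace Vale.Agent.P367

open MeasureTheory ProbabilityTheory Vale.Agent.P157 Vale.Agent.P146L Vale.Agent.P146L.One Set

namespace CRRnAux

open ORRAux

theorem neg (v : ℝ) (Ψ : ℝ → ℝ) (w : ℝ) :
    T (-1) (g1 v) Ψ w = -T 1 (g1 v) (fun x => -Ψ x) w := by
  simp [T, lse]

theorem stepN {B : ℝ → ℝ → ℝ} (h : Good B) (v : ℝ) :
    Good fun s t => T (-1) (g1 v) (fun x => B x t) s := by
  have := (noise_g1 v).prob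
  have l1 : ∀ x y t, |-B x t - -B y t| ≤ 2 * |x - y| := fun x y t => by
    rw [neg_sub_neg, abs_sub_comm]; exact h.lip1 x y t
  have l2 : ∀ x t t', |-B x t - -B x t'| ≤ 2 * |t - t'| := fun x t t' => by
    rw [neg_sub_neg, abs_sub_comm]; exact h.lip2 x t t'
  have lg : ∀ t, LG fun x => -B x t := fun t => lg_of_lip fun x y => l1 x y t
  refine ⟨fun s t => ?_, fun s t => by simp only [h.ev2],
    fun s s' t => ?_, fun s t t' => ?_, fun s s' t t' a b c d => ?_⟩
  · rw [neg, neg, T_even 1 v (lg t).1 (fun x => by rw [h.ev1 x t]) s]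
  · rw [neg, neg, neg_sub_neg, abs_sub_comm]
    refine abs_lse_sub_le zero_le_one ((lg t).eint (noise_g1 v) s') ((lg t).eint (noise_g1 v) s)
      (ae_of_all _ fun z => ?_)
    simpa only [add_sub_add_right_eq_sub] using l1 (s + z) (s' + z) t
  · rw [neg, neg, neg_sub_neg, abs_sub_comm]
    exact abs_lse_sub_le zero_le_one ((lg t').eint (noise_g1 v) s) ((lg t).eint (noise_g1 v) s)
      (ae_of_all _ fun z => l2 _ t t')
  · have e := T_sub_T_EN zero_le_one v (lg t) (fun x => by rw [h.ev1 x t]) (lg t')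
      ⟨fun x => by simp only [h.ev1], fun x hx y _ hxy => by
        have := h.mix x y t t' hx hxy c d
        simp only
        linarith⟩
      ⟨(lg t').1.sub (lg t).1, 2 * |t' - t|, fun x => l2 x t' t⟩
    have := e.2 a (a.trans b) b
    simp only [neg] at this ⊢
    linarith

end CRRnAux

open ORRAux CRRnAux in
theorem rrN : S_rrN := by
  intro h Ψ hΨ hev hlip hR
  rcases le_total h 0 with hh | hh
  · rwa [g1_of_nonpos hh, T_dirac]
  have g0 : Good fun s t => Ψ (s + t) + Ψ (s - t) := by
    refine ⟨fun s t => ?_, fun s t => ?_, fun s s' t => ?_, fun s t t' => ?_, hR⟩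
    · rw [← hev (-s + t), ← hev (-s - t), add_comm (Ψ _)]
      congr 2 <;> ring
    · rw [add_comm (Ψ _), sub_neg_eq_add, ← sub_eq_add_neg]
    · have a1 := hlip (s + t) (s' + t)
      have a2 := hlip (s - t) (s' - t)
      rw [add_sub_add_right_eq_sub] at a1
      rw [sub_sub_sub_cancel_right] at a2
      rw [add_sub_add_comm]
      exact (abs_add_le _ _).trans (by linarith)
    · have a1 := hlip (s + t) (s + t')
      have a2 := hlip (s - t) (s - t')
      rw [add_sub_add_left_eq_sub] at a1
      rw [sub_sub_sub_cancel_left, abs_sub_comm t'] at a2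
      rw [add_sub_add_comm]
      exact (abs_add_le _ _).trans (by linarith)
  have g2 := (stepN (stepN g0 (h / 2)).flip (h / 2)).flip
  intro s s' t t' a b c d
  have := g2.mix s s' t t' a b c d
  simpa only [two hh hΨ] using this

end Vale.Agent.P367
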