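import Vale.Agent.P367.CDefs

/-! # P367, classical part: CReal2 -/

namespace Vale.Agent.P367

open MeasureTheory ProbabilityTheory Vale.Agent.P157 Vale.Agent.P146L Vale.Agent.P146L.One Set

namespace CReal2Aux

theorem sq_le (a b : ℝ) (ha : 0 ≤ a) (hb : 0 ≤ b) : a ^ 2 - a * b ≤ |b ^ 2 - a ^ 2| := by
  rcases le_total a b with h | h
  · exact le_trans (by nlinarith) (abs_nonneg _)
  · exact le_trans (by nlinarith) (neg_le_abs _)

theorem term {β δ h h' ν ν' κ v : ℝ} (hβ : 0 < β) (hδ : h ≤ δ) (hν : 0 ≤ ν) (hνh : ν ^ 2 ≤ h)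
    (h0 : 0 ≤ h') (hδ' : h' ≤ δ) (hν' : 0 ≤ ν') (hνh' : ν' ^ 2 ≤ h') (v0 : 0 ≤ v) (v1 : v ≤ 1)
    (hk : √h' * (v - ν') ≤ κ) :
    h' * v ≤ β * (ν * κ) + |h' - h| + β ^ 2 * |ν ^ 2 - h / β ^ 2| + β * (δ * √δ) := by
  have d0 : 0 ≤ δ := h0.trans hδ'
  have e1 : β ^ 2 * |ν ^ 2 - h / β ^ 2| = |(β * ν) ^ 2 - h| := by
    rw [← abs_of_pos (pow_pos hβ 2), ← abs_mul, abs_of_pos (pow_pos hβ 2)]
    congr 1
    field_simp
  rw [e1]
  have a0 : 0 ≤ √h' := Real.sqrt_nonneg _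
  have a2 : √h' ^ 2 = h' := Real.sq_sqrt h0
  have b0 : 0 ≤ β * ν := mul_nonneg hβ.le hν
  have s1 := sq_le _ _ a0 b0
  rw [a2] at s1
  have s2 : |(β * ν) ^ 2 - h'| ≤ |h' - h| + |(β * ν) ^ 2 - h| := by
    have := abs_sub_le ((β * ν) ^ 2) h h'
    rw [abs_sub_comm h h'] at this
    linarith
  have s3 : (h' - √h' * (β * ν)) * v ≤ |(β * ν) ^ 2 - h'| :=
    (mul_le_mul_of_nonneg_right s1 v0).trans (mul_le_of_le_one_right (abs_nonneg _) v1)
  have n1 : ν ≤ √δ := Real.le_sqrt_of_sq_le (hνh.trans hδ)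
  have n2 : ν' ≤ √δ := Real.le_sqrt_of_sq_le (hνh'.trans hδ')
  have n3 : √h' ≤ √δ := Real.sqrt_le_sqrt hδ'
  have s0 : 0 ≤ √δ := Real.sqrt_nonneg _
  have s4 : ν * ν' * √h' ≤ δ * √δ := by
    refine mul_le_mul ?_ n3 a0 d0
    calc ν * ν' ≤ √δ * √δ := mul_le_mul n1 n2 hν' s0
      _ = δ := Real.mul_self_sqrt d0
  have s5 := mul_le_mul_of_nonneg_left hk b0
  have s6 := mul_le_mul_of_nonneg_left s4 hβ.le
  nlinarith

end CReal2Aux

theorem real2 : S_real2 := by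
  intro K β δ h ν κ v hβ hδ H hK
  have key : ∀ j ∈ Finset.range K, (if j + 1 < K then h (j + 1) * v (j + 1) else 0) ≤
      β * (ν j * κ (j + 1)) + |h (j + 1) - h j| + β ^ 2 * |ν j ^ 2 - h j / β ^ 2|
        + β * (δ * √δ) := by
    intro j hj
    rw [Finset.mem_range] at hj
    obtain ⟨-, a2, a3, a4, -⟩ := H j hj
    split_ifs with h1
    · obtain ⟨b1, b2, b3, b4, b5, b6, b7⟩ := H _ h1
      exact CReal2Aux.term hβ a2 a3 a4 b1 b2 b3 b4 b5 b6 b7
    · have : j + 1 = K := by omega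
      rw [this, hK]
      positivity
  have s := Finset.sum_le_sum key
  simp only [Finset.sum_add_distrib, ← Finset.mul_sum, Finset.sum_const, Finset.card_range,
    nsmul_eq_mul] at s
  have l : ∑ j ∈ Finset.range K, h j * v j ≤
      ∑ j ∈ Finset.range K, (if j + 1 < K then h (j + 1) * v (j + 1) else 0) + δ := by
    rcases K with _ | K
    · simpa using hδ
    · rw [Finset.sum_range_succ', Finset.sum_range_succ, if_neg (lt_irrefl _), add_zero]
      obtain ⟨a1, a2, -, -, a5, a6, -⟩ := H 0 (Nat.succ_pos _)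
      refine add_le_add (le_of_eq (Finset.sum_congr rfl fun j hj => ?_))
        ((mul_le_of_le_one_right a1 a6).trans a2)
      rw [if_pos (by simpa using hj)]
  nlinarith

end Vale.Agent.P367
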