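import Vale.Agent.P367.CDefs
import Vale.Agent.P146L.OFl
import Vale.Agent.P146L.ONorm
import Vale.Agent.P146L.OLev
import Vale.Agent.P146L.OGd
import Vale.Agent.P146L.OG0
import Vale.Agent.P146L.OC11
import Vale.Agent.P146L.ODP
import Vale.Agent.P146L.ORR
import Vale.Agent.P146L.OGhs

/-! # P367, classical part: CRep -/

namespace Vale.Agent.P367

open MeasureTheory ProbabilityTheory Vale.Agent.P157 Vale.Agent.P146L Vale.Agent.P146L.One Set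

namespace CRepAux

/-- The law at time `r` is a tilted Gaussian. -/
def Law (m r : ℝ) (Φ : ℝ → ℝ → ℝ) (E : ℝ → (ℝ → ℝ) → ℝ) : Prop :=
  ∃ (A : ℝ) (θ : ℝ → ℝ), TH A m θ ∧ ∀ F, BM F →
    E r F = gexp (g1 r) 1 (fun x => m * Φ r x - θ x) F

theorem block (h1 : S_bridge) (h2 : S_th) {K m a b r : ℝ} {Φ : ℝ → ℝ → ℝ}
    {E : ℝ → (ℝ → ℝ) → ℝ} (hm : 0 ≤ m) (ha : 0 ≤ a) (hF : Flo K m a b Φ E) (har : a ≤ r)
    (hrb : r ≤ b) (hL : LG (Φ r)) (h : Law m a Φ E) : Law m r Φ E := by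
  obtain ⟨A, θ, hθ, hE⟩ := h
  have hh : 0 ≤ r - a := sub_nonneg.2 har
  have e : a + (r - a) = r := by ring
  have hr : 0 ≤ r := ha.trans har
  obtain ⟨A', hA'⟩ := h2.2.1 A m (a * (r - a) / r) (a / r) θ hθ (div_nonneg ha hr)
    (div_le_one_of_le₀ har hr)
  refine ⟨A', _, hA', fun F hB => ?_⟩
  have hb := h1 m a (r - a) (Φ r) θ F hm ha hh hL hθ.rg.lg hB
  rw [e] at hb
  rw [hF.cons a r le_rfl har hrb F hB, hE _ (BM.kernel m (noise_g1 _) hL hB),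
    hF.semi a r le_rfl har hrb]
  exact hb

theorem jump (h2 : S_th) {m m' r A' : ℝ} {Φ : ℝ → ℝ → ℝ} {E : ℝ → (ℝ → ℝ) → ℝ}
    (hm : m ≤ m') (hm' : m' ≤ 1) (hR : Rg A' (Φ r)) (he : ∀ x, Φ r (-x) = Φ r x)
    (hRR : RR (Φ r)) (h : Law m r Φ E) : Law m' r Φ E := by
  obtain ⟨A, θ, hθ, hE⟩ := h
  have e : m + (m' - m) = m' := by ring
  obtain ⟨A'', hA''⟩ := h2.2.2 A A' m (m' - m) θ (Φ r) hθ (sub_nonneg.2 hm) (e.le.trans hm')
    hR he hRR
  rw [e] at hA''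
  refine ⟨A'', _, hA'', fun F hB => ?_⟩
  rw [hE F hB]
  congr 1
  funext x
  ring

theorem start (h2 : S_th) {m : ℝ} {Φ : ℝ → ℝ → ℝ} {E : ℝ → (ℝ → ℝ) → ℝ} (hm : 0 ≤ m)
    (hE : ∀ F, E 0 F = F 0) : Law m 0 Φ E := by
  refine ⟨0, _, h2.1 m hm, fun F _ => ?_⟩
  rw [hE, g1_of_nonpos le_rfl, gexp_eq, integral_dirac, integral_dirac,
    mul_div_cancel_left₀ _ (Real.exp_pos _).ne']

end CRepAux

open CRepAux in
theorem rep (h1 : S_bridge) (h2 : S_th) (h3 : S_back) : S_rep := by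
  intro L ζ c hζ hc hL
  have hz := hζ.zok
  obtain ⟨A, hA, -⟩ := h3 L ζ c hz hc
  obtain ⟨K, -, hK⟩ := One.gd (One.g0 (One.c11 One.dP)) One.rrT One.ghs
  have hG : ∀ r, Gd K (Phi L ζ c r) := fun r => (hK ζ _ _ hz).1
  have hblock : ∀ d r, d ≤ L → c (d + 1) ≤ r → r ≤ c d →
      Law (ζ d) (c (d + 1)) (Phi L ζ c) (Er L ζ c) → Law (ζ d) r (Phi L ζ c) (Er L ζ c) :=
    fun d r hd hr1 hr2 h => block h1 h2 (hz.nn d) (hc.nonneg _)
      (One.fl One.norm K L ζ c d hz hc hd hG).1 hr1 hr2 (hA r).1.lg h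
  have hQ : ∀ k d, d + 1 + k = L → Law (ζ d) (c (d + 1)) (Phi L ζ c) (Er L ζ c) := by
    intro k
    induction k with
    | zero =>
      intro d hd
      have e : c (d + 1) = 0 := by
        rw [← hL, ← hd]
      rw [e]
      exact start h2 (hz.nn d) (One.lev One.norm L ζ c hζ hc).2.1
    | succ k ih =>
      intro d hd
      have h := hblock (d + 1) (c (d + 1)) (by omega) (hc.anti (Nat.le_succ _)) le_rfl
        (ih (d + 1) (by omega))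
      exact jump h2 (hz.anti (Nat.le_succ d)) ((hz.anti (Nat.zero_le d)).trans hz.le1)
        (hA _).1 (hA _).2.2 (hA _).2.1 h
  intro d r hd hr1 hr2
  exact hblock d r hd.le hr1 hr2 (hQ (L - (d + 1)) d (by omega))

end Vale.Agent.P367
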