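import Vale.Agent.P367.CDefs
import Vale.Agent.P146L.ODP

/-! # P367, classical part: CTh -/

namespace Vale.Agent.P367

open MeasureTheory ProbabilityTheory Vale.Agent.P157 Vale.Agent.P146L Vale.Agent.P146L.One Set

namespace CThAux

theorem lg_mul {f : ℝ → ℝ} (h : LG f) (a : ℝ) : LG fun x => a * f x := by
  obtain ⟨hm, C, hC⟩ := h
  refine ⟨hm.const_mul a, |a| * C, fun w => ?_⟩
  rw [abs_mul, mul_assoc]
  exact mul_le_mul_of_nonneg_left (hC w) (abs_nonneg a)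

theorem lg_scale {f : ℝ → ℝ} (h : LG f) {ρ : ℝ} (hρ : |ρ| ≤ 1) : LG fun x => f (ρ * x) := by
  obtain ⟨C, hC0, hC⟩ := CascAux.lg_nonneg h
  refine ⟨h.1.comp (measurable_const_mul ρ), C, fun w => (hC _).trans ?_⟩
  refine mul_le_mul_of_nonneg_left ?_ hC0
  rw [norm_mul, Real.norm_eq_abs ρ]
  linarith [mul_le_of_le_one_left (norm_nonneg w) hρ]

theorem zero (m : ℝ) (hm : 0 ≤ m) : TH 0 m fun _ => 0 := by
  have e : d1 (fun _ => (0 : ℝ)) = fun _ => 0 := funext fun x => deriv_const x 0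
  refine ⟨⟨(BM.const 0).lg, differentiable_const 0, fun x => ?_, ?_⟩, fun _ => rfl, fun x => ?_,
    fun _ _ _ _ _ _ _ _ => le_rfl⟩
  · rw [e]; simp
  · rw [e]; simpa using Bn.const 5 0
  · rw [e]; simpa using hm

theorem scale {A m ρ : ℝ} {f : ℝ → ℝ} (h : TH A m f) (h0 : 0 ≤ ρ) (h1 : ρ ≤ 1) :
    TH A m fun x => f (ρ * x) := by
  have hρ : |ρ| ≤ 1 := by rwa [abs_of_nonneg h0]
  have hd : ∀ x, HasDerivAt (fun x => f (ρ * x)) (ρ * d1 f (ρ * x)) x := fun x => by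
    have := (h.rg.e0 (ρ * x)).comp x ((hasDerivAt_id x).const_mul ρ)
    simpa [Function.comp_def, mul_comm] using this
  have e : d1 (fun x => f (ρ * x)) = fun x => ρ * d1 f (ρ * x) := funext fun x => (hd x).deriv
  have hb : ∀ c : ℝ, (∀ x, |d1 f x| ≤ c) → ∀ x, |d1 (fun x => f (ρ * x)) x| ≤ c := fun c hc x => by
    rw [e]
    show |ρ * d1 f (ρ * x)| ≤ c
    rw [abs_mul]
    exact (mul_le_of_le_one_left (abs_nonneg _) hρ).trans (hc _)
  refine ⟨⟨lg_scale h.rg.lg hρ, fun x => (hd x).differentiableAt, hb 1 h.rg.u1, ?_⟩,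
    fun x => by rw [mul_neg, h.even], hb m h.um, fun s s' t t' a b c d => ?_⟩
  · rw [e]
    exact ((h.rg.bn.scale hρ).const_mul ρ).mono (mul_le_of_le_one_left h.rg.bn.nonneg hρ)
  · simp only [mul_add, mul_sub]
    exact h.rr _ _ _ _ (mul_nonneg h0 a) (mul_le_mul_of_nonneg_left b h0) (mul_nonneg h0 c)
      (mul_le_mul_of_nonneg_left d h0)

theorem step (h1 : S_rgT) (h2 : S_rrN) {A m : ℝ} (v : ℝ) {θ : ℝ → ℝ} (h : TH A m θ) :
    ∃ A', TH A' m (T (-1) (g1 v) θ) := by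
  obtain ⟨A', hA⟩ := h1 A
  refine ⟨A', hA (-1) v θ (by simp) h.rg, T_even _ _ h.rg.lg.1 h.even, fun x => ?_,
    h2 v θ h.rg.lg h.even h.rg.lip h.rr⟩
  have := (dP (-1) v 0 θ (d1 θ) (fun _ => 0) (fun _ => 0) h.rg.lg h.rg.e0 h.rg.u1
    (fun x => hasDerivAt_const x 0) (fun _ => by simp) (fun _ => by simp) x).1.deriv
  rw [d1, this]
  exact abs_P_le _ _ _ h.um x

theorem jump {A A' m a : ℝ} {θ Φ : ℝ → ℝ} (h : TH A m θ) (h0 : 0 ≤ a) (h1 : m + a ≤ 1)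
    (hΦ : Rg A' Φ) (he : ∀ x, Φ (-x) = Φ x) (hr : RR Φ) :
    TH (A + |a| * A') (m + a) fun x => θ x + a * Φ x := by
  have hd : ∀ x, HasDerivAt (fun x => θ x + a * Φ x) (d1 θ x + a * d1 Φ x) x := fun x =>
    (h.rg.e0 x).add ((hΦ.e0 x).const_mul a)
  have e : d1 (fun x => θ x + a * Φ x) = fun x => d1 θ x + a * d1 Φ x :=
    funext fun x => (hd x).deriv
  have hb : ∀ x, |d1 (fun x => θ x + a * Φ x) x| ≤ m + a := fun x => by
    rw [e]
    refine (abs_add_le _ _).trans (add_le_add (h.um x) ?_)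
    rw [abs_mul, abs_of_nonneg h0]
    exact mul_le_of_le_one_right h0 (hΦ.u1 x)
  refine ⟨⟨h.rg.lg.add (lg_mul hΦ.lg a), fun x => (hd x).differentiableAt,
    fun x => (hb x).trans h1, ?_⟩, fun x => by rw [he, h.even], hb, fun s s' t t' p q r w => ?_⟩
  · rw [e]
    exact h.rg.bn.add (hΦ.bn.const_mul a)
  · have k1 := h.rr s s' t t' p q r w
    have k2 := mul_le_mul_of_nonneg_left (hr s s' t t' p q r w) h0
    simp only [mul_add] at k2
    linarith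

end CThAux

theorem th (h1 : S_rgT) (h2 : S_rrN) : S_th := by
  refine ⟨CThAux.zero, fun A m v ρ θ h k0 k1 => ?_, fun A A' m a θ Φ h k0 k1 hΦ he hr =>
    ⟨_, CThAux.jump h k0 k1 hΦ he hr⟩⟩
  obtain ⟨A', hA⟩ := CThAux.step h1 h2 v h
  exact ⟨A', CThAux.scale hA k0 k1⟩

end Vale.Agent.P367
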