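import Vale.Agent.P367.CDefs
import Vale.Agent.P146L.ONorm
import Vale.Agent.P146L.OGd
import Vale.Agent.P146L.OG0
import Vale.Agent.P146L.OC11
import Vale.Agent.P146L.ODP
import Vale.Agent.P146L.ORR
import Vale.Agent.P146L.OGhs
import Vale.Agent.P146L.OFlow1

/-! # P367, classical part: CTop -/

namespace Vale.Agent.P367

open MeasureTheory ProbabilityTheory Vale.Agent.P157 Vale.Agent.P146L Vale.Agent.P146L.One Set

namespace CTopAux

theorem dlc (x : ℝ) : HasDerivAt lc (Real.tanh x) x := (MlrAux.jet_deriv djet_lc x).1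

theorem lc_le (x : ℝ) : lc x ≤ x * Real.tanh x := by
  have h0 : lc 0 = 0 := by simp [lc]
  have hc : ∀ a b, ContinuousOn lc (Icc a b) := fun a b y _ =>
    (dlc y).continuousAt.continuousWithinAt
  rcases lt_trichotomy x 0 with h | rfl | h
  · obtain ⟨y, hy, e⟩ := exists_hasDerivAt_eq_slope lc Real.tanh h (hc _ _) fun y _ => dlc y
    rw [h0, eq_div_iff (by linarith)] at e
    nlinarith [MlrAux.tanh_mono hy.1.le]
  · simp [h0]
  · obtain ⟨y, hy, e⟩ := exists_hasDerivAt_eq_slope lc Real.tanh h (hc _ _) fun y _ => dlc y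
    rw [h0, eq_div_iff (by linarith)] at e
    nlinarith [MlrAux.tanh_mono hy.2.le]

theorem abel (z c : ℕ → ℝ) {L : ℕ} (hL : 1 ≤ L) :
    ∑ k ∈ Finset.range L, (z k - z (k + 1)) * (c (k + 1) * c (k + 1)) =
      z 0 * c 1 ^ 2 - ∑ d ∈ Finset.Ico 1 L, z d * (c d ^ 2 - c (d + 1) ^ 2) - z L * c L ^ 2 := by
  induction L, hL using Nat.le_induction with
  | base => simp; ring
  | succ L hL ih =>
    rw [Finset.sum_range_succ, ih, Finset.sum_Ico_succ_top hL]
    ring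

end CTopAux

theorem top : S_top := by
  intro L ζ c hζ hc
  obtain ⟨K, -, hK⟩ := One.gd (One.g0 (One.c11 One.dP)) One.rrT One.ghs
  have hG : ∀ r, G0 K (Phi L ζ c r) := fun r => (hK ζ _ _ hζ.zok).1.g0
  have hC : ∀ r, Cas ζ (g1s (dq fun k => min (c k) r)) (Phi L ζ c r) := fun r =>
    cas_g1s hζ.zok _ (hG r).lg
  have b2 : ∀ r, BM (d2 (Phi L ζ c r)) := fun r => OFlow1Aux.bm0 (hG r).cv
  have e0 : Phi L ζ c (c 1) = fun x => lc x + (c 0 - c 1) / 2 := by
    rw [(One.norm L ζ c 0 (c 1) hζ.zok hc (Nat.zero_le _) le_rfl (hc.anti zero_le_one)).1, hζ.z0]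
    exact funext fun x => MonoAux.T_lc (hc.dq_nonneg 0) x
  have e1 : d1 (Phi L ζ c (c 1)) = Real.tanh := by
    rw [e0]
    exact funext fun x => ((CTopAux.dlc x).add_const _).deriv
  have e2 : d2 (Phi L ζ c (c 1)) = fun x => 1 - Real.tanh x ^ 2 := by
    change deriv (d1 _) = _
    rw [e1]
    exact funext fun x => (JetAux.hasDerivAt_tanh x).deriv
  refine ⟨?_, fun x => ?_, ?_, fun r => ⟨Ex_nonneg 0 (hG r).v0 _ _, ?_, ?_⟩, ?_⟩
  · rw [psi_eq_X L ζ c lg_lc.1, Phi]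
    simp only [max_eq_left (hc.nonneg _)]
  · rw [sS, e1, e0]
    linarith [CTopAux.lc_le x]
  · have h := (hC (c 1)).sq_Ex_le 0 (b2 (c 1)) (L + 1) 0
    have h1 := (hC (c 1)).Ex_sub 0 (BM.const 1) (MonoAux.bm_tanh.pow 2) (L + 1) 0
    rw [(hC (c 1)).Ex_const, ← e2] at h1
    rw [h1] at h
    rw [fa, e1]
    exact h
  · exact ((hC r).Ex_mono 0 (b2 r) (BM.const 1) (hG r).v1 _ _).trans_eq ((hC r).Ex_const _ _ _ _)
  · exact ((hC r).Ex_mono 0 ((b2 r).pow 2) (BM.const 1)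
      (fun x => pow_le_one₀ ((hG r).v0 x) ((hG r).v1 x)) _ _).trans_eq ((hC r).Ex_const _ _ _ _)
  · rw [pairing, CTopAux.abel ζ c hζ.one_le, hζ.z0, hζ.zn L le_rfl]
    ring

end Vale.Agent.P367
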