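import Vale.Agent.P367.CDefs

/-! # P367, classical part: CTrans -/

namespace Vale.Agent.P367

open MeasureTheory ProbabilityTheory Vale.Agent.P157 Vale.Agent.P146L Vale.Agent.P146L.One Set

namespace CTransAux

/-- Probability measures equivalent to the Lebesgue measure. -/
structure Nice (μ : Measure ℝ) : Prop where
  prob : IsProbabilityMeasure μ
  ac : μ ≪ volume
  ac' : volume ≪ μ

variable {μ : Measure ℝ}

theorem Nice.sm (h : Nice μ) : StrictMono (cdf μ) := fun a b hab => by
  have := h.prob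
  by_contra q
  have e : μ (Ioc a b) = 0 := by
    rw [← measure_cdf μ, StieltjesFunction.measure_Ioc, ENNReal.ofReal_eq_zero]
    linarith
  have := h.ac' e
  rw [Real.volume_Ioc, ENNReal.ofReal_eq_zero] at this
  linarith

theorem Nice.atom (h : Nice μ) (a : ℝ) : μ {a} = 0 := h.ac (measure_singleton a)

theorem Nice.cont (h : Nice μ) : Continuous (cdf μ) := continuous_iff_continuousAt.2 fun a => by
  have := h.prob
  have e := h.atom a
  rw [← measure_cdf μ, StieltjesFunction.measure_singleton, ENNReal.ofReal_eq_zero] at e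
  rw [(cdf μ).mono.continuousAt_iff_leftLim_eq_rightLim, StieltjesFunction.rightLim_eq]
  exact le_antisymm ((cdf μ).mono.leftLim_le le_rfl) (by linarith)

theorem Nice.mem (h : Nice μ) (t : ℝ) : cdf μ t ∈ Ioo (0 : ℝ) 1 :=
  ⟨(cdf_nonneg μ (t - 1)).trans_lt (h.sm (by linarith)),
    (h.sm (show t < t + 1 by linarith)).trans_le (cdf_le_one μ _)⟩

theorem Nice.surj (h : Nice μ) {p : ℝ} (hp : p ∈ Ioo (0 : ℝ) 1) : ∃ y, cdf μ y = p :=
  let ⟨y, _, e⟩ := isPreconnected_univ.intermediate_value_Ioo (by simp) (by simp)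
    h.cont.continuousOn (tendsto_cdf_atBot μ) (tendsto_cdf_atTop μ) hp
  ⟨y, e⟩

theorem Nice.ici (h : Nice μ) (y : ℝ) : μ.real (Ici y) = 1 - cdf μ y := by
  have := h.prob
  rw [cdf_eq_real, ← probReal_compl_eq_one_sub measurableSet_Iic, compl_Iic]
  exact (measureReal_congr (Ioi_ae_eq_Ici' (h.atom y))).symm

theorem nice_g1 {h : ℝ} (hh : 0 < h) : Nice (g1 h) :=
  have : h.toNNReal ≠ 0 := (Real.toNNReal_pos.2 hh).ne'
  ⟨inferInstance, gaussianReal_absolutelyContinuous 0 this,
    gaussianReal_absolutelyContinuous' 0 this⟩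

theorem nice_std : Nice (gaussianReal 0 1) := g1_one ▸ nice_g1 one_pos

theorem std_neg (t : ℝ) : cdf (gaussianReal 0 1) (-t) = 1 - cdf (gaussianReal 0 1) t := by
  rw [← nice_std.ici, cdf_eq_real, ← g1_one]
  nth_rewrite 1 [← g1_map_neg]
  rw [map_measureReal_apply measurable_neg measurableSet_Iic]
  congr 1
  ext z
  simp

theorem nice_tilt (m : ℝ) {h : ℝ} (hh : 0 < h) {Ψ : ℝ → ℝ} (hΨ : LG Ψ) (x : ℝ) :
    Nice ((g1 h).tilted fun y => m * Ψ (x + y)) :=
  have e := hΨ.eint (noise_g1 h) x
  ⟨e.prob_tilted m, (tilted_absolutelyContinuous _ _).trans (nice_g1 hh).ac,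
    (nice_g1 hh).ac'.trans (absolutelyContinuous_tilted (e.2 m))⟩

theorem real_eq (m h : ℝ) (F : ℝ → ℝ) {s : Set ℝ} (hs : MeasurableSet s) :
    ((g1 h).tilted fun y => m * F y).real s = gexp (g1 h) m F (s.indicator 1) :=
  (integral_indicator_one hs).symm

end CTransAux

open CTransAux in
theorem trans (h1 : S_cdf) : S_trans := by
  intro m h Ψ hm hh hΨ hl he
  rcases hh.eq_or_lt with rfl | hh
  · refine ⟨fun _ _ => 0, measurable_const, fun _ _ => neg_zero.symm, fun _ _ => by simp,
      fun x => ?_⟩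
    rw [Measure.map_const, measure_univ, one_smul, g1_of_nonpos le_rfl,
      tilted_congr (g := fun _ => m * Ψ (x + 0)) (by simp [Filter.EventuallyEq]), tilted_const]
  have n := nice_tilt m hh hΨ
  choose τ hτ using fun x t => (n x).surj (nice_std.mem t)
  have le : ∀ x t y, τ x t ≤ y ↔
      cdf (gaussianReal 0 1) t ≤ cdf ((g1 h).tilted fun z => m * Ψ (x + z)) y := fun x t y => by
    rw [← hτ x t, (n x).sm.le_iff_le]
  have g : ∀ x y, cdf ((g1 h).tilted fun z => m * Ψ (x + z)) y =
      gexp (g1 h) m (fun z => Ψ (x + z)) ((Iic y).indicator 1) := fun x y => by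
    have := (n x).prob
    rw [cdf_eq_real, real_eq m h _ measurableSet_Iic]
  have mi : ∀ y : ℝ, Measurable ((Iic y).indicator (1 : ℝ → ℝ)) := fun y =>
    measurable_one.indicator measurableSet_Iic
  have me : Measurable (Function.uncurry τ) := measurable_of_Iic fun y => by
    have e : Function.uncurry τ ⁻¹' Iic y = {q : ℝ × ℝ | cdf (gaussianReal 0 1) q.2 ≤
        gexp (g1 h) m (fun z => Ψ (q.1 + z)) ((Iic y).indicator 1)} :=
      Set.ext fun q => (le q.1 q.2 y).trans (by rw [g]; rfl)
    rw [e]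
    exact measurableSet_le (nice_std.cont.measurable.comp measurable_snd)
      (measurable_gexp m (F := fun q : ℝ × ℝ => fun z => Ψ (q.1 + z))
        (g := fun _ => (Iic y).indicator 1) (hΨ.1.comp (measurable_fst.fst.add measurable_snd))
        ((mi y).comp measurable_snd))
  have s0 := Real.sqrt_pos.2 hh
  refine ⟨τ, me, fun x t => (n (-x)).sm.injective ?_, fun x t => ?_, fun x => ?_⟩
  · rw [hτ, std_neg, ← hτ x t, ← (n x).ici, g, real_eq m h _ measurableSet_Ici]
    nth_rewrite 2 [← g1_map_neg]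
    rw [gexp_map measurable_neg m (F := fun z => Ψ (-x + z))
      (hΨ.1.comp (measurable_const_add _)) (mi _)]
    congr 1
    · funext z
      rw [← neg_add, he]
    · funext z
      simp [indicator]
  · obtain ⟨a, b⟩ := h1 m h x (τ x t) Ψ hm hh hΨ hl
    rw [hτ, nice_std.sm.le_iff_le] at a b
    rw [div_le_iff₀ s0] at a
    rw [le_div_iff₀ s0] at b
    rw [abs_le]
    constructor <;> linarith
  · have := (n x).prob
    have mx : Measurable (τ x) := me.of_uncurry_left
    have := Measure.isProbabilityMeasure_map (μ := gaussianReal 0 1) mx.aemeasurable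
    refine Measure.eq_of_cdf _ _ (StieltjesFunction.ext fun y => ?_)
    obtain ⟨s, hs⟩ := nice_std.surj ((n x).mem y)
    rw [← hs, cdf_eq_real, cdf_eq_real, map_measureReal_apply mx measurableSet_Iic]
    congr 1
    ext t
    rw [mem_preimage, mem_Iic, mem_Iic, le, ← hs, nice_std.sm.le_iff_le]

end Vale.Agent.P367
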