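import Vale.Agent.P367.CUb
import Vale.Agent.P367.CBn
import Vale.Agent.P367.CDer
import Vale.Agent.P367.CIbp
import Vale.Agent.P367.CDet
import Vale.Agent.P367.CHk
import Vale.Agent.P367.CBack
import Vale.Agent.P367.CGeo
import Vale.Agent.P367.CRRn
import Vale.Agent.P367.CTh
import Vale.Agent.P367.CBridge
import Vale.Agent.P367.CRep
import Vale.Agent.P367.CCrt
import Vale.Agent.P367.CCala
import Vale.Agent.P367.CCalb
import Vale.Agent.P367.CFrsb
import Vale.Agent.P367.CK3
import Vale.Agent.P367.CExp3
import Vale.Agent.P367.CFlow3
import Vale.Agent.P367.CCvx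
import Vale.Agent.P367.CFlat
import Vale.Agent.P367.CCdf
import Vale.Agent.P367.CTrans
import Vale.Agent.P367.COne
import Vale.Agent.P367.CChain
import Vale.Agent.P367.CEnt
import Vale.Agent.P367.CTop
import Vale.Agent.P367.CGrid
import Vale.Agent.P367.CReal2
import Vale.Agent.P367.CFix
import Vale.Agent.P367.CAsm

/-! # P367, classical part: the message passing value reaches the ground state energy -/

namespace Vale.Agent.P367

theorem classical : S_main := by
  have hback := back rg (hk dT ibp det3)
  exact asm ub (cvx3 (flow3 (exp3 dT k3)) hback (rep bridge (th rgT rrN) hback)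
    (frsb (cala crt geo geo2) (calb geo))) flat atom top
    (fix (chain (trans cdfb) (one ibp)) (ent ibp) top gridE real2)

end Vale.Agent.P367
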