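import Vale.Agent.P146.Stmt

/-! # P367: bounded Gaussian martingales and their message passing value -/

namespace Vale.Agent.P367

open MeasureTheory ProbabilityTheory

/-- Expected ground state energy per spin. -/
noncomputable def gse (n : ℕ) : ℝ := (∫ g, ⨆ σ, P146.ham g σ ∂P146.disorder n) / n

/-- The coordinate `j` of a vector, zero outside the range. -/
def co {K : ℕ} (z : Fin K → ℝ) (j : ℕ) : ℝ := if h : j < K then z ⟨j, h⟩ else 0

/-- `K` independent standard Gaussians. -/
noncomputable def gK (K : ℕ) : Measure (Fin K → ℝ) := Measure.pi fun _ => gaussianReal 0 1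

/-- Odd martingales with values in `[-1, 1]`, started at zero and adapted to the coordinates. -/
structure Mart (K : ℕ) (M : ℕ → (Fin K → ℝ) → ℝ) : Prop where
  meas : ∀ j, Measurable (M j)
  bd : ∀ j z, |M j z| ≤ 1
  zero : ∀ z, M 0 z = 0
  adapt : ∀ j z z', (∀ i : Fin K, (i : ℕ) < j → z i = z' i) → M j z = M j z'
  odd : ∀ j z, M j (-z) = -M j z
  mart : ∀ (j : Fin K) z, ∫ t, M (j + 1) (Function.update z j t) ∂gaussianReal 0 1 = M j z

/-- Norm of the increment `j`. -/
noncomputable def nu (K : ℕ) (M : ℕ → (Fin K → ℝ) → ℝ) (j : ℕ) : ℝ :=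
  √(∫ z, (M (j + 1) z - M j z) ^ 2 ∂gK K)

/-- Correlation of the increment `j` with the coordinate `j`. -/
noncomputable def kap (K : ℕ) (M : ℕ → (Fin K → ℝ) → ℝ) (j : ℕ) : ℝ :=
  ∫ z, (M (j + 1) z - M j z) * co z j ∂gK K

/-- The energy reached by incremental message passing driven by `M`. -/
noncomputable def val (K : ℕ) (M : ℕ → (Fin K → ℝ) → ℝ) : ℝ :=
  ∑ j ∈ Finset.range K, nu K M j * kap K M (j + 1)

end Vale.Agent.P367
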