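import Vale.Agent.P367.CDefs
import Vale.Agent.P146L.Guerra
import Vale.Agent.P146L.Link
import Vale.Agent.P146L.Der
import Vale.Agent.P146L.Free
import Vale.Agent.P146L.Tri

/-! # P367, classical part: CUb -/

namespace Vale.Agent.P367

open MeasureTheory ProbabilityTheory Vale.Agent.P157 Vale.Agent.P146L Vale.Agent.P146L.One Set

namespace CUbAux

theorem lg_sup (n : ℕ) : LG fun g : P146.Edge n → ℝ => ⨆ σ, P146.ham g σ := by
  refine ⟨Measurable.iSup fun σ => ?_, |1 / √(n : ℝ)| * Fintype.card (P146.Edge n), fun g => ?_⟩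
  · unfold P146.ham
    fun_prop
  · obtain ⟨σ, hσ⟩ := exists_eq_ciSup_of_finite (f := fun σ => P146.ham g σ)
    simp only [← hσ, mul_assoc]
    refine (TriAux.abs_ham g σ).trans (mul_le_mul_of_nonneg_left
      (mul_le_mul_of_nonneg_left (by linarith) (Nat.cast_nonneg _)) (abs_nonneg _))

theorem sup_le (n : ℕ) (β : ℝ) (g : P146.Edge n → ℝ) :
    β * ⨆ σ, P146.ham g σ ≤ P146.freeEnergy n β g := by
  obtain ⟨σ, hσ⟩ := exists_eq_ciSup_of_finite (f := fun σ => P146.ham g σ)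
  rw [← hσ, P146.freeEnergy, Real.le_log_iff_exp_le (TriAux.sum_pos n β g)]
  exact Finset.single_le_sum (f := fun σ => Real.exp (β * P146.ham g σ))
    (fun _ _ => (Real.exp_pos _).le) (Finset.mem_univ σ)

theorem int {n : ℕ} {F : (P146.Edge n → ℝ) → ℝ} (h : LG F) : Integrable F (P146.disorder n) := by
  have h1 : P146.disorder n = gv fun _ => (1 : ℝ) := by
    simp only [P146.disorder, gv, g1_one]
  rw [h1]
  simpa using (h.eint (noise_gv fun _ => (1 : ℝ)) 0).integrable

end CUbAux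

theorem ub : S_ub := by
  intro β L ζ q hβ hζ hq n hn
  have hZ : ZN L ζ := ⟨hζ.one_le, hζ.z0, fun d hd => (hζ.zlt d hd).le, fun d _ => hζ.zok.nn d⟩
  have hc : cut L ζ = ζ := funext fun d => by
    unfold cut
    split_ifs with h
    · rfl
    · exact (hζ.zn d (not_lt.1 h)).symm
  have : Nonempty (Fin n) := ⟨⟨0, hn⟩⟩
  obtain ⟨t, -, h1, h2⟩ := guerra der free (Fin n) L ζ q β 1 hZ hq one_pos le_rfl
  obtain ⟨-, l1, l2⟩ := link der tri_eq cvx n β hn
  have h3 : 0 ≤ QQ ζ (rem ζ L (gt (Fin n) β t) (xt (Fin n) β q t) q) L :=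
    Finset.sum_nonneg fun k hk => mul_nonneg (sub_nonneg.2 (hZ.anti k (Finset.mem_range.1 hk)))
      (h1 _ (by omega) (Finset.mem_range.1 hk))
  have h4 := le_trans (mul_nonneg (by positivity) h3) h2
  rw [hc, l2 L ζ hZ, hζ.zn L le_rfl, lse, if_pos rfl, Fintype.card_fin] at h4
  have h5 := integral_mono ((CUbAux.int (CUbAux.lg_sup n)).const_mul β) (CUbAux.int l1)
    (CUbAux.sup_le n β)
  have h6 : (0 : ℝ) < n := by exact_mod_cast hn
  rw [integral_const_mul] at h5
  rw [gse, ← mul_div_assoc, div_le_iff₀ h6]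
  linarith

end Vale.Agent.P367
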