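import Vale.Agent.P367.QDDefs

/-! # P367, the limit of infinite size: QDBd -/

namespace Vale.Agent.P367.Q

open Complex MeasureTheory Filter Topology

namespace QDBdAux

theorem sum_amp (β : ℕ → ℝ) : ∑ c : Pd 0, amp β 0 (ext c) = 1 := by
  rw [Fintype.sum_equiv (Equiv.funUnique (Fin 1) (Bool × Bool)) (fun c : Pd 0 => amp β 0 (ext c))
    (fun x => if x.1 = x.2 then 1 / 2 else 0) fun c => by simp [amp, ext]]
  rw [Fintype.sum_prod_type]
  simp

theorem base (β γ : ℕ → ℝ) (N : ℝ) (m k : ℕ) (b : Fin k → Pa) :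
    YY β γ 0 N (ps γ 0 b) m = 1 := by
  have h := Fintype.sum_pow (fun c : Pd 0 => amp β 0 (ext c)) m
  rw [sum_amp, one_pow] at h
  rw [h]
  simp [YY, ps, En, Ph]

theorem sg_abs (x : Bool) : |sg x| = 1 := by cases x <;> simp [sg]

theorem Ph_le (γ : ℕ → ℝ) (d : ℕ) (a b : Pa) :
    |Ph γ d a b| ≤ ∑ t ∈ Finset.range d, 2 * |γ t| := by
  refine (Finset.abs_sum_le_sum_abs _ _).trans (Finset.sum_le_sum fun t _ => ?_)
  rw [abs_mul, mul_comm]
  refine mul_le_mul_of_nonneg_right ((abs_sub _ _).trans ?_) (abs_nonneg _)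
  simp only [abs_mul, sg_abs]
  norm_num

theorem ps_le (γ : ℕ → ℝ) (d : ℕ) : ∃ R : ℝ, 0 ≤ R ∧ ∀ (k : ℕ) (b : Fin k → Pa) (a : Pa),
    0 ≤ ps γ d b a ∧ ps γ d b a ≤ k * R := by
  refine ⟨(∑ t ∈ Finset.range d, 2 * |γ t|) ^ 2 / 2, by positivity, fun k b a =>
    ⟨by unfold ps; positivity, ?_⟩⟩
  have : ∑ j, Ph γ d (b j) a ^ 2 ≤ ∑ _j : Fin k, (∑ t ∈ Finset.range d, 2 * |γ t|) ^ 2 :=
    Finset.sum_le_sum fun j _ => by
      rw [← sq_abs]
      exact pow_le_pow_left₀ (abs_nonneg _) (Ph_le γ d _ _) 2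
  rw [Finset.sum_const, Finset.card_univ, Fintype.card_fin, nsmul_eq_mul] at this
  unfold ps
  linarith

theorem norm_exp_le {x : ℝ} (hx : 0 ≤ x) : ‖exp (-(x : ℂ))‖ ≤ 1 := by
  rw [← ofReal_neg, norm_exp_ofReal]
  exact Real.exp_le_one_iff.2 (neg_nonpos.2 hx)

theorem norm_exp_sub {x : ℝ} (hx : 0 ≤ x) : ‖exp (-(x : ℂ)) - 1‖ ≤ x := by
  rw [← ofReal_neg, ← ofReal_exp, ← ofReal_one, ← ofReal_sub, norm_real, Real.norm_eq_abs, abs_le]
  have h1 := Real.add_one_le_exp (-x)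
  have h2 := Real.exp_le_one_iff.2 (neg_nonpos.2 hx)
  constructor <;> linarith

end QDBdAux

open QDBdAux in
theorem bdY (h1 : S_low) (h2 : S_rec) : S_bd := by
  intro β γ d
  induction d with
  | zero => exact ⟨0, fun N m k b _ => by simp [base]⟩
  | succ d ih =>
    obtain ⟨c, hc⟩ := ih
    obtain ⟨R, R0, hR⟩ := ps_le γ (d + 1)
    obtain ⟨A, hA⟩ : ∃ A : ℝ, A = ∑ a : Pd d, ‖amp β d (ext a)‖ := ⟨_, rfl⟩
    have A0 : 0 ≤ A := by rw [hA]; positivity
    refine ⟨A * R * Real.exp c, fun N m k b hm => ?_⟩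
    have dp : Dp d (ps γ (d + 1) b) := fun a a' h => by
      unfold ps
      rw [Finset.sum_congr rfl fun j _ => by
        rw [Ph_congr γ (fun _ _ => rfl) fun t ht => h t (Nat.le_of_lt_succ ht)]]
    rw [h1 β γ d N _ m dp, h2]
    obtain ⟨y, hy⟩ : ∃ y : ℝ, y = k * R / N := ⟨_, rfl⟩
    have y0 : 0 ≤ y := by rw [hy]; positivity
    have step : ∀ l : ℕ, ‖∑ a : Fin l → Pd d,
        (∏ j, amp β d (ext (a j))) * exp (-((En γ d fun j => ext (a j)) / N : ℝ)) *
          (∏ j, (exp (-(ps γ (d + 1) b (ext (a j)) / N : ℝ)) - 1)) *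
          YY β γ d N (ps γ d fun j => ext (a j)) (m - l)‖ ≤ (A * y * Real.exp c) ^ l := fun l => by
      have e : (A * y * Real.exp c) ^ l =
          ∑ a : Fin l → Pd d, (∏ j, ‖amp β d (ext (a j))‖) * 1 * y ^ l * Real.exp (c * l) := by
        rw [← Finset.sum_mul, ← Finset.sum_mul, ← Finset.sum_mul,
          ← Fintype.sum_pow fun a : Pd d => ‖amp β d (ext a)‖, ← hA, mul_comm c,
          Real.exp_nat_mul]
        ring
      rw [e]
      refine (norm_sum_le _ _).trans (Finset.sum_le_sum fun a _ => ?_)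
      rw [norm_mul, norm_mul, norm_mul, norm_prod, norm_prod]
      have t1 := norm_exp_le (x := (En γ d fun j => ext (a j)) / N) (by unfold En; positivity)
      have t2 : ∏ j, ‖exp (-(ps γ (d + 1) b (ext (a j)) / N : ℝ)) - 1‖ ≤ y ^ l := by
        refine (Finset.prod_le_prod (g := fun _ => y) (fun _ _ => norm_nonneg _)
          fun j _ => ?_).trans (by simp)
        refine (norm_exp_sub (div_nonneg (hR k b _).1 N.cast_nonneg)).trans ?_
        rw [hy]
        exact div_le_div_of_nonneg_right (hR k b _).2 N.cast_nonneg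
      have t3 := hc N (m - l) l (fun j => ext (a j)) ((Nat.sub_le _ _).trans hm)
      gcongr
    obtain ⟨x, hx⟩ : ∃ x : ℝ, x = A * y * Real.exp c := ⟨_, rfl⟩
    have x0 : 0 ≤ x := by rw [hx]; positivity
    have fin : m * x ≤ A * R * Real.exp c * k := by
      have : (m : ℝ) / N ≤ 1 := div_le_one_of_le₀ (by exact_mod_cast hm) N.cast_nonneg
      calc m * x = A * R * Real.exp c * k * (m / N) := by rw [hx, hy]; ring
        _ ≤ _ := mul_le_of_le_one_right (by positivity) this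
    refine (norm_sum_le _ _).trans (le_trans (b := (x + 1) ^ m) ?_ ?_)
    · rw [add_pow]
      refine Finset.sum_le_sum fun l _ => ?_
      rw [norm_mul, Complex.norm_natCast, one_pow, mul_one, mul_comm, hx]
      exact mul_le_mul_of_nonneg_right (step l) (Nat.cast_nonneg _)
    · refine (pow_le_pow_left₀ (by positivity) (Real.add_one_le_exp x) m).trans ?_
      rw [← Real.exp_nat_mul]
      exact Real.exp_le_exp.2 fin

end Vale.Agent.P367.Q
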