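import Vale.Agent.P367.QDDefs

/-! # P367, the limit of infinite size: QDClose -/

namespace Vale.Agent.P367.Q

open Complex MeasureTheory Filter Topology

namespace QDCloseAux

theorem one (h1 : S_marg) (β : ℕ → ℝ) (d : ℕ) (G : Pa → ℂ) (hG : Dp d G) :
    ∑ b : Pd (d + 1), amp β (d + 1) (ext b) * G (ext b)
      = ∑ b : Pd d, amp β d (ext b) * G (ext b) := by
  have h := h1 Unit β d (fun b => G (b ())) fun b b' hb => hG _ _ (hb ())
  simp only [Fintype.prod_unique] at h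
  exact ((Equiv.funUnique Unit (Pd (d + 1))).sum_comp
    fun b => amp β (d + 1) (ext b) * G (ext b)).symm.trans (h.trans
    ((Equiv.funUnique Unit (Pd d)).sum_comp fun b => amp β d (ext b) * G (ext b)))

theorem hh_succ (β γ : ℕ → ℝ) (d : ℕ) (a : Pa) : HH β γ (d + 1) a =
    exp (-av β γ d fun b => (Ph γ (d + 1) a b ^ 2 / 2 : ℝ)) := rfl

theorem hh_dp (β γ : ℕ → ℝ) (d : ℕ) : Dp d (HH β γ (d + 1)) := fun a a' h => by
  have : ∀ b, Ph γ (d + 1) a b = Ph γ (d + 1) a' b := fun b =>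
    Ph_congr γ (fun t ht => h t (by omega)) fun _ _ => rfl
  simp only [hh_succ, this]

theorem av_congr (β γ : ℕ → ℝ) (d : ℕ) {F G : Pa → ℂ}
    (h : ∀ b : Pa, (b d).1 = (b d).2 → F b = G b) : av β γ d F = av β γ d G :=
  Finset.sum_congr rfl fun b _ => by
    by_cases hb : amp β d (ext b) = 0
    · simp [hb]
    · rw [h _ (amp_closed hb)]

theorem hh_closed (β γ : ℕ → ℝ) (d : ℕ) (a : Pa) (ha : (a d).1 = (a d).2) :
    HH β γ (d + 1) a = exp (-av β γ d fun b => (Ph γ d a b ^ 2 / 2 : ℝ)) := by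
  rw [hh_succ, av_congr β γ d (G := fun b => (Ph γ d a b ^ 2 / 2 : ℝ)) fun b hb => by
    rw [Ph_succ γ ha hb]]

theorem step (h1 : S_marg) (β γ : ℕ → ℝ) (d : ℕ)
    (hQ : ∀ a : Pa, (a d).1 = (a d).2 → HH β γ (d + 1) a = HH β γ d a) (F : Pa → ℂ)
    (hF : Dp d F) : av β γ (d + 1) F = av β γ d F := by
  have h := one h1 β d (fun a => HH β γ (d + 1) a * F a) fun a a' h =>
    congrArg₂ (· * ·) (hh_dp β γ d a a' h) (hF a a' h)
  simp only [av, mul_assoc]
  rw [h]
  refine Finset.sum_congr rfl fun b _ => ?_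
  by_cases hb : amp β d (ext b) = 0
  · simp [hb]
  · rw [hQ _ (amp_closed hb)]

theorem hh_eq (h1 : S_marg) (β γ : ℕ → ℝ) (d : ℕ) :
    ∀ a : Pa, (a d).1 = (a d).2 → HH β γ (d + 1) a = HH β γ d a := by
  induction d with
  | zero =>
    intro a ha
    rw [hh_closed β γ 0 a ha]
    simp [av, Ph, HH]
  | succ d ih =>
    intro a ha
    rw [hh_closed β γ (d + 1) a ha, hh_succ, step h1 β γ d ih _ fun b b' h => by
      rw [Ph_congr γ (fun _ _ => rfl) fun t ht => h t (by omega)]]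

end QDCloseAux

theorem close (h1 : S_marg) : S_close := fun β γ d F hF =>
  QDCloseAux.step h1 β γ d (QDCloseAux.hh_eq h1 β γ d) F hF

end Vale.Agent.P367.Q
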