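import Vale.Agent.P367.QDDefs

/-! # P367, the limit of infinite size: QDEn -/

namespace Vale.Agent.P367.Q

open Complex MeasureTheory Filter Topology

namespace QDEnAux

theorem card_edge (n : ℕ) : (Fintype.card (P146.Edge n) : ℝ) = n * (n - 1) / 2 := by
  have h := Finset.card_product_filter_lt (s := (Finset.univ : Finset (Fin n)))
  rw [Finset.univ_product_univ, Finset.card_univ, Fintype.card_fin] at h
  rw [Fintype.card_subtype, h, Nat.cast_choose_two]

theorem quad {n : ℕ} (g : P146.Edge n → ℝ) (ψ : (Fin n → Bool) → ℂ) :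
    star ψ ⬝ᵥ (Cm g).mulVec ψ = ∑ σ, (starRingEnd ℂ) (ψ σ) * ((P146.ham g σ : ℂ) * ψ σ) := by
  unfold dotProduct Cm
  refine Finset.sum_congr rfl fun σ _ => ?_
  rw [Matrix.mulVec_diagonal]
  rfl

/-- the two end points of an edge -/
def emb {n : ℕ} (e : P146.Edge n) : Fin 2 ↪ Fin n :=
  ⟨![e.1.1, e.1.2], fun i j h => by
    have := e.2.ne
    fin_cases i <;> fin_cases j <;> simp_all⟩

theorem emb_eq {n : ℕ} (e : P146.Edge n) (a : Fin n → Pa) :
    ![a e.1.1, a e.1.2] = fun j => a (emb e j) := by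
  funext j
  fin_cases j <;> rfl

end QDEnAux

open QDEnAux

theorem enEq (h1 : S_st) (h2 : S_path) (h3 : S_gau) (h4 : S_split) : S_en := by
  intro n p γ β
  set W : ℂ := ∑ c : Fin 2 → Pd p, (∏ j, amp (co β) p (ext (c j))) *
    exp (-((En (co γ) p fun j => ext (c j)) / n : ℝ)) * ob (co γ) p (fun j => ext (c j)) *
    YY (co β) (co γ) p n (ps (co γ) p fun j => ext (c j)) (n - 2) with hW
  have e1 : ∀ g : P146.Edge n → ℝ, star (state g γ β) ⬝ᵥ (Cm g).mulVec (state g γ β) =
      ∑ a : Fin n → Pd p, (∏ i, amp (co β) p (ext (a i))) *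
        (exp (-I * phs (co γ) p g fun i => ext (a i)) * P146.ham g fun i => (ext (a i) p).1) :=
    fun g => by rw [quad, h1, h2 (co β) (co γ) n g p fun σ => (P146.ham g σ : ℂ)]
  have hi : ∀ a : Fin n → Pd p, Integrable (fun g => (∏ i, amp (co β) p (ext (a i))) *
      (exp (-I * phs (co γ) p g fun i => ext (a i)) * P146.ham g fun i => (ext (a i) p).1))
      (P146.disorder n) := fun a => (h3 (co γ) n p fun i => ext (a i)).1.const_mul _
  have e2 : ∫ g, (∑ a : Fin n → Pd p, (∏ i, amp (co β) p (ext (a i))) *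
      (exp (-I * phs (co γ) p g fun i => ext (a i)) * P146.ham g fun i => (ext (a i) p).1))
      ∂P146.disorder n = (Fintype.card (P146.Edge n) : ℂ) * W / n := by
    rw [integral_finsetSum _ fun a _ => hi a]
    have e3 : ∀ a : Fin n → Pd p, ∫ g, (∏ i, amp (co β) p (ext (a i))) *
        (exp (-I * phs (co γ) p g fun i => ext (a i)) * P146.ham g fun i => (ext (a i) p).1)
        ∂P146.disorder n = (∑ e : P146.Edge n, (∏ i, amp (co β) p (ext (a i))) *
          exp (-((En (co γ) p fun i => ext (a i)) / n : ℝ)) *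
            ob (co γ) p fun j => ext (a (emb e j))) / n := fun a => by
      rw [integral_const_mul, (h3 (co γ) n p fun i => ext (a i)).2, ← mul_div_assoc,
        Finset.mul_sum]
      congr 1
      refine Finset.sum_congr rfl fun e _ => ?_
      rw [emb_eq e fun i => ext (a i), mul_assoc]
    rw [Finset.sum_congr rfl fun a _ => e3 a, ← Finset.sum_div, Finset.sum_comm]
    congr 1
    rw [Finset.sum_congr rfl fun e _ => h4 (Fin n) 2 (emb e) (co β) (co γ) p n (ob (co γ) p),
      Finset.sum_const, Finset.card_univ, nsmul_eq_mul, Fintype.card_fin]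
  have e4 := integral_re (𝕜 := ℂ) (integrable_finsetSum Finset.univ fun a _ => hi a)
  rw [e2] at e4
  have e5 : ∫ g, (star (state g γ β) ⬝ᵥ (Cm g).mulVec (state g γ β)).re ∂P146.disorder n =
      ((Fintype.card (P146.Edge n) : ℂ) * W / n).re := by
    simp only [e1]
    exact e4
  unfold energy
  rw [e5, div_natCast_re, ← ofReal_natCast, re_ofReal_mul, card_edge]
  rcases Nat.eq_zero_or_pos n with rfl | hn
  · simp
  · have : (n : ℝ) ≠ 0 := by exact_mod_cast hn.ne'
    field_simp

end Vale.Agent.P367.Q
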