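import Vale.Agent.P367.QDDefs
import Vale.Agent.P146L.RStein

/-! # P367, the limit of infinite size: QDGau -/

namespace Vale.Agent.P367.Q

open Complex MeasureTheory Filter Topology

namespace QDGauAux

open ProbabilityTheory

theorem norm_e (x t : ℝ) : ‖exp (-I * x * t)‖ = 1 := by
  rw [show -I * x * t = ((-(x * t) : ℝ) : ℂ) * I by push_cast; ring, norm_exp_ofReal_mul_I]

theorem int0 (x : ℝ) : Integrable (fun t : ℝ => exp (-I * x * t)) (gaussianReal 0 1) :=
  (integrable_const (1 : ℝ)).mono' (by fun_prop) (ae_of_all _ fun t => (norm_e x t).le)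

theorem int1 (x : ℝ) : Integrable (fun t : ℝ => exp (-I * x * t) * t) (gaussianReal 0 1) :=
  Integrable.bdd_mul (c := 1) ((memLp_id_gaussianReal 1).integrable le_rfl).ofReal (by fun_prop)
    (ae_of_all _ fun t => (norm_e x t).le)

theorem val0 (x : ℝ) : ∫ t : ℝ, exp (-I * x * t) ∂gaussianReal 0 1 = exp (-(x ^ 2 / 2 : ℝ)) := by
  have h := charFun_gaussianReal (μ := 0) (v := 1) (-x)
  rw [charFun_apply_real] at h
  refine Eq.trans (integral_congr_ae (ae_of_all _ fun t => ?_)) (h.trans ?_)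
  · refine congrArg exp ?_
    push_cast
    ring
  · refine congrArg exp ?_
    push_cast
    ring

theorem val1 (x : ℝ) :
    ∫ t : ℝ, exp (-I * x * t) * t ∂gaussianReal 0 1 = -I * x * exp (-(x ^ 2 / 2 : ℝ)) := by
  have h := P146L.RSteinAux.stein1 (v := 1) zero_le_one (g := fun t : ℝ => exp (-I * x * t))
    (g' := fun t : ℝ => -I * x * exp (-I * x * t))
    (fun t => ((Complex.ofRealCLM.hasDerivAt (x := t)).const_mul (-I * x)).cexp.congr_deriv
      (by simp [mul_comm]))
    (by rw [P157.g1_one]; exact int0 x)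
    (by rw [P157.g1_one]; exact (int1 x).congr (ae_of_all _ fun t => mul_comm _ _))
    (by rw [P157.g1_one]; exact (int0 x).const_mul _)
  rw [P157.g1_one, integral_const_mul, val0, ofReal_one, one_mul] at h
  rw [← h]
  exact integral_congr_ae (ae_of_all _ fun t => mul_comm _ _)

theorem multi {ι : Type} [Fintype ι] [DecidableEq ι] (x : ι → ℝ) (e : ι) :
    Integrable (fun g : ι → ℝ => exp (-I * (∑ j, g j * x j : ℝ)) * g e)
      (Measure.pi fun _ => gaussianReal 0 1) ∧
    ∫ g : ι → ℝ, exp (-I * (∑ j, g j * x j : ℝ)) * g e ∂(Measure.pi fun _ => gaussianReal 0 1)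
      = -I * x e * exp (-((∑ j, x j ^ 2) / 2 : ℝ)) := by
  have h : ∀ g : ι → ℝ, exp (-I * (∑ j, g j * x j : ℝ)) * g e =
      ∏ j, (fun j (t : ℝ) => exp (-I * x j * t) * if j = e then (t : ℂ) else 1) j (g j) := by
    intro g
    rw [Finset.prod_mul_distrib, Finset.prod_ite_eq', if_pos (Finset.mem_univ _), ← exp_sum]
    refine congrArg (fun z => exp z * _) ?_
    rw [ofReal_sum, Finset.mul_sum]
    refine Finset.sum_congr rfl fun j _ => ?_
    push_cast
    ring
  simp only [h]
  refine ⟨Integrable.fintype_prod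
    (f := fun j (t : ℝ) => exp (-I * x j * t) * if j = e then (t : ℂ) else 1) fun j => ?_, ?_⟩
  · by_cases hj : j = e
    · simpa only [hj, if_true] using int1 (x e)
    · simpa only [hj, if_false, mul_one] using int0 (x j)
  · rw [integral_fintype_prod_eq_prod
      (fun j (t : ℝ) => exp (-I * x j * t) * if j = e then (t : ℂ) else 1)]
    have h2 : ∀ j, ∫ t : ℝ, exp (-I * x j * t) * (if j = e then (t : ℂ) else 1) ∂gaussianReal 0 1
        = (if j = e then -I * x j else 1) * exp (-(x j ^ 2 / 2 : ℝ)) := fun j => by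
      by_cases hj : j = e
      · simp only [hj, if_true, val1]
      · simp only [hj, if_false, mul_one, one_mul, val0]
    simp only [h2]
    rw [Finset.prod_mul_distrib, Finset.prod_ite_eq', if_pos (Finset.mem_univ _), ← exp_sum,
      Finset.sum_neg_distrib, ← ofReal_sum, Finset.sum_div]

theorem edge_sum {n : ℕ} (f : Fin n → Fin n → ℝ) (hs : ∀ i j, f i j = f j i)
    (h0 : ∀ i, f i i = 0) : ∑ i, ∑ j, f i j = 2 * ∑ e : P146.Edge n, f e.1.1 e.1.2 := by
  have e1 : ∑ e : P146.Edge n, f e.1.1 e.1.2 = ∑ i, ∑ j, if i < j then f i j else 0 := by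
    rw [← Fintype.sum_prod_type' fun i j => if i < j then f i j else 0, ← Finset.sum_filter]
    exact (Finset.sum_subtype _ (by simp) fun p : Fin n × Fin n => f p.1 p.2).symm
  have e2 : ∑ i, ∑ j, (if i < j then f i j else 0) = ∑ i, ∑ j, if j < i then f i j else 0 := by
    rw [Finset.sum_comm]
    simp only [hs]
  rw [two_mul, e1]
  nth_rw 2 [e2]
  rw [← Finset.sum_add_distrib]
  refine Finset.sum_congr rfl fun i _ => ?_
  rw [← Finset.sum_add_distrib]
  refine Finset.sum_congr rfl fun j _ => ?_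
  rcases lt_trichotomy i j with h | rfl | h
  · simp [h, h.not_gt]
  · simp [h0]
  · simp [h, h.not_gt]

theorem phs_eq (γ : ℕ → ℝ) (d : ℕ) {n : ℕ} (g : P146.Edge n → ℝ) (a : Fin n → Pa) :
    phs γ d g a = ∑ e : P146.Edge n, g e * (1 / √(n : ℝ) * Ph γ d (a e.1.1) (a e.1.2)) := by
  simp only [phs, P146.ham, Ph, Finset.mul_sum, ← Finset.sum_sub_distrib]
  rw [Finset.sum_comm]
  refine Finset.sum_congr rfl fun e _ => Finset.sum_congr rfl fun t _ => ?_
  simp only [show P146.spin = sg from rfl]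
  ring

end QDGauAux

open QDGauAux in
theorem gau : S_gau := by
  intro γ n d a
  have hq : 1 / √(n : ℝ) * (1 / √(n : ℝ)) = 1 / n := by
    rw [one_div_mul_one_div, Real.mul_self_sqrt (Nat.cast_nonneg n)]
  have hm := multi fun e : P146.Edge n => 1 / √(n : ℝ) * Ph γ d (a e.1.1) (a e.1.2)
  have hE : (∑ e : P146.Edge n, (1 / √(n : ℝ) * Ph γ d (a e.1.1) (a e.1.2)) ^ 2) / 2 =
      En γ d a / n := by
    rw [En, edge_sum (fun i j => Ph γ d (a i) (a j) ^ 2) (fun i j => by rw [Ph_symm])
      fun i => by rw [Ph_self]; ring]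
    simp only [mul_pow, sq (1 / √(n : ℝ)), hq]
    rw [← Finset.mul_sum]
    ring
  rw [hE] at hm
  simp only [← phs_eq] at hm
  have h : ∀ g, exp (-I * phs γ d g a) * P146.ham g (fun i => (a i d).1) = ∑ e : P146.Edge n,
      ((1 / √(n : ℝ) * (sg (a e.1.1 d).1 * sg (a e.1.2 d).1) : ℝ) : ℂ) *
        (exp (-I * phs γ d g a) * g e) := by
    intro g
    rw [P146.ham, Finset.mul_sum, ofReal_sum, Finset.mul_sum]
    refine Finset.sum_congr rfl fun e _ => ?_
    simp only [show P146.spin = sg from rfl, ofReal_mul]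
    ring
  simp only [h]
  refine ⟨integrable_finsetSum _ fun e _ => (hm e).1.const_mul _, ?_⟩
  rw [P146.disorder, integral_finsetSum _ fun e _ => (hm e).1.const_mul _, Finset.sum_div]
  refine Finset.sum_congr rfl fun e _ => ?_
  have hq' : ((1 / √(n : ℝ) : ℝ) : ℂ) * (1 / √(n : ℝ) : ℝ) = 1 / n := by
    rw [← ofReal_mul, hq]
    push_cast
    rfl
  rw [integral_const_mul, (hm e).2, ob, div_eq_mul_one_div _ (n : ℂ), ← hq']
  simp only [ofReal_mul, Matrix.cons_val_zero, Matrix.cons_val_one]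
  ring

end Vale.Agent.P367.Q
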