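import Vale.Agent.P367.QDDefs

/-! # P367, the limit of infinite size: QDId -/

namespace Vale.Agent.P367.Q

open Complex MeasureTheory Filter Topology

namespace QDIdAux

variable {β γ : ℕ → ℝ}

theorem av_low (h1 : S_close) {u d : ℕ} (h : u ≤ d) {F : Pa → ℂ} (hF : Dp u F) :
    av β γ d F = av β γ u F := by
  induction d, h using Nat.le_induction with
  | base => rfl
  | succ d hd ih => rw [h1 β γ d F fun a a' e => hF a a' fun t ht => e t (ht.trans hd), ih]

theorem av_closed {u : ℕ} {F F' : Pa → ℂ} (h : ∀ a, (a u).1 = (a u).2 → F a = F' a) :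
    av β γ u F = av β γ u F' := by
  refine Finset.sum_congr rfl fun b _ => ?_
  by_cases k : amp β u (ext b) = 0
  · simp only [k, zero_mul]
  · rw [h _ (amp_closed k)]

theorem av_swap (h1 : S_close) {u d : ℕ} (h : u ≤ d) {F F' : Pa → ℂ} (hF : Dp u F)
    (hF' : Dp u F') (e : ∀ a, (a u).1 = (a u).2 → F a = F' a) : av β γ d F = av β γ d F' := by
  rw [av_low h1 h hF, av_low h1 h hF', av_closed e]

theorem av_kk (h1 : S_close) {i j d : ℕ} (h : j ≤ i) (h' : i ≤ d) :
    av β γ d (fun b => (sg (b i).1 * sg (b j).1 : ℝ)) =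
      av β γ d fun b => (sg (b i).2 * sg (b j).1 : ℝ) :=
  av_swap h1 h' (fun a a' e => by simp only [e i le_rfl, e j h])
    (fun a a' e => by simp only [e i le_rfl, e j h]) fun a e => by simp only [e]

theorem av_bb (h1 : S_close) {i j d : ℕ} (h : j ≤ i) (h' : i ≤ d) :
    av β γ d (fun b => (sg (b j).2 * sg (b i).2 : ℝ)) =
      av β γ d fun b => (sg (b j).2 * sg (b i).1 : ℝ) :=
  av_swap h1 h' (fun a a' e => by simp only [e i le_rfl, e j h])
    (fun a a' e => by simp only [e i le_rfl, e j h]) fun a e => by simp only [e]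

theorem av_sum {ι : Type} (d : ℕ) (s : Finset ι) (F : ι → Pa → ℂ) :
    av β γ d (fun b => ∑ i ∈ s, F i b) = ∑ i ∈ s, av β γ d (F i) := by
  simp only [av, Finset.mul_sum]
  exact Finset.sum_comm

theorem av_lin (d : ℕ) (c1 c2 c3 c4 : ℂ) (F1 F2 F3 F4 : Pa → ℂ) :
    av β γ d (fun b => c1 * F1 b + c2 * F2 b + c3 * F3 b + c4 * F4 b) =
      c1 * av β γ d F1 + c2 * av β γ d F2 + c3 * av β γ d F3 + c4 * av β γ d F4 := by
  simp only [av, Finset.mul_sum, ← Finset.sum_add_distrib]
  exact Finset.sum_congr rfl fun b _ => by ring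

theorem sym_sum (s : Finset ℕ) (f g : ℕ → ℕ → ℂ)
    (h : ∀ i ∈ s, ∀ j ∈ s, f i j + f j i = g i j + g j i) :
    ∑ i ∈ s, ∑ j ∈ s, f i j = ∑ i ∈ s, ∑ j ∈ s, g i j := by
  have k : ∀ f : ℕ → ℕ → ℂ, 2 * ∑ i ∈ s, ∑ j ∈ s, f i j = ∑ i ∈ s, ∑ j ∈ s, (f i j + f j i) :=
    fun f => by
      simp only [Finset.sum_add_distrib]
      rw [two_mul]
      congr 1
      exact Finset.sum_comm
  refine mul_left_cancel₀ two_ne_zero ?_
  rw [k, k]
  exact Finset.sum_congr rfl fun i hi => Finset.sum_congr rfl fun j hj => h i hi j hj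

theorem sg_sq (x : Bool) : (sg x : ℂ) * sg x = 1 := by cases x <;> simp [sg]

theorem expand (d : ℕ) (a : Pa) :
    av β γ d (fun b => (Ph γ (d + 1) a b ^ 2 / 2 : ℝ)) =
      ∑ i ∈ Finset.range (d + 1), ∑ j ∈ Finset.range (d + 1),
        ((γ i * γ j * sg (a i).1 * sg (a j).1 / 2 : ℂ) *
            av β γ d (fun b => (sg (b i).1 * sg (b j).1 : ℝ)) +
          (-(γ i * γ j * sg (a i).1 * sg (a j).2 / 2) : ℂ) *
            av β γ d (fun b => (sg (b j).2 * sg (b i).1 : ℝ)) +
          (-(γ i * γ j * sg (a i).2 * sg (a j).1 / 2) : ℂ) *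
            av β γ d (fun b => (sg (b i).2 * sg (b j).1 : ℝ)) +
          (γ i * γ j * sg (a i).2 * sg (a j).2 / 2 : ℂ) *
            av β γ d (fun b => (sg (b i).2 * sg (b j).2 : ℝ))) := by
  simp only [← av_lin, ← av_sum]
  refine congrArg _ (funext fun b => ?_)
  rw [Ph, sq, Finset.sum_mul_sum, Finset.sum_div, ofReal_sum]
  refine Finset.sum_congr rfl fun i _ => ?_
  rw [Finset.sum_div, ofReal_sum]
  refine Finset.sum_congr rfl fun j _ => ?_
  push_cast
  ring

theorem av_comm (d : ℕ) (f g : Pa → ℝ) :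
    av β γ d (fun b => (f b * g b : ℝ)) = av β γ d fun b => (g b * f b : ℝ) := by
  simp only [mul_comm]

theorem EE_eq (h1 : S_close) (d : ℕ) (a : Pa) :
    EE (fun i j => γ i * γ j * av β γ d fun b => (sg (b i).2 * sg (b j).1 : ℝ)) (d + 1) a =
      -av β γ d fun b => (Ph γ (d + 1) a b ^ 2 / 2 : ℝ) := by
  rw [expand, EE, ← Finset.sum_neg_distrib]
  simp only [← Finset.sum_neg_distrib]
  refine sym_sum _ _ _ fun i hi j hj => ?_
  have hi' : i ≤ d := Nat.lt_succ_iff.1 (Finset.mem_range.1 hi)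
  have hj' : j ≤ d := Nat.lt_succ_iff.1 (Finset.mem_range.1 hj)
  rcases lt_trichotomy i j with h | rfl | h
  · rw [av_comm d (fun b => sg (b i).1) fun b => sg (b j).1,
      av_comm d (fun b => sg (b j).2) fun b => sg (b i).2, av_kk h1 h.le hj', av_bb h1 h.le hj']
    simp only [h, h.not_gt, h.ne, h.ne', if_true, if_false]
    push_cast
    ring
  · rw [av_kk h1 le_rfl hi', av_bb h1 le_rfl hi']
    simp only [lt_irrefl, if_true, if_false]
    push_cast
    linear_combination (γ i * γ i * av β γ d fun b => (sg (b i).2 : ℂ) * sg (b i).1) *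
      (sg_sq (a i).1 + sg_sq (a i).2)
  · rw [av_comm d (fun b => sg (b j).1) fun b => sg (b i).1,
      av_comm d (fun b => sg (b i).2) fun b => sg (b j).2, av_kk h1 h.le hi', av_bb h1 h.le hi']
    simp only [h, h.not_gt, h.ne, h.ne', if_true, if_false]
    push_cast
    ring

end QDIdAux

open QDIdAux in
theorem idG (h1 : S_close) : S_id := by
  intro β γ d
  induction d with
  | zero => exact fun u t => by simp [GR, PS, EE, av, HH]
  | succ d ih =>
    intro u t
    simp only [GR, PS, Pi.zero_apply, ofReal_zero, mul_zero, add_zero, ih, EE_eq h1]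
    rfl

end Vale.Agent.P367.Q
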