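import Vale.Agent.P367.QDDefs

/-! # P367, the limit of infinite size: QDLim -/

namespace Vale.Agent.P367.Q

open Complex MeasureTheory Filter Topology

namespace QDLimAux

theorem lim_choose (r k : ℕ) : Tendsto (fun N : ℕ => ((N - r).choose k : ℂ) * (N : ℂ)⁻¹ ^ k) atTop
    (𝓝 (k.factorial : ℂ)⁻¹) := by
  have h := (continuous_ofReal.tendsto _).comp
    ((ProbabilityTheory.tendsto_choose_mul_pow_atTop (p := fun n => ((n : ℝ) + r)⁻¹) k
      (tendsto_natCast_div_add_atTop (r : ℝ))).comp (tendsto_sub_atTop_nat r))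
  simp only [one_pow, one_div, ofReal_inv, ofReal_natCast] at h
  refine h.congr' ((eventually_ge_atTop r).mono fun N hN => ?_)
  simp [Nat.cast_sub hN]

theorem lim_exp (x : ℝ) :
    Tendsto (fun N : ℕ => (N : ℂ) * (exp (-(x / N : ℝ)) - 1)) atTop (𝓝 (-x)) := by
  have h : HasDerivAt (fun t : ℝ => exp (-(t : ℂ))) (-1) 0 := by
    simpa using ((hasDerivAt_id (0 : ℝ)).ofReal_comp.neg).cexp
  simpa [Function.comp_def, div_eq_inv_mul] using
    (h.hasFDerivAt.lim_real x).comp tendsto_natCast_atTop_atTop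

theorem lim_one (x : ℝ) : Tendsto (fun N : ℕ => exp (-(x / N : ℝ))) atTop (𝓝 1) := by
  have h : Continuous fun t : ℝ => exp (-(t : ℂ)) := by fun_prop
  simpa [Function.comp_def] using (h.tendsto 0).comp (tendsto_const_div_atTop_nhds_zero_nat x)

theorem norm_one {x : ℝ} (hx : 0 ≤ x) : ‖exp (-(x : ℂ))‖ ≤ 1 := by
  simpa [norm_exp] using hx

theorem norm_sub {x : ℝ} (hx : 0 ≤ x) : ‖exp (-(x : ℂ)) - 1‖ ≤ x := by
  rw [← ofReal_neg, ← ofReal_exp, ← ofReal_one, ← ofReal_sub, norm_real, Real.norm_eq_abs, abs_le]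
  constructor <;> linarith [Real.add_one_le_exp (-x), Real.exp_le_one_iff.2 (neg_nonpos.2 hx)]

theorem base (β γ : ℕ → ℝ) (N : ℝ) {k : ℕ} (b : Fin k → Pa) (m : ℕ) :
    YY β γ 0 N (ps γ 0 b) m = 1 := by
  have h : ∑ c : Pd 0, amp β 0 (ext c) = 1 := by
    rw [Fintype.sum_equiv (Equiv.funUnique (Fin 1) (Bool × Bool)) _
      (fun x => if x.1 = x.2 then (1 / 2 : ℂ) else 0) fun c => by simp [amp, ext]]
    norm_num [Fintype.sum_prod_type]
  simp [YY, ps, En, Ph, ← Fintype.sum_pow fun c : Pd 0 => amp β 0 (ext c), h]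

variable {β γ : ℕ → ℝ} {d : ℕ} {φ : Pa → ℝ}

theorem step (h2 : S_rec) (h3 : S_bd) (hφ : ∀ a, 0 ≤ φ a) (r : ℕ)
    (ih : ∀ (k : ℕ) (b : Fin k → Pa) (r : ℕ), Tendsto
      (fun N : ℕ => YY β γ d N (ps γ d b) (N - r)) atTop (𝓝 (∏ j, HH β γ d (b j)))) :
    Tendsto (fun N : ℕ => YY β γ d N φ (N - r)) atTop
      (𝓝 (exp (∑ c : Pd d, amp β d (ext c) * -(φ (ext c) : ℂ) * HH β γ d (ext c)))) := by
  obtain ⟨C, hC⟩ := h3 β γ d
  rw [congrFun Complex.exp_eq_exp_ℂ, congrFun NormedSpace.exp_eq_tsum_div]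
  refine (tendsto_tsum_of_dominated_convergence (f := fun (N : ℕ) k => ((N - r).choose k : ℂ) *
    ∑ c : Fin k → Pd d, (∏ j, amp β d (ext (c j))) *
      exp (-((En γ d fun j => ext (c j)) / N : ℝ)) * (∏ j, (exp (-(φ (ext (c j)) / N : ℝ)) - 1)) *
      YY β γ d N (ps γ d fun j => ext (c j)) (N - r - k)) (Real.summable_pow_div_factorial
      (∑ c : Pd d, ‖amp β d (ext c)‖ * φ (ext c) * Real.exp C)) (fun k => ?_)
    ((eventually_gt_atTop 0).mono fun N hN k => ?_)).congr fun N => ?_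
  · rw [Fintype.sum_pow, div_eq_inv_mul]
    refine ((lim_choose r k).mul (tendsto_finsetSum _ fun c _ => ?_)).congr'
      (f₁ := fun N : ℕ => _ * ∑ c : Fin k → Pd d, (∏ j, amp β d (ext (c j))) *
        exp (-((En γ d fun j => ext (c j)) / N : ℝ)) *
        (∏ j, (N : ℂ) * (exp (-(φ (ext (c j)) / N : ℝ)) - 1)) *
        YY β γ d N (ps γ d fun j => ext (c j)) (N - (r + k)))
      ((eventually_ne_atTop 0).mono fun N hN => ?_)
    · simpa only [Finset.prod_mul_distrib, mul_one] using (((lim_one _).const_mul _).mul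
        (tendsto_finsetProd _ fun j _ => lim_exp (φ (ext (c j))))).mul (ih k _ _)
    · simp only [Finset.prod_mul_distrib, Finset.prod_const, Finset.card_univ, Fintype.card_fin,
        Nat.sub_sub, mul_assoc, Finset.mul_sum]
      refine Finset.sum_congr rfl fun c _ => ?_
      have : (N : ℂ) ≠ 0 := Nat.cast_ne_zero.2 hN
      rw [inv_pow]
      field_simp
  · have hN' : (0 : ℝ) < N := Nat.cast_pos.2 hN
    have h4 : ((N - r).choose k : ℝ) ≤ N ^ k / k.factorial :=
      (Nat.cast_le.2 (Nat.choose_le_choose k (Nat.sub_le N r))).trans (Nat.choose_le_pow_div k N)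
    rw [norm_mul, Complex.norm_natCast, Fintype.sum_pow]
    refine (mul_le_mul h4 (norm_sum_le_of_le _ (n := fun c => (∏ j, ‖amp β d (ext (c j))‖) * 1 *
      (∏ j, φ (ext (c j)) / N) * Real.exp (C * k)) fun c _ => ?_) (norm_nonneg _)
      (by positivity)).trans (le_of_eq ?_)
    · rw [norm_mul, norm_mul, norm_mul, norm_prod, norm_prod]
      gcongr with j
      · exact mul_nonneg (by positivity) (Finset.prod_nonneg fun j _ => div_nonneg (hφ _) hN'.le)
      · exact norm_one (by unfold En; positivity)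
      · exact norm_sub (div_nonneg (hφ _) hN'.le)
      · exact hC N _ k _ (by omega)
    · simp only [Finset.prod_mul_distrib, Finset.prod_div_distrib, Finset.prod_const,
        Finset.card_univ, Fintype.card_fin, Finset.mul_sum, Finset.sum_div, mul_comm C,
        Real.exp_nat_mul]
      refine Finset.sum_congr rfl fun c _ => ?_
      field_simp
  · rw [h2, tsum_eq_sum fun k hk => ?_]
    rw [Nat.choose_eq_zero_of_lt (by simpa using hk), Nat.cast_zero, zero_mul]

end QDLimAux

theorem limY (h1 : S_low) (h2 : S_rec) (h3 : S_bd) : S_lim := by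
  intro β γ d
  induction d with
  | zero => simp [QDLimAux.base, HH]
  | succ d ih =>
    intro k b r
    have hd : Dp d (ps γ (d + 1) b) := fun a a' h => by
      simp only [ps, Ph_congr γ (fun _ _ => rfl) fun t ht => h t (Nat.lt_succ_iff.1 ht)]
    have e : ∏ j, HH β γ (d + 1) (b j) = exp (∑ c : Pd d,
        amp β d (ext c) * -(ps γ (d + 1) b (ext c) : ℂ) * HH β γ d (ext c)) := by
      simp only [HH, ← exp_sum, ← Finset.sum_neg_distrib]
      rw [Finset.sum_comm]
      refine congrArg exp (Finset.sum_congr rfl fun c _ => ?_)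
      simp only [ps, Finset.sum_neg_distrib, ← Finset.mul_sum, ← ofReal_sum, ← Finset.sum_div]
      ring
    simp only [h1 β γ d _ _ _ hd, e]
    exact QDLimAux.step h2 h3 (fun a => by unfold ps; positivity) r ih

end Vale.Agent.P367.Q
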