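import Vale.Agent.P367.QDDefs

/-! # P367, the limit of infinite size: QDPath -/

namespace Vale.Agent.P367.Q

open Complex MeasureTheory Filter Topology

namespace QDPathAux

/-- the open amplitude -/
noncomputable def op (β : ℕ → ℝ) (d : ℕ) (a : Pa) : ℂ :=
  1 / 2 * ∏ j ∈ Finset.range d,
    rx (β j) (a (j + 1)).1 (a j).1 * (starRingEnd ℂ) (rx (β j) (a (j + 1)).2 (a j).2)

theorem op_upd (β : ℕ → ℝ) (d : ℕ) (a : Pa) (x : Bool × Bool) :
    op β (d + 1) (Function.update a (d + 1) x) =
      op β d a * (rx (β d) x.1 (a d).1 * (starRingEnd ℂ) (rx (β d) x.2 (a d).2)) := by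
  rw [op, op, Finset.prod_range_succ, Function.update_self,
    Function.update_of_ne (Nat.succ_ne_self d).symm, mul_assoc]
  congr 2
  refine Finset.prod_congr rfl fun j hj => ?_
  have := Finset.mem_range.1 hj
  rw [Function.update_of_ne (show j + 1 ≠ d + 1 by omega),
    Function.update_of_ne (show j ≠ d + 1 by omega)]

variable {n : ℕ}

theorem phs_upd (γ : ℕ → ℝ) (d : ℕ) (g : P146.Edge n → ℝ) (a : Fin n → Pa)
    (x : Fin n → Bool × Bool) :
    phs γ (d + 1) g (fun i => Function.update (a i) (d + 1) (x i)) = phs γ d g a +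
      γ d * (P146.ham g (fun i => (a i d).1) - P146.ham g fun i => (a i d).2) := by
  rw [phs, phs, ← Finset.sum_range_succ
    fun t => γ t * (P146.ham g (fun i => (a i t).1) - P146.ham g fun i => (a i t).2)]
  refine Finset.sum_congr rfl fun j hj => ?_
  simp only [Function.update_of_ne (Finset.mem_range.1 hj).ne]

theorem sum_pair (f : (Fin n → Bool) → (Fin n → Bool) → ℂ) :
    ∑ s, ∑ s', f s s' = ∑ x : Fin n → Bool × Bool, f (fun i => (x i).1) fun i => (x i).2 := by
  rw [← Fintype.sum_prod_type']
  exact (Fintype.sum_equiv (Equiv.arrowProdEquivProdArrow _ _ _) _ _ fun _ => rfl).symm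

theorem st_succ (β γ : ℕ → ℝ) (g : P146.Edge n → ℝ) (d : ℕ) (s s' : Fin n → Bool) :
    st β γ g (d + 1) s * (starRingEnd ℂ) (st β γ g (d + 1) s') = ∑ y : Fin n → Bool × Bool,
      st β γ g d (fun i => (y i).1) * (starRingEnd ℂ) (st β γ g d fun i => (y i).2) *
      ((∏ i, rx (β d) (s i) (y i).1 * (starRingEnd ℂ) (rx (β d) (s' i) (y i).2)) *
        exp (-I * (γ d * (P146.ham g (fun i => (y i).1) - P146.ham g fun i => (y i).2) : ℝ))) := by
  rw [st, map_sum, Finset.sum_mul_sum, sum_pair]
  refine Finset.sum_congr rfl fun y _ => ?_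
  rw [Finset.prod_mul_distrib, map_mul, map_mul, map_prod, ← exp_conj, ofReal_mul, ofReal_sub,
    mul_sub, mul_sub, sub_eq_add_neg, exp_add]
  simp only [map_mul, map_neg, conj_I, conj_ofReal, neg_neg, neg_mul, mul_assoc]
  ring

theorem main (β γ : ℕ → ℝ) (g : P146.Edge n → ℝ) (d : ℕ) (G : (Fin n → Bool × Bool) → ℂ) :
    ∑ x : Fin n → Bool × Bool,
      st β γ g d (fun i => (x i).1) * (starRingEnd ℂ) (st β γ g d fun i => (x i).2) * G x =
    ∑ a : Fin n → Pd d, (∏ i, op β d (ext (a i))) *
      (exp (-I * phs γ d g fun i => ext (a i)) * G fun i => ext (a i) d) := by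
  induction d generalizing G with
  | zero =>
    refine (Fintype.sum_equiv (Equiv.piCongrRight fun _ => Equiv.funUnique (Fin 1) _) _ _
      fun a => ?_).symm
    have e : (1 / √2 : ℝ) * (1 / √2) = 1 / 2 := by
      rw [div_mul_div_comm, Real.mul_self_sqrt zero_le_two, one_mul]
    simp only [st, op, phs, Finset.range_zero, Finset.prod_empty, Finset.sum_empty, mul_one,
      Finset.prod_const, Finset.card_univ, Fintype.card_fin, map_pow, conj_ofReal, ← mul_pow,
      ← ofReal_mul, e, ofReal_zero, mul_zero, exp_zero, one_mul]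
    push_cast
    rfl
  | succ d ih =>
    rw [sum_snoc d fun a => (∏ i, op β (d + 1) (a i)) *
      (exp (-I * phs γ (d + 1) g a) * G fun i => a i (d + 1))]
    simp only [st_succ, Finset.sum_mul]
    rw [Finset.sum_comm]
    simp only [mul_assoc (st β γ g d _ * _), ← Finset.mul_sum]
    rw [ih]
    refine Finset.sum_congr rfl fun b _ => ?_
    rw [Finset.mul_sum, Finset.mul_sum]
    refine Finset.sum_congr rfl fun x _ => ?_
    simp only [op_upd, phs_upd, Function.update_self]
    rw [Finset.prod_mul_distrib (f := fun i => op β d (ext (b i))), ofReal_add, mul_add, exp_add]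
    ring

end QDPathAux

theorem path : S_path := by
  intro β γ n g d F
  have h := QDPathAux.main β γ g d fun x =>
    if (fun i => (x i).1) = fun i => (x i).2 then F fun i => (x i).1 else 0
  rw [← QDPathAux.sum_pair fun s s' => st β γ g d s * (starRingEnd ℂ) (st β γ g d s') *
    if s = s' then F s else 0] at h
  simp only [mul_ite, mul_zero, Finset.sum_ite_eq, Finset.mem_univ, if_true] at h
  refine (Finset.sum_congr rfl fun σ _ => by ring).trans
    (h.trans (Finset.sum_congr rfl fun a _ => ?_))
  split_ifs with h1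
  · congr 1
    exact Finset.prod_congr rfl fun i _ => by rw [amp, if_pos (congrFun h1 i), QDPathAux.op]
  · obtain ⟨i, hi⟩ := Function.ne_iff.1 h1
    rw [Finset.prod_eq_zero (Finset.mem_univ i) (by rw [amp, if_neg hi, zero_mul]), zero_mul]

end Vale.Agent.P367.Q
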