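import Vale.Agent.P367.QDDefs

/-! # P367, the limit of infinite size: QDRec -/

namespace Vale.Agent.P367.Q

open Complex MeasureTheory Filter Topology

namespace QDRecAux

theorem exp_split {m : ℕ} (x : Fin m → ℝ) (y N : ℝ) :
    exp (-((∑ j, x j + y) / N : ℝ)) = exp (-(y / N : ℝ)) *
      ∑ S ∈ (Finset.univ : Finset (Fin m)).powerset, ∏ j ∈ S, (exp (-(x j / N : ℝ)) - 1) := by
  rw [← Finset.prod_one_add]
  simp only [add_sub_cancel]
  rw [← Complex.exp_sum, ← Complex.exp_add]
  congr 1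
  push_cast
  rw [Finset.sum_neg_distrib, ← Finset.sum_div]
  ring

theorem prod_emb {m : ℕ} (S : Finset (Fin m)) (u : Fin m → ℂ) :
    ∏ j ∈ S, u j = ∏ j : Fin S.card, u ((S.orderEmbOfFin rfl).toEmbedding j) := by
  rw [← Finset.prod_map Finset.univ (S.orderEmbOfFin rfl).toEmbedding u,
    Finset.map_orderEmbOfFin_univ]

end QDRecAux

theorem recY (h1 : S_split) : S_rec := by
  intro β γ d N φ m
  have key := Finset.sum_powerset_apply_card (x := (Finset.univ : Finset (Fin m)))
    fun k => ∑ c : Fin k → Pd d,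
      (∏ j, amp β d (ext (c j))) * exp (-((En γ d fun j => ext (c j)) / N : ℝ)) *
      (∏ j, (exp (-(φ (ext (c j)) / N : ℝ)) - 1)) * YY β γ d N (ps γ d fun j => ext (c j)) (m - k)
  simp only [Finset.card_univ, Fintype.card_fin, nsmul_eq_mul] at key
  rw [← key]
  conv_lhs => unfold YY
  simp only [QDRecAux.exp_split, Finset.mul_sum]
  rw [Finset.sum_comm]
  refine Finset.sum_congr rfl fun S _ => ?_
  have := h1 (Fin m) S.card (S.orderEmbOfFin rfl).toEmbedding β γ d N
    fun c => ∏ j, (exp (-(φ (c j) / N : ℝ)) - 1)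
  rw [Fintype.card_fin] at this
  rw [← this]
  refine Finset.sum_congr rfl fun b _ => ?_
  rw [QDRecAux.prod_emb S, mul_assoc]

end Vale.Agent.P367.Q
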