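import Vale.Agent.P367.QDDefs

/-! # P367, the limit of infinite size: QDSplit -/

namespace Vale.Agent.P367.Q

open Complex MeasureTheory Filter Topology

namespace QDSplitAux

/-- an equivalence extending an embedding -/
theorem exists_equiv (ι : Type) [Fintype ι] [DecidableEq ι] (k : ℕ) (e : Fin k ↪ ι) :
    ∃ E : Fin k ⊕ Fin (Fintype.card ι - k) ≃ ι, ∀ j, E (Sum.inl j) = e j := by
  classical
  have h1 : Fintype.card {x // x ∈ Set.range e} = k := by
    rw [← Fintype.card_congr (Equiv.ofInjective e e.injective), Fintype.card_fin]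
  have h2 : Fintype.card {x // ¬ x ∈ Set.range e} = Fintype.card ι - k := by
    rw [Fintype.card_subtype_compl, h1]
  refine ⟨(Equiv.sumCongr (Equiv.ofInjective e e.injective)
    (Fintype.equivFinOfCardEq h2).symm).trans (Equiv.sumCompl fun x => x ∈ Set.range e),
    fun j => ?_⟩
  simp

theorem En_equiv (γ : ℕ → ℝ) (d : ℕ) {ι κ : Type} [Fintype ι] [Fintype κ] (E : κ ≃ ι)
    (b : ι → Pa) : En γ d b = En γ d fun j => b (E j) := by
  unfold En
  rw [← Equiv.sum_comp E]
  refine congrArg (· / 4) (Finset.sum_congr rfl fun j _ => ?_)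
  rw [← Equiv.sum_comp E]

theorem En_sum (γ : ℕ → ℝ) (d : ℕ) {ι κ : Type} [Fintype ι] [Fintype κ] (b : ι ⊕ κ → Pa) :
    En γ d b = En γ d (fun j => b (Sum.inl j)) +
      (∑ l, ps γ d (fun j => b (Sum.inl j)) (b (Sum.inr l)) + En γ d fun l => b (Sum.inr l)) := by
  unfold En ps
  simp only [Fintype.sum_sum_type, Finset.sum_add_distrib]
  have h : ∑ l : κ, ∑ j : ι, Ph γ d (b (Sum.inr l)) (b (Sum.inl j)) ^ 2
      = ∑ j : ι, ∑ l : κ, Ph γ d (b (Sum.inl j)) (b (Sum.inr l)) ^ 2 := by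
    rw [Finset.sum_comm]
    exact Finset.sum_congr rfl fun j _ => Finset.sum_congr rfl fun l _ => by rw [Ph_symm]
  have h' : ∑ l : κ, (∑ j : ι, Ph γ d (b (Sum.inl j)) (b (Sum.inr l)) ^ 2) / 2
      = (∑ j : ι, ∑ l : κ, Ph γ d (b (Sum.inl j)) (b (Sum.inr l)) ^ 2) / 2 := by
    rw [← Finset.sum_div, Finset.sum_comm]
  rw [h, h']
  ring

end QDSplitAux

open QDSplitAux in
theorem split : S_split := by
  intro ι _ _ k e β γ d N F
  obtain ⟨E, hE⟩ := exists_equiv ι k e
  let T : (Fin k → Pd d) × (Fin (Fintype.card ι - k) → Pd d) ≃ (ι → Pd d) :=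
    (Equiv.sumArrowEquivProdArrow _ _ _).symm.trans (E.arrowCongr (Equiv.refl _))
  have hl : ∀ c b j, T (c, b) (E (Sum.inl j)) = c j := fun c b j => by simp [T]
  have hr : ∀ c b j, T (c, b) (E (Sum.inr j)) = b j := fun c b j => by simp [T]
  rw [← Equiv.sum_comp T, Fintype.sum_prod_type]
  refine Finset.sum_congr rfl fun c _ => ?_
  rw [YY, Finset.mul_sum]
  refine Finset.sum_congr rfl fun b _ => ?_
  rw [← Equiv.prod_comp E, Fintype.prod_sum_type, En_equiv γ d E, En_sum]
  simp only [← hE, hl, hr]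
  rw [add_div, ofReal_add, neg_add, exp_add]
  ring

end Vale.Agent.P367.Q
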