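import Vale.Agent.P367.QDDefs

/-! # P367, the limit of infinite size: QDSt -/

namespace Vale.Agent.P367.Q

open Complex MeasureTheory Filter Topology

namespace QDStAux

open Matrix

/-- entries of the Hadamard matrix of one site -/
def hd (x y : Bool) : ℂ := if x && y then -1 else 1

/-- eigenvalues of `X` -/
def ev (y : Bool) : ℂ := if y then -1 else 1

/-- the Hadamard matrix -/
def Hm (n : ℕ) : Matrix (Fin n → Bool) (Fin n → Bool) ℂ := Matrix.of fun σ S => ∏ i, hd (σ i) (S i)

theorem sum_prod {n : ℕ} (f : Fin n → Bool → ℂ) :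
    ∑ τ : Fin n → Bool, ∏ i, f i (τ i) = ∏ i, (f i true + f i false) := by
  rw [← Fintype.piFinset_univ, ← Finset.prod_univ_sum]
  simp

theorem Hm_sq (n : ℕ) : Hm n * Hm n = (2 ^ n : ℂ) • 1 := by
  ext σ τ
  simp only [Hm, Matrix.mul_apply, Matrix.of_apply, ← Finset.prod_mul_distrib]
  rw [sum_prod fun i y => hd (σ i) y * hd y (τ i)]
  by_cases h : σ = τ
  · subst h
    rw [Finset.prod_congr rfl (g := fun _ => (2 : ℂ)) fun i _ => by
      cases σ i <;> simp [hd] <;> norm_num]
    simp
  · obtain ⟨i, hi⟩ := Function.ne_iff.1 h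
    rw [Finset.prod_eq_zero (Finset.mem_univ i)]
    · simp [h]
    · revert hi
      cases σ i <;> cases τ i <;> simp [hd]

theorem Xm_Hm {n : ℕ} (i : Fin n) (σ S : Fin n → Bool) :
    (Xm i * Hm n) σ S = Hm n σ S * ev (S i) := by
  simp only [Xm, Hm, Matrix.mul_apply, Matrix.of_apply, ite_mul, one_mul, zero_mul,
    Finset.sum_ite_eq', Finset.mem_univ, if_true]
  rw [← Finset.mul_prod_erase _ _ (Finset.mem_univ i),
    ← Finset.mul_prod_erase _ (fun j => hd (σ j) (S j)) (Finset.mem_univ i),
    Finset.prod_congr rfl (g := fun j => hd (σ j) (S j)) fun j hj => by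
      rw [Function.update_of_ne (Finset.ne_of_mem_erase hj)], Function.update_self]
  cases σ i <;> cases S i <;> simp [hd, ev]

theorem semi (n : ℕ) (c : ℂ) :
    SemiconjBy (Hm n) (Matrix.diagonal fun S => ∑ i, c * ev (S i)) (c • Bm n) := by
  ext σ S
  rw [Matrix.mul_diagonal, Matrix.smul_mul, Bm, Finset.sum_mul, Matrix.smul_apply,
    Matrix.sum_apply, smul_eq_mul, Finset.mul_sum, Finset.mul_sum]
  refine Finset.sum_congr rfl fun i _ => ?_
  rw [Xm_Hm]
  ring

theorem one_site (b : ℝ) (x y : Bool) :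
    rx b x true * hd true y + rx b x false * hd false y = hd x y * exp (-I * b * ev y) := by
  have h1 : exp (-I * b) = Real.cos b - I * Real.sin b := by
    rw [show -I * b = (-b : ℝ) * I by push_cast; ring, exp_mul_I]
    simp
    ring
  have h2 : exp (I * b) = Real.cos b + I * Real.sin b := by
    rw [mul_comm, exp_mul_I]
    simp
    ring
  have h3 : -I * b * -1 = I * b := by ring
  cases x <;> cases y <;> simp only [rx, hd, ev, mul_one, h1, h2, h3, Bool.and_self,
    Bool.and_true, Bool.and_false, Bool.false_eq_true, Bool.true_eq_false, if_true, if_false] <;>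
    ring

theorem semi_exp {n : ℕ} {A B : Matrix (Fin n → Bool) (Fin n → Bool) ℂ}
    (h : Hm n * A = B * Hm n) : Hm n * NormedSpace.exp A = NormedSpace.exp B * Hm n := by
  have h2 : (2 ^ n : ℂ) ≠ 0 := pow_ne_zero n two_ne_zero
  let U : (Matrix (Fin n → Bool) (Fin n → Bool) ℂ)ˣ := ⟨Hm n, (2 ^ n : ℂ)⁻¹ • Hm n,
    by rw [Matrix.mul_smul, Hm_sq, smul_smul, inv_mul_cancel₀ h2, one_smul],
    by rw [Matrix.smul_mul, Hm_sq, smul_smul, inv_mul_cancel₀ h2, one_smul]⟩
  have e : B = U * A * U⁻¹ := by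
    rw [Units.eq_mul_inv_iff_mul_eq]
    exact h.symm
  rw [e, Matrix.exp_units_conj]
  exact (Units.inv_mul_cancel_right _ U).symm

theorem exp_B (n : ℕ) (b : ℝ) : NormedSpace.exp ((-I * b) • Bm n) =
    Matrix.of fun σ τ => ∏ i, rx b (σ i) (τ i) := by
  have h1 := semi_exp (semi n (-I * b)).eq
  have h2 : (Matrix.of fun σ τ : Fin n → Bool => ∏ i, rx b (σ i) (τ i)) * Hm n =
      NormedSpace.exp ((-I * b) • Bm n) * Hm n := by
    rw [← h1, Matrix.exp_diagonal]
    ext σ S
    rw [Matrix.mul_diagonal, Pi.coe_exp, ← Complex.exp_eq_exp_ℂ, exp_sum]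
    simp only [Hm, Matrix.mul_apply, Matrix.of_apply, ← Finset.prod_mul_distrib]
    rw [sum_prod fun i y => rx b (σ i) y * hd y (S i)]
    exact Finset.prod_congr rfl fun i _ => one_site b _ _
  have h3 := congrArg (· * Hm n) h2
  simp only [Matrix.mul_assoc, Hm_sq, Matrix.mul_smul, Matrix.mul_one] at h3
  exact (smul_right_injective _ (pow_ne_zero n two_ne_zero) h3).symm

theorem exp_C {n : ℕ} (g : P146.Edge n → ℝ) (c : ℂ) :
    NormedSpace.exp (c • Cm g) = Matrix.diagonal fun σ => exp (c * P146.ham g σ) := by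
  rw [Cm, ← Matrix.diagonal_smul, Matrix.exp_diagonal]
  congr 1
  funext σ
  rw [Pi.coe_exp, ← Complex.exp_eq_exp_ℂ]
  rfl

theorem st_congr {n : ℕ} (g : P146.Edge n → ℝ) {β β' γ γ' : ℕ → ℝ} (d : ℕ)
    (hβ : ∀ t, t < d → β t = β' t) (hγ : ∀ t, t < d → γ t = γ' t) :
    st β γ g d = st β' γ' g d := by
  induction d with
  | zero => rfl
  | succ d ih =>
    simp only [st, ih (fun t ht => hβ t (by omega)) fun t ht => hγ t (by omega),
      hβ d (by omega), hγ d (by omega)]

theorem co_init {p : ℕ} (z : Fin (p + 1) → ℝ) (t : ℕ) (ht : t < p) :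
    co (Fin.init z) t = co z t := by
  rw [co, co, dif_pos ht, dif_pos (by omega)]
  rfl

theorem co_last {p : ℕ} (z : Fin (p + 1) → ℝ) : co z p = z (Fin.last p) :=
  dif_pos (Nat.lt_succ_self p)

end QDStAux

open QDStAux in
theorem stEq : S_st := by
  intro n p g
  induction p with
  | zero =>
    intro γ β
    simp [state, circuit, st]
  | succ p ih =>
    intro γ β
    have h := ih (Fin.init γ) (Fin.init β)
    rw [st_congr g p (co_init β) (co_init γ)] at h
    have e : state g γ β = (NormedSpace.exp ((-I * β (Fin.last p)) • Bm n)).mulVec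
        ((NormedSpace.exp ((-I * γ (Fin.last p)) • Cm g)).mulVec
          (state g (Fin.init γ) (Fin.init β))) := by
      simp only [state, circuit, Matrix.mulVec_mulVec]
      rw [List.ofFn_succ', List.concat_eq_append, List.reverse_append, List.reverse_singleton,
        List.singleton_append, List.prod_cons, Matrix.mul_assoc]
      rfl
    rw [e, h, exp_B, exp_C]
    funext σ
    simp only [st, co_last, Matrix.mulVec, dotProduct, Matrix.of_apply]
    refine Finset.sum_congr rfl fun τ _ => ?_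
    congr 1
    exact Matrix.mulVec_diagonal _ _ τ

end Vale.Agent.P367.Q
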