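import Vale.Agent.P367.QDDefs

/-! # P367, the limit of infinite size: QDVal -/

namespace Vale.Agent.P367.Q

open Complex MeasureTheory Filter Topology

namespace QDValAux

/-- exchange of ket and bra -/
def sw (a : Pa) : Pa := fun t => (a t).swap

theorem amp_sw (β : ℕ → ℝ) (d : ℕ) (a : Pa) : amp β d (sw a) = (starRingEnd ℂ) (amp β d a) := by
  rw [amp, amp, map_mul, map_prod]
  congr 1
  · simp only [sw, Prod.fst_swap, Prod.snd_swap, eq_comm (a := (a d).2)]
    split_ifs <;> simp [map_ofNat]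
  · exact Finset.prod_congr rfl fun j _ => by rw [map_mul, conj_conj, mul_comm]; rfl

theorem Ph_sw (γ : ℕ → ℝ) (d : ℕ) (a b : Pa) : Ph γ d (sw a) (sw b) = -Ph γ d a b := by
  rw [Ph, Ph, ← Finset.sum_neg_distrib]
  exact Finset.sum_congr rfl fun t _ => by simp only [sw, Prod.fst_swap, Prod.snd_swap]; ring

theorem sum_sw (d : ℕ) (G : Pa → ℂ) : ∑ b : Pd d, G (ext b) = ∑ b : Pd d, G (sw (ext b)) := by
  refine Fintype.sum_equiv (Equiv.piCongrRight fun _ => Equiv.prodComm _ _) _ _ fun b => ?_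
  refine congrArg G (funext fun t => ?_)
  simp only [sw, ext]
  split_ifs <;> rfl

theorem HH_sw (β γ : ℕ → ℝ) (d : ℕ) (a : Pa) :
    HH β γ d (sw a) = (starRingEnd ℂ) (HH β γ d a) := by
  induction d generalizing a with
  | zero => exact (map_one _).symm
  | succ d ih =>
    simp only [HH]
    rw [sum_sw d fun b => amp β d b * HH β γ d b * (Ph γ (d + 1) (sw a) b ^ 2 / 2 : ℝ), ← exp_conj,
      map_neg, map_sum]
    simp only [amp_sw, ih, Ph_sw, neg_sq, map_mul, conj_ofReal]

theorem av_sw (β γ : ℕ → ℝ) (d : ℕ) (F : Pa → ℝ) :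
    (starRingEnd ℂ) (av β γ d fun a => F a) = av β γ d fun a => F (sw a) := by
  rw [av, av, sum_sw d fun b => amp β d b * HH β γ d b * F (sw b), map_sum]
  simp only [amp_sw, HH_sw, map_mul, conj_ofReal]
  rfl

end QDValAux

open QDValAux in
theorem valEq (h1 : S_id) : S_val := by
  intro β γ p
  have hK : ∀ t, GR β γ 0 p p t = ∑ b : Pd p, amp β p (ext b) * HH β γ p (ext b) *
      (sg (ext b p).1 * sg (ext b t).1 : ℝ) := fun t => by
    rw [h1]
    refine Finset.sum_congr rfl fun b _ => ?_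
    by_cases h : amp β p (ext b) = 0
    · simp only [h, zero_mul]
    · rw [amp_closed h]
  have hL : ∀ t, (starRingEnd ℂ) (GR β γ 0 p p t) = ∑ b : Pd p, amp β p (ext b) *
      HH β γ p (ext b) * (sg (ext b p).1 * sg (ext b t).2 : ℝ) := fun t => by
    rw [h1, av_sw β γ p fun a => sg (a p).2 * sg (a t).1]
    rfl
  have e : ∑ c : Fin 2 → Pd p, (∏ j, amp β p (ext (c j))) * ob γ p (fun j => ext (c j)) *
      ∏ j, HH β γ p (ext (c j)) = ∑ t ∈ Finset.range p, γ t * (-I * (GR β γ 0 p p t ^ 2 -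
        (starRingEnd ℂ) (GR β γ 0 p p t ^ 2))) := by
    simp only [map_pow, hL]
    simp only [hK, sq, Finset.sum_mul_sum]
    simp only [← Finset.sum_sub_distrib, Finset.mul_sum]
    rw [Finset.sum_comm, ← (finTwoArrowEquiv (Pd p)).symm.sum_comp, Fintype.sum_prod_type]
    refine Finset.sum_congr rfl fun x _ => ?_
    rw [Finset.sum_comm]
    refine Finset.sum_congr rfl fun y _ => ?_
    simp only [finTwoArrowEquiv_symm_apply, Fin.prod_univ_two, ob, Ph, Matrix.cons_val_zero,
      Matrix.cons_val_one]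
    push_cast
    simp only [Finset.mul_sum, Finset.sum_mul]
    exact Finset.sum_congr rfl fun t _ => by ring
  rw [e, re_sum, Finset.mul_sum]
  refine Finset.sum_congr rfl fun t _ => ?_
  rw [re_ofReal_mul, sub_conj]
  simp only [neg_mul, neg_re, mul_re, I_re, I_im, ofReal_re, ofReal_im, mul_im]
  ring

end Vale.Agent.P367.Q
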