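import Vale.Agent.P367.QDMarg
import Vale.Agent.P367.QDSplit
import Vale.Agent.P367.QDRec
import Vale.Agent.P367.QDBd
import Vale.Agent.P367.QDLim
import Vale.Agent.P367.QDSt
import Vale.Agent.P367.QDPath
import Vale.Agent.P367.QDGau
import Vale.Agent.P367.QDEn
import Vale.Agent.P367.QDClose
import Vale.Agent.P367.QDId
import Vale.Agent.P367.QDVal

/-! # P367: the limit of infinite size at fixed depth -/

namespace Vale.Agent.P367.Q

open Complex MeasureTheory Filter Topology

theorem dAsm (h1 : S_en) (h2 : S_lim) (h3 : S_val) (p : ℕ) (γ β : Fin p → ℝ) :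
    Tendsto (energy γ β) atTop (𝓝 (vR (co β) (co γ) 0 p)) := by
  rw [← h3, show energy γ β = _ from funext fun n => h1 n p γ β]
  have a0 : Tendsto (fun n : ℕ => (n : ℝ)⁻¹) atTop (𝓝 0) :=
    tendsto_inv_atTop_zero.comp tendsto_natCast_atTop_atTop
  refine Tendsto.mul ?_ ((continuous_re.tendsto _).comp (tendsto_finsetSum _ fun c _ => ?_))
  · have a1 := (a0.const_sub 1).div_const 2
    rw [sub_zero] at a1
    refine a1.congr' ?_
    filter_upwards [eventually_gt_atTop 0] with n hn
    have : (n : ℝ) ≠ 0 := by exact_mod_cast hn.ne'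
    field_simp
  · have a2 := ((continuous_exp.tendsto _).comp ((continuous_ofReal.tendsto _).comp
      (a0.const_mul (En (co γ) p fun j => ext (c j)))).neg)
    have a3 := ((a2.const_mul (∏ j, amp (co β) p (ext (c j)))).mul_const
      (ob (co γ) p fun j => ext (c j))).mul (h2 (co β) (co γ) p 2 (fun j => ext (c j)) 2)
    simpa [div_eq_mul_inv, Function.comp_def] using a3

theorem dStm : ∀ (p : ℕ) (γ β : Fin p → ℝ),
    Filter.Tendsto (energy γ β) Filter.atTop (nhds (vR (co β) (co γ) 0 p)) :=
  dAsm (enEq stEq path gau split) (limY (low marg) (recY split) (bdY (low marg) (recY split)))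
    (valEq (idG (close marg)))

end Vale.Agent.P367.Q
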