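import Vale.Agent.P367.Stmt
import Vale.Agent.P367.CUb

/-! # P367: from approximate optimality at finite depth to the limit of `Q_p` -/

namespace Vale.Agent.P367

open MeasureTheory Filter Complex Matrix Topology

namespace QFinAux

theorem exp_unit {ι : Type} [Fintype ι] [DecidableEq ι] {A : Matrix ι ι ℂ} (h : Aᴴ = A) (t : ℝ) :
    NormedSpace.exp ((-I * t) • A) ∈ Matrix.unitaryGroup ι ℂ := by
  rw [Matrix.mem_unitaryGroup_iff', star_eq_conjTranspose, ← Matrix.exp_conjTranspose,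
    conjTranspose_smul, h, ← Matrix.exp_add_of_commute _ _
      (((Commute.refl A).smul_left _).smul_right _), ← add_smul]
  simp

theorem X_herm {n : ℕ} (i : Fin n) : (Xm i)ᴴ = Xm i := by
  have key : ∀ σ τ : Fin n → Bool, τ = Function.update σ i (!σ i) →
      σ = Function.update τ i (!τ i) := fun σ τ h => by
    subst h
    simp
  ext σ τ
  simp only [Xm, conjTranspose_apply, of_apply]
  by_cases h : τ = Function.update σ i (!σ i)
  · rw [if_pos h, if_pos (key _ _ h), star_one]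
  · rw [if_neg h, if_neg fun h' => h (key _ _ h'), star_zero]

theorem B_herm (n : ℕ) : (Bm n)ᴴ = Bm n := by
  simp only [Bm, conjTranspose_sum, X_herm]

theorem C_herm {n : ℕ} (g : P146.Edge n → ℝ) : (Cm g)ᴴ = Cm g := by
  rw [Cm, diagonal_conjTranspose]
  congr 1
  funext σ
  simp

theorem circ_unit {n p : ℕ} (g : P146.Edge n → ℝ) (γ β : Fin p → ℝ) :
    circuit g γ β ∈ Matrix.unitaryGroup (Fin n → Bool) ℂ := by
  refine Submonoid.list_prod_mem _ fun x hx => ?_
  rw [List.mem_reverse, List.mem_ofFn] at hx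
  obtain ⟨t, rfl⟩ := hx
  exact Submonoid.mul_mem _ (exp_unit (B_herm n) _) (exp_unit (C_herm g) _)

theorem norm_state {n p : ℕ} (g : P146.Edge n → ℝ) (γ β : Fin p → ℝ) :
    ∑ σ, normSq (state g γ β σ) = 1 := by
  have h1 : star (state g γ β) ⬝ᵥ state g γ β = 1 := by
    have := Matrix.mem_unitaryGroup_iff'.1 (circ_unit g γ β)
    rw [star_eq_conjTranspose] at this
    rw [state, star_mulVec, ← dotProduct_mulVec, mulVec_mulVec, this, one_mulVec]
    simp only [dotProduct, Pi.star_apply, star_pow, RCLike.star_def, conj_ofReal,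
      Finset.sum_const, Finset.card_univ, Fintype.card_fun, Fintype.card_bool, Fintype.card_fin,
      nsmul_eq_mul, ← mul_pow]
    have e : (1 / √2 : ℝ) * (1 / √2) = 1 / 2 := by
      rw [div_mul_div_comm, Real.mul_self_sqrt zero_le_two, one_mul]
    rw [← ofReal_mul, e]
    push_cast
    rw [← mul_pow]
    norm_num
  have h2 := congrArg re h1
  simpa [dotProduct, normSq_apply] using h2

theorem en_le {n p : ℕ} (g : P146.Edge n → ℝ) (γ β : Fin p → ℝ) :
    (star (state g γ β) ⬝ᵥ Cm g *ᵥ state g γ β).re ≤ ⨆ σ, P146.ham g σ := by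
  have e : (star (state g γ β) ⬝ᵥ Cm g *ᵥ state g γ β).re
      = ∑ σ, normSq (state g γ β σ) * P146.ham g σ := by
    simp only [dotProduct, Cm, mulVec_diagonal, re_sum]
    refine Finset.sum_congr rfl fun σ _ => ?_
    simp [normSq_apply]
    ring
  rw [e, ← one_mul (⨆ σ, P146.ham g σ), ← norm_state g γ β, Finset.sum_mul]
  exact Finset.sum_le_sum fun σ _ => mul_le_mul_of_nonneg_left
    (Finite.le_ciSup (fun σ => P146.ham g σ) σ) (normSq_nonneg _)

theorem sup_nonneg (n : ℕ) : 0 ≤ ∫ g, ⨆ σ, P146.ham g σ ∂P146.disorder n := by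
  have i : ∀ e : P146.Edge n, Integrable (fun g : P146.Edge n → ℝ => g e) (P146.disorder n) :=
    fun e => (measurePreserving_eval (fun _ : P146.Edge n => ProbabilityTheory.gaussianReal 0 1)
      e).integrable_comp_of_integrable
        ((ProbabilityTheory.memLp_id_gaussianReal 1).integrable le_rfl)
  have z : ∀ e : P146.Edge n, ∫ g, g e ∂P146.disorder n = 0 := fun e => by
    rw [P146.disorder, integral_eval]
    exact ProbabilityTheory.integral_id_gaussianReal
  have h0 : ∫ g, P146.ham g (fun _ => true) ∂P146.disorder n = 0 := by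
    unfold P146.ham
    rw [integral_const_mul, integral_finsetSum _ fun e _ => (i e).mul_const _]
    simp only [integral_mul_const, z, zero_mul, Finset.sum_const_zero, mul_zero]
  rw [← h0]
  refine integral_mono ?_ (CUbAux.int (CUbAux.lg_sup n)) fun g =>
    Finite.le_ciSup (fun σ => P146.ham g σ) _
  exact (integrable_finsetSum _ fun e _ => (i e).mul_const _).const_mul _

theorem energy_le {p : ℕ} (γ β : Fin p → ℝ) (n : ℕ) : energy γ β n ≤ gse n := by
  refine div_le_div_of_nonneg_right ?_ (Nat.cast_nonneg n)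
  by_cases h : Integrable (fun g => (star (state g γ β) ⬝ᵥ Cm g *ᵥ state g γ β).re)
    (P146.disorder n)
  · exact integral_mono h (CUbAux.int (CUbAux.lg_sup n)) fun g => en_le g γ β
  · rw [integral_undef h]
    exact sup_nonneg n

theorem energy_snoc {p : ℕ} (γ β : Fin p → ℝ) :
    energy (Fin.snoc γ 0 : Fin (p + 1) → ℝ) (Fin.snoc β 0) = energy γ β := by
  have e : ∀ (n : ℕ) (g : P146.Edge n → ℝ),
      circuit g (Fin.snoc γ 0 : Fin (p + 1) → ℝ) (Fin.snoc β 0) = circuit g γ β := by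
    intro n g
    unfold circuit
    rw [List.ofFn_succ']
    simp [-List.ofFn_succ]
  funext n
  simp only [energy, state, e]

end QFinAux

open QFinAux in
theorem fin (hD : ∀ (p : ℕ) (γ β : Fin p → ℝ), ∃ v, Tendsto (energy γ β) atTop (𝓝 v))
    (hE : ∀ ε > 0, ∃ (p : ℕ) (γ β : Fin p → ℝ), ∀ n ≥ 1, gse n - ε ≤ vLim γ β) :
    Tendsto gse atTop (𝓝 Pstar) ∧ Tendsto Qp atTop (𝓝 Pstar) := by
  have hv : ∀ (p : ℕ) (γ β : Fin p → ℝ), Tendsto (energy γ β) atTop (𝓝 (vLim γ β)) :=
    fun p γ β => tendsto_nhds_limUnder (hD p γ β)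
  have hb : BddAbove (Set.range fun n => gse (n + 1)) := by
    obtain ⟨p, γ, β, h⟩ := hE 1 one_pos
    refine ⟨vLim γ β + 1, ?_⟩
    rintro _ ⟨n, rfl⟩
    linarith [h (n + 1) (by omega)]
  obtain ⟨S, hS⟩ : ∃ S, S = ⨆ n, gse (n + 1) := ⟨_, rfl⟩
  have s1 : ∀ n ≥ 1, gse n ≤ S := fun n hn => by
    obtain ⟨k, rfl⟩ : ∃ k, n = k + 1 := ⟨n - 1, by omega⟩
    exact hS ▸ le_ciSup hb k
  have s2 : ∀ ε > 0, ∃ (p : ℕ) (γ β : Fin p → ℝ), S - ε ≤ vLim γ β := fun ε hε => by
    obtain ⟨p, γ, β, h⟩ := hE ε hε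
    refine ⟨p, γ, β, ?_⟩
    rw [hS, sub_le_iff_le_add]
    exact ciSup_le fun n => by linarith [h (n + 1) (by omega)]
  have s3 : Tendsto gse atTop (𝓝 S) := by
    refine tendsto_order.2 ⟨fun a ha => ?_, fun a ha => ?_⟩
    · obtain ⟨p, γ, β, h⟩ := s2 ((S - a) / 2) (by linarith)
      filter_upwards [(hv p γ β).eventually (lt_mem_nhds (show a < vLim γ β by linarith))]
        with n hn
      exact hn.trans_le (energy_le γ β n)
    · filter_upwards [eventually_ge_atTop 1] with n hn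
      exact (s1 n hn).trans_lt ha
  have e : Pstar = S := s3.limUnder_eq
  rw [e]
  have s4 : ∀ (p : ℕ) (γ β : Fin p → ℝ), vLim γ β ≤ S := fun p γ β =>
    le_of_tendsto_of_tendsto' (hv p γ β) s3 (energy_le γ β)
  have b : ∀ p, BddAbove (Set.range fun x : (Fin p → ℝ) × (Fin p → ℝ) => vLim x.1 x.2) :=
    fun p => ⟨S, by
      rintro _ ⟨x, rfl⟩
      exact s4 p _ _⟩
  have q1 : ∀ (p : ℕ) (γ β : Fin p → ℝ), vLim γ β ≤ Qp p := fun p γ β => le_ciSup (b p) (γ, β)
  have q2 : ∀ (p : ℕ) (a : ℝ), (∀ γ β : Fin p → ℝ, vLim γ β ≤ a) → Qp p ≤ a :=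
    fun p a h => ciSup_le fun x => h x.1 x.2
  have m : Monotone Qp := monotone_nat_of_le_succ fun p => q2 p _ fun γ β => by
    have := q1 (p + 1) (Fin.snoc γ 0) (Fin.snoc β 0)
    unfold vLim at this ⊢
    rwa [energy_snoc] at this
  refine ⟨s3, tendsto_order.2 ⟨fun a ha => ?_, fun a ha => Eventually.of_forall fun p => ?_⟩⟩
  · obtain ⟨p, γ, β, h⟩ := s2 ((S - a) / 2) (by linarith)
    filter_upwards [eventually_ge_atTop p] with k hk
    linarith [(q1 p γ β).trans (m hk)]
  · exact (q2 p S (s4 p)).trans_lt ha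

end Vale.Agent.P367
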