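import Vale.Agent.P367.QIStm

/-! Step (I): small displacements act almost trivially on coherent vectors. -/

namespace Vale.Agent.P367.Q.I

open Complex MeasureTheory Filter Topology Asymptotics
open scoped InnerProductSpace

namespace QIB2Aux

variable {M : Mod}

theorem vac_le (f : M.H) : ‖M.W f M.Ω - M.Ω‖ ≤ ‖f‖ := by
  have h := vac_W (M := M) 1 f
  have v : vac 1 = 1 := by simp [vac]
  rw [M.sp_one, v, one_mul, one_apply_eq_self, ← ofReal_neg, ← ofReal_exp] at h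
  have h1 := norm_sub_sq (𝕜 := ℂ) M.Ω (M.W f M.Ω)
  rw [h, (dec_W f).norm, M.norm_Ω, norm_sub_rev] at h1
  simp only [RCLike.re_to_complex, ofReal_re] at h1
  have h2 := Real.add_one_le_exp (-(‖f‖ ^ 2 / 2))
  exact abs_le_of_sq_le_sq' (by linarith) (norm_nonneg _) |>.2

theorem ph_le (a : ℝ) : ‖exp (-I * a) - 1‖ ≤ |a| := by
  have := Real.norm_exp_I_mul_ofReal_sub_one_le (x := -a)
  simpa using this

theorem coh_le (f e : M.H) :
    ‖M.W f (M.W e M.Ω) - M.W e M.Ω‖ ≤ ‖f‖ + 2 * |(⟪f, e⟫_ℂ).im| := by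
  rw [W_comm]
  generalize hc : exp (-I * (2 * (⟪f, e⟫_ℂ).im : ℝ)) = c
  have c1 : ‖c‖ = 1 := hc ▸ norm_ph _
  have c2 : ‖c - 1‖ ≤ 2 * |(⟪f, e⟫_ℂ).im| := by
    rw [← hc]
    refine (ph_le _).trans_eq ?_
    rw [abs_mul, abs_two]
  have e1 : c • M.W e (M.W f M.Ω) - M.W e M.Ω =
      M.W e (c • (M.W f M.Ω - M.Ω) + (c - 1) • M.Ω) := by
    rw [← map_smul, ← map_sub, smul_sub, sub_smul, one_smul, sub_add_sub_cancel]
  rw [e1, (dec_W e).norm]
  refine (norm_add_le _ _).trans ?_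
  rw [norm_smul, norm_smul, c1, one_mul, M.norm_Ω, mul_one]
  exact add_le_add (vac_le f) c2

theorem base_le (m : M2) (f d h : M.H) {R : ℝ} (hR : ‖h‖ ≤ R) :
    ‖M.W f (M.W d (M.sp m (M.W h M.Ω))) - M.W d (M.sp m (M.W h M.Ω))‖ ≤
      ‖M.sp m‖ * (2 + 2 * R) * (‖f‖ + |(⟪f, d⟫_ℂ).im|) := by
  rw [W_sp, W_sp, ← map_sub, W_W d h, map_smul, ← smul_sub, mul_assoc]
  refine ((M.sp m).le_opNorm _).trans (mul_le_mul_of_nonneg_left ?_ (norm_nonneg _))
  rw [norm_smul, norm_ph, one_mul]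
  refine (coh_le f (d + h)).trans ?_
  rw [inner_add_right, add_im]
  have a1 := abs_add_le (⟪f, d⟫_ℂ).im (⟪f, h⟫_ℂ).im
  have a2 := abs_im_le f h
  have a3 := mul_le_mul_of_nonneg_left hR (norm_nonneg f)
  have a4 := mul_nonneg ((norm_nonneg h).trans hR) (abs_nonneg (⟪f, d⟫_ℂ).im)
  nlinarith [norm_nonneg f]

end QIB2Aux

open QIB2Aux

theorem b2 : S_b2 := by
  intro M l x hx
  induction hx with
  | base m hf =>
    obtain ⟨R, -, hR⟩ := hf.bound
    exact ⟨_, hR.mono fun δ h f d => base_le m f d _ h⟩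
  | smul hc _ ih =>
    obtain ⟨R, R0, hR⟩ := hc.bound
    obtain ⟨C, hC⟩ := ih
    refine ⟨R * C, (hR.and hC).mono fun δ h f d => ?_⟩
    rw [map_smul, map_smul, ← smul_sub, norm_smul, mul_assoc]
    exact mul_le_mul h.1 (h.2 f d) (norm_nonneg _) R0.le
  | add _ _ ih ih' =>
    obtain ⟨C, hC⟩ := ih
    obtain ⟨C', hC'⟩ := ih'
    refine ⟨C + C', (hC.and hC').mono fun δ h f d => ?_⟩
    rw [map_add, map_add, add_sub_add_comm, add_mul]
    exact (norm_add_le _ _).trans (add_le_add (h.1 f d) (h.2 f d))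
  | congr _ e ih =>
    obtain ⟨C, hC⟩ := ih
    exact ⟨C, (hC.and e).mono fun δ h f d => h.2 ▸ h.1 f d⟩

theorem idn : S_id := by
  intro M l ρ b f d x hx hf hi
  have h2 := (Loc.Rt b).bd hx
  obtain ⟨C, hC⟩ := b2 M l _ ((Loc.Pr true).bd h2)
  obtain ⟨C', hC'⟩ := b2 M l _ ((Loc.Pr false).bd h2)
  refine IsBigO.trans_isLittleO (IsBigO.of_bound (C + C') ?_) (hf.norm_left.add hi.abs_left)
  filter_upwards [hC, hC'] with δ a a'
  have a1 := a (f δ) (d δ)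
  have a2 := a' (-f δ) (d δ)
  rw [norm_neg, inner_neg_left, neg_im, abs_neg] at a2
  generalize hy : Rt M b (x δ) = y at a1 a2
  have e : WB M b (f δ) (M.W (d δ) (x δ)) - M.W (d δ) (x δ) = Rt M (-b)
      ((M.W (f δ) (M.W (d δ) (Pr M true y)) - M.W (d δ) (Pr M true y)) +
        (M.W (-f δ) (M.W (d δ) (Pr M false y)) - M.W (d δ) (Pr M false y))) := by
    rw [← add_sub_add_comm, ← map_add (M.W (d δ)), Pr_add, W_Pr (d δ), W_Pr (d δ), ← WZ_apply,
      map_sub, ← hy, W_Rt, Rt_Rt, neg_add_cancel, Rt_zero, WB_apply]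
    rfl
  rw [e, (dec_Rt _).norm, Real.norm_of_nonneg (by positivity), add_mul]
  exact (norm_add_le _ _).trans (add_le_add a1 a2)

end Vale.Agent.P367.Q.I
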