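import Vale.Agent.P367.QIStm

/-! Step (I): second order estimate for small displacements of coherent vectors. -/

namespace Vale.Agent.P367.Q.I

open Complex MeasureTheory Filter Topology Asymptotics
open scoped InnerProductSpace

namespace QIB3Aux

variable {M : Mod}

theorem vW (x : M.H) : ⟪M.Ω, M.W x M.Ω⟫_ℂ = (Real.exp (-(‖x‖ ^ 2 / 2)) : ℝ) := by
  have := vac_W 1 x
  rwa [M.sp_one, vac_one, one_mul, ← ofReal_neg, ← ofReal_exp] at this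

theorem re_ph (t s : ℝ) : (exp (-I * t) * s).re = Real.cos t * s := by
  rw [re_mul_ofReal, neg_mul_comm, ← ofReal_neg, mul_comm I, exp_ofReal_mul_I_re, Real.cos_neg]

theorem ph_le (t : ℝ) : ‖exp (-I * t) - 1‖ ≤ |t| := by
  simpa using Real.norm_exp_I_mul_ofReal_sub_one_le (x := -t)

theorem sq_eq (x u : M.H) : ‖M.W x u - u‖ ^ 2 = 2 * ‖u‖ ^ 2 - 2 * (⟪u, M.W x u⟫_ℂ).re := by
  rw [norm_sub_rev, @norm_sub_sq ℂ, (dec_W x).norm, RCLike.re_to_complex]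
  ring

theorem sq_one (x : M.H) : ‖M.W x M.Ω - M.Ω‖ ^ 2 = 2 - 2 * Real.exp (-(‖x‖ ^ 2 / 2)) := by
  rw [sq_eq, vW, ofReal_re, M.norm_Ω]
  ring

theorem one_le (t : ℝ) (x : M.H) : ‖exp (-I * t) • M.W x M.Ω - M.Ω‖ ≤ |t| + ‖x‖ := by
  have h : ‖M.W x M.Ω - M.Ω‖ ≤ ‖x‖ := le_of_sq_le_sq (by
    rw [sq_one]; linarith [Real.add_one_le_exp (-(‖x‖ ^ 2 / 2))]) (norm_nonneg _)
  rw [← sub_add_sub_cancel _ (M.W x M.Ω), ← one_smul ℂ (M.W x M.Ω), smul_smul, mul_one, ← sub_smul,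
    one_smul]
  refine (norm_add_le _ _).trans (add_le_add ?_ h)
  rw [norm_smul, (dec_W x).norm, M.norm_Ω, mul_one]
  exact ph_le t

theorem disp_le (f : M.H) {g : M.H} (hg : ‖g‖ ≤ 1) :
    ‖M.W f (M.W g M.Ω) - M.W g M.Ω‖ ≤ 3 * ‖f‖ := by
  rw [W_comm, ← map_smul, ← map_sub, (dec_W g).norm]
  refine (one_le _ f).trans ?_
  rw [abs_mul, abs_two]
  linarith [(abs_im_le f g).trans (mul_le_of_le_one_right (norm_nonneg _) hg)]

theorem two_le {f g : M.H} (hf : ‖f‖ ≤ 1) (hg : ‖g‖ ≤ 1) :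
    ‖M.W f (M.W g M.Ω - M.Ω) - (M.W g M.Ω - M.Ω)‖ ≤ 3 * (‖f‖ * ‖g‖) := by
  refine le_of_sq_le_sq ?_ (by positivity)
  rw [sq_eq, sq_one, map_sub, inner_sub_left, inner_sub_right, inner_sub_right, vW,
    W_W f g, inner_smul_right M.Ω, vW, ← W_W, W_comm, inner_smul_right, (dec_W g).inner, vW,
    inner_W, W_W, inner_smul_right, vW, inner_neg_left, neg_im, im_symm f g, neg_neg,
    neg_add_eq_sub, sub_re, sub_re, sub_re, re_ph, re_ph, re_ph, ofReal_re, @norm_add_sq ℂ,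
    @norm_sub_sq ℂ, RCLike.re_to_complex]
  have h1 : |(⟪f, g⟫_ℂ).re| ≤ ‖f‖ * ‖g‖ := (abs_re_le_norm _).trans (norm_inner_le_norm f g)
  have h2 := abs_im_le f g
  have h0 : ‖f‖ * ‖g‖ ≤ 1 := mul_le_one₀ hf (norm_nonneg _) hg
  set r := (⟪f, g⟫_ℂ).re
  set k := (⟪f, g⟫_ℂ).im
  have k1 : -((‖f‖ ^ 2 + 2 * r + ‖g‖ ^ 2) / 2) = -(‖f‖ ^ 2 / 2) + -(‖g‖ ^ 2 / 2) + -r := by ring
  have k2 : -((‖f‖ ^ 2 - 2 * r + ‖g‖ ^ 2) / 2) = -(‖f‖ ^ 2 / 2) + -(‖g‖ ^ 2 / 2) + r := by ring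
  rw [k1, k2, Real.exp_add, Real.exp_add, Real.exp_add, Real.exp_add]
  have a1 := Real.add_one_le_exp (-(‖f‖ ^ 2 / 2))
  have b1 := Real.add_one_le_exp (-(‖g‖ ^ 2 / 2))
  have a2 : Real.exp (-(‖f‖ ^ 2 / 2)) ≤ 1 := Real.exp_le_one_iff.2 (neg_nonpos.2 (by positivity))
  have b2 : Real.exp (-(‖g‖ ^ 2 / 2)) ≤ 1 := Real.exp_le_one_iff.2 (neg_nonpos.2 (by positivity))
  have a3 := Real.exp_pos (-(‖f‖ ^ 2 / 2))
  have b3 := Real.exp_pos (-(‖g‖ ^ 2 / 2))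
  set A := Real.exp (-(‖f‖ ^ 2 / 2))
  set B := Real.exp (-(‖g‖ ^ 2 / 2))
  have c1 := (abs_le.1 (Real.abs_exp_sub_one_sub_id_le (h1.trans h0))).2
  have c2 := (abs_le.1 (Real.abs_exp_sub_one_sub_id_le ((abs_neg r).trans_le (h1.trans h0)))).2
  have r2 : r ^ 2 ≤ (‖f‖ * ‖g‖) ^ 2 := sq_le_sq' (abs_le.1 h1).1 (abs_le.1 h1).2
  have s2 : k ^ 2 ≤ (‖f‖ * ‖g‖) ^ 2 := sq_le_sq' (abs_le.1 h2).1 (abs_le.1 h2).2
  have t1 : (1 - A) * (1 - B) ≤ ‖f‖ ^ 2 / 2 * (‖g‖ ^ 2 / 2) :=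
    mul_le_mul (by linarith) (by linarith) (by linarith) (by positivity)
  have t2 : A * (1 - Real.cos (2 * k)) ≤ 1 * (2 * (‖f‖ * ‖g‖) ^ 2) :=
    mul_le_mul a2 (by linarith [Real.one_sub_sq_div_two_le_cos (x := 2 * k)])
      (sub_nonneg.2 (Real.cos_le_one _)) zero_le_one
  have t3 : Real.cos k * (Real.exp r + Real.exp (-r)) - 2 ≤ 2 * (‖f‖ * ‖g‖) ^ 2 := by
    have := mul_le_mul_of_nonneg_right (Real.cos_le_one k)
      (add_pos (Real.exp_pos r) (Real.exp_pos (-r))).le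
    linarith
  have t4 := (mul_le_mul_of_nonneg_left t3 (mul_pos a3 b3).le).trans
    (mul_le_of_le_one_left (by positivity) (mul_le_one₀ a2 b3.le b2))
  linarith

theorem ph_two (s t : ℝ) {f g : M.H} (hf : ‖f‖ ≤ 1) (hg : ‖g‖ ≤ 1) :
    ‖exp (-I * s) • M.W f (exp (-I * t) • M.W g M.Ω - M.Ω) - (exp (-I * t) • M.W g M.Ω - M.Ω)‖ ≤
      (|s| + 3 * ‖f‖) * (|t| + ‖g‖) := by
  have e : exp (-I * s) • M.W f (exp (-I * t) • M.W g M.Ω - M.Ω) -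
      (exp (-I * t) • M.W g M.Ω - M.Ω) =
      (exp (-I * s) - 1) • M.W f (exp (-I * t) • M.W g M.Ω - M.Ω) +
        ((exp (-I * t) - 1) • (M.W f (M.W g M.Ω) - M.W g M.Ω) +
          (M.W f (M.W g M.Ω - M.Ω) - (M.W g M.Ω - M.Ω))) := by
    simp only [map_sub, map_smul]
    module
  rw [e]
  refine (norm_add_le_of_le le_rfl (norm_add_le_of_le le_rfl (two_le hf hg))).trans ?_
  rw [norm_smul, norm_smul, (dec_W f).norm]
  have h1 := mul_le_mul (ph_le s) (one_le t g) (norm_nonneg _) (abs_nonneg _)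
  have h2 := mul_le_mul (ph_le t) (disp_le f hg) (norm_nonneg _) (abs_nonneg _)
  linarith

theorem ang_le {R : ℝ} (f d : M.H) {h : M.H} (hh : ‖h‖ ≤ R) :
    |2 * (⟪f, d + h⟫_ℂ).im| + 3 * ‖f‖ ≤ (2 * R + 3) * (‖f‖ + |(⟪f, d⟫_ℂ).im|) := by
  have h1 := (abs_im_le f h).trans (mul_le_mul_of_nonneg_left hh (norm_nonneg _))
  have h2 := abs_add_le (⟪f, d⟫_ℂ).im (⟪f, h⟫_ℂ).im
  have h3 := mul_nonneg ((norm_nonneg _).trans hh) (abs_nonneg (⟪f, d⟫_ℂ).im)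
  rw [inner_add_right, add_im, abs_mul, abs_two]
  linarith [abs_nonneg (⟪f, d⟫_ℂ).im]

end QIB3Aux

open QIB3Aux in
theorem b3 : S_b3 := by
  intro M l x hx
  induction hx with
  | @base m h hh =>
    obtain ⟨R, hR, hh⟩ := hh.bound
    refine ⟨‖M.sp m‖ * (2 * R + 3) ^ 2, hh.mono fun δ hδ f f' d hf hf' => ?_⟩
    have e : ∀ v, (M.W f - 1) ((M.W f' - 1) (M.W d (M.sp m v))) =
        M.sp m ((M.W f - 1) ((M.W f' - 1) (M.W d v))) := fun v => by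
      simp only [ContinuousLinearMap.sub_apply, ContinuousLinearMap.one_apply, map_sub, W_sp]
    have e' : ∀ (g v : M.H), (M.W g - 1) (M.W (d + h δ) v) =
        M.W (d + h δ) (exp (-I * (2 * (⟪g, d + h δ⟫_ℂ).im : ℝ)) • M.W g v - v) := fun g v => by
      rw [map_sub, map_smul, ← W_comm]; rfl
    rw [e, mul_assoc]
    refine (ContinuousLinearMap.le_opNorm _ _).trans (mul_le_mul_of_nonneg_left ?_ (norm_nonneg _))
    rw [W_W, map_smul, map_smul, norm_smul, norm_ph, one_mul, e', e', (dec_W _).norm]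
    refine (ph_two _ _ hf hf').trans ((mul_le_mul (ang_le f d hδ)
      (le_trans (by linarith [norm_nonneg f']) (ang_le f' d hδ)) (by positivity)
      (by positivity)).trans_eq (by ring))
  | smul hc _ ih =>
    obtain ⟨R, hR, hc⟩ := hc.bound
    obtain ⟨C, ih⟩ := ih
    refine ⟨R * C, (hc.and ih).mono fun δ hδ f f' d hf hf' => ?_⟩
    rw [map_smul, map_smul, map_smul, norm_smul, mul_assoc]
    exact mul_le_mul hδ.1 (hδ.2 f f' d hf hf') (norm_nonneg _) hR.le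
  | add _ _ ih ih' =>
    obtain ⟨C, ih⟩ := ih
    obtain ⟨C', ih'⟩ := ih'
    refine ⟨C + C', (ih.and ih').mono fun δ hδ f f' d hf hf' => ?_⟩
    rw [map_add, map_add, map_add, add_mul]
    exact norm_add_le_of_le (hδ.1 f f' d hf hf') (hδ.2 f f' d hf hf')
  | congr _ h ih =>
    obtain ⟨C, ih⟩ := ih
    exact ⟨C, (h.and ih).mono fun δ hδ => hδ.1 ▸ hδ.2⟩

end Vale.Agent.P367.Q.I
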