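import Vale.Agent.P367.QIStm

/-! Step (I): reachable words are QAOA circuits, continuity of the value. -/

namespace Vale.Agent.P367.Q.I

open Complex MeasureTheory Filter Topology Asymptotics
open scoped InnerProductSpace

namespace QIContAux

theorem PS_congr (β : ℕ → ℝ) {Γ Γ' : ℕ → ℕ → ℂ} {d : ℕ} (h : ∀ i < d, ∀ j < d, Γ i j = Γ' i j)
    (F : (ℕ → Bool × Bool) → ℂ) : PS β Γ d F = PS β Γ' d F := by
  refine Finset.sum_congr rfl fun a _ => ?_
  have e : EE Γ d (ext a) = EE Γ' d (ext a) :=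
    Finset.sum_congr rfl fun i hi => Finset.sum_congr rfl fun j hj => by
      rw [h i (Finset.mem_range.1 hi) j (Finset.mem_range.1 hj)]
  rw [e]

variable {M : Mod}

/-- self consistent layers -/
def SCo (β γ : ℕ → ℝ) (f : ℕ → M.H) (p : ℕ) : Prop := ∀ j < p, f j = γ j • M.xi (CW M β f j)

theorem layer {β γ : ℕ → ℝ} {f : ℕ → M.H} {p : ℕ} (h : SCo β γ f p) (b g : ℝ) :
    ∃ (β' γ' : ℕ → ℝ) (f' : ℕ → M.H), SCo β' γ' f' (p + 1) ∧
      CW M β' f' (p + 1) = Rt M b * WZ M (g • M.xi (CW M β f p)) * CW M β f p ∧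
      ∀ η : M.H, ∑ t ∈ Finset.range (p + 1), γ' t * (⟪η, M.xi (CW M β' f' t)⟫_ℂ ^ 2).im =
        ∑ t ∈ Finset.range p, γ t * (⟪η, M.xi (CW M β f t)⟫_ℂ ^ 2).im +
          g * (⟪η, M.xi (CW M β f p)⟫_ℂ ^ 2).im := by
  have e : ∀ j ≤ p, CW M (Function.update β p b)
      (Function.update f p (g • M.xi (CW M β f p))) j = CW M β f j := fun j hj =>
    CW_congr j (fun i hi => Function.update_of_ne (by omega) _ _)
      fun i hi => Function.update_of_ne (by omega) _ _
  refine ⟨Function.update β p b, Function.update γ p g,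
    Function.update f p (g • M.xi (CW M β f p)), fun j hj => ?_, ?_, fun η => ?_⟩
  · rw [e j (by omega)]
    rcases eq_or_ne j p with rfl | hne
    · rw [Function.update_self, Function.update_self]
    · rw [Function.update_of_ne hne, Function.update_of_ne hne]
      exact h j (by omega)
  · rw [CW, e p le_rfl, Function.update_self, Function.update_self]
  · rw [Finset.sum_range_succ, e p le_rfl, Function.update_self]
    congr 1
    refine Finset.sum_congr rfl fun t ht => ?_
    have ht' := Finset.mem_range.1 ht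
    rw [e t ht'.le, Function.update_of_ne ht'.ne]

theorem normal {U : Op M} {E : M.H → ℝ} (h : Reach M U E) :
    ∃ (β γ : ℕ → ℝ) (f : ℕ → M.H) (p : ℕ), SCo β γ f p ∧ U = CW M β f p ∧
      ∀ η, E η = ∑ t ∈ Finset.range p, γ t * (⟪η, M.xi (CW M β f t)⟫_ℂ ^ 2).im := by
  induction h with
  | one => exact ⟨0, 0, 0, 0, fun j hj => absurd hj (Nat.not_lt_zero j), rfl, fun η => by simp⟩
  | rot b _ ih =>
    obtain ⟨β, γ, f, p, h1, rfl, h3⟩ := ih
    obtain ⟨β', γ', f', k1, k2, k3⟩ := layer h1 b 0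
    refine ⟨β', γ', f', p + 1, k1, ?_, fun η => ?_⟩
    · rw [k2, zero_smul, WZ_zero, mul_one]
    · rw [k3, h3, zero_mul, add_zero]
  | pul g _ ih =>
    obtain ⟨β, γ, f, p, h1, rfl, h3⟩ := ih
    obtain ⟨β', γ', f', k1, k2, k3⟩ := layer h1 0 g
    refine ⟨β', γ', f', p + 1, k1, ?_, fun η => ?_⟩
    · rw [k2, Rt_zero, one_mul]
    · rw [k3, ← h3]

theorem GR_eq (h : S_ps) {β γ : ℕ → ℝ} {f : ℕ → M.H} {p : ℕ} (hs : SCo β γ f p) :
    ∀ d ≤ p, ∀ i ≤ d, ∀ j ≤ d, GR β γ 0 d i j = ⟪M.xi (CW M β f i), M.xi (CW M β f j)⟫_ℂ := by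
  intro d
  induction d with
  | zero =>
    intro _ i hi j hj
    rw [h M β f 0 i j hi hj, GR]
    exact PS_congr β (fun _ hi => absurd hi (Nat.not_lt_zero _)) _
  | succ d ih =>
    intro hd i hi j hj
    rw [h M β f (d + 1) i j hi hj, GR]
    refine PS_congr β (fun a ha b hb => ?_) _
    rw [ih (by omega) a (by omega) b (by omega), hs a (by omega), hs b (by omega), inner_rl,
      inner_rr]
    simp [mul_assoc]

theorem cont_rx (x y : Bool) : Continuous fun b => rx b x y := by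
  unfold rx
  split_ifs <;> fun_prop

theorem cont_PS {X : Type} [TopologicalSpace X] {β : X → ℕ → ℝ} {Γ : X → ℕ → ℕ → ℂ}
    (hβ : ∀ j, Continuous fun x => β x j) (hΓ : ∀ i j, Continuous fun x => Γ x i j) (d : ℕ)
    (F : (ℕ → Bool × Bool) → ℂ) : Continuous fun x => PS (β x) (Γ x) d F := by
  refine continuous_finsetSum _ fun a _ => Continuous.mul (Continuous.mul ?_ ?_) continuous_const
  · exact continuous_const.mul (continuous_finsetProd _ fun j _ =>
      ((cont_rx _ _).comp (hβ j)).mul (continuous_conj.comp ((cont_rx _ _).comp (hβ j))))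
  · exact continuous_exp.comp (continuous_finsetSum _ fun i _ => continuous_finsetSum _ fun j _ =>
      continuous_const.mul (hΓ i j))

theorem cont_GR (γ : ℕ → ℝ) (d : ℕ) :
    ∀ u t, Continuous fun x : (ℕ → ℝ) × (ℕ → ℝ) => GR x.1 γ x.2 d u t := by
  induction d with
  | zero =>
    intro u t
    simp only [GR]
    exact cont_PS (fun j => by fun_prop) (fun _ _ => continuous_const) _ _
  | succ d ih =>
    intro u t
    simp only [GR]
    refine cont_PS (fun j => by fun_prop) (fun i j => ?_) _ _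
    exact (continuous_const.mul (ih i j)).add (by fun_prop)

theorem cont_vR (γ : ℕ → ℝ) (p : ℕ) :
    Continuous fun x : (ℕ → ℝ) × (ℕ → ℝ) => vR x.1 γ x.2 p :=
  continuous_finsetSum _ fun t _ =>
    continuous_const.mul (continuous_im.comp ((cont_GR γ p p t).pow 2))

theorem tends {a : ℕ → ℕ → ℝ} {b : ℕ → ℝ} (h : ∀ n j, |a n j - b j| ≤ 1 / ((n : ℝ) + 1)) :
    Tendsto a atTop (𝓝 b) :=
  tendsto_pi_nhds.2 fun j => tendsto_iff_norm_sub_tendsto_zero.2
    (squeeze_zero (fun _ => norm_nonneg _) (fun n => h n j) tendsto_one_div_add_atTop_nhds_zero_nat)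

end QIContAux

open QIContAux

theorem reach (h : S_ps) : S_reach := by
  intro M U E hr
  obtain ⟨β, γ, f, p, h1, rfl, h3⟩ := normal hr
  refine ⟨β, γ, p, ?_⟩
  rw [h3]
  refine Finset.sum_congr rfl fun t ht => ?_
  rw [GR_eq h h1 p le_rfl p le_rfl t (Finset.mem_range.1 ht).le]

theorem cont : S_cont := by
  intro β γ s p ε hε
  by_contra hc
  push Not at hc
  choose β' s' h1 h2 h3 using fun n : ℕ => hc (1 / ((n : ℝ) + 1)) (by positivity)
  have h4 := ((cont_vR γ p).tendsto (β, s)).comp ((tends h1).prodMk_nhds (tends h2))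
  obtain ⟨n, hn⟩ := (Metric.tendsto_nhds.1 h4 ε hε).exists
  exact absurd hn (not_lt.2 (h3 n))

end Vale.Agent.P367.Q.I
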