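import Vale.Agent.P367.QIStm

/-! Step (I): the echo. -/

namespace Vale.Agent.P367.Q.I

open Complex MeasureTheory Filter Topology Asymptotics
open scoped InnerProductSpace

namespace QIEchoAux

variable {M : Mod} {l : Filter ℝ}

theorem div_small {r : ℝ → M.H} (s : ℝ) (h : od l r) : o1 l fun δ => (s / (2 * δ)) • r δ := by
  have h1 : (fun δ : ℝ => s / (2 * δ)) =O[l] fun δ => δ⁻¹ :=
    ((isBigO_refl (fun δ : ℝ => δ⁻¹) l).const_mul_left (s / 2)).congr_left fun δ => by ring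
  refine o1_iff.2 ((h1.smul_isLittleO h).trans_isBigO (O1.of_all (C := 1) fun δ => ?_))
  rcases eq_or_ne δ 0 with rfl | h0
  · simp
  · simp [h0]

theorem both {V : ℝ → Op M} {f d : ℝ → M.H} (hV : ∀ σ x, Bd M l x → od l fun δ =>
      V δ (M.W (sg σ • d δ) (x δ)) - WZ M (f δ) (M.W (sg σ • d δ) (x δ))) {y : ℝ → M.H}
    (hy : Bd M l y) : od l fun δ => V δ (WZ M (d δ) (y δ)) - WZ M (f δ) (WZ M (d δ) (y δ)) := by
  refine ((hV true _ ((Loc.Pr true).bd hy)).add (hV false _ ((Loc.Pr false).bd hy))).congr_left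
    fun δ => ?_
  rw [WZ_apply (d δ) (y δ), map_add, map_add]
  simp only [sg_true, sg_false, one_smul, neg_smul]
  abel

theorem shift (h1 : S_id) {h z y : ℝ → M.H} (hh : O1 l h) (he : o1 l fun δ => z δ - h δ)
    (hy : Bd M l y) : o1 l fun δ => exp (-I * (⟪z δ - h δ, h δ⟫_ℂ).im) • WZ M (z δ) (y δ) -
      WZ M (h δ) (y δ) := by
  have := h1 M l (fun _ => 1) 0 _ (fun _ => 0) _ ((Loc.WZ hh).bd hy) (o1_iff.1 he)
    (by simpa using o1.zero)
  simp only [WB_zero, M.W_zero, one_apply_eq_self, WZ_WZ, sub_add_cancel] at this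
  exact o1_iff.2 this

end QIEchoAux

open QIEchoAux in
theorem echo (h1 : S_id) (h2 : S_pulS) (h3 : S_mid) (h4 : S_vee) (h5 : S_dxi) : S_echo := by
  intro M l hl F U E D s hR hA hs
  set g : ℝ → ℝ := fun δ => s / (2 * δ) with hg
  set ξ : ℝ → M.H := fun δ => M.xi (U δ) with hξ
  set d : ℝ → M.H := fun δ => g δ • ξ δ with hd
  have g1 : ∀ᶠ δ in l, δ * g δ = s / 2 := (ev_pos hl).mono fun δ h => by
    simp only [hg]
    field_simp
  have g2 : O1 l fun δ => δ * g δ := (O1.const (s / 2)).congr' (g1.mono fun _ h => h.symm) .rfl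
  obtain ⟨hm, hD, hA'⟩ := h3 M l hl F U E D d s hR hA hs fun _ => rfl
  obtain ⟨V, f, E4, r4, dV, sb4, fO, ec, hV⟩ := h4 M l hl F _ _ _ d g hm
    (fun δ => (hR.reach δ).pul (g δ)) (fun δ => by rw [xi_WZ]) g2 hD (hA' 0 (by simp))
    (hA' _ (by rw [show 2 * (Real.pi / 8) = Real.pi / 4 by ring, Real.cos_pi_div_four]; positivity))
  have h6 := h5 M l hl F _ V _ d f hm dV sb4 hV
  simp only [xi_WZ] at h6
  set x4 : ℝ → M.H := fun δ => M.xi (V δ * (WZ M (d δ) * U δ)) with hx4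
  set a : ℝ → M.H := fun δ => (-g δ) • x4 δ with ha
  set hh : ℝ → M.H := fun δ => a δ + (f δ + d δ) with hhh
  have bξ : O1 l ξ := O1.of_all fun δ => (norm_xi (hR.dec δ)).le
  have bx : O1 l x4 := O1.of_all fun δ => (norm_xi (r4 δ).dec).le
  have bn : O1 l fun δ => s • F.n δ := (O1.const s).smul_O F.n_O1
  have cx : o1 l fun δ => x4 δ - ξ δ := by
    refine ((od.small hl h6).add (((o1_id hl).const_mul 2).trans (by simp) |> o1.smul_O1 <|
      F.n_O1)).neg.congr' (.of_forall fun δ => ?_)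
    simp only [hx4, hξ]
    abel
  have ck : o1 l fun δ => g δ • (ξ δ - x4 δ) - s • F.n δ := by
    refine (div_small s h6).congr' (g1.mono fun δ h => ?_)
    rw [smul_sub (s / (2 * δ)), smul_smul, show s / (2 * δ) * (2 * δ) = 2 * (δ * g δ) by ring, h,
      mul_div_cancel₀ _ two_ne_zero]
  have ce : o1 l fun δ => s • F.n δ - hh δ := by
    refine (ck.add (Od.small hl fO)).neg.congr' (.of_forall fun δ => ?_)
    simp only [hhh, ha, hd, smul_sub, neg_smul]
    abel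
  have bh : O1 l hh := (bn.sub ce.bdd).congr_left fun δ => by simp
  set T : ℝ → Op M := fun δ => WZ M (a δ) * V δ * WZ M (d δ) with hT
  have dT : ∀ δ, M.Dec (T δ) := fun δ => ((dec_WZ _).mul (dV δ)).mul (dec_WZ _)
  have pu := (Ph.exp fun δ => (⟪f δ, d δ⟫_ℂ).im).mul (Ph.exp fun δ => (⟪a δ, f δ + d δ⟫_ℂ).im)
  set u : ℝ → ℂ := fun δ => exp (-I * (⟪f δ, d δ⟫_ℂ).im) * exp (-I * (⟪a δ, f δ + d δ⟫_ℂ).im)
    with hu
  have kT : ∀ y, Bd M l y → od l fun δ => T δ (y δ) - u δ • WZ M (hh δ) (y δ) := fun y hy => by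
    refine ((dec_O fun δ => dec_WZ (a δ)).trans_isLittleO (both hV hy)).congr_left fun δ => ?_
    rw [map_sub, WZ_WZ (f δ), map_smul, WZ_WZ, smul_smul]
    rfl
  have sim : Sim l U (fun δ => WZ M (a δ) * (V δ * (WZ M (d δ) * U δ)))
      fun δ => WZ M (s • F.n δ) := by
    have := Sim.of_bd (U := U) dT (fun δ => dec_WZ (s • F.n δ))
      (pu.mul (Ph.exp fun δ => (⟪s • F.n δ - hh δ, hh δ⟫_ℂ).im)) fun y hy =>
        ((od.small hl (kT y hy)).sub (pu.bdd.smul_o1 (shift h1 bh ce hy))).congr'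
          (.of_forall fun δ => by simp only [smul_sub, smul_smul]; abel)
    simpa only [hT, mul_assoc] using this
  have cD : o1 l fun δ => δ • (D δ + d δ - a δ) - (δ • D δ + (2 * (δ * g δ)) • ξ δ) := by
    refine (g2.smul_o1 cx).congr' (.of_forall fun δ => ?_)
    simp only [ha, hd]
    module
  have g3 : O1 l fun δ => 2 * (δ * g δ) := g2.const_mul_left 2
  refine ⟨_, _, fun δ => D δ + d δ - a δ, ⟨fun δ => (r4 δ).pul (-g δ), ?_,
    (h2 M l F _ _ a).2 sb4, sim.n0 (Loc.WZ bn) (fun _ => dec_WZ _) ?_⟩, sim, fun η b1 b2 => ?_, ?_⟩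
  · obtain ⟨y, y1, y2⟩ := hR.nT
    refine ⟨_, ((Loc.WZ bh).bd y1).smul pu.bdd,
      (((dec_O dT).trans_isLittleO y2).add (kT y y1)).congr_left fun δ => ?_⟩
    rw [map_sub, sub_add_sub_cancel]
    rfl
  · refine (hR.nD.add ((hR.nxi0 hl).rsmul g3)).close ((cD.dec hR.dec).congr' (.of_forall fun δ => ?_))
    rw [map_sub, map_add, map_rsmul _ (2 * _)]
  · have k1 : o1 l fun δ => ⟪η δ, g δ • (ξ δ - x4 δ)⟫_ℂ := by
      refine ((inner_o1_right b1 ck).add ((O1.const (s : ℂ)).smul_o1 b2)).congr'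
        (.of_forall fun δ => ?_)
      rw [inner_sub_right, inner_rr s, smul_eq_mul, sub_add_cancel]
    have k2 : O1 l fun δ => ⟪η δ, ξ δ + x4 δ⟫_ℂ := by simpa using inner_O b1 (bξ.add bx)
    refine ((ec η b1).add (k1.smul_O1 k2).im).congr' (.of_forall fun δ => ?_)
    rw [inner_rr, inner_sub_right, inner_add_right, smul_eq_mul, mul_assoc, im_ofReal_mul,
      mul_comm (_ - _), ← sq_sub_sq, sub_im]
    ring
  · refine hA.close ((inner_close (hR.D_O1.add (g3.smul_O bξ)) bξ cD cx).im.congr'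
      (.of_forall fun δ => ?_))
    rw [mark_zero, mark_zero, xi_WZ, sub_im, im_rl, inner_add_left, add_im, im_rl, im_rl, im_self,
      mul_zero, add_zero]

end Vale.Agent.P367.Q.I
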