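import Vale.Agent.P367.QIStm

/-! Step (I): coherent families with distant displacements are almost orthogonal. -/

namespace Vale.Agent.P367.Q.I

open Complex MeasureTheory Filter Topology Asymptotics
open scoped InnerProductSpace

namespace QIFarAux

variable {M : Mod} {l : Filter ℝ}

/-- quadratic decay, uniformly along the filter -/
def Dc (l : Filter ℝ) (φ : ℝ → M.H → ℂ) : Prop :=
  ∃ C, ∀ᶠ δ in l, ∀ d : M.H, ‖d‖ ^ 2 * ‖φ δ d‖ ≤ C

theorem Dc.congr {φ ψ : ℝ → M.H → ℂ} (h : Dc l φ) (h' : ∀ᶠ δ in l, ∀ d, ‖ψ δ d‖ = ‖φ δ d‖) :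
    Dc l ψ := by
  obtain ⟨C, hC⟩ := h
  refine ⟨C, ?_⟩
  filter_upwards [hC, h'] with δ h1 h2 d
  rw [h2]
  exact h1 d

theorem Dc.mul {φ ψ : ℝ → M.H → ℂ} {c : ℝ → ℂ} (hc : O1 l c) (h : Dc l φ)
    (h' : ∀ δ d, ‖ψ δ d‖ = ‖c δ‖ * ‖φ δ d‖) : Dc l ψ := by
  obtain ⟨C, hC⟩ := h
  obtain ⟨K, hK, hK'⟩ := hc.bound
  refine ⟨K * C, ?_⟩
  filter_upwards [hC, hK'] with δ h1 h2 d
  rw [h', mul_left_comm]
  exact mul_le_mul h2 (h1 d) (by positivity) hK.le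

theorem Dc.add {φ φ' ψ : ℝ → M.H → ℂ} (h : Dc l φ) (h' : Dc l φ')
    (he : ∀ δ d, ψ δ d = φ δ d + φ' δ d) : Dc l ψ := by
  obtain ⟨C, hC⟩ := h
  obtain ⟨C', hC'⟩ := h'
  refine ⟨C + C', ?_⟩
  filter_upwards [hC, hC'] with δ h1 h2 d
  rw [he]
  calc ‖d‖ ^ 2 * ‖φ δ d + φ' δ d‖ ≤ ‖d‖ ^ 2 * (‖φ δ d‖ + ‖φ' δ d‖) := by
        gcongr
        exact norm_add_le _ _
    _ ≤ C + C' := by rw [mul_add]; exact add_le_add (h1 d) (h2 d)

theorem gauss {a s e K : ℝ} (ha : 0 ≤ a) (hs : 0 ≤ s) (he : 0 ≤ e) (h : a ≤ s + e) (hK : e ≤ K) :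
    a ^ 2 * Real.exp (-(s ^ 2 / 2)) ≤ 4 + 2 * K ^ 2 := by
  have h1 : a ^ 2 ≤ 2 * s ^ 2 + 2 * K ^ 2 := by nlinarith [sq_nonneg (s - e)]
  have h2 : Real.exp (-(s ^ 2 / 2)) ≤ 1 := Real.exp_le_one_iff.2 (by nlinarith)
  have h3 : s ^ 2 * Real.exp (-(s ^ 2 / 2)) ≤ 2 := by
    have h4 := Real.add_one_le_exp (s ^ 2 / 2)
    have h5 : Real.exp (s ^ 2 / 2) * Real.exp (-(s ^ 2 / 2)) = 1 := by
      rw [← Real.exp_add]; simp
    nlinarith [Real.exp_pos (-(s ^ 2 / 2))]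
  nlinarith [Real.exp_pos (-(s ^ 2 / 2)), sq_nonneg K]

theorem dc_vac {y : ℝ → M.H} (hy : Bd M l y) : Dc l fun δ d => ⟪M.Ω, M.W d (y δ)⟫_ℂ := by
  induction hy with
  | @base m f hf =>
    obtain ⟨K, -, hK⟩ := hf.bound
    refine ⟨‖vac m‖ * (4 + 2 * K ^ 2), ?_⟩
    filter_upwards [hK] with δ h d
    rw [W_sp, W_W, map_smul, inner_smul_right, vac_W, norm_mul, norm_ph, one_mul, norm_mul,
      mul_left_comm, ← ofReal_neg, norm_exp_ofReal]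
    refine mul_le_mul_of_nonneg_left (gauss (norm_nonneg _) (norm_nonneg _) (norm_nonneg _) ?_ h)
      (norm_nonneg _)
    simpa using norm_sub_le (d + f δ) (f δ)
  | smul hc _ ih => exact ih.mul hc fun δ d => by rw [map_smul, inner_smul_right, norm_mul]
  | add _ _ ih ih' => exact ih.add ih' fun δ d => by rw [map_add, inner_add_right]
  | congr _ he ih => exact ih.congr (he.mono fun δ h d => by rw [h])

theorem dc_bd {x y : ℝ → M.H} (hx : Bd M l x) (hy : Bd M l y) :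
    Dc l fun δ d => ⟪x δ, M.W d (y δ)⟫_ℂ := by
  induction hx with
  | @base m f hf =>
    refine (dc_vac ((hy.sp m.conjTranspose).W hf.neg_left)).congr (.of_forall fun δ d => ?_)
    rw [← M.inner_star', M.sp_star, inner_W, ← W_sp, W_comm, inner_smul_right, norm_mul, norm_ph,
      one_mul]
  | smul hc _ ih =>
    exact ih.mul hc fun δ d => by rw [inner_smul_left, norm_mul, RCLike.norm_conj]
  | add _ _ ih ih' => exact ih.add ih' fun δ d => by rw [inner_add_left]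
  | congr _ he ih => exact ih.congr (he.mono fun δ h d => by rw [h])

end QIFarAux

theorem far : S_far := by
  intro M l hl x y d d' hx hy ⟨c, hc, hc'⟩
  obtain ⟨C, hC⟩ := QIFarAux.dc_bd hx hy
  refine IsBigO.trans_isLittleO (g := fun δ : ℝ => δ ^ 2) (IsBigO.of_bound (C / c ^ 2) ?_)
    ((isLittleO_pow_id one_lt_two).mono (hl.trans nhdsWithin_le_nhds))
  filter_upwards [hC, hc'] with δ h1 h2
  have h3 := h1 (d' δ - d δ)
  rw [inner_W, W_W, inner_smul_right, norm_mul, norm_ph, one_mul, neg_add_eq_sub,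
    Real.norm_of_nonneg (sq_nonneg δ), div_mul_eq_mul_div, le_div_iff₀ (by positivity)]
  have h4 : c ^ 2 ≤ δ ^ 2 * ‖d' δ - d δ‖ ^ 2 := by
    rw [← mul_pow, ← sq_abs (δ * _)]
    gcongr
  calc _ ≤ ‖⟪x δ, M.W (d' δ - d δ) (y δ)⟫_ℂ‖ * (δ ^ 2 * ‖d' δ - d δ‖ ^ 2) := by gcongr
    _ = ‖d' δ - d δ‖ ^ 2 * ‖⟪x δ, M.W (d' δ - d δ) (y δ)⟫_ℂ‖ * δ ^ 2 := by ring
    _ ≤ C * δ ^ 2 := by gcongr

theorem orth (h : S_far) : S_orth := by
  intro M l hl F U E D x b hR hm ⟨y, hy, hxy⟩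
  obtain ⟨u, hu, hs⟩ := hR.sb
  have hD : Away l fun δ => δ * ‖D δ‖ :=
    Away.of_im (e := fun δ => M.xi (Rt M b * U δ)) hm fun δ => (norm_xi_Rt (hR.dec δ) b).le
  have key : ∀ σ, o1 l fun δ => ⟪U δ (x δ), U δ (F.aS σ δ)⟫_ℂ := fun σ => by
    have hz : Bd M l fun _ => Rt M 0 (Pr M σ M.Ω) := (Bd.sp_Ω (pr σ)).sp (rot 0 0)
    have h1 := inner_close hy.bdd
      (hu.bdd.smul_O ((dec_O fun δ => dec_W (sg σ • D δ)).trans hz.bdd)) hxy (hs σ)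
    have h2 := od.small hl (h M l hl y _ (fun _ => 0) (fun δ => sg σ • D δ) hy hz
      (by simpa only [sub_zero, norm_sg] using hD))
    refine (h1.add (hu.bdd.smul_o1 h2)).congr' (.of_forall fun δ => ?_)
    rw [M.W_zero, inner_smul_right, smul_eq_mul]
    exact sub_add_cancel _ _
  refine ((key true).sub (key false)).congr' (.of_forall fun δ => ?_)
  rw [(hR.dec δ).inner, (hR.dec δ).inner, Fr.n, inner_sub_right]

end Vale.Agent.P367.Q.I
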