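import Vale.Agent.P367.QIStm

namespace Vale.Agent.P367.Q.I

open Complex MeasureTheory Filter Topology
open scoped InnerProductSpace

theorem final (hM : Nonempty Mod) (h1 : S_reach) (h2 : S_cont) (h3 : S_init) (h4 : S_step)
    (h5 : S_fin) : S_I := by
  intro β γ s p ε hε
  obtain ⟨M⟩ := hM
  obtain ⟨η, hη, hc⟩ := h2 β γ s p (ε / 2) (half_pos hε)
  set l : Ultrafilter ℝ := Ultrafilter.of (𝓝[>] 0)
  have hl : (l : Filter ℝ) ≤ 𝓝[>] 0 := Ultrafilter.of_le _
  set s' : ℕ → ℝ := fun j => if s j = 0 then η else s j with hs'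
  have hs0 : ∀ j, s' j ≠ 0 := fun j => by
    simp only [hs']; split_ifs with h; exacts [hη.ne', h]
  have hs1 : ∀ j, |s' j - s j| ≤ η := fun j => by
    simp only [hs']; split_ifs with h <;> simp [h, abs_of_pos hη, hη.le]
  obtain ⟨F, U, E, D, x, h0⟩ := h3 M l hl β γ s' (hs0 0)
  have key : ∀ t, ∃ β' U E D x, (∀ j, |β' j - β j| ≤ η) ∧ (∀ j, t ≤ j → β' j = β j) ∧
      TI F β' γ s' t U E D x := by
    intro t
    induction t with
    | zero => exact ⟨β, U, E, D, x, fun j => by simp [hη.le], fun _ _ => rfl, h0⟩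
    | succ t ih =>
      obtain ⟨β', U, E, D, x, a1, a2, a3⟩ := ih
      obtain ⟨b, U', E', D', y, b1, b2⟩ := h4 M l hl F β' γ s' t U E D x η a3 (hs0 _) hη
      refine ⟨_, U', E', D', _, fun j => ?_, fun j hj => ?_, b2⟩
      · by_cases hj : j = t
        · subst hj; rwa [Function.update_self, ← a2 j le_rfl]
        · rw [Function.update_of_ne hj]; exact a1 j
      · rw [Function.update_of_ne (by omega), a2 j (by omega)]
  obtain ⟨β', U, E, D, x, a1, -, a3⟩ := key p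
  obtain ⟨δ, hδ⟩ := ((Metric.tendsto_nhds.1 (h5 M l hl F β' γ s' p U E D x a3)) _
    (half_pos hε)).exists
  obtain ⟨b, g, q, hq⟩ := h1 M _ _ (a3.rest.reach δ)
  refine ⟨b, g, q, ?_⟩
  rw [Real.dist_eq, ← hq] at hδ
  have := hc β' s' a1 hs1
  calc _ ≤ _ := abs_sub_le _ (vR β' γ s' p) _
    _ < ε / 2 + ε / 2 := add_lt_add hδ this
    _ = ε := add_halves ε

end Vale.Agent.P367.Q.I
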