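import Vale.Agent.P367.QIStm

/-! Step (I): generic frames. -/

namespace Vale.Agent.P367.Q.I

open Complex MeasureTheory Filter Topology Asymptotics
open scoped InnerProductSpace

namespace QIGenAux

theorem lim {M : Mod} {l : Ultrafilter ℝ} {U : ℝ → Op M} {D : ℝ → M.H} (hU : ∀ δ, M.Dec (U δ))
    (hD : O1 l fun δ => δ • D δ) (b : ℝ) : ∃ z, Tendsto (mark U D b) l (𝓝 z) := by
  obtain ⟨C, -, hC⟩ := hD.bound
  obtain ⟨z, -, hz⟩ := (isCompact_Icc (a := -C) (b := C)).ultrafilter_le_nhds (l.map (mark U D b))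
    (le_principal_iff.2 (hC.mono fun δ h => abs_le.1 (by
      rw [mark, ← im_rl]
      refine (abs_im_le _ _).trans ?_
      rwa [norm_xi_Rt (hU δ), mul_one])))
  exact ⟨z, hz⟩

theorem zeros {z y b0 : ℝ} (h : Real.cos (2 * b0) * z + Real.sin (2 * b0) * y ≠ 0) :
    {b : ℝ | Real.cos (2 * b) * z + Real.sin (2 * b) * y = 0}.Countable := by
  rcases Set.eq_empty_or_nonempty {b : ℝ | Real.cos (2 * b) * z + Real.sin (2 * b) * y = 0}
    with e | ⟨c, hc⟩
  · rw [e]
    exact Set.countable_empty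
  refine (Set.countable_range fun n : ℤ => c + n * Real.pi / 2).mono fun b hb => ?_
  rw [Set.mem_ofPred_eq] at hb hc
  have h1 : Real.sin (2 * b - 2 * c) * (Real.cos (2 * b0) * z + Real.sin (2 * b0) * y) = 0 := by
    rw [Real.sin_sub]
    linear_combination (Real.cos (2 * c) * Real.sin (2 * b0) - Real.sin (2 * c) * Real.cos (2 * b0))
      * hb + (Real.sin (2 * b) * Real.cos (2 * b0) - Real.cos (2 * b) * Real.sin (2 * b0)) * hc
  obtain ⟨n, hn⟩ := Real.sin_eq_zero_iff.1 ((mul_eq_zero.1 h1).resolve_right h)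
  exact ⟨n, by simp only [hn]; ring⟩

end QIGenAux

open QIGenAux in
theorem gen : S_gen := by
  intro M l U D b0 hU hD ⟨c, hc, h0⟩
  obtain ⟨z, hz⟩ := lim hU hD 0
  obtain ⟨y, hy⟩ := lim hU hD (Real.pi / 4)
  have h1 : ∀ b, Tendsto (fun δ => |mark U D b δ|) l
      (𝓝 |Real.cos (2 * b) * z + Real.sin (2 * b) * y|) := fun b =>
    (((hz.const_mul _).add (hy.const_mul _)).congr fun δ => (mark_lin U D b δ).symm).abs
  refine (zeros (abs_pos.1 (hc.trans_le (ge_of_tendsto (h1 b0) h0)))).mono fun b hb => ?_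
  by_contra h
  have h2 := abs_pos.2 h
  exact hb ⟨_, half_pos h2, (h1 b).eventually_const_le (half_lt_self h2)⟩

theorem rg (h1 : S_echo) (h2 : S_gen) (h3 : S_sp) : S_rg := by
  intro M l hl F U E D s hR hA hs
  obtain ⟨U5, E5, D5, r5, s5, e5, a5⟩ := h1 M l hl F U E D s hR hA hs
  have c1 := h2 M l U5 D5 0 r5.dec r5.D_O1 a5
  obtain ⟨b, hb⟩ := (c1.union (c1.preimage_of_injOn (f := fun b => b - Real.pi / 4)
    fun _ _ _ _ e => sub_left_injective e)).dense_compl ℝ |>.nonempty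
  simp only [Set.mem_compl_iff, Set.mem_union, Set.mem_preimage, Set.mem_ofPred_eq, not_or,
    not_not] at hb
  obtain ⟨U6, E6, r6, s6, e6⟩ := h3 M l hl F U5 E5 D5 _ b r5 hb.1
  have t6 : ∀ c, Away l (mark U5 D5 c) → Away l (mark U6 D5 c) := fun c h =>
    h.close (by simpa only [add_zero] using r5.mark_close hl s6 c)
  obtain ⟨U7, E7, r7, s7, e7⟩ := h3 M l hl F U6 E6 D5 _ _ r6 (t6 _ hb.2)
  rw [show -(2 * (b - Real.pi / 4)) - (-(2 * b) - -(Real.pi / 2)) = 0 by ring] at r7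
  have s67 := s6.trans s7 (Loc.Rt 0) (fun _ => dec_Rt 0) fun _ => dec_Rt 0
  refine ⟨U7, E7, D5, r7, ?_, e5.trans (e6.trans e7).es,
    (t6 0 a5).close (by simpa only [add_zero] using r6.mark_close hl s7 0)⟩
  simpa only [Rt_zero, one_mul] using s5.trans s67 (Loc.WZ ((O1.const s).smul_O F.n_O1))
    (fun _ => dec_WZ _) fun _ => (dec_Rt 0).mul (dec_Rt 0)

end Vale.Agent.P367.Q.I
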