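import Vale.Agent.P367.QIStm

/-! Step (I): the invariant after the first interaction. -/

namespace Vale.Agent.P367.Q.I

open Complex MeasureTheory Filter Topology Asymptotics
open scoped InnerProductSpace

namespace QIInitAux

variable {M : Mod}

theorem vac_WZ (x : M.H) : ⟪M.Ω, WZ M x M.Ω⟫_ℂ = exp (-(‖x‖ ^ 2 / 2 : ℝ)) := by
  rw [WZ_apply, W_Pr, W_Pr, inner_add_right, Pr, Pr, vac_W, vac_W, vac_pr, vac_pr, norm_neg]
  ring

theorem val (m : M.H) (s : ℝ) :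
    (⟪WZ M m (s • Zo M M.Ω), Zb M (Real.pi / 4) (WZ M m M.Ω)⟫_ℂ).im =
      -s * Real.exp (-(‖-m + -m‖ ^ 2 / 2)) := by
  have h : Zb M (Real.pi / 4) (WZ M m M.Ω) = -I • Zo M (WZ M (-m) M.Ω) := by
    rw [Zb_quarter, ← congrArg (WZ M (-m)) M.pX_Ω, ← X_WZ]
    rfl
  rw [map_rsmul, im_rl, h, ← Zo_WZ, inner_smul_right, dec_Zo.inner, ← M.inner_star', WZ_star, WZ_WZ,
    im_self, inner_smul_right, vac_WZ, ← ofReal_neg, ← ofReal_exp]
  simp [-ofReal_exp]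

end QIInitAux

open QIInitAux in
theorem init (h1 : S_mark) (h2 : S_pulse) : S_init := by
  intro M l hl β g s hs
  obtain ⟨F, U, E, D, hr, hsim, hD, hE⟩ := h1 M l hl (s 0)
  have hp := (h2 M l hl F U E D (g 0) hr).1
  have hy : ∀ δ, ‖M.xi (U δ)‖ = 1 := fun δ => norm_xi (hr.dec δ)
  have hy' : O1 l fun δ => g 0 • M.xi (U δ) :=
    (O1.const (g 0)).smul_O (O1.of_all fun δ => (hy δ).le)
  obtain ⟨u, hu, h3⟩ := ((hsim.trans (Sim.exact U fun δ => WZ M (g 0 • M.xi (U δ)))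
    (Loc.WZ ((O1.const (s 0)).smul_O F.n_O1)) (fun _ => dec_WZ _) fun _ => dec_WZ _).phase
      (G' := fun δ => WZ M (md F g s (fun _ δ => M.xi (U δ)) δ 0)) (Ph.exp _) fun δ => WZ_mul _ _)
  have h4 := h3 _ Bd.Ω.n0
  refine ⟨F, _, _, _, fun _ δ => M.xi (U δ), hp, ⟨Real.pi / 4, ?_⟩, fun _ δ => (hy δ).le,
    ⟨u, hu, h4, fun j hj => ?_⟩, fun η e1 e2 => ?_⟩
  · have h5 : o1 l fun δ => δ • (D δ + g 0 • M.xi (U δ)) - s 0 • Zo M M.Ω :=
      (hD.add ((o1_id hl).smul_O1 hy')).congr' (.of_forall fun δ => by rw [smul_add]; abel)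
    have h6 := (h5.dec hp.dec).add
      (h3 (fun _ => s 0 • Zo M M.Ω) ((Bd.sp_Ω _).rsmul (O1.const _)).n0)
    simp only [map_sub, sub_add_sub_cancel] at h6
    have h7 := (inner_close (hu.bdd.smul_O ((dec_O fun _ => dec_WZ _).trans (O1.const _)))
      ((clm_O _).trans (hu.bdd.smul_O ((dec_O fun _ => dec_WZ _).trans (O1.const _)))) h6
      ((h4.clm (Zb M (Real.pi / 4))).congr' (.of_forall fun δ => map_sub _ _ _))).im
    simp only [map_smul, hu.inner, sub_im, one_apply_eq_self, val] at h7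
    refine Away.close ⟨|s 0| * Real.exp (-((2 * (|g 0| + |s 0|)) ^ 2 / 2)), by positivity,
      F.hn.mono fun δ hδ => ?_⟩ (h7.congr' (.of_forall fun δ => by rw [mark_eq]))
    have h8 : ‖md F g s (fun _ δ => M.xi (U δ)) δ 0‖ ≤ |g 0| + |s 0| :=
      (norm_add_le _ _).trans (by simp [norm_smul, hy, Fr.n, hδ])
    rw [abs_mul, abs_neg, Real.abs_exp, ← neg_add, norm_neg]
    gcongr
    linarith [norm_add_le (md F g s (fun _ δ => M.xi (U δ)) δ 0)
      (md F g s (fun _ δ => M.xi (U δ)) δ 0)]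
  · refine (h4.clm (Zo M)).congr' (.of_forall fun δ => ?_)
    rw [Nat.le_zero.1 hj, map_sub, map_smul, ← apply_xi (hp.dec δ), xi_WZ, Zo_WZ, CW, xi_one]
    rfl
  · simpa using hE η e1 e2

end Vale.Agent.P367.Q.I
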