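import Vale.Agent.P367.QIStm

/-! Step (I): the imaginary part of the overlap inside an echo. -/

namespace Vale.Agent.P367.Q.I

open Complex MeasureTheory Filter Topology Asymptotics
open scoped InnerProductSpace

namespace QIMAux

variable {M : Mod} {l : Filter ℝ}

theorem im_eq {O U : Op M} (hU : M.Dec U) (hO : star O = O) :
    (⟪star U (O (U M.Ω)), M.xi U⟫_ℂ).im =
      2 * (⟪O (Pr M false (U M.Ω)), Pr M true (U M.Ω)⟫_ℂ).im := by
  have sa : ∀ x y : M.H, ⟪O x, y⟫_ℂ = ⟪x, O y⟫_ℂ := fun x y => by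
    rw [← M.inner_star, hO]
  have re : ∀ x : M.H, (⟪O x, x⟫_ℂ).im = 0 := fun x => by
    have := im_symm (O x) x
    rw [← sa] at this
    linarith
  rw [inner_xi, hU.apply_star, ← Pr_sub]
  generalize U M.Ω = ψ
  nth_rw 1 [← Pr_add ψ]
  rw [map_add, inner_add_left, inner_sub_right, inner_sub_right, add_im, sub_im, sub_im, re, re,
    sa (Pr M true ψ), im_symm (O (Pr M false ψ))]
  ring

theorem approx {F : Fr M l} {U : ℝ → Op M} {D d y : ℝ → M.H} {u : ℝ → ℂ} (σ : Bool)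
    (hy : od l fun δ => Pr M σ (U δ (F.aT δ)) - M.W (sg σ • d δ) (y δ))
    (hu : ∀ τ, o1 l fun δ =>
      U δ (F.aS τ δ) - u δ • M.W (sg τ • D δ) (Rt M 0 (Pr M τ M.Ω))) :
    od l fun δ => Pr M σ (U δ M.Ω) - (F.c δ • M.W (sg σ • d δ) (y δ) +
      δ • u δ • M.W (sg σ • D δ) (Pr M σ M.Ω)) := by
  refine ((F.c_O1.smul_o hy).add (Od.smul_o1 (isBigO_refl _ _)
    (((hu true).add (hu false)).clm (Pr M σ)))).congr' ?_ EventuallyEq.rfl
  filter_upwards [F.dec] with δ hδ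
  have e : U δ M.Ω = F.c δ • U δ (F.aT δ) + δ • (U δ (F.aS true δ) + U δ (F.aS false δ)) := by
    rw [← map_add, ← map_rsmul, ← map_rsmul, ← map_add, ← hδ]
  have e2 : Pr M σ (M.W (sg true • D δ) (Pr M true M.Ω)) +
      Pr M σ (M.W (sg false • D δ) (Pr M false M.Ω)) = M.W (sg σ • D δ) (Pr M σ M.Ω) := by
    rw [← W_Pr, ← W_Pr, Pr_Pr, Pr_Pr]
    cases σ <;> simp
  rw [e, ← e2]
  simp only [Rt_zero, one_apply_eq_self, map_add, map_sub, map_rsmul, map_smul,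
    smul_add, smul_sub]
  abel

end QIMAux

open QIMAux in
theorem lemM (h : S_far) : S_M := by
  intro M l hl F U D d O hm hs hO hL
  obtain ⟨u, hu, hb⟩ := hm.sb
  obtain ⟨y1, b1, h1⟩ := hm.nT true
  obtain ⟨y2, b2, h2⟩ := hm.nT false
  have a1 := approx true h1 hb
  have a2 := approx false h2 hb
  simp only [sg_true, sg_false, one_smul, neg_smul] at a1 a2
  obtain ⟨y3, b3, e3⟩ := hL (fun δ => -d δ) y2 b2
  obtain ⟨y4, b4, e4⟩ := hL d y1 b1
  have sa : ∀ δ (x y : M.H), ⟪O δ x, y⟫_ℂ = ⟪x, O δ y⟫_ℂ := fun δ x y => by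
    rw [← M.inner_star, hs]
  have bw : ∀ σ, Bd M l fun _ => Pr M σ M.Ω := fun σ => Bd.sp_Ω _
  have hδ : O1 l fun δ : ℝ => δ := (o1_id hl).bdd
  have bB : ∀ σ (e : ℝ → M.H), O1 l fun δ => u δ • M.W (e δ) (Pr M σ M.Ω) := fun σ e =>
    hu.bdd.smul_O ((dec_O fun δ => dec_W (e δ)).trans (bw σ).bdd)
  have t1 := h M l hl y3 y1 (fun δ => -d δ) d b3 b1 (hm.fd.mono (by
    filter_upwards with δ
    rw [sub_neg_eq_add, ← two_smul ℝ, norm_smul, abs_mul, abs_mul, abs_norm, Real.norm_two,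
      abs_of_nonneg (by positivity : 0 ≤ 2 * ‖d δ‖)]
    exact mul_le_mul_of_nonneg_left (by linarith [norm_nonneg (d δ)]) (abs_nonneg _)))
  have t2 := h M l hl y3 _ (fun δ => -d δ) D b3 (bw true) (by simpa using hm.fD)
  have t3 := h M l hl _ y4 (fun δ => -D δ) d (bw false) b4 (by simpa [add_comm] using hm.fD)
  have t4 : O1 l fun δ => ⟪O δ (u δ • M.W (-D δ) (Pr M false M.Ω)),
      u δ • M.W (D δ) (Pr M true M.Ω)⟫_ℂ := by
    simpa using inner_O ((app_O hO).trans (bB false fun δ => -D δ)) (bB true D)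
  have hu' : O1 l fun δ => (starRingEnd ℂ) (u δ) := O1.of_all fun δ => by
    rw [Complex.norm_conj]
    exact (hu δ).le
  have k := (F.c_O1.smul_o ((F.c_O1.smul_o t1).add (hδ.smul_o (hu.bdd.smul_o t2)))).add
    ((hδ.smul_o (F.c_O1.smul_o (hu'.smul_o t3))).add
      (Od.smul_o1 (isBigO_refl _ _) ((o1_id hl).smul_O1 t4)))
  have bp : O1 l fun δ => Pr M true (U δ M.Ω) :=
    (clm_O _).trans ((dec_O hm.dec).trans (O1.const _))
  have bq : O1 l fun δ => O δ (F.c δ • M.W (-d δ) (y2 δ) +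
      δ • u δ • M.W (-D δ) (Pr M false M.Ω)) :=
    (app_O hO).trans ((F.c_O1.smul_O ((dec_O fun δ => dec_W (-d δ)).trans b2.bdd)).add
      (hδ.smul_O (bB false fun δ => -D δ)))
  have k2 := ((inner_oO ((app_O hO).trans_isLittleO a2) bp).add (inner_Oo bq a1)).add k
  have k3 : od l fun δ => ⟪O δ (Pr M false (U δ M.Ω)), Pr M true (U δ M.Ω)⟫_ℂ := by
    refine k2.congr_left fun δ => ?_
    have e5 : ⟪O δ (u δ • M.W (-D δ) (Pr M false M.Ω)), M.W (d δ) (y1 δ)⟫_ℂ =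
        (starRingEnd ℂ) (u δ) * ⟪M.W (-D δ) (Pr M false M.Ω), M.W (d δ) (y4 δ)⟫_ℂ := by
      rw [sa, e4, inner_smul_left]
    have e6 : ⟪M.W (-d δ) (y3 δ), u δ • M.W (D δ) (Pr M true M.Ω)⟫_ℂ =
        u δ * ⟪M.W (-d δ) (y3 δ), M.W (D δ) (Pr M true M.Ω)⟫_ℂ := inner_smul_right _ _ _
    rw [map_sub, inner_sub_left, inner_sub_right, map_add, map_rsmul, map_rsmul, e3]
    simp only [inner_add_left, inner_add_right, inner_rl, inner_rr, e5, e6, real_smul,
      smul_eq_mul]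
    ring
  refine ((im_O.trans_isLittleO k3).const_mul_left 2).congr_left fun δ => ?_
  exact (im_eq (hm.dec δ) (hs δ)).symm

end Vale.Agent.P367.Q.I
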