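import Vale.Agent.P367.QIStm

/-! Step (I): the first composite gate. -/

namespace Vale.Agent.P367.Q.I

open Complex MeasureTheory Filter Topology Asymptotics
open scoped InnerProductSpace

namespace QIMarkAux

variable (M : Mod) (a t : ℝ)

/-- the word before the last pulse -/
noncomputable def TT : Op M := Rt M a * (WZ M ((-t) • M.xi 1) * 1)

/-- the vector after the first pulse -/
noncomputable def fi : M.H := WZ M ((-t) • M.xi 1) M.Ω

/-- the typical branch -/
noncomputable def aT : M.H := star (TT M a t) (fi M t)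

/-- the rare branches -/
noncomputable def aS (σ : Bool) : M.H :=
  star (TT M a t) ((-I) • Pr M σ (M.sp (pau 0) (fi M t)))

/-- the whole word -/
noncomputable def UU : Op M := WZ M (t • M.xi (TT M a t)) * TT M a t

variable {M}

theorem dec_TT : M.Dec (TT M a t) := (dec_Rt _).mul ((dec_WZ _).mul FS.Dec.one)

theorem TT_apply (x : M.H) : TT M a t x = Rt M a (WZ M ((-t) • M.xi 1) x) := rfl

theorem Rt_apply (x : M.H) :
    Rt M a x = Real.cos a • x + Real.sin a • ((-I) • M.sp (pau 0) x) := by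
  rw [Rt_eq, ← Complex.coe_smul, ← Complex.coe_smul]
  simp only [ContinuousLinearMap.sub_apply, ContinuousLinearMap.smul_apply,
    ContinuousLinearMap.one_apply]
  module

theorem aS_add : aS M a t true + aS M a t false =
    star (TT M a t) ((-I) • M.sp (pau 0) (fi M t)) := by
  rw [aS, aS, ← map_add, ← smul_add, Pr_add]

theorem aS_sub : aS M a t true - aS M a t false =
    star (TT M a t) ((-I) • Zo M (M.sp (pau 0) (fi M t))) := by
  rw [aS, aS, ← map_sub, ← smul_sub, Pr_sub]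

theorem split : M.Ω = Real.cos a • aT M a t + Real.sin a • (aS M a t true + aS M a t false) := by
  rw [aS_add, aT, ← map_rsmul, ← map_rsmul, ← map_add, ← Rt_apply]
  exact ((dec_TT a t).star_apply _).symm

theorem norm_n : ‖aS M a t true - aS M a t false‖ = 1 := by
  rw [aS_sub, (dec_TT a t).star.norm, norm_smul, dec_Zo.norm, (M.dec_pau 0).norm, fi,
    (dec_WZ _).norm, M.norm_Ω]
  simp

theorem xi_sub : M.xi (TT M a t) - M.xi 1 =
    (2 * Real.sin a) • (aS M a t true - aS M a t false) := by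
  have h1 : M.xi 1 = star (TT M a t) (Rt M a (Zo M (fi M t))) := by
    rw [fi, Zo_WZ, ← xi_one, ← TT_apply, (dec_TT a t).star_apply]
  have h2 : M.xi (TT M a t) = star (TT M a t) (Zo M (Rt M a (fi M t))) := rfl
  rw [aS_sub, h2, ← map_rsmul]
  conv_lhs => rw [h1]
  rw [← map_sub, Rt_apply, Rt_apply, map_add, map_rsmul, map_rsmul, map_smul, X_Zo]
  congr 1
  module

theorem UU_apply (x : M.H) : UU M a t x = WZ M (t • M.xi (TT M a t)) (TT M a t x) := rfl

theorem UU_aT : UU M a t (aT M a t) =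
    WZ M (t • M.xi (TT M a t)) (WZ M ((-t) • M.xi 1) M.Ω) := by
  rw [UU_apply, aT, (dec_TT a t).apply_star, fi]

theorem UU_aS (σ : Bool) : UU M a t (aS M a t σ) =
    (exp (-I * (Real.pi / 2 : ℝ)) * exp (-I * (⟪t • M.xi (TT M a t), t • M.xi 1⟫_ℂ).im)) •
      M.W (sg σ • (t • M.xi (TT M a t) + t • M.xi 1)) (Rt M 0 (Pr M σ M.Ω)) := by
  have h : exp (-I * (Real.pi / 2 : ℝ)) = -I := by
    rw [show -I * (Real.pi / 2 : ℝ) = -(Real.pi / 2 * I) by push_cast; ring, exp_neg,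
      exp_pi_div_two_mul_I, inv_I]
  rw [UU_apply, aS, (dec_TT a t).apply_star, fi, X_WZ, M.pX_Ω, map_smul, WZ_Pr, ← Pr_WZ, WZ_WZ,
    map_smul, Pr_WZ, Rt_zero, h, neg_smul t, neg_neg, smul_smul]
  rfl

theorem reach : Reach M (UU M a t) fun η =>
    0 + (-t) * (⟪η, M.xi 1⟫_ℂ ^ 2).im + t * (⟪η, M.xi (TT M a t)⟫_ℂ ^ 2).im :=
  ((Reach.one.pul (-t)).rot a).pul t

theorem ev_sin {l : Filter ℝ} (hl : l ≤ 𝓝[>] 0) :
    ∀ᶠ δ in l, δ ≠ 0 ∧ Real.sin (Real.arcsin δ) = δ := by
  filter_upwards [ev_pos hl, (o1_id hl).eventually (gt_mem_nhds zero_lt_one)] with δ h1 h2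
  exact ⟨h1.ne', Real.sin_arcsin (by linarith) h2.le⟩

variable (M) in
/-- the frame -/
noncomputable def fr {l : Filter ℝ} (hl : l ≤ 𝓝[>] 0) (s : ℝ) : Fr M l where
  aT δ := aT M (Real.arcsin δ) (s / (2 * δ))
  aS σ δ := aS M (Real.arcsin δ) (s / (2 * δ)) σ
  c δ := Real.cos (Real.arcsin δ)
  hc _ := Real.abs_cos_le_one _
  dec := (ev_sin hl).mono fun δ h => by
    have := split (M := M) (Real.arcsin δ) (s / (2 * δ))
    rwa [h.2] at this
  hn := .of_forall fun _ => norm_n _ _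

end QIMarkAux

open QIMarkAux

theorem markg : S_mark := by
  intro M l hl s
  set F := fr M hl s with hF
  set x1 : ℝ → M.H := fun δ => M.xi (TT M (Real.arcsin δ) (s / (2 * δ))) with hx1
  have hx : ∀ᶠ δ in l, δ ≠ 0 ∧ x1 δ = M.xi 1 + (2 * δ) • F.n δ := (ev_sin hl).mono fun δ h => by
    have := xi_sub (M := M) (Real.arcsin δ) (s / (2 * δ))
    rw [h.2] at this
    exact ⟨h.1, by rw [← sub_eq_iff_eq_add']; exact this⟩
  have hn : ∀ᶠ δ in l, (s / (2 * δ)) • x1 δ + (-(s / (2 * δ))) • M.xi 1 = s • F.n δ :=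
    hx.mono fun δ h => by
      have h1 := h.1
      rw [h.2, smul_add, smul_smul, show s / (2 * δ) * (2 * δ) = s by field_simp, neg_smul]
      abel
  have hnb : O1 l fun δ => s • F.n δ := (O1.const s).smul_O F.n_O1
  have hD : o1 l fun δ => δ • ((s / (2 * δ)) • x1 δ + (s / (2 * δ)) • M.xi 1) - s • Zo M M.Ω := by
    refine ((o1_id hl).smul_O1 hnb).congr' (hx.mono fun δ h => ?_)
    have h1 := h.1
    have h2 : δ * (s / (2 * δ)) = s / 2 := by field_simp
    rw [← smul_add, smul_smul δ (s / (2 * δ)), h2, h.2, xi_one]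
    module
  have hS : Sim l (fun _ => 1) (fun δ => UU M (Real.arcsin δ) (s / (2 * δ)))
      fun δ => WZ M (s • F.n δ) := by
    refine ⟨_, Ph.exp fun δ => (⟪(s / (2 * δ)) • x1 δ, (-(s / (2 * δ))) • M.xi 1⟫_ℂ).im,
      fun x h0 => ?_⟩
    have hz : O1 l fun δ => WZ M ((-(s / (2 * δ))) • M.xi 1) (x δ) :=
      (dec_O fun _ => dec_WZ _).trans h0.bdd
    have ha : Tendsto Real.arcsin l (𝓝 0) := by
      simpa [Function.comp_def] using (Real.continuous_arcsin.tendsto 0).comp (o1_id hl)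
    have hc : o1 l fun δ => Real.cos (Real.arcsin δ) - 1 := by
      have : Continuous fun r : ℝ => Real.cos r - 1 := by fun_prop
      simpa [Function.comp_def] using (this.tendsto 0).comp ha
    have hs : o1 l fun δ => Real.sin (Real.arcsin δ) := by
      simpa [Function.comp_def] using (Real.continuous_sin.tendsto 0).comp ha
    have h3 := ((hc.smul_O1 hz).add (hs.smul_O1 ((O1.const (-I)).smul_O
      ((clm_O (M.sp (pau 0))).trans hz)))).dec fun δ => dec_WZ ((s / (2 * δ)) • x1 δ)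
    refine h3.congr' (hn.mono fun δ h => ?_)
    beta_reduce
    rw [← h, ContinuousLinearMap.one_apply, ← WZ_WZ, UU_apply, ← map_sub, TT_apply, Rt_apply]
    congr 1
    module
  refine ⟨F, fun δ => UU M (Real.arcsin δ) (s / (2 * δ)), _,
    fun δ => (s / (2 * δ)) • x1 δ + (s / (2 * δ)) • M.xi 1,
    ⟨fun δ => reach _ _, ?_, ?_, ?_⟩, hS, hD, fun η h1 h2 => ?_⟩
  · refine Bd.n1 ((((Loc.WZ hnb).bd Bd.Ω).smul (Ph.exp fun δ =>
      (⟪(s / (2 * δ)) • x1 δ, (-(s / (2 * δ))) • M.xi 1⟫_ℂ).im).bdd).congr (hn.mono fun δ h => ?_))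
    show _ = UU M _ _ (aT M _ _)
    rw [UU_aT, WZ_WZ, h]
  · refine ⟨_, (Ph.exp fun _ => Real.pi / 2).mul
      (Ph.exp fun δ => (⟪(s / (2 * δ)) • x1 δ, (s / (2 * δ)) • M.xi 1⟫_ℂ).im), fun σ => ?_⟩
    refine o1.zero.congr' (.of_forall fun δ => ?_)
    exact (sub_eq_zero.2 (UU_aS _ _ σ)).symm
  · exact hS.n0 (Loc.WZ hnb) (fun _ => dec_WZ _)
      (((Bd.sp_Ω (pau 2)).rsmul (O1.const s)).n0.close hD)
  · have h3 : O1 l fun δ => ⟪η δ, x1 δ + M.xi 1⟫_ℂ := by
      have h4 : O1 l fun δ => x1 δ + M.xi 1 :=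
        (O1.of_all (C := 1) fun δ => (norm_xi (dec_TT _ _)).le).add (O1.const _)
      simpa using inner_O h1 h4
    refine ((O1.const s).smul_o1 (h2.smul_O1 h3).im).congr' (hx.mono fun δ h => ?_)
    have h1 := h.1
    show _ = 0 + -(s / (2 * δ)) * (⟪η δ, M.xi 1⟫_ℂ ^ 2).im +
      s / (2 * δ) * (⟪η δ, x1 δ⟫_ℂ ^ 2).im - 0
    rw [h.2]
    simp only [inner_add_right, inner_rr, smul_eq_mul, sq, mul_im, add_re, add_im, mul_re,
      ofReal_re, ofReal_im]
    field_simp
    ring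

end Vale.Agent.P367.Q.I
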