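import Vale.Agent.P367.QIStm

namespace Vale.Agent.P367.Q.I

open Complex MeasureTheory Filter Topology Asymptotics
open scoped InnerProductSpace

namespace QIMidAux

variable {M : Mod} {l : Filter ℝ}

theorem split (A B : M.H) : ⟪A, B⟫_ℂ =
    ⟪Pr M true A, Pr M true B⟫_ℂ + ⟪Pr M false A, Pr M false B⟫_ℂ := by
  rw [← inner_Pr, ← inner_Pr, Pr_Pr, Pr_Pr, if_pos rfl, if_pos rfl, ← inner_add_left, Pr_add]

theorem cross (h1 : S_far) (hl : l ≤ 𝓝[>] 0) {x y d : ℝ → M.H} (hx : Bd M l x) (hy : Bd M l y)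
    (hd : Away l fun δ => δ * ‖d δ‖) :
    o1 l fun δ => ⟪WZ M (d δ) (x δ), WZ M (-d δ) (y δ)⟫_ℂ := by
  have h : ∀ σ, o1 l fun δ => ⟪M.W (sg σ • d δ) (Pr M σ (x δ)),
      M.W (sg σ • -d δ) (Pr M σ (y δ))⟫_ℂ := fun σ => by
    refine od.small hl (h1 M l hl _ _ _ _ ((Loc.Pr σ).bd hx) ((Loc.Pr σ).bd hy)
      (hd.mono (Eventually.of_forall fun δ => ?_)))
    have e : sg σ • -d δ - sg σ • d δ = sg σ • ((-2 : ℝ) • d δ) := by module
    rw [e, norm_sg, norm_smul, abs_mul, abs_mul, abs_norm, abs_mul, abs_norm]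
    refine mul_le_mul_of_nonneg_left ?_ (abs_nonneg _)
    have := norm_nonneg (d δ)
    norm_num
    linarith
  refine ((h true).add (h false)).congr' (Eventually.of_forall fun δ => ?_)
  rw [split (WZ M (d δ) (x δ)), Pr_WZ, Pr_WZ, Pr_WZ, Pr_WZ]

theorem cross0 (h1 : S_far) (hl : l ≤ 𝓝[>] 0) {x y d : ℝ → M.H} (hx : N0 M l x) (hy : N0 M l y)
    (hd : Away l fun δ => δ * ‖d δ‖) :
    o1 l fun δ => ⟪WZ M (d δ) (x δ), WZ M (-d δ) (y δ)⟫_ℂ := by
  obtain ⟨x', hx', ex⟩ := hx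
  obtain ⟨y', hy', ey⟩ := hy
  have c := inner_close (x := fun δ => WZ M (d δ) (x δ)) (y := fun δ => WZ M (-d δ) (y δ))
    (x' := fun δ => WZ M (d δ) (x' δ)) (y' := fun δ => WZ M (-d δ) (y' δ))
    ((dec_O fun δ => dec_WZ (d δ)).trans hx'.bdd) ((dec_O fun δ => dec_WZ (-d δ)).trans hy'.bdd)
    ((ex.dec fun δ => dec_WZ (d δ)).congr' (Eventually.of_forall fun δ => map_sub _ _ _))
    ((ey.dec fun δ => dec_WZ (-d δ)).congr' (Eventually.of_forall fun δ => map_sub _ _ _))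
  exact (c.add (cross h1 hl hx' hy' hd)).congr' (Eventually.of_forall fun δ => sub_add_cancel _ _)

theorem Zb_WZ (d v : M.H) :
    Zb M (Real.pi / 4) (WZ M d v) = WZ M (-d) (Zb M (Real.pi / 4) v) := by
  simp only [Zb_quarter, ContinuousLinearMap.smul_apply, ContinuousLinearMap.mul_apply, X_WZ,
    Zo_WZ, map_smul]

end QIMidAux

open QIMidAux in
theorem mid (h1 : S_far) (h2 : S_pulS) : S_mid := by
  intro M l hl F U E D d s hR hA hs hd
  have e1 : ∀ᶠ δ in l, δ • d δ = (s / 2) • M.xi (U δ) := (ev_pos hl).mono fun δ hδ => by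
    rw [hd, smul_smul]
    congr 1
    field_simp
  have im0 : ∀ δ, (⟪d δ, M.xi (U δ)⟫_ℂ).im = 0 := fun δ => by
    rw [hd, im_rl, im_self, mul_zero]
  have fd : Away l fun δ => δ * ‖d δ‖ := by
    refine ⟨|s / 2|, abs_pos.2 (div_ne_zero hs two_ne_zero), e1.mono fun δ h => ?_⟩
    have := congrArg norm h
    rw [norm_smul, norm_smul, norm_xi (hR.dec δ), mul_one, Real.norm_eq_abs, Real.norm_eq_abs]
      at this
    rw [abs_mul, abs_norm, this]
  have m0 : mark (fun δ => WZ M (d δ) * U δ) (fun δ => D δ + d δ) 0 = mark U D 0 := by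
    funext δ
    rw [mark_zero, mark_zero, xi_WZ, inner_add_left, add_im, im0, add_zero]
  have na : N0 M l fun δ => U δ (δ • (D δ + d δ)) := by
    refine (hR.nD.add ((hR.nxi0 hl).rsmul (O1.const (s / 2)))).close
      (o1.zero.congr' (e1.mono fun δ h => ?_))
    rw [smul_add, map_add, h, map_rsmul _ (s / 2), sub_self]
  refine ⟨⟨fun δ => (dec_WZ _).mul (hR.dec δ), fun σ => ?_, (h2 M l F U D d).1 hR.sb, fd, ?_⟩,
    (dec_O' hR.dec).trans na.bdd, fun b hb => ?_⟩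
  · obtain ⟨y, hy, ey⟩ := hR.nT
    refine ⟨fun δ => Pr M σ (y δ), (Loc.Pr σ).bd hy, ?_⟩
    have := ((dec_O fun δ => dec_W (sg σ • d δ)).trans (clm_O (Pr M σ))).trans_isLittleO ey
    refine this.congr_left fun δ => ?_
    rw [ContinuousLinearMap.mul_apply, Pr_WZ, map_sub, map_sub]
  · refine Away.of_im (e := fun δ => M.xi (U δ)) (hA.mono (Eventually.of_forall fun δ => ?_))
      fun δ => (norm_xi (hR.dec δ)).le
    rw [mark_zero, inner_add_left, inner_add_left, add_im, add_im, im0, add_zero, add_zero]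
  · have q : o1 l (mark (fun δ => WZ M (d δ) * U δ) (fun δ => D δ + d δ) (Real.pi / 4)) := by
      refine (cross0 h1 hl na ((hR.nΩ hl).dec (Loc.Zb (Real.pi / 4)) fun _ => dec_Zb _)
        fd).im.congr' (Eventually.of_forall fun δ => ?_)
      rw [mark_eq, ContinuousLinearMap.mul_apply, ContinuousLinearMap.mul_apply, Zb_WZ]
    refine (hA.const_mul hb).close
      (((O1.const (Real.sin (2 * b))).smul_o1 q).congr' (Eventually.of_forall fun δ => ?_))
    rw [mark_lin _ _ b, m0, smul_eq_mul]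
    ring

end Vale.Agent.P367.Q.I
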