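import Vale.Agent.P367.QIStm

/-! Step (I): small pulses, plain pulses and rotations between composite gates. -/

namespace Vale.Agent.P367.Q.I

open Complex MeasureTheory Filter Topology Asymptotics
open scoped InnerProductSpace

theorem sp (h1 : S_id) (h2 : S_sps) : S_sp := by
  intro M l hl F U E D a b h hm
  obtain ⟨m, hmd⟩ : ∃ m : ℝ → ℝ, m = fun δ => (⟪D δ, M.xi (Rt M b * U δ)⟫_ℂ).im := ⟨_, rfl⟩
  have hA : Away l fun δ => δ * m δ := by rw [hmd]; exact hm
  obtain ⟨ht, he⟩ := hA.angle (Real.pi / 4)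
  have hx : O1 l fun δ => M.xi (Rt M b * U δ) := O1.of_all fun δ => (norm_xi_Rt (h.dec δ) b).le
  have hf : o1 l fun δ => (Real.pi / 4 / m δ) • M.xi (Rt M b * U δ) := (ht.smul_O1 hx).small hl
  refine ⟨fun δ => WB M b ((Real.pi / 4 / m δ) • M.xi (Rt M b * U δ)) * U δ,
    fun δ η => E δ η + Real.pi / 4 / m δ * (⟪η, M.xi (Rt M b * U δ)⟫_ℂ ^ 2).im,
    ⟨fun δ => (h.reach δ).wb b _, ?_, h2 M l F U D _ a b true h.sb hf ?_, ?_⟩, ?_,
    EC.small (ht.small hl) hx⟩
  · exact (h.nT.dec (Loc.WB b hf.bdd) fun _ => dec_WB b _ :)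
  · refine tendsto_const_nhds.congr' (he.mono fun δ hδ => ?_)
    beta_reduce
    rw [im_rr, sg_true, one_mul]
    rw [hmd] at hδ ⊢
    exact hδ.symm
  · exact (h.nD.dec (Loc.WB b hf.bdd) fun _ => dec_WB b _ :)
  · refine Sim.of_bd (fun _ => dec_WB b _) (fun _ => dec_Rt 0) Ph.one fun y hy => ?_
    have := h1 M l (fun _ => 1) b _ (fun _ => 0) y hy (o1_iff.1 hf)
      (by simpa using tendsto_const_nhds)
    simpa [M.W_zero, Rt_zero] using o1_iff.2 this

theorem pulse (h : S_pulS) : S_pulse := by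
  intro M l hl F U E D g hR
  have hx : O1 l fun δ => g • M.xi (U δ) :=
    (O1.const g).smul_O (O1.of_all fun δ => (norm_xi (hR.dec δ)).le)
  refine ⟨⟨fun δ => (hR.reach δ).pul g, ?_, (h M l F U D _).1 hR.sb, ?_⟩, funext fun δ => ?_⟩
  · exact (hR.nT.dec (Loc.WZ hx) fun _ => dec_WZ _ :)
  · have hc : O1 l fun δ : ℝ => δ * g := by
      simpa [mul_comm] using (O1.const g).smul_O (o1_id hl).bdd
    have := (hR.nD.add ((hR.nxi0 hl).rsmul hc)).dec (Loc.WZ hx) fun _ => dec_WZ _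
    refine this.close (o1.zero.congr' (.of_forall fun δ => ?_))
    simp only [mul_apply_eq_comp, smul_add, map_add, map_rsmul, smul_smul, sub_self]
  · rw [mark_zero, mark_zero, xi_WZ, inner_add_left, add_im, im_rl, im_self, mul_zero, add_zero]

theorem rotg (h : S_sp) : S_rot := by
  intro M l hl F U E D b hR h1 h2
  obtain ⟨U2, E2, r2, s2, e2⟩ := h M l hl F _ E D _ 0 (hR.rot (b / 2))
    (by rw [mark_rot, zero_add]; exact h1)
  have r3 := r2.rot (b / 2)
  rw [show -(2 * (0 : ℝ)) - (0 + b / 2) + b / 2 = 0 by ring] at r3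
  have s3 : Sim l U (fun δ => Rt M (b / 2) * U2 δ) fun _ => Rt M b := by
    have k1 := (Sim.exact (l := l) U fun _ => Rt M (b / 2)).trans s2 (Loc.Rt _)
      (fun _ => dec_Rt _) fun _ => dec_Rt _
    simp only [Rt_add, zero_add] at k1
    have k2 := k1.trans (Sim.exact U2 fun _ => Rt M (b / 2)) (Loc.Rt _)
      (fun _ => dec_Rt _) fun _ => dec_Rt _
    simpa only [Rt_add, add_halves] using k2
  refine ⟨_, E2, r3, s3, e2, h2.close ?_⟩
  simpa only [zero_add] using hR.mark_close hl s3 0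

end Vale.Agent.P367.Q.I
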