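import Vale.Agent.P367.QIStm

/-! Step (I): the rare branches under a spin flip pulse and under a plain pulse. -/

namespace Vale.Agent.P367.Q.I

open Complex MeasureTheory Filter Topology Asymptotics
open scoped InnerProductSpace

namespace QISpsAux

variable {M : Mod} {l : Filter ℝ}

theorem ph_val (t σ e : Bool) :
    exp (-I * (2 * (sg t * (sg σ * -(sg e * (Real.pi / 4)))) : ℝ)) =
      I * sg e * sg σ * sg t := by
  have h1 : exp (-I * (Real.pi / 2 : ℝ)) = -I := by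
    rw [show -I * (Real.pi / 2 : ℝ) = -(Real.pi : ℂ) / 2 * I by push_cast; ring,
      exp_neg_pi_div_two_mul_I]
  have h2 : exp (-I * (-(Real.pi / 2) : ℝ)) = I := by
    rw [show -I * (-(Real.pi / 2) : ℝ) = (Real.pi : ℂ) / 2 * I by push_cast; ring,
      exp_pi_div_two_mul_I]
  cases t <;> cases σ <;> cases e <;> simp only [sg_true, sg_false]
  all_goals first
    | (rw [show (2 * _ : ℝ) = Real.pi / 2 by ring1, h1]; push_cast; ring1)
    | (rw [show (2 * _ : ℝ) = -(Real.pi / 2) by ring1, h2]; push_cast; ring1)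

theorem key {D f : ℝ → M.H} {e : Bool} (hf : o1 l f)
    (hD : Tendsto (fun δ => (⟪D δ, f δ⟫_ℂ).im) l (𝓝 (sg e * (Real.pi / 4)))) (t σ : Bool)
    (v : M.H) : o1 l fun δ => M.W (sg t • f δ) (M.W (sg σ • D δ) v) -
      (I * sg e * sg σ * sg t : ℂ) • M.W (sg σ • D δ) v := by
  have h1 : Tendsto (fun δ => exp (-I * (2 * (⟪sg t • f δ, sg σ • D δ⟫_ℂ).im : ℝ))) l
      (𝓝 (I * sg e * sg σ * sg t)) := by
    rw [← ph_val]
    have hc : Continuous fun r : ℝ => exp (-I * (2 * (sg t * (sg σ * -r)) : ℝ)) := by fun_prop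
    refine ((hc.tendsto _).comp hD).congr fun δ => ?_
    rw [im_rl, im_rr, im_symm (D δ) (f δ)]
    rfl
  have h2 : Tendsto (fun δ => M.W (sg t • f δ) v) l (𝓝 v) := by
    have h3 : Tendsto (fun δ => sg t • f δ) l (𝓝 0) := by simpa using hf.const_smul (sg t)
    have h4 := ((M.W_cont v).tendsto 0).comp h3
    rw [M.W_zero] at h4
    exact h4
  have h5 : o1 l fun δ => exp (-I * (2 * (⟪sg t • f δ, sg σ • D δ⟫_ℂ).im : ℝ)) •
      M.W (sg t • f δ) v - (I * sg e * sg σ * sg t : ℂ) • v :=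
    tendsto_sub_nhds_zero_iff.2 (h1.smul h2)
  refine (h5.dec fun δ => dec_W (sg σ • D δ)).congr' (.of_forall fun δ => ?_)
  rw [map_sub, map_smul, map_smul, W_comm (sg t • f δ)]

theorem zflip (a b : ℝ) (σ : Bool) :
    Rt M (-b) (Zo M (Rt M (b + a) (Pr M σ M.Ω))) =
      (sg σ : ℂ) • Rt M (-(2 * b) - a) (Pr M σ M.Ω) := by
  have h : Zo M (Rt M (b + a) (Pr M σ M.Ω)) = Rt M (-(b + a)) (Zo M (Pr M σ M.Ω)) :=
    congrArg (· (Pr M σ M.Ω)) (Zo_Rt (b + a))
  rw [h, Rt_Rt, Zo_Pr, map_rsmul, Complex.coe_smul, show -b + -(b + a) = -(2 * b) - a by ring]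

theorem pul (x D : M.H) (σ τ : Bool) :
    WZ M x (M.W (sg σ • D) (Pr M τ M.Ω)) =
      exp (-I * (sg τ * (sg σ * (⟪x, D⟫_ℂ).im) : ℝ)) • M.W (sg τ • x + sg σ • D) (Pr M τ M.Ω) := by
  rw [W_Pr, WZ_Pr, ← W_Pr, W_W, im_rl, im_rr]

end QISpsAux

open QISpsAux

theorem sps : S_sps := by
  rintro M l F U D f a b e ⟨u, hu, h⟩ hf hD
  have he : Ph fun _ : ℝ => (I * sg e : ℂ) := fun _ => by
    rw [norm_mul, norm_I, one_mul, norm_real, Real.norm_eq_abs, abs_sg]
  refine ⟨_, hu.mul he, fun σ => ?_⟩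
  set v := Rt M (b + a) (Pr M σ M.Ω) with hv
  have h1 := (h σ).dec fun δ => dec_WB b (f δ)
  have h2 := hu.bdd.smul_o1 (((key hf hD true σ (Pr M true v)).add
    (key hf hD false σ (Pr M false v))).clm (Rt M (-b)))
  refine (h1.add h2).congr' (.of_forall fun δ => ?_)
  have e1 : WB M b (f δ) (M.W (sg σ • D δ) (Rt M a (Pr M σ M.Ω))) =
      Rt M (-b) (M.W (sg true • f δ) (M.W (sg σ • D δ) (Pr M true v))) +
        Rt M (-b) (M.W (sg false • f δ) (M.W (sg σ • D δ) (Pr M false v))) := by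
    rw [WB_apply, ← W_Rt, Rt_Rt, WZ_apply, ← W_Pr, ← W_Pr, map_add]
    simp [hv]
  have e2 : Rt M (-b) (M.W (sg σ • D δ) (Pr M true v)) -
      Rt M (-b) (M.W (sg σ • D δ) (Pr M false v)) =
      (sg σ : ℂ) • M.W (sg σ • D δ) (Rt M (-(2 * b) - a) (Pr M σ M.Ω)) := by
    rw [← map_sub, ← map_sub, Pr_sub, ← W_Rt, hv, zflip, map_smul]
  have e3 : ((sg σ : ℂ) * sg σ) = 1 := by exact_mod_cast sg_sq σ
  have e4 : M.W (sg σ • D δ) (Rt M (-(2 * b) - a) (Pr M σ M.Ω)) =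
      (sg σ : ℂ) • (Rt M (-b) (M.W (sg σ • D δ) (Pr M true v)) -
        Rt M (-b) (M.W (sg σ • D δ) (Pr M false v))) := by
    rw [e2, smul_smul, e3, one_smul]
  simp only [map_sub, map_add, map_smul, e1, e4, ContinuousLinearMap.mul_apply]
  simp only [sg_true, sg_false, ofReal_one, ofReal_neg]
  module

theorem pulS : S_pulS := by
  intro M l F U D x
  constructor
  · rintro ⟨u, hu, h⟩
    refine ⟨_, hu.mul (Ph.exp fun δ => (⟪x δ, D δ⟫_ℂ).im), fun σ => ?_⟩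
    refine ((h σ).dec fun δ => dec_WZ (x δ)).congr' (.of_forall fun δ => ?_)
    simp only [Rt_zero, ContinuousLinearMap.one_apply]
    rw [map_sub, map_smul, pul, ← mul_assoc, sg_sq, one_mul, smul_smul, smul_add, add_comm]
    rfl
  · rintro ⟨u, hu, h⟩
    refine ⟨_, hu.mul (Ph.exp fun δ => -(⟪x δ, D δ⟫_ℂ).im), fun σ => ?_⟩
    refine ((h σ).dec fun δ => dec_WZ (x δ)).congr' (.of_forall fun δ => ?_)
    simp only [Rt_neg_half]
    rw [map_sub, map_smul, map_smul, map_smul, map_smul, pul, sg_not, ← mul_assoc,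
      neg_mul (sg σ), sg_sq, neg_one_mul, smul_sub, neg_smul, neg_add_eq_sub, smul_comm I,
      ← mul_smul]
    rfl

end Vale.Agent.P367.Q.I
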