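import Vale.Agent.P367.QIStm

/-! Step (I): one more layer. -/

namespace Vale.Agent.P367.Q.I

open Complex MeasureTheory Filter Topology Asymptotics
open scoped InnerProductSpace

namespace QIStepAux

theorem exists_angle {B : Set ℝ} (hB : B.Countable) (a : ℝ) {η : ℝ} (hη : 0 < η) :
    ∃ b, |b - a| ≤ η ∧ b / 2 ∉ B ∧ b ∉ B := by
  have h1 : ((fun b : ℝ => b / 2) ⁻¹' B).Countable :=
    hB.preimage fun b b' h => by linarith [show b / 2 = b' / 2 from h]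
  obtain ⟨b, hb, h2⟩ := ((h1.union hB).dense_compl ℝ).exists_mem_open isOpen_Ioo
    (Set.nonempty_Ioo.2 (show a - η < a + η by linarith))
  exact ⟨b, abs_le.2 ⟨by linarith [h2.1], by linarith [h2.2]⟩, fun h => hb (Or.inl h),
    fun h => hb (Or.inr h)⟩

variable {M : Mod} {l : Filter ℝ}

theorem transfer {U U' G A : ℝ → Op M} {u v : ℝ → ℂ} (hu : Ph u) (hv : Ph v)
    (hG : ∀ δ, M.Dec (G δ)) (hA : Loc M l A)
    (h : ∀ x : ℝ → M.H, (N0 M l fun δ => U δ (x δ)) →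
      o1 l fun δ => U' δ (x δ) - v δ • G δ (U δ (x δ)))
    {z ζ : ℝ → M.H} (hζ : Bd M l ζ) (hz : o1 l fun δ => U δ (z δ) - u δ • A δ (ζ δ)) :
    o1 l fun δ => U' δ (z δ) - (v δ * u δ) • G δ (A δ (ζ δ)) := by
  have h1 : N0 M l fun δ => U δ (z δ) := ((hA.bd hζ).smul hu.bdd).n0.close hz
  refine ((h z h1).add (hv.bdd.smul_o1 (hz.dec hG))).congr' (.of_forall fun δ => ?_)
  simp only [map_sub, smul_sub, map_smul, smul_smul]
  abel

theorem xi_close {U U' : ℝ → Op M} {m : ℝ → M.H} (hU : ∀ δ, M.Dec (U δ))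
    (h : Sim l U U' fun δ => WZ M (m δ)) (h1 : N0 M l fun δ => U δ M.Ω)
    (h2 : N0 M l fun δ => U δ (M.xi (U δ))) :
    o1 l fun δ => U' δ (M.xi (U δ)) - Zo M (U' δ M.Ω) := by
  obtain ⟨v, -, h⟩ := h
  refine ((h _ h2).sub ((h (fun _ => M.Ω) h1).clm (Zo M))).congr' (.of_forall fun δ => ?_)
  simp only [map_sub, map_smul, apply_xi (hU δ), Zo_WZ]
  abel

end QIStepAux

open QIStepAux in
theorem step (h1 : S_gen) (h2 : S_rot) (h3 : S_pulse) (h4 : S_rg) : S_step := by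
  intro M l hl F β g s t U E D x η hT hs hη
  obtain ⟨b0, hb0⟩ := hT.good
  obtain ⟨b, hb, hb1, hb2⟩ := exists_angle (h1 M l U D b0 hT.rest.dec hT.rest.D_O1 hb0) (β t) hη
  obtain ⟨U1, E1, R1, S1, C1, A1⟩ :=
    h2 M l hl F U E D b hT.rest (not_not.1 hb1) (not_not.1 hb2)
  obtain ⟨R2, e2⟩ := h3 M l hl F U1 E1 D (g (t + 1)) R1
  obtain ⟨U3, E3, D3, R3, S3, C3, A3⟩ := h4 M l hl F _ _ _ (s (t + 1)) R2 (e2 ▸ A1) hs
  obtain ⟨y, hy⟩ : ∃ y : ℝ → M.H, y = fun δ => M.xi (U1 δ) := ⟨_, rfl⟩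
  have hy' : ∀ δ, M.xi (U1 δ) = y δ := fun δ => by rw [hy]
  have hyn : ∀ δ, ‖y δ‖ ≤ 1 := fun δ => by rw [← hy', norm_xi (R1.dec δ)]
  have hbd : ∀ j δ, ‖Function.update x (t + 1) y j δ‖ ≤ 1 := fun j δ => by
    by_cases hj : j = t + 1
    · rw [hj, Function.update_self]; exact hyn δ
    · rw [Function.update_of_ne hj]; exact hT.bd j δ
  obtain ⟨f', hf'⟩ : ∃ f', f' = md F g s (Function.update x (t + 1) y) := ⟨_, rfl⟩
  have f1 : ∀ δ j, j ≤ t → f' δ j = md F g s x δ j := fun δ j hj => by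
    rw [hf', md, md, Function.update_of_ne (by omega)]
  have f2 : ∀ δ, f' δ (t + 1) = g (t + 1) • y δ + s (t + 1) • F.n δ := fun δ => by
    rw [hf', md, Function.update_self]
  have c1 : ∀ δ j, j ≤ t → CW M (Function.update β t b) (f' δ) j = CW M β (md F g s x δ) j :=
    fun δ j hj => CW_congr j (fun i hi => Function.update_of_ne (by omega) _ _)
      fun i hi => f1 δ i (by omega)
  have c2 : ∀ δ, CW M (Function.update β t b) (f' δ) (t + 1) =
      Rt M b * WZ M (md F g s x δ t) * CW M β (md F g s x δ) t := fun δ => by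
    rw [CW, Function.update_self, f1 δ t le_rfl, c1 δ t le_rfl]
  have S13 : Sim l U1 U3 fun δ => WZ M (f' δ (t + 1)) := by
    have hO : O1 l fun δ => g (t + 1) • M.xi (U1 δ) :=
      (O1.const (g (t + 1))).smul_O (O1.of_all fun δ => (norm_xi (R1.dec δ)).le)
    refine ((Sim.exact U1 fun δ => WZ M (g (t + 1) • M.xi (U1 δ))).trans S3 (Loc.WZ hO)
      (fun _ => dec_WZ _) fun _ => dec_WZ _).phase
      (Ph.exp fun δ => (⟪s (t + 1) • F.n δ, g (t + 1) • M.xi (U1 δ)⟫_ℂ).im) fun δ => ?_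
    rw [WZ_mul, f2, hy', add_comm (g (t + 1) • y δ)]
  obtain ⟨v, hv, S03⟩ := S1.trans S13 (Loc.Rt b) (fun _ => dec_Rt b) fun _ => dec_WZ _
  obtain ⟨u, hu, pΩ, px⟩ := hT.pair
  have hmd := md_O1 F g s hT.bd
  have hA : Loc M l fun δ => WZ M (md F g s x δ t) * CW M β (md F g s x δ) t :=
    (Loc.WZ (hmd t)).mul (Loc.CW β hmd t)
  have hG : ∀ δ, M.Dec (WZ M (f' δ (t + 1)) * Rt M b) := fun δ => (dec_WZ _).mul (dec_Rt b)
  have qΩ : o1 l fun δ => U3 δ M.Ω - (v δ * u δ) •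
      WZ M (f' δ (t + 1)) (CW M (Function.update β t b) (f' δ) (t + 1) M.Ω) := by
    simp only [c2]
    exact transfer hu hv hG hA S03 (z := fun _ => M.Ω) Bd.Ω pΩ
  refine ⟨b, U3, E3, D3, y, hb, R3, ⟨0, A3⟩, hbd, ⟨_, hv.mul hu, ?_, fun j hj => ?_⟩, ?_⟩
  · rw [← hf']
    exact qΩ
  · rw [← hf']
    rcases Nat.lt_or_eq_of_le hj with hj | hj
    · have hj' : j ≤ t := by omega
      simp only [c2, c1 _ j hj', Function.update_of_ne hj.ne]
      exact transfer hu hv hG hA S03 (Bd.xi_CW β hmd j) (px j hj')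
    · subst hj
      have q1 := xi_close R1.dec S13 (R1.nΩ hl) (R1.nxi0 hl)
      refine (q1.add (qΩ.clm (Zo M))).congr' (.of_forall fun δ => ?_)
      simp only [Function.update_self, apply_xi (dec_CW _ _ _), map_sub, map_smul, Zo_WZ, hy']
      abel
  · refine ES.trans (E' := fun δ η => E1 δ η + g (t + 1) * (⟪η, M.xi (U1 δ)⟫_ℂ ^ 2).im)
      (fun ζ a1 a2 => ?_) C3
    refine ((hT.en.trans C1.es) ζ a1 a2).congr' (.of_forall fun δ => ?_)
    have e : ∑ j ∈ Finset.range (t + 1), g j * (⟪ζ δ, Function.update x (t + 1) y j δ⟫_ℂ ^ 2).im =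
        ∑ j ∈ Finset.range (t + 1), g j * (⟪ζ δ, x j δ⟫_ℂ ^ 2).im :=
      Finset.sum_congr rfl fun j hj => by
        rw [Function.update_of_ne (Finset.mem_range.1 hj).ne]
    simp only []
    rw [Finset.sum_range_succ _ (t + 1), e, Function.update_self, hy']
    ring

end Vale.Agent.P367.Q.I
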