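import Vale.Agent.P367.QIStm

/-! Step (I): the estimate for a small pulse between two opposite small pulses. -/

namespace Vale.Agent.P367.Q.I

open Complex MeasureTheory Filter Topology Asymptotics
open scoped InnerProductSpace

namespace QIVAux

variable {M : Mod} {l : Filter ℝ} {f f' d x : ℝ → M.H}

theorem sq_o (hl : l ≤ 𝓝[>] 0) : od l fun δ => δ * δ := by
  simpa using (isBigO_refl (fun δ : ℝ => δ) l).mul_isLittleO (o1_iff.1 (o1_id hl))

theorem ww (h1 : S_b3) (hl : l ≤ 𝓝[>] 0) (hx : Bd M l x) (hf : Od l f) (hf' : Od l f')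
    (hi : od l fun δ => (⟪f δ, d δ⟫_ℂ).im) (hi' : od l fun δ => (⟪f' δ, d δ⟫_ℂ).im) :
    od l fun δ => (M.W (f δ) - 1) ((M.W (f' δ) - 1) (M.W (d δ) (x δ))) := by
  obtain ⟨C, hC⟩ := h1 M l x hx
  refine IsBigO.trans_isLittleO (IsBigO.trans (IsBigO.of_bound C ?_)
    ((hf.norm_left.add hi.isBigO.abs_left).mul (hf'.norm_left.add hi'.isBigO.abs_left))) (sq_o hl)
  have k := fun {g : ℝ → M.H} (hg : Od l g) =>
    (tendsto_zero_iff_norm_tendsto_zero.1 (hg.small hl)).eventually_le_const zero_lt_one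
  filter_upwards [hC, k hf, k hf'] with δ h2 h3 h4
  rw [Real.norm_of_nonneg (by positivity)]
  exact h2 _ _ _ h3 h4

/-- the spectral projections in the frame `b` -/
noncomputable def Qb (M : Mod) (b : ℝ) (σ : Bool) : Op M := Rt M (-b) * Pr M σ * Rt M b

theorem W_Qb (b : ℝ) (σ : Bool) (g z : M.H) :
    (M.W g - 1) (Qb M b σ z) = Qb M b σ ((M.W g - 1) z) := by
  simp only [Qb, ContinuousLinearMap.mul_apply, ContinuousLinearMap.sub_apply,
    ContinuousLinearMap.one_apply, map_sub, W_Rt, W_Pr]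

theorem WB_sub (b : ℝ) (g z : M.H) : (WB M b g - 1) z =
    Qb M b true ((M.W g - 1) z) + Qb M b false ((M.W (-g) - 1) z) := by
  have h : Qb M b true z + Qb M b false z = z := by
    simp only [Qb, ContinuousLinearMap.mul_apply, ← map_add, Pr_add, Rt_Rt, neg_add_cancel,
      Rt_zero, ContinuousLinearMap.one_apply]
  simp only [ContinuousLinearMap.sub_apply, ContinuousLinearMap.one_apply, map_sub]
  rw [sub_add_sub_comm, h]
  simp only [WB_apply, WZ_apply, Qb, ContinuousLinearMap.mul_apply, map_add, W_Rt, W_Pr]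

theorem bb (h1 : S_b3) (hl : l ≤ 𝓝[>] 0) (b b' : ℝ) (hx : Bd M l x) (hf : Od l f) (hf' : Od l f')
    (hi : od l fun δ => (⟪f δ, d δ⟫_ℂ).im) (hi' : od l fun δ => (⟪f' δ, d δ⟫_ℂ).im) :
    od l fun δ => (WB M b (f δ) - 1) ((WB M b' (f' δ) - 1) (M.W (d δ) (x δ))) := by
  have n : ∀ {g : ℝ → M.H}, (od l fun δ => (⟪g δ, d δ⟫_ℂ).im) →
      od l fun δ => (⟪-g δ, d δ⟫_ℂ).im := fun h => by
    simpa only [inner_neg_left, neg_im] using h.neg_left
  have k := fun (σ τ : Bool) {g g' : ℝ → M.H} (hg : Od l g) (hg' : Od l g') hj hj' =>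
    ((clm_O (Qb M b σ)).trans (clm_O (Qb M b' τ))).trans_isLittleO
      (ww (d := d) h1 hl hx hg hg' hj hj')
  refine (((k true true hf hf' hi hi').add (k true false hf hf'.neg_left hi (n hi'))).add
    ((k false true hf.neg_left hf' (n hi) hi').add
      (k false false hf.neg_left hf'.neg_left (n hi) (n hi')))).congr_left fun δ => ?_
  simp only [WB_sub, map_add, W_Qb]
  abel

end QIVAux

open QIVAux in
theorem vest (h1 : S_b3) (h2 : S_id) : S_V := by
  intro M l hl b f1 f2 f3 d x hx o1 o2 o3 i1 i2 i3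
  have o4 : Od l f3 := (o3.isBigO.sub o1).congr_left fun δ => add_sub_cancel_left _ _
  obtain ⟨y, hy, e⟩ := Loc.WZ (o2.small hl).bdd d x hx
  have a1 := (dec_O fun δ => dec_WB b (f3 δ)).trans_isLittleO
    ((bb h1 hl 0 b hx o2 o1 i2 i1).sub (bb h1 hl b 0 hx o1 o2 i1 i2))
  have a2 := (Ph.exp fun δ => (⟪f3 δ, f1 δ⟫_ℂ).im).bdd.smul_o
    (h2 M l (fun δ => δ) b (fun δ => f3 δ + f1 δ) d y hy (o3.congr_left fun δ => add_comm _ _)
      (by simpa only [inner_add_left, add_im] using i3.add i1))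
  have a3 := ((ph_O.trans (im_O.trans (inner_O o4 o1))).trans_isLittleO (sq_o hl)).smul_isBigO
    ((dec_O fun δ => dec_W (d δ)).trans hy.bdd)
  simp only [smul_eq_mul, mul_one] at a3
  refine (a1.add (a2.add a3)).congr_left fun δ => ?_
  rw [smul_sub, ← WB_WB, ← e δ]
  simp only [WB_zero, ContinuousLinearMap.sub_apply, ContinuousLinearMap.one_apply, map_sub,
    sub_smul, one_smul]
  abel

end Vale.Agent.P367.Q.I
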