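import Vale.Agent.P367.QIStm

/-! Step (I): the composite gate inside an echo. -/

namespace Vale.Agent.P367.Q.I

open Complex MeasureTheory Filter Topology Asymptotics
open scoped InnerProductSpace

namespace QIVeeAux

variable {M : Mod} {l : Filter ℝ} {F : Fr M l} {U G : ℝ → Op M} {D d : ℝ → M.H} {g t : ℝ → ℝ}

/-- local unitaries which are close to the identity on the typical branch -/
structure Nice (l : Filter ℝ) (d : ℝ → M.H) (G : ℝ → Op M) : Prop where
  dec : ∀ δ, M.Dec (G δ)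
  loc : Loc M l G
  loc' : Loc M l fun δ => star (G δ)
  cl : ∀ σ x, Bd M l x → o1 l fun δ => G δ (M.W (sg σ • d δ) (x δ)) - M.W (sg σ • d δ) (x δ)

theorem nice_one : Nice l d fun _ => (1 : Op M) :=
  ⟨fun _ => FS.Dec.one, Loc.one, by simpa only [star_one] using Loc.one,
    fun _ _ _ => by simpa only [one_apply_eq_self, sub_self] using o1.zero⟩

theorem od_smul {E : Type} [NormedAddCommGroup E] [NormedSpace ℝ E] {y : ℝ → E} (ht : Od l t)
    (h : O1 l fun δ => δ • y δ) : O1 l fun δ => t δ • y δ :=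
  (IsBigO.smul ht (isBigO_refl y l)).trans h

theorem xi_O1 (hm : Mid F U D d) (hG : Nice l d G) (b : ℝ) :
    O1 l fun δ => M.xi (Rt M b * (G δ * U δ)) :=
  O1.of_all fun δ => (norm_xi_Rt ((hG.dec δ).mul (hm.dec δ)) b).le

theorem step (h1 : S_id) (h3 : S_M) (hl : l ≤ 𝓝[>] 0) (hm : Mid F U D d)
    (hd : ∀ δ, d δ = g δ • M.xi (U δ)) (hg : O1 l fun δ => δ * g δ) (hG : Nice l d G)
    (ht : Od l t) (b : ℝ) :
    (Od l fun δ => t δ • M.xi (Rt M b * (G δ * U δ))) ∧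
      (∀ σ, od l fun δ => (⟪t δ • M.xi (Rt M b * (G δ * U δ)), sg σ • d δ⟫_ℂ).im) ∧
      Nice l d fun δ => WB M b (t δ • M.xi (Rt M b * (G δ * U δ))) * G δ := by
  have a1 := ht.smul_O1 (xi_O1 hm hG b)
  have a2 : ∀ σ, od l fun δ => (⟪t δ • M.xi (Rt M b * (G δ * U δ)), sg σ • d δ⟫_ℂ).im := by
    intro σ
    have := h3 M l hl F U D d (fun δ => star (G δ) * Zb M b * G δ) hm
      (fun δ => by simp only [star_mul, star_star, Zb_star, mul_assoc])
      (fun δ => norm_le_one (((hG.dec δ).star.mul (dec_Zb b)).mul (hG.dec δ)))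
      ((hG.loc'.mul (Loc.Zb b)).mul hG.loc)
    refine (((od_smul ht hg).smul_o this).const_mul_left (sg σ)).congr_left fun δ => ?_
    rw [hd, im_rl, im_rr, im_rr, xi_Rt, star_mul]
    simp only [mul_apply_eq_comp, smul_eq_mul]
    ring
  have a3 := (a1.small hl).bdd
  refine ⟨a1, a2, fun δ => (dec_WB _ _).mul (hG.dec δ), (Loc.WB b a3).mul hG.loc, ?_,
    fun σ x hx => ?_⟩
  · simpa only [star_mul, WB_star] using hG.loc'.mul (Loc.WB b a3.neg_left)
  · have := o1_iff.2 (h1 M l (fun _ => 1) b _ (fun δ => sg σ • d δ) x hx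
      (o1_iff.1 (a1.small hl)) (o1_iff.1 ((a2 σ).small hl)))
    refine ((o1.dec (fun δ => dec_WB b (t δ • M.xi (Rt M b * (G δ * U δ)))) (hG.cl σ x hx)).add
      this).congr' (Eventually.of_forall fun δ => ?_)
    rw [map_sub, mul_apply_eq_comp, sub_add_sub_cancel]

theorem angle (h4 : S_xid) (hl : l ≤ 𝓝[>] 0) (hm : Mid F U D d) (hD : O1 l fun δ => δ • D δ)
    (hG : Nice l d G) {b : ℝ} (ha : Away l (mark U D b)) :
    (Od l fun δ => Real.pi / 4 / (⟪D δ, M.xi (Rt M b * (G δ * U δ))⟫_ℂ).im) ∧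
      Tendsto (fun δ => (⟪D δ, (Real.pi / 4 / (⟪D δ, M.xi (Rt M b * (G δ * U δ))⟫_ℂ).im) •
        M.xi (Rt M b * (G δ * U δ))⟫_ℂ).im) l (𝓝 (sg true * (Real.pi / 4))) := by
  have a1 : Away l fun δ => δ * (⟪D δ, M.xi (Rt M b * (G δ * U δ))⟫_ℂ).im := by
    refine ha.close ((inner_o1_right hD (h4 M l hl F U D d G hm hG.dec hG.cl b)).im.congr'
      (Eventually.of_forall fun δ => ?_))
    rw [im_rl, inner_sub_right, sub_im, mul_sub, mark]
  obtain ⟨a2, a3⟩ := a1.angle (Real.pi / 4)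
  refine ⟨a2, tendsto_const_nhds.congr' (a3.mono fun δ h => ?_)⟩
  simp only [im_rr, h, sg, if_true, one_mul]

theorem sb (h5 : S_sps) {f : ℝ → M.H} {a a' b : ℝ} {e : Bool}
    (h : SB F (fun δ => G δ * U δ) D a) (hf : o1 l f)
    (hi : Tendsto (fun δ => (⟪D δ, f δ⟫_ℂ).im) l (𝓝 (sg e * (Real.pi / 4))))
    (ha : a' = -(2 * b) - a) : SB F (fun δ => WB M b (f δ) * G δ * U δ) D a' := by
  simpa only [mul_assoc, ha] using h5 M l F _ D f a b e h hf hi

theorem reach {A B : Op M} {E : M.H → ℝ} (h : Reach M (A * B) E) (b t : ℝ) :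
    Reach M (WB M b (t • M.xi (Rt M b * (A * B))) * A * B)
      fun η => E η + t * (⟪η, M.xi (Rt M b * (A * B))⟫_ℂ ^ 2).im := by
  rw [mul_assoc]
  exact h.wb b t

end QIVeeAux

open QIVeeAux

theorem vee (h1 : S_id) (h2 : S_V) (h3 : S_M) (h4 : S_xid) (h5 : S_sps) : S_vee := by
  intro M l hl F U E D d g hm hr hd hg hD a0 a8
  have n0 : Nice l d fun _ => (1 : Op M) := nice_one
  obtain ⟨t1, i1⟩ := angle h4 hl hm hD n0 a8
  obtain ⟨f1, m1, n1⟩ := step h1 h3 hl hm hd hg n0 t1 (Real.pi / 8)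
  obtain ⟨t2, i2⟩ := angle h4 hl hm hD n1 a0
  obtain ⟨f2, m2, n2⟩ := step h1 h3 hl hm hd hg n1 t2 0
  have t3 : Od l _ := t1.neg_left
  obtain ⟨f3, m3, n3⟩ := step h1 h3 hl hm hd hg n2 t3 (Real.pi / 8)
  have c := (h4 M l hl F U D d _ hm n0.dec n0.cl (Real.pi / 8)).sub
    (h4 M l hl F U D d _ hm n2.dec n2.cl (Real.pi / 8))
  simp only [sub_sub_sub_cancel_right] at c
  have s0 : SB F (fun δ => 1 * U δ) D 0 := by simpa only [one_mul] using hm.sb
  have s1 := sb h5 (a' := -(Real.pi / 4)) (b := Real.pi / 8) s0 (f1.small hl) i1 (by ring)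
  have s2 := sb h5 (a' := Real.pi / 4) (b := 0) s1 (f2.small hl) i2 (by ring)
  have i3 := i1.neg.add (inner_o1_right (od_smul t1 hD) c).im
  have s3 := sb h5 (a' := -(Real.pi / 2)) (b := Real.pi / 8) (e := false) s2 (f3.small hl)
    (by
      rw [show sg false * (Real.pi / 4) = -(sg true * (Real.pi / 4)) + 0 by simp [sg]]
      refine i3.congr fun δ => ?_
      rw [im_rr, im_rl, inner_sub_right, sub_im, im_rr]
      ring) (by ring)
  have r0 : ∀ δ, Reach M (1 * U δ) (E δ) := fun δ => by simpa only [one_mul] using hr δ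
  refine ⟨_, _, _, fun δ => reach (reach (reach (r0 δ) _ _) _ _) _ _, n3.dec, s3, f2,
    ((EC.small (t1.small hl) (xi_O1 hm n0 _)).trans (EC.small (t2.small hl) (xi_O1 hm n1 _))).trans
      (EC.small (t3.small hl) (xi_O1 hm n2 _)), fun σ x hx => ?_⟩
  refine (h2 M l hl (Real.pi / 8) _ _ _ (fun δ => sg σ • d δ) x hx f1 f2
    ((t1.smul_o1 c).congr_left fun δ => ?_) (m1 σ) (m2 σ) (m3 σ)).congr_left fun δ => ?_
  · rw [smul_sub, neg_smul, sub_eq_add_neg]
  · simp only [mul_apply_eq_comp, one_apply_eq_self, WB_zero]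

end Vale.Agent.P367.Q.I
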