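import Vale.Agent.P367.QIStm

/-! Step (I): the change of the modes inside an echo. -/

namespace Vale.Agent.P367.Q.I

open Complex MeasureTheory Filter Topology Asymptotics
open scoped InnerProductSpace

namespace QIXidAux

variable {M : Mod} {l : Filter ℝ} {F : Fr M l} {U G G' : ℝ → Op M} {D d τ : ℝ → M.H}

theorem key {ρ : ℝ → ℝ} (hG : ∀ δ, M.Dec (G δ)) (hG' : ∀ δ, M.Dec (G' δ))
    (hτ : ∀ σ, ∃ y, Bd M l y ∧ (fun δ => Pr M σ (τ δ) - M.W (sg σ • d δ) (y δ)) =o[l] ρ)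
    (h : ∀ σ x, Bd M l x →
      (fun δ => G δ (M.W (sg σ • d δ) (x δ)) - G' δ (M.W (sg σ • d δ) (x δ))) =o[l] ρ) (m : M2) :
    (fun δ => G δ (M.sp m (τ δ)) - G' δ (M.sp m (τ δ))) =o[l] ρ := by
  have k : ∀ σ, (fun δ => G δ (M.sp m (Pr M σ (τ δ))) - G' δ (M.sp m (Pr M σ (τ δ)))) =o[l] ρ := by
    intro σ
    obtain ⟨y, h1, h2⟩ := hτ σ
    have h3 := (clm_O (M.sp m)).trans_isLittleO h2
    refine ((((dec_O hG).trans_isLittleO h3).sub ((dec_O hG').trans_isLittleO h3)).add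
      (h σ _ (h1.sp m))).congr_left fun δ => ?_
    simp only [map_sub, W_sp]
    abel
  refine ((k true).add (k false)).congr_left fun δ => ?_
  conv_rhs => rw [← Pr_add (τ δ)]
  simp only [map_add]
  abel

theorem eig {a : ℝ} (h : SB F U D a) (σ : Bool) {e : ℝ}
    (he : Zo M (Rt M a (Pr M σ M.Ω)) = e • Rt M a (Pr M σ M.Ω)) :
    o1 l fun δ => Zo M (U δ (F.aS σ δ)) - e • U δ (F.aS σ δ) := by
  obtain ⟨u, -, h⟩ := h
  refine (((h σ).clm (Zo M)).sub ((O1.const e).smul_o1 (h σ))).congr' (.of_forall fun δ => ?_)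
  simp only [map_sub, map_smul, smul_sub, ← W_Zo, he, map_rsmul, smul_comm (u δ) e]
  abel

end QIXidAux

open QIXidAux

theorem xid : S_xid := by
  intro M l hl F U D d G hm hG h b
  have k : ∀ m : M2, o1 l fun δ => G δ (M.sp m (U δ M.Ω)) - M.sp m (U δ M.Ω) := fun m => by
    have h1 := o1_iff.2 (key (G' := fun _ => 1) hG (fun _ => FS.Dec.one)
      (fun σ => (hm.nT σ).imp fun y hy => ⟨hy.1, o1_iff.1 (od.small hl hy.2)⟩)
      (fun σ x hx => o1_iff.1 (h σ x hx)) m)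
    have h2 := (clm_O (M.sp m)).trans ((hm.sb.bdd true).add (hm.sb.bdd false))
    refine ((F.c_O1.smul_o1 h1).add
      ((o1_id hl).smul_O1 (((dec_O hG).trans h2).sub h2))).congr' ?_
    filter_upwards [F.dec] with δ hδ
    conv_rhs => rw [hδ]
    simp only [map_add, map_rsmul, smul_sub, smul_add, one_apply_eq_self]
    abel
  have h1 := k 1
  have h2 := k (pau 2 * rot 0 (2 * b))
  rw [M.sp_one] at h1
  rw [← Zb_sp] at h2
  refine ((((h1.clm (Zb M b)).sub h2).dec fun δ => (hG δ).star).dec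
    fun δ => (hm.dec δ).star).congr' (.of_forall fun δ => ?_)
  simp only [xi_Rt, star_mul, map_sub, (hG δ).star_apply, mul_apply_eq_comp,
    one_apply_eq_self]
  abel

theorem dxi : S_dxi := by
  intro M l hl F U V D d f hm hV hs h
  have k := key hV (fun δ => dec_WZ (f δ)) hm.nT h
  have h1 := k 1
  have h2 : od l fun δ => V δ (Zo M (U δ (F.aT δ))) - WZ M (f δ) (Zo M (U δ (F.aT δ))) := k (pau 2)
  rw [M.sp_one] at h1
  have hT := F.c_O1.smul_o (h2.sub ((clm_O (Zo M)).trans_isLittleO h1))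
  have e1 : ∀ σ, o1 l fun δ => Zo M (U δ (F.aS σ δ)) - sg σ • U δ (F.aS σ δ) := fun σ =>
    eig hm.sb σ (by rw [Rt_zero]; exact Zo_Pr σ _)
  have e2 : ∀ σ, o1 l fun δ => Zo M (V δ (U δ (F.aS σ δ))) - sg (!σ) • V δ (U δ (F.aS σ δ)) :=
    fun σ => eig hs σ (by rw [Rt_neg_half, map_smul, Zo_Pr, smul_comm])
  have hS := Od.smul_o1 (isBigO_refl (fun δ : ℝ => δ) l)
    ((((e1 true).add (e1 false)).dec hV).sub ((e2 true).add (e2 false)))
  refine (dec_O' fun δ => (hV δ).mul (hm.dec δ)).trans_isLittleO ((hT.add hS).congr' ?_ .rfl)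
  filter_upwards [F.dec] with δ hδ
  rw [map_sub (V δ * U δ), map_sub (V δ * U δ), apply_xi ((hV δ).mul (hm.dec δ))]
  simp only [mul_apply_eq_comp, apply_xi (hm.dec δ)]
  conv_rhs => rw [hδ]
  simp only [Fr.n, map_add, map_sub, map_rsmul, one_apply_eq_self, Zo_WZ, Bool.not_true,
    Bool.not_false, sg_true, sg_false]
  module

end Vale.Agent.P367.Q.I
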