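import Vale.Agent.P367.QIPs
import Vale.Agent.P367.QIFinal
import Vale.Agent.P367.QIB2
import Vale.Agent.P367.QIB3
import Vale.Agent.P367.QIFar
import Vale.Agent.P367.QIV
import Vale.Agent.P367.QIM
import Vale.Agent.P367.QIXid
import Vale.Agent.P367.QISps
import Vale.Agent.P367.QISp
import Vale.Agent.P367.QIMid
import Vale.Agent.P367.QIVee
import Vale.Agent.P367.QIEcho
import Vale.Agent.P367.QIGen
import Vale.Agent.P367.QIMark
import Vale.Agent.P367.QIInit
import Vale.Agent.P367.QIStep
import Vale.Agent.P367.QILim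
import Vale.Agent.P367.QICont

/-! Step (I): plain QAOA words simulate a random field. -/

namespace Vale.Agent.P367.Q

open I in
theorem stepI (hM : Nonempty (FS (Lab 0) (muK 0))) : ∀ (β γ s : ℕ → ℝ) (p : ℕ) (ε : ℝ), 0 < ε →
    ∃ β' γ' p', |vR β' γ' 0 p' - vR β γ s p| < ε :=
  final hM (reach ps) cont (init markg (pulse pulS))
    (step gen (rotg (sp idn sps)) (pulse pulS)
      (rg (echo idn pulS (mid far pulS) (vee idn (vest b3 idn) (lemM far) xid sps) dxi) gen
        (sp idn sps)))
    (fin (orth far) (lim ps))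

end Vale.Agent.P367.Q
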