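import Vale.Agent.P367.QLDefs

/-! # P367, local control: QLAlg -/

namespace Vale.Agent.P367.Q

open Complex MeasureTheory Filter Topology Matrix
open scoped InnerProductSpace

namespace QLAlgAux

/-- the hypotheses -/
structure Al {Λ : Type} (W : (Λ → ℝ) → Prop) : Prop where
  one : W fun _ => 1
  add : ∀ f g, W f → W g → W fun c => f c + g c
  smul : ∀ (t : ℝ) f, W f → W fun c => t * f c
  mul : ∀ f g, W f → W g → W fun c => f c * g c
  lim : ∀ (f : ℕ → Λ → ℝ) (g : Λ → ℝ), (∀ n, W (f n)) →
    (∀ c, Tendsto (fun n => f n c) atTop (𝓝 (g c))) → W g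

variable {Λ : Type} {W : (Λ → ℝ) → Prop}

theorem Al.congr {f g : Λ → ℝ} (h : W f) (e : ∀ c, f c = g c) : W g := funext e ▸ h

theorem Al.poly (h : Al W) {f : Λ → ℝ} (hf : W f) (p : Polynomial ℝ) :
    W fun c => p.eval (f c) := by
  have k : ∀ n : ℕ, W fun c => f c ^ n := fun n => by
    induction n with
    | zero => exact Al.congr h.one fun c => by simp
    | succ n ih => exact Al.congr (h.mul _ _ ih hf) fun c => (pow_succ _ _).symm
  induction p using Polynomial.induction_on' with
  | add p q hp hq => exact Al.congr (h.add _ _ hp hq) fun c => by simp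
  | monomial n a => exact Al.congr (h.smul a _ (k n)) fun c => by simp

theorem Al.comp (h : Al W) {f : Λ → ℝ} (hf : W f) {φ : ℝ → ℝ} (hφ : Continuous φ) :
    W fun c => φ (f c) := by
  choose p hp using fun n : ℕ => exists_polynomial_near_of_continuousOn (-n) n φ hφ.continuousOn
    (1 / ((n : ℝ) + 1)) Nat.one_div_pos_of_nat
  refine h.lim _ _ (fun n => h.poly hf (p n)) fun c => ?_
  refine tendsto_iff_norm_sub_tendsto_zero.2 (squeeze_zero' (.of_forall fun _ => norm_nonneg _) ?_
    tendsto_one_div_add_atTop_nhds_zero_nat)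
  filter_upwards [tendsto_natCast_atTop_atTop.eventually_ge_atTop |f c|] with n hn
  exact (hp n _ (abs_le.1 hn)).le

theorem Al.ind (h : Al W) {f : Λ → ℝ} (hf : W f) (a : ℝ) :
    W ((f ⁻¹' Set.Ioi a).indicator 1) := by
  refine h.lim (fun n c => min 1 (n * max (f c - a) 0)) _
    (fun n => h.comp hf (φ := fun x => min 1 (n * max (x - a) 0)) (by fun_prop)) fun c => ?_
  by_cases k : a < f c
  · rw [Set.indicator_of_mem (show c ∈ f ⁻¹' Set.Ioi a from k)]
    refine tendsto_const_nhds.congr' ?_
    have k' := sub_pos.2 k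
    filter_upwards [(tendsto_natCast_atTop_atTop.atTop_mul_const k').eventually_ge_atTop 1] with n hn
    rw [max_eq_left k'.le, min_eq_left hn, Pi.one_apply]
  · rw [Set.indicator_of_notMem (show c ∉ f ⁻¹' Set.Ioi a from k),
      max_eq_right (sub_nonpos.2 (not_lt.1 k))]
    simp

theorem Al.union (h : Al W) {S T : Set Λ} (hS : W (S.indicator 1)) (hT : W (T.indicator 1)) :
    W ((S ∪ T).indicator 1) :=
  Al.congr (h.add _ _ (h.add _ _ hS hT) (h.smul (-1) _ (h.mul _ _ hS hT))) fun c => by
    by_cases c ∈ S <;> by_cases c ∈ T <;> simp [*]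

/-- the sigma-algebra -/
@[reducible] def Al.ms (h : Al W) : MeasurableSpace Λ where
  MeasurableSet' S := W (S.indicator 1)
  measurableSet_empty := Al.congr (h.smul 0 _ h.one) fun c => by simp
  measurableSet_compl S hS := Al.congr (h.add _ _ h.one (h.smul (-1) _ hS)) fun c => by
    by_cases c ∈ S <;> simp [*]
  measurableSet_iUnion S hS := by
    refine h.lim (fun n => (Set.accumulate S n).indicator 1) _ (fun n => ?_) fun c => ?_
    · induction n with
      | zero => simpa using hS 0
      | succ n ih => rw [Set.accumulate_succ]; exact h.union ih (hS _)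
    · by_cases k : c ∈ ⋃ i, S i
      · rw [Set.indicator_of_mem k]
        obtain ⟨i, hi⟩ := Set.mem_iUnion.1 k
        refine tendsto_const_nhds.congr' ?_
        filter_upwards [eventually_ge_atTop i] with n hn
        rw [Set.indicator_of_mem (Set.mem_accumulate.2 ⟨i, hn, hi⟩)]
      · rw [Set.indicator_of_notMem k]
        refine tendsto_const_nhds.congr fun n => ?_
        rw [Set.indicator_of_notMem fun m => k (Set.accumulate_subset_iUnion n m)]

end QLAlgAux

open QLAlgAux in
theorem algE : S_alg := by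
  intro Λ W h1 h2 h3 h4 h5
  have h : Al W := ⟨h1, h2, h3, h4, h5⟩
  refine ⟨h.ms, fun f => ?_⟩
  let := h.ms
  refine ⟨fun hf => measurable_of_Ioi fun a => h.ind hf a, fun hf => ?_⟩
  have k : ∀ s : SimpleFunc Λ ℝ, W s := fun s => by
    induction s using SimpleFunc.induction with
    | @const c S hS =>
      refine Al.congr (h3 c _ hS) fun x => ?_
      by_cases m : x ∈ S <;> simp [m]
    | add _ hf hg => exact h2 _ _ hf hg
  exact h5 _ _ (fun n => k (hf.stronglyMeasurable.approx n)) hf.stronglyMeasurable.tendsto_approx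

end Vale.Agent.P367.Q
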