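import Vale.Agent.P367.QLDefs

/-! # P367, local control: QLBip -/

namespace Vale.Agent.P367.Q

open Complex MeasureTheory Filter Topology Matrix
open scoped InnerProductSpace

namespace QLBipAux

/-- a simple function with two values -/
noncomputable def pw {Λ : Type} [MeasurableSpace Λ] {E : Set Λ} (hE : MeasurableSet E) (x y : ℝ) :
    SimpleFunc Λ ℝ := SimpleFunc.piecewise E hE (SimpleFunc.const _ x) (SimpleFunc.const _ y)

theorem pw_pos {Λ : Type} [MeasurableSpace Λ] {E : Set Λ} (hE : MeasurableSet E) (x y : ℝ) {c : Λ}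
    (h : c ∈ E) : pw hE x y c = x := by simp [pw, h]

theorem pw_neg {Λ : Type} [MeasurableSpace Λ] {E : Set Λ} (hE : MeasurableSet E) (x y : ℝ) {c : Λ}
    (h : c ∉ E) : pw hE x y c = y := by simp [pw, h]

end QLBipAux

open QLBipAux

theorem bip : S_bip := by
  intro K M D P hP A1 A2 h1 h2 hd hf r1 r2 γ a0 b0 ha hb
  have hd' : ∀ c, c ∈ A1 → c ∉ A2 := fun c hc => Set.disjoint_left.1 hd hc
  have q : ∀ t : ℝ, M.PV D P (pw h2 t 0) (pw h2 0 1) := fun t => by
    refine hP.add _ _ _ _ (pw h2 (t / 4) (-(t / 4))) (pw h2 (-1) 1) (fun c c' => ?_) (hf (t / 2))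
      (hP.flip A2 _ _ _ _ r2 (fun c hc => ?_) (fun c hc => ?_) (hf (-(t / 2))))
    · by_cases hc : c ∈ A2 <;> by_cases hc' : c' ∈ A2 <;> simp [pw_pos, pw_neg, hc, hc'] <;> ring
    · simp only [pw_pos, hc, SimpleFunc.const_apply, and_true]
      ring
    · simp only [pw_neg, hc, not_false_eq_true, SimpleFunc.const_apply, and_true]
      ring
  refine hP.add _ _ _ _ (pw h2 (-(γ / 2)) 0)
    (SimpleFunc.piecewise A1 h1 (SimpleFunc.const _ (-1)) (pw h2 0 1)) (fun c c' => ?_) (q (γ / 2))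
    (hP.flip A1 _ _ _ _ r1 (fun c hc => ?_) (fun c hc => ?_) (q (-(γ / 2))))
  · have k := hd' c
    have k' := hd' c'
    rw [ha, ha, hb, hb]
    by_cases hc : c ∈ A2 <;> by_cases hc' : c' ∈ A2 <;> by_cases h : c ∈ A1 <;>
      by_cases h' : c' ∈ A1 <;> simp_all [pw_pos, pw_neg]
  · simp [pw_neg, hc, hd' c hc]
  · simp [hc]

end Vale.Agent.P367.Q
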