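import Vale.Agent.P367.QLDefs

/-! # P367, local control: QLProc -/

namespace Vale.Agent.P367.Q

open Complex MeasureTheory Filter Topology Matrix
open scoped InnerProductSpace

namespace QLProcAux

variable {Λ : Type} [MeasurableSpace Λ] {μ : Measure Λ} (M : FS Λ μ) (w : M.H → M.H →L[ℂ] M.H)
  (ρ : Λ → ℝ) (β γ s : ℕ → ℝ)

theorem upd (p : ℕ) (a b c : ℝ) : ∀ j ≤ p, M.proc w ρ (Function.update β p a)
    (Function.update γ p b) (Function.update s p c) j = M.proc w ρ β γ s j
  | 0, _ => rfl
  | j + 1, h => by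
    have e : j ≠ p := by omega
    simp only [FS.proc, Function.update_of_ne e, upd p a b c j (by omega)]

theorem step (p : ℕ) (a b c : ℝ) : ∃ p' β' γ' s', M.lay w ρ a c (b • M.xi (M.proc w ρ β γ s p)) *
    M.proc w ρ β γ s p = M.proc w ρ β' γ' s' p' :=
  ⟨p + 1, Function.update β p a, Function.update γ p b, Function.update s p c, by
    simp only [FS.proc, Function.update_self, upd M w ρ β γ s p a b c p le_rfl]⟩

end QLProcAux

theorem FS.base_proc {K : ℕ} {M : FS (Lab K) (muK K)} {T : Set ℝ} {D : Fin K → Lab K → ℝ}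
    {U : M.H →L[ℂ] M.H} (hD : Fam T D) (h : M.Steps D Gate.Base 1 U) :
    ∃ p β γ s, U = M.proc (M.WZ D) (fun c => c.1) β γ s p := by
  induction h with
  | refl => exact ⟨0, 0, 0, 0, rfl⟩
  | step hg _ ih =>
    obtain ⟨p, β, γ, s, rfl⟩ := ih
    have k := QLProcAux.step M (M.WZ D) (fun c => c.1) β γ s p
    rcases hg with ⟨a, rfl⟩ | ⟨a, rfl⟩ | ⟨a, rfl⟩
    · have := k a 0 0
      simp only [FS.lay, zero_smul, zero_mul, FS.lr_zero, (FS.isW_WZ hD).EZc_zero, mul_one] at this
      exact this
    · have := k 0 0 a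
      simp only [FS.lay, zero_smul, rot_zero, FS.sp_one, (FS.isW_WZ hD).EZc_zero, mul_one,
        one_mul] at this
      exact this
    · have e : ∀ x c, M.pv (SimpleFunc.const _ (a / 2)) (SimpleFunc.const _ 1) x c = a • x :=
        fun x c => by
          change (a / 2) • M.sc (fun _ => 1) x + (1 : ℝ) • M.sc (fun _ => a / 2) x = _
          simp only [FS.sc_const, _root_.smul_apply, one_apply_eq_self, coe_smul]
          module
      rw [FS.ev, FS.EZ_const' _ (e _)]
      simpa only [FS.lay, zero_mul, rot_zero, FS.sp_one, FS.lr_zero, one_mul] using k 0 a 0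

end Vale.Agent.P367.Q
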