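import Vale.Agent.P367.QLDefs

/-! # P367, local control: QLPv -/

namespace Vale.Agent.P367.Q

open Complex MeasureTheory Filter Topology Matrix
open scoped InnerProductSpace

namespace QLPvAux

variable {K : ℕ} {M : FS (Lab K) (muK K)} {T : Set ℝ} {D : Fin K → Lab K → ℝ}

theorem br (a b : SimpleFunc (Lab K) ℝ) (r t : ℝ) : BR fun c' => r * b c' + t * a c' :=
  ((BR.const r).mul (BR.simple b)).add ((BR.const t).mul (BR.simple a))

theorem pv_eq (a b : SimpleFunc (Lab K) ℝ) (x : M.H) (c : Lab K) :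
    M.pv a b x c = M.sc (fun c' => a c * b c' + b c * a c') x := by
  rw [FS.pv_apply, M.sc_add ((BR.const _).mul (BR.simple b)) ((BR.const _).mul (BR.simple a)),
    M.sc_smul _ (BR.simple b), M.sc_smul _ (BR.simple a), ← Complex.coe_smul, ← Complex.coe_smul]
  rfl

theorem ext_set {E : Set (Lab K)} (hE : MeasurableSet E) {A B : M.H →L[ℂ] M.H}
    (h1 : M.sc (E.indicator 1) * A = M.sc (E.indicator 1) * B)
    (h2 : M.sc (Eᶜ.indicator 1) * A = M.sc (Eᶜ.indicator 1) * B) : A = B := by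
  have e : M.sc (E.indicator 1) + M.sc (Eᶜ.indicator 1) = 1 := by
    rw [← M.sc_add (BR.indicator hE) (BR.indicator hE.compl), ← FS.sc_idc_univ]
    congr 1
    funext c
    by_cases hc : c ∈ E <;> simp [hc]
  rw [← one_mul A, ← one_mul B, ← e, add_mul, add_mul, h1, h2]

theorem cell {w : M.H → M.H →L[ℂ] M.H} {Y : Submodule ℝ M.H} (hw : M.IsW w Y)
    {f g : SimpleFunc (Lab K) M.H} (hf : ∀ c, f c ∈ Y) {E : Set (Lab K)} (hE : MeasurableSet E)
    {u : Lab K → M2} (hu : BM u) (m : M2) (φ : M.H → M.H) (h1 : ∀ c ∈ E, u c = m)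
    (h2 : ∀ c ∈ E, g c = φ (f c)) (h3 : ∀ x ∈ Y, M.EZc w x * M.sp m = M.sp m * M.EZc w (φ x)) :
    M.sc (E.indicator 1) * (M.EZ w f * M.loc u) = M.sc (E.indicator 1) * (M.loc u * M.EZ w g) := by
  refine FS.ext_cells f fun v hv => ?_
  obtain ⟨c0, rfl⟩ := SimpleFunc.mem_range.1 hv
  have hm := f.measurableSet_preimage {f c0}
  have hi := hm.inter hE
  have k1 : M.sc ((f ⁻¹' {f c0} ∩ E).indicator 1) * M.loc u =
      M.sc ((f ⁻¹' {f c0} ∩ E).indicator 1) * M.sp m :=
    FS.sc_loc_congr hi hu (BM.const m) fun c hc => h1 c hc.2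
  have k2 := FS.sc_EZ w (f := f) (v := f c0) hi fun c hc => hc.1
  have k3 := FS.sc_EZ w (f := g) (v := φ (f c0)) hi fun c hc =>
    (h2 c hc.2).trans (congrArg φ hc.1)
  rw [← mul_assoc (M.sc _) (M.sc _), ← mul_assoc (M.sc _) (M.sc _), FS.sc_ind_mul hm hE,
    FS.cell_mul k2 k1 ((hw.EZc_dec (hf c0)).2.2 _ (BR.indicator hi)),
    FS.cell_mul k1 k3 (M.sc_sp (BR.indicator hi) m).symm, h3 _ (hf c0)]

theorem conj_Z : rot 0 (-(Real.pi / 2)) * (pau 2 * rot 0 (Real.pi / 2)) = -pau 2 := by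
  rw [← rot_star, rot_half]
  ext i j
  fin_cases i <;> fin_cases j <;> simp [pau, Matrix.mul_apply]

theorem xi_flip {E : Set (Lab K)} (hE : MeasurableSet E) {U : M.H →L[ℂ] M.H} (hU : M.Dec U) :
    M.xi (M.lr 0 (fun c => Real.pi / 2 * E.indicator 1 c) * U) =
      M.sc (fun c => 1 + -2 * E.indicator 1 c) (M.xi U) := by
  have hα : Measurable fun c => Real.pi / 2 * E.indicator (1 : Lab K → ℝ) c :=
    (BR.indicator hE).1.const_mul _
  have hβ : Measurable fun c => -(Real.pi / 2 * E.indicator (1 : Lab K → ℝ) c) := hα.neg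
  have hs : BR fun c => 1 + -2 * E.indicator (1 : Lab K → ℝ) c :=
    (BR.const 1).add ((BR.const (-2)).mul (BR.indicator hE))
  have e : star (M.lr 0 fun c => Real.pi / 2 * E.indicator 1 c) *
      (M.sp (pau 2) * M.lr 0 fun c => Real.pi / 2 * E.indicator 1 c) =
      M.sc (fun c => 1 + -2 * E.indicator 1 c) * M.sp (pau 2) := by
    rw [M.lr_star 0 hα, FS.lr, FS.lr, FS.sp, ← M.loc_mul (BM.const _) (BM.rot 0 hα),
      ← M.loc_mul (BM.rot 0 hβ) ((BM.const _).mul (BM.rot 0 hα)),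
      M.sc_mul_loc hs (BM.const _)]
    congr 1
    funext c
    by_cases hc : c ∈ E
    · rw [Set.indicator_of_mem hc, Pi.one_apply, mul_one, conj_Z]
      norm_num
    · rw [Set.indicator_of_notMem hc, mul_zero, neg_zero, rot_zero]
      simp
  have e2 := congrArg (fun A : M.H →L[ℂ] M.H => A (U M.Ω)) e
  simp only [ContinuousLinearMap.mul_apply] at e2
  rw [FS.xi, FS.xi, star_mul, ContinuousLinearMap.mul_apply, ContinuousLinearMap.mul_apply, e2,
    hU.star.sc_apply hs]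

end QLPvAux

theorem pvE : S_pv := by
  intro K M T D P hD
  have hw : M.IsW (M.WZ D) M.XX := FS.isW_WZ hD
  refine ⟨fun a b h U hU => ?_, fun a b a1 b1 a2 b2 h h1 h2 U hU => ?_,
    fun E a b a' b' hR h1 h2 hP U hU => ?_⟩
  · have e : M.pv a b (M.xi U) = 0 := SimpleFunc.ext fun c => by
      rw [QLPvAux.pv_eq, funext (h c), M.sc_const, ofReal_zero, zero_smul]
      rfl
    rw [FS.ev, e, hw.EZ_zero, one_mul]
    exact hU
  · have hx := hU.1.xi_mem
    have k := h1 _ (h2 U hU)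
    have e1 : (fun c => (⟪M.pv a1 b1 (M.xi U) c, M.pv a2 b2 (M.xi U) c⟫_ℂ).im) = fun _ => 0 :=
      funext fun c => by
        rw [QLPvAux.pv_eq, QLPvAux.pv_eq,
          hU.1.inner_xi (QLPvAux.br a1 b1 _ _) (QLPvAux.br a2 b2 _ _), ofReal_im]
    have e2 : M.pv a1 b1 (M.xi U) + M.pv a2 b2 (M.xi U) = M.pv a b (M.xi U) :=
      SimpleFunc.ext fun c => by
        rw [SimpleFunc.add_apply, QLPvAux.pv_eq, QLPvAux.pv_eq, QLPvAux.pv_eq, funext (h c),
          M.sc_add (QLPvAux.br a1 b1 _ _) (QLPvAux.br a2 b2 _ _)]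
        rfl
    rw [FS.ev, FS.ev, hw.xi_EZ (FS.pv_mem a2 b2 hx), ← mul_assoc,
      hw.EZ_mul (FS.pv_mem a1 b1 hx) (FS.pv_mem a2 b2 hx), e1, M.ph_zero, one_mul, e2] at k
    exact k
  · have hE : MeasurableSet E := by
      have e : E = E.indicator (1 : Lab K → ℝ) ⁻¹' {1} := by
        ext c
        by_cases hc : c ∈ E <;> simp [hc]
      rw [e]
      exact hR.1 (measurableSet_singleton 1)
    have hα : ∀ t : ℝ, Measurable fun c => t * E.indicator (1 : Lab K → ℝ) c :=
      fun t => hR.1.const_mul t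
    have hs : BR fun c => 1 + -2 * E.indicator (1 : Lab K → ℝ) c :=
      (BR.const 1).add ((BR.const (-2)).mul (BR.indicator hE))
    have k1 : M.SC D P (M.lr 0 (fun c => Real.pi / 2 * E.indicator 1 c) * U) :=
      (hR.2 (Real.pi / 2)).2.2 U hU
    have k2 : M.SC D P (M.lr 0 (fun c => -(Real.pi / 2) * E.indicator 1 c) *
        M.ev D (.pul a b) (M.lr 0 (fun c => Real.pi / 2 * E.indicator 1 c) * U)) :=
      (hR.2 (-(Real.pi / 2))).2.2 _ (hP _ k1)
    have hf := FS.pv_mem a b k1.1.xi_mem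
    have e0 : ∀ (c : Lab K) (r : ℝ), a' c = r * a c → b' c = r * b c → M.pv a' b' (M.xi U) c =
        r • M.pv a b (M.xi (M.lr 0 (fun c => Real.pi / 2 * E.indicator 1 c) * U)) c := by
      intro c r ha hb
      rw [QLPvAux.xi_flip hE hU.1, QLPvAux.pv_eq, QLPvAux.pv_eq, ← ContinuousLinearMap.mul_apply,
        ← M.sc_mul (QLPvAux.br a b _ _) hs, ← Complex.coe_smul, ← ContinuousLinearMap.smul_apply,
        ← M.sc_smul r ((QLPvAux.br a b _ _).mul hs)]
      congr 2
      funext c'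
      rw [ha, hb]
      by_cases hc : c' ∈ E
      · rw [(h1 c' hc).1, (h1 c' hc).2, Set.indicator_of_mem hc, Pi.one_apply]
        ring
      · rw [(h2 c' hc).1, (h2 c' hc).2, Set.indicator_of_notMem hc]
        ring
    have e1 : M.EZ (M.WZ D) (M.pv a b (M.xi (M.lr 0 (fun c => Real.pi / 2 * E.indicator 1 c) * U)))
        * M.lr 0 (fun c => Real.pi / 2 * E.indicator 1 c) =
        M.lr 0 (fun c => Real.pi / 2 * E.indicator 1 c) * M.EZ (M.WZ D) (M.pv a' b' (M.xi U)) := by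
      refine QLPvAux.ext_set hE ?_ ?_
      · refine QLPvAux.cell hw hf hE (BM.rot 0 (hα _)) (rot 0 (Real.pi / 2)) (fun x => -x)
          (fun c hc => ?_) (fun c hc => ?_) fun x hx => ?_
        · simp only [Set.indicator_of_mem hc, Pi.one_apply, mul_one]
        · rw [e0 c (-1) (by rw [(h1 c hc).1, neg_one_mul]) (by rw [(h1 c hc).2, neg_one_mul]),
            neg_one_smul]
        · rw [rot_half, M.sp_smul, mul_smul_comm, smul_mul_assoc, hw.EZc_X (neg_mem hx), neg_neg]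
      · refine QLPvAux.cell hw hf hE.compl (BM.rot 0 (hα _)) 1 (fun x => x)
          (fun c hc => ?_) (fun c hc => ?_) fun x hx => ?_
        · simp only [Set.indicator_of_notMem hc, mul_zero, rot_zero]
        · rw [e0 c 1 (by rw [(h2 c hc).1, one_mul]) (by rw [(h2 c hc).2, one_mul]), one_smul]
        · rw [M.sp_one, mul_one, one_mul]
    have e2 : M.lr 0 (fun c => -(Real.pi / 2) * E.indicator 1 c) *
        M.lr 0 (fun c => Real.pi / 2 * E.indicator 1 c) = 1 := by
      rw [M.lr_add 0 (hα _) (hα _), ← M.lr_zero 0]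
      congr 1
      funext c
      ring
    rw [FS.ev, ← mul_assoc (M.EZ _ _), e1, ← mul_assoc, ← mul_assoc, e2, one_mul] at k2
    exact k2

end Vale.Agent.P367.Q
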