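import Vale.Agent.P367.QLDefs

/-! # P367, local control: QLR0 -/

namespace Vale.Agent.P367.Q

open Complex MeasureTheory Filter Topology Matrix
open scoped InnerProductSpace

namespace QLR0Aux

theorem nu0_pos : ∀ᵐ r ∂nu0, 0 < r := by
  unfold nu0
  refine (ae_map_iff (p := fun r : ℝ => 0 < r) (by fun_prop) measurableSet_Ioi).2 ?_
  have : NullSingletonClass (ProbabilityTheory.gaussianReal 0 1) :=
    ProbabilityTheory.nullSingletonClass_gaussianReal one_ne_zero
  filter_upwards [Measure.ae_ne (ProbabilityTheory.gaussianReal 0 1) 0] with r hr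
  exact abs_pos.2 hr

theorem muK_pos (K : ℕ) : ∀ᵐ c ∂muK K, 0 < c.1 := by
  unfold muK
  exact Measure.quasiMeasurePreserving_fst.ae nu0_pos

variable {K : ℕ} {M : FS (Lab K) (muK K)} {D : Fin K → Lab K → ℝ}

theorem rv_ae {P : Gate K → Prop} (h : M.RvS D P) {N : Fin 3} {α α' : Lab K → ℝ}
    (hα : M.RV D P N α) (hm : Measurable α') (he : ∀ᵐ c ∂muK K, α c = α' c) :
    M.RV D P N α' := by
  refine h.lim N (fun _ => α) α' (fun _ => hα) hm ?_
  filter_upwards [he] with c hc
  rw [hc]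
  exact tendsto_const_nhds

theorem rv_eq {P : Gate K → Prop} {N : Fin 3} {α α' : Lab K → ℝ}
    (hα : M.RV D P N α) (he : ∀ c, α c = α' c) : M.RV D P N α' := by
  have : α = α' := funext he
  rwa [← this]

theorem rv_one (h : M.RvS D Gate.Base) : M.RV D Gate.Base 0 fun _ => 1 :=
  h.gate 0 _ measurable_const fun t => Or.inl ⟨t * 1, rfl⟩

theorem rv_rho (h : M.RvS D Gate.Base) : M.RV D Gate.Base 2 fun c => c.1 :=
  h.gate 2 _ measurable_fst fun t => Or.inr (Or.inl ⟨t, rfl⟩)

theorem rv_zero (h1 : S_alg) (h : M.RvS D Gate.Base) (a : ℝ → ℝ) (ha : Measurable a) :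
    M.RV D Gate.Base 0 fun c => a c.1 := by
  obtain ⟨m, hm⟩ := h1 (Lab K)
    (fun α => ∀ f, M.RV D Gate.Base 0 f → M.RV D Gate.Base 0 fun c => α c * f c)
    (fun f hf => rv_eq hf fun c => (one_mul _).symm)
    (fun α β hα hβ f hf => rv_eq (h.add 0 _ _ (hα f hf) (hβ f hf)) fun c => by ring)
    (fun t α hα f hf => rv_eq (h.smul 0 t _ (hα f hf)) fun c => by ring)
    (fun α β hα hβ f hf => rv_eq (hα _ (hβ f hf)) fun c => by ring)
    (fun α β hα hl f hf => by
      have ht : ∀ c, Tendsto (fun n => α n c * f c) atTop (𝓝 (β c * f c)) := fun c =>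
        (hl c).mul_const _
      refine h.lim 0 (fun n c => α n c * f c) _ (fun n => hα n f hf) ?_ (ae_of_all _ ht)
      exact measurable_of_tendsto_metrizable (fun n => (hα n f hf).1) (tendsto_pi_nhds.2 ht))
  have hsq : @Measurable (Lab K) ℝ m _ fun c => c.1 * c.1 := by
    refine (hm _).1 fun f hf => ?_
    have e1 := h.mul 0 2 1 _ _ (by decide) (by decide) (by decide) hf (rv_rho h)
    have e2 := h.mul 1 2 0 _ _ (by decide) (by decide) (by decide) e1 (rv_rho h)
    exact rv_eq e2 fun c => by ring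
  have hc : @Measurable (Lab K) ℝ m _ fun c => a (Real.sqrt (c.1 * c.1)) :=
    (ha.comp Real.continuous_sqrt.measurable).comp hsq
  have h2 := (hm _).2 hc _ (rv_one h)
  refine rv_ae h h2 (ha.comp measurable_fst) ?_
  filter_upwards [muK_pos K] with c hc
  rw [Real.sqrt_mul_self hc.le, mul_one]

theorem rv_first (h1 : S_alg) (h : M.RvS D Gate.Base) (a : ℝ → ℝ) (ha : Measurable a) :
    M.RV D Gate.Base 1 fun c => a c.1 := by
  have e0 := rv_zero h1 h (fun r => a r / r) (ha.div measurable_id)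
  have e1 := h.mul 0 2 1 _ _ (by decide) (by decide) (by decide) e0 (rv_rho h)
  refine rv_ae h e1 (ha.comp measurable_fst) ?_
  filter_upwards [muK_pos K] with c hc
  exact div_mul_cancel₀ _ hc.ne'

theorem rv_second (h1 : S_alg) (h : M.RvS D Gate.Base) (a : ℝ → ℝ) (ha : Measurable a) :
    M.RV D Gate.Base 2 fun c => a c.1 :=
  rv_eq (h.mul 1 0 2 _ _ (by decide) (by decide) (by decide) (rv_first h1 h a ha) (rv_one h))
    fun _ => mul_one _

end QLR0Aux

theorem r0 (h1 : S_alg) : S_r0 := by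
  intro K M D h N α hα hL
  have ha : Measurable fun r : ℝ => α (r, 0) := hα.comp (measurable_id.prodMk measurable_const)
  have he : ∀ c : Lab K, α (c.1, 0) = α c := fun c =>
    hL _ _ rfl fun l hl => absurd hl (Nat.not_lt_zero _)
  refine QLR0Aux.rv_eq (α := fun c => α (c.1, 0)) ?_ he
  fin_cases N
  · exact QLR0Aux.rv_zero h1 h _ ha
  · exact QLR0Aux.rv_first h1 h _ ha
  · exact QLR0Aux.rv_second h1 h _ ha

end Vale.Agent.P367.Q
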