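import Vale.Agent.P367.QLDefs

/-! # P367, local control: QLRed -/

namespace Vale.Agent.P367.Q

open Complex MeasureTheory Filter Topology Matrix
open scoped InnerProductSpace

namespace QLRedAux

/-- a multiple of an indicator -/
noncomputable def si {Λ : Type} [MeasurableSpace Λ] (γ : ℝ) {E : Set Λ} (hE : MeasurableSet E) :
    SimpleFunc Λ ℝ :=
  SimpleFunc.piecewise E hE (SimpleFunc.const _ γ) (SimpleFunc.const _ 0)

theorem si_apply {Λ : Type} [MeasurableSpace Λ] (γ : ℝ) {E : Set Λ} (hE : MeasurableSet E)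
    (c : Λ) : si γ hE c = γ * E.indicator 1 c := by
  by_cases h : c ∈ E <;> simp [si, SimpleFunc.piecewise_apply, h]

theorem cells {Λ : Type} [MeasurableSpace Λ] (a : SimpleFunc Λ ℝ) {A : Set Λ}
    (hA : MeasurableSet A) (h : ∀ c, a c ≠ 0 → c ∈ A) (c : Λ) :
    a c = ∑ v ∈ a.range, si v (hA.inter (a.measurableSet_fiber v)) c := by
  rw [Finset.sum_eq_single_of_mem (a c) (a.mem_range_self c) fun v _ hv => by
    rw [si_apply, Set.indicator_of_notMem (fun h1 => hv h1.2.symm), mul_zero], si_apply]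
  by_cases h0 : a c = 0
  · rw [h0, zero_mul]
  · rw [Set.indicator_of_mem (show c ∈ A ∩ a ⁻¹' {a c} from ⟨h c h0, rfl⟩), Pi.one_apply, mul_one]

variable {K : ℕ} {M : FS (Lab K) (muK K)} {D : Fin K → Lab K → ℝ} {P : Gate K → Prop}

theorem ker (h : M.PvS D P) {a b a' b' : SimpleFunc (Lab K) ℝ}
    (e : ∀ c c', a c * b c' + b c * a c' = a' c * b' c' + b' c * a' c') (h' : M.PV D P a' b') :
    M.PV D P a b :=
  h.add a b a' b' 0 0 (fun c c' => by simp [e]) h' (h.zero 0 0 fun _ _ => by simp)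

theorem swap (h : M.PvS D P) {a b : SimpleFunc (Lab K) ℝ} (h' : M.PV D P a b) : M.PV D P b a :=
  ker h (fun _ _ => add_comm _ _) h'

theorem sum (h : M.PvS D P) {ι : Type} (s : Finset ι) (f : ι → SimpleFunc (Lab K) ℝ)
    (b : SimpleFunc (Lab K) ℝ) (hf : ∀ i ∈ s, M.PV D P (f i) b) :
    ∀ a : SimpleFunc (Lab K) ℝ, (∀ c, a c = ∑ i ∈ s, f i c) → M.PV D P a b := by
  classical
  induction s using Finset.induction_on with
  | empty => exact fun a ha => h.zero a b fun c c' => by simp [ha]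
  | insert i s hi ih =>
    intro a ha
    refine h.add a b (f i) b (a - f i) b (fun c c' => ?_) (hf i (Finset.mem_insert_self _ _))
      (ih (fun j hj => hf j (Finset.mem_insert_of_mem hj)) _ fun c => ?_)
    · simp only [SimpleFunc.coe_sub, Pi.sub_apply]
      ring
    · simp only [SimpleFunc.coe_sub, Pi.sub_apply, ha, Finset.sum_insert hi, add_sub_cancel_left]

/-- the interaction of two sets is available -/
def QQ (M : FS (Lab K) (muK K)) (D : Fin K → Lab K → ℝ) (P : Gate K → Prop)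
    (A B : Set (Lab K)) : Prop :=
  ∀ (γ : ℝ) (a0 b0 : SimpleFunc (Lab K) ℝ), (∀ c, a0 c = γ * A.indicator 1 c) →
    (∀ c, b0 c = B.indicator 1 c) → M.PV D P a0 b0

theorem QQ.both (h : M.PvS D P) {A B : Set (Lab K)} (hA : MeasurableSet A) (hB : MeasurableSet B)
    (q : QQ M D P A B) (γ δ : ℝ) {a0 b0 : SimpleFunc (Lab K) ℝ}
    (ha : ∀ c, a0 c = γ * A.indicator 1 c) (hb : ∀ c, b0 c = δ * B.indicator 1 c) :
    M.PV D P a0 b0 :=
  ker h (fun c c' => by simp only [ha, hb, si_apply]; ring)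
    (q (γ * δ) (si (γ * δ) hA) (si 1 hB) (si_apply _ hA) fun c => by rw [si_apply, one_mul])

theorem QQ.symm (h : M.PvS D P) {A B : Set (Lab K)} (hA : MeasurableSet A) (hB : MeasurableSet B)
    (q : QQ M D P A B) : QQ M D P B A := fun γ _ _ ha hb =>
  swap h (q.both h hA hB 1 γ (fun c => by rw [hb, one_mul]) ha)

theorem QQ.cut (h : M.PvS D P) {A B S : Set (Lab K)} (hA : MeasurableSet A) (hd : Disjoint A B)
    (q : QQ M D P A B) (r : M.RV D P 0 ((A \ S).indicator 1)) : QQ M D P (A ∩ S) B := by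
  intro γ a0 b0 ha hb
  have h1 := q (γ / 2) (si (γ / 2) hA) b0 (si_apply _ hA) hb
  refine h.add a0 b0 (si (γ / 2) hA) b0 (a0 - si (γ / 2) hA) b0 (fun c c' => ?_) h1
    (h.flip (A \ S) _ _ _ _ r (fun c hc => ⟨?_, ?_⟩) (fun c hc => ⟨?_, rfl⟩) h1)
  · simp only [SimpleFunc.coe_sub, Pi.sub_apply]
    ring
  · simp only [SimpleFunc.coe_sub, Pi.sub_apply, ha]
    rw [Set.indicator_of_notMem fun h2 => hc.2 h2.2, mul_zero, zero_sub]
  · rw [hb, Set.indicator_of_notMem (Set.disjoint_left.1 hd hc.1), neg_zero]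
  · simp only [SimpleFunc.coe_sub, Pi.sub_apply, ha, si_apply]
    by_cases h2 : c ∈ A
    · have h3 : c ∈ A ∩ S := ⟨h2, not_not.1 fun h3 => hc ⟨h2, h3⟩⟩
      rw [Set.indicator_of_mem h2, Set.indicator_of_mem h3]
      ring
    · rw [Set.indicator_of_notMem h2, Set.indicator_of_notMem fun h3 => h2 h3.1]
      ring

end QLRedAux

open QLRedAux in
theorem red : S_red := by
  intro K M D P h A1 A2 a b h1 h2 hd q ha hb ra rb
  refine sum h a.range _ b (fun v _ => swap h ?_) a (cells a h1 ha)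
  refine sum h b.range _ _ (fun w _ => ?_) b (cells b h2 hb)
  have m1 := h1.inter (a.measurableSet_fiber v)
  have q1 := (QQ.cut h h1 hd q (ra v)).symm h m1 h2
  have q2 := q1.cut h h2 (hd.symm.mono_right Set.inter_subset_left) (rb w)
  exact q2.both h (h2.inter (b.measurableSet_fiber w)) m1 w v (si_apply _ _) (si_apply _ _)

end Vale.Agent.P367.Q
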