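import Vale.Agent.P367.QLDefs

/-! # P367, local control: QLRk -/

namespace Vale.Agent.P367.Q

open Complex MeasureTheory Filter Topology Matrix
open scoped InnerProductSpace

namespace QLRkAux

theorem meas {K : ℕ} (j : ℕ) (m : MeasurableSpace (Lab K))
    (h1 : @Measurable (Lab K) ℝ m _ fun c => c.1)
    (h2 : ∀ l : Fin K, l.val < j → @Measurable (Lab K) ℝ m _ fun c => c.2 l) {α : Lab K → ℝ}
    (hα : @Measurable (Lab K) ℝ Prod.instMeasurableSpace _ α) (hl : Lev j α) :
    @Measurable (Lab K) ℝ m _ α := by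
  have h3 : @Measurable (Lab K) (Lab K) m Prod.instMeasurableSpace
      fun c => (c.1, fun l => if l.val < j then c.2 l else 0) := by
    refine @Measurable.prodMk _ m _ _ _ _ _ _ h1 (@measurable_pi_lambda _ _ _ m _ _ fun l => ?_)
    by_cases h : l.val < j
    · simpa only [if_pos h] using h2 l h
    · simpa only [if_neg h] using measurable_const
  have h4 := hα.comp h3
  rwa [show α ∘ (fun c : Lab K => ((c.1, fun l => if l.val < j then c.2 l else 0) : Lab K)) = α from
    funext fun c => hl _ _ rfl fun l h => if_pos h] at h4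

end QLRkAux

theorem rk (h1 : S_alg) : S_rk := by
  intro K M D A k hA h N α hα hl h0
  have mi : Measurable (ind A : Lab K → ℝ) := (BR.ind hA).1
  have sq : ∀ c : Lab K, ind A c * ind A c = ind A c := fun c => by
    unfold ind; split_ifs <;> simp
  have cg : ∀ {N f} (g : Lab K → ℝ), M.RV D (Gate.Prim k A) N f → (∀ c, f c = g c) →
      M.RV D (Gate.Prim k A) N g := fun g hf e => funext e ▸ hf
  have lv : ∀ (N : Fin 3) (g : Lab K → ℝ), Measurable g → Lev k.val g →
      M.RV D (Gate.Prim k A) N fun c => ind A c * g c := fun N g hg hk =>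
    h.gate N _ (mi.mul hg) fun t => Or.inl ⟨(mi.mul hg).const_mul t,
      fun c c' e1 e2 => by
        have e : ind A c = ind A c' := by rw [ind, ind, e1]
        simp only [e, hk c c' e1 e2],
      fun c hc => by simp [ind, hc]⟩
  have li : ∀ N, M.RV D (Gate.Prim k A) N (ind A) := fun N =>
    cg _ (lv N (fun _ => 1) measurable_const fun _ _ _ _ => rfl) fun c => mul_one _
  have gen : ∀ g : Lab K → ℝ, (M.RV D (Gate.Prim k A) 2 fun c => ind A c * g c) → ∀ f,
      M.RV D (Gate.Prim k A) 0 f → M.RV D (Gate.Prim k A) 0 fun c => ind A c * g c * f c :=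
    fun g hg f hf => cg _ (h.mul 1 2 0 _ _ (by decide) (by decide) (by decide)
      (h.mul 0 2 1 _ _ (by decide) (by decide) (by decide) hf hg) (li 2)) fun c => by
        linear_combination f c * g c * sq c
  obtain ⟨m, hm⟩ := h1 (Lab K) (fun g => Measurable g ∧ ∀ f, M.RV D (Gate.Prim k A) 0 f →
      M.RV D (Gate.Prim k A) 0 fun c => ind A c * g c * f c)
    ⟨measurable_const, gen _ (lv 2 _ measurable_const fun _ _ _ _ => rfl)⟩
    (fun f g hf hg => ⟨hf.1.add hg.1, fun φ hφ => cg _ (h.add 0 _ _ (hf.2 φ hφ) (hg.2 φ hφ))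
      fun c => by ring⟩)
    (fun t f hf => ⟨hf.1.const_mul t, fun φ hφ => cg _ (h.smul 0 t _ (hf.2 φ hφ)) fun c => by ring⟩)
    (fun f g hf hg => ⟨hf.1.mul hg.1, fun φ hφ => cg _ (hf.2 _ (hg.2 φ hφ)) fun c => by
      linear_combination f c * g c * φ c * sq c⟩)
    (fun f g hf hg => by
      have mg := measurable_of_tendsto_metrizable (fun n => (hf n).1) (tendsto_pi_nhds.2 hg)
      exact ⟨mg, fun φ hφ => h.lim 0 _ _ (fun n => (hf n).2 φ hφ) ((mi.mul mg).mul hφ.1)
        (ae_of_all _ fun c => ((hg c).const_mul _).mul_const _)⟩)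
  have m2 : ∀ l : Fin K, @Measurable (Lab K) ℝ Prod.instMeasurableSpace _ fun c => c.2 l :=
    fun l => (measurable_pi_apply l).comp measurable_snd
  have hW := (hm α).2 (QLRkAux.meas (k.val + 1) m
    ((hm _).1 ⟨measurable_fst, gen _ (lv 2 _ measurable_fst fun _ _ e _ => e)⟩)
    (fun l hl => (hm _).1 ⟨m2 l, gen _ ?_⟩) hα hl)
  · have e : ∀ c, α c * ind A c = α c := fun c => by
      unfold ind
      split_ifs with hc
      · exact mul_one _
      · rw [h0 c hc, zero_mul]
    have r0 := cg α (hW.2 _ (li 0)) fun c => by rw [mul_comm (ind A c), e, e]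
    fin_cases N
    · exact r0
    · exact cg _ (h.mul 0 2 1 _ _ (by decide) (by decide) (by decide) r0 (li 2)) e
    · exact cg _ (h.mul 0 1 2 _ _ (by decide) (by decide) (by decide) r0 (li 1)) e
  · rcases (Nat.le_of_lt_succ hl).eq_or_lt with e | e
    · obtain rfl : l = k := Fin.ext e
      exact h.gate 2 _ (mi.mul (m2 l)) fun t => Or.inr ⟨t, by simp only [mul_assoc]⟩
    · exact lv 2 _ (m2 l) fun _ _ _ e' => e' l e

end Vale.Agent.P367.Q
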