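import Vale.Agent.P367.QLDefs

/-! # P367, local control: QLRv -/

namespace Vale.Agent.P367.Q

open Complex MeasureTheory Filter Topology Matrix
open scoped InnerProductSpace

namespace QLRvAux

theorem rot_unit (N : Fin 3) (a : ℝ) : (rot N a)ᴴ * rot N a = 1 := by
  rw [rot_star, rot_add, neg_add_cancel, rot_zero]

theorem rot_cont (N : Fin 3) (i j : Fin 2) : Continuous fun a : ℝ => rot N a i j := by
  simp only [rot, Matrix.sub_apply, Matrix.smul_apply, smul_eq_mul]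
  fun_prop

theorem sin_lim (x y : ℝ) : Tendsto (fun n : ℕ => ((n : ℝ) + 1) / 2 *
    (x * Real.sin (2 * (1 / ((n : ℝ) + 1) * y)))) atTop (𝓝 (x * y)) := by
  have h1 : HasDerivAt (fun t : ℝ => x / 2 * Real.sin (2 * (t * y))) (x * y) 0 := by
    have h := ((((hasDerivAt_id (0 : ℝ)).mul_const y).const_mul 2).sin).const_mul (x / 2)
    have e : x / 2 * (Real.cos (2 * (id (0 : ℝ) * y)) * (2 * (1 * y))) = x * y := by
      simp only [id, zero_mul, mul_zero, Real.cos_zero]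
      ring
    rw [e] at h
    exact h
  have h2 : Tendsto (fun n : ℕ => 1 / ((n : ℝ) + 1)) atTop (𝓝[≠] 0) :=
    tendsto_nhdsWithin_iff.2 ⟨tendsto_one_div_add_atTop_nhds_zero_nat,
      .of_forall fun n => (by positivity : (0 : ℝ) < 1 / ((n : ℝ) + 1)).ne'⟩
  refine (h1.tendsto_slope_zero.comp h2).congr fun n => ?_
  simp only [Function.comp, zero_add, zero_mul, mul_zero, Real.sin_zero, sub_zero, smul_eq_mul,
    one_div, inv_inv]
  ring

variable {K : ℕ} {M : FS (Lab K) (muK K)} {D : Fin K → Lab K → ℝ} {P : Gate K → Prop}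

theorem smul (N : Fin 3) (t : ℝ) (α : Lab K → ℝ) (h : M.RV D P N α) :
    M.RV D P N fun c => t * α c :=
  ⟨measurable_const.mul h.1, fun s => by simpa only [mul_assoc] using h.2 (s * t)⟩

theorem lim (hG : M.GuS D P) (N : Fin 3) (α : ℕ → Lab K → ℝ) (α' : Lab K → ℝ)
    (h : ∀ n, M.RV D P N (α n)) (hα : Measurable α')
    (hl : ∀ᵐ c ∂muK K, Tendsto (fun n => α n c) atTop (𝓝 (α' c))) : M.RV D P N α' :=
  ⟨hα, fun t => hG.lim (fun n c => rot N (t * α n c)) _ (fun n => (h n).2 t)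
    (BM.rot N (measurable_const.mul hα)) (fun _ => rot_unit N _)
    (hl.mono fun _ hc i j => ((rot_cont N i j).tendsto _).comp (hc.const_mul t))⟩

theorem gate (hS : M.ScS D P) (N : Fin 3) (α : Lab K → ℝ) (hα : Measurable α)
    (h : ∀ t : ℝ, P (.loc N fun c => t * α c)) : M.RV D P N α :=
  ⟨hα, fun t => ⟨BM.rot N (measurable_const.mul hα), fun _ => rot_unit N _,
    fun U hU => hS.gate (.loc N fun c => t * α c) U (h t) hU⟩⟩

theorem use (N : Fin 3) (α : Lab K → ℝ) (U : M.H →L[ℂ] M.H) (h : M.RV D P N α)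
    (hU : M.SC D P U) : M.SC D P (M.ev D (.loc N α) U) := by
  have h2 := (h.2 1).2.2 U hU
  simp only [one_mul] at h2
  exact h2

theorem add (hG : M.GuS D P) (N : Fin 3) (α α' : Lab K → ℝ) (h : M.RV D P N α)
    (h' : M.RV D P N α') : M.RV D P N fun c => α c + α' c :=
  ⟨h.1.add h'.1, fun t => by simpa only [rot_add, ← mul_add] using hG.mul _ _ (h.2 t) (h'.2 t)⟩

theorem mul (h1 : S_sin) (hG : M.GuS D P) (N N' N'' : Fin 3) (f g : Lab K → ℝ) (e1 : N ≠ N')
    (e2 : N ≠ N'') (e3 : N' ≠ N'') (hf : M.RV D P N f) (hg : M.RV D P N' g) :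
    M.RV D P N'' fun c => f c * g c :=
  lim hG N'' (fun n c => ((n : ℝ) + 1) / 2 * (f c * Real.sin (2 * (1 / ((n : ℝ) + 1) * g c)))) _
    (fun n => smul N'' (((n : ℝ) + 1) / 2) _ (h1 K M D P hG N N' N'' f
      (fun c => 1 / ((n : ℝ) + 1) * g c) e1 e2 e3 hf (smul N' (1 / ((n : ℝ) + 1)) g hg)))
    (hf.1.mul hg.1) (.of_forall fun c => sin_lim (f c) (g c))

end QLRvAux

open QLRvAux in
theorem rvE (h1 : S_sin) : S_rv := fun K M D P hS hG =>
  ⟨gate hS, use, add hG, smul, lim hG, h1 K M D P hG, mul h1 hG⟩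

end Vale.Agent.P367.Q
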