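import Vale.Agent.P367.QLDefs

/-! # P367, local control: QLSin -/

namespace Vale.Agent.P367.Q

open Complex MeasureTheory Filter Topology Matrix
open scoped InnerProductSpace

namespace QLSinAux

theorem comm {N N' N'' : Fin 3} (h : N ≠ N') (h' : N ≠ N'') (h'' : N' ≠ N'') :
    ∃ ε : ℝ, ε * ε = 1 ∧ pau N' * pau N - pau N * pau N' = (2 * I * ε) • pau N'' := by
  have k : ∀ {A B C : M2}, A = I • C → B = -I • C →
      (∃ ε : ℝ, ε * ε = 1 ∧ A - B = (2 * I * ε) • C) ∧
        ∃ ε : ℝ, ε * ε = 1 ∧ B - A = (2 * I * ε) • C := fun {A B C} hA hB =>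
    ⟨⟨1, one_mul 1, by rw [hA, hB]; push_cast; module⟩,
      ⟨-1, by norm_num, by rw [hA, hB]; push_cast; module⟩⟩
  fin_cases N <;> fin_cases N' <;> fin_cases N'' <;> first
    | exact absurd rfl h
    | exact absurd rfl h'
    | exact absurd rfl h''
    | exact (k pau_XY pau_YX).1
    | exact (k pau_XY pau_YX).2
    | exact (k pau_YZ pau_ZY).1
    | exact (k pau_YZ pau_ZY).2
    | exact (k pau_ZX pau_XZ).1
    | exact (k pau_ZX pau_XZ).2

/-- the conjugated rotations -/
noncomputable def V (N N' : Fin 3) (f g s : ℝ) : M2 :=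
  rot N' g * rot N (s * f / 2) * rot N' (-g) * (rot N' (-g) * rot N (-(s * f / 2)) * rot N' g)

theorem unit_mul {A B : M2} (hA : Aᴴ * A = 1) (hB : Bᴴ * B = 1) : (A * B)ᴴ * (A * B) = 1 := by
  rw [conjTranspose_mul, mul_assoc, ← mul_assoc Aᴴ, hA, one_mul, hB]

theorem unit_rot (N : Fin 3) (a : ℝ) : (rot N a)ᴴ * rot N a = 1 := by
  rw [rot_star, rot_add, neg_add_cancel, rot_zero]

theorem conj_rot (N N' : Fin 3) (g a : ℝ) : rot N' g * rot N a * rot N' (-g) =
    (Real.cos a : ℂ) • (1 : M2) - (I * Real.sin a) • (rot N' g * pau N * rot N' (-g)) := by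
  rw [rot.eq_1 N, mul_sub, sub_mul, mul_smul_comm, mul_smul_comm, smul_mul_assoc, smul_mul_assoc,
    mul_one, rot_add, add_neg_cancel, rot_zero]

theorem diff (N N' : Fin 3) (g : ℝ) :
    rot N' g * pau N * rot N' (-g) - rot N' (-g) * pau N * rot N' g
      = (-I * Real.sin (2 * g)) • (pau N' * pau N - pau N * pau N') := by
  simp only [rot, sub_mul, mul_sub, smul_mul_assoc, mul_smul_comm, one_mul, mul_one, Real.cos_neg,
    Real.sin_neg, Real.sin_two_mul]
  push_cast
  module

theorem der {N N' N'' : Fin 3} {ε : ℝ}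
    (h : pau N' * pau N - pau N * pau N' = (2 * I * ε) • pau N'') (f g : ℝ) (i j : Fin 2) :
    HasDerivAt (fun s => V N N' f g s i j)
      (((-I * (ε * (f * Real.sin (2 * g)) : ℝ)) • pau N'') i j) 0 := by
  obtain ⟨A, hA⟩ : ∃ A, A = rot N' g * pau N * rot N' (-g) := ⟨_, rfl⟩
  obtain ⟨B, hB⟩ : ∃ B, B = rot N' (-g) * pau N * rot N' g := ⟨_, rfl⟩
  have d := diff N N' g
  rw [← hA, ← hB, h] at d
  have e : ∀ s, V N N' f g s i j = (Real.cos (s * f / 2) : ℂ) * Real.cos (s * f / 2) * (1 : M2) i j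
      - I * ((Real.cos (s * f / 2) : ℂ) * Real.sin (s * f / 2) * (A - B) i j)
      - I * I * ((Real.sin (s * f / 2) : ℂ) * Real.sin (s * f / 2) * (A * B) i j) := fun s => by
    have k := conj_rot N N' (-g) (-(s * f / 2))
    rw [neg_neg, ← hB, Real.cos_neg, Real.sin_neg] at k
    rw [V, conj_rot, k, ← hA]
    simp only [sub_mul, mul_sub, smul_mul_assoc, mul_smul_comm, one_mul, mul_one, Matrix.sub_apply,
      Matrix.smul_apply, smul_eq_mul, ofReal_neg]
    ring
  have h0 : HasDerivAt (fun s : ℝ => s * f / 2) (f / 2) 0 := by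
    simpa using ((hasDerivAt_id (0 : ℝ)).mul_const f).div_const 2
  have hc := h0.cos.ofReal_comp
  have hs := h0.sin.ofReal_comp
  simp only [e]
  refine (((((hc.mul hc).mul_const _).sub (((hc.mul hs).mul_const _).const_mul I))).sub
    (((hs.mul hs).mul_const _).const_mul (I * I))).congr_deriv ?_
  rw [d]
  simp only [zero_mul, zero_div, Real.sin_zero, Real.cos_zero, Matrix.smul_apply, smul_eq_mul]
  push_cast
  linear_combination (I * f * Complex.sin (2 * g) * ε * pau N'' i j) * I_mul_I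

end QLSinAux

open QLSinAux in
theorem sinE (h1 : S_trot) : S_sin := by
  intro K M D P hG N N' N'' f g a1 a2 a3 hf hg
  obtain ⟨ε, e1, e2⟩ := comm a1 a2 a3
  have hm : Measurable fun c => f c * Real.sin (2 * g c) :=
    hf.1.mul (hg.1.const_mul 2).sin
  refine ⟨hm, fun t => ?_⟩
  have g1 : M.GU D P fun c => rot N' (g c) := by simpa using hg.2 1
  have g2 : M.GU D P fun c => rot N' (-g c) := by simpa using hg.2 (-1)
  have hV : ∀ s, M.GU D P fun c => V N N' (f c) (g c) s := fun s => by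
    have f1 : M.GU D P fun c => rot N (s * f c / 2) := by
      simpa only [div_mul_eq_mul_div] using hf.2 (s / 2)
    have f2 : M.GU D P fun c => rot N (-(s * f c / 2)) := by
      simpa only [neg_mul, div_mul_eq_mul_div] using hf.2 (-(s / 2))
    exact hG.mul _ _ (hG.mul _ _ (hG.mul _ _ g1 f1) g2) (hG.mul _ _ (hG.mul _ _ g2 f2) g1)
  have hp : ∀ s (n : ℕ), M.GU D P fun c => V N N' (f c) (g c) s ^ n := fun s n => by
    induction n with
    | zero => simpa using hG.one
    | succ n ih => simpa only [pow_succ] using hG.mul _ _ ih (hV s)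
  refine hG.lim (fun n c => V N N' (f c) (g c) (ε * t / n) ^ n) _ (fun n => hp _ n)
    (BM.rot N'' (hm.const_mul t)) (fun c => unit_rot _ _) (ae_of_all _ fun c i j => ?_)
  have k := h1 (V N N' (f c) (g c)) N'' _ (by simp [V, rot_zero, rot_add])
    (fun s => unit_mul (unit_mul (unit_mul (unit_rot _ _) (unit_rot _ _)) (unit_rot _ _))
      (unit_mul (unit_mul (unit_rot _ _) (unit_rot _ _)) (unit_rot _ _)))
    (der e2 (f c) (g c)) (ε * t) i j
  rwa [mul_mul_mul_comm, e1, one_mul] at k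

end Vale.Agent.P367.Q
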