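import Vale.Agent.P367.QLDefs

/-! # P367, local control: QLTrot -/

namespace Vale.Agent.P367.Q

open Complex MeasureTheory Filter Topology Matrix
open scoped InnerProductSpace

namespace QLTrotAux

open scoped Matrix.Norms.L2Operator

theorem norm_le {A : M2} (h : Aᴴ * A = 1) : ‖A‖ ≤ 1 :=
  (CStarRing.norm_of_mem_unitary (Matrix.mem_unitaryGroup_iff'.2 h)).le

theorem pow_sub {A C : M2} (hA : ‖A‖ ≤ 1) (hC : ‖C‖ ≤ 1) (n : ℕ) :
    ‖A ^ n - C ^ n‖ ≤ n * ‖A - C‖ := by
  induction n with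
  | zero => simp
  | succ n ih =>
    have h1 : ‖C ^ n‖ ≤ 1 := (norm_pow_le C n).trans (pow_le_one₀ (norm_nonneg _) hC)
    have h2 := (norm_mul_le A (A ^ n - C ^ n)).trans (mul_le_mul hA ih (norm_nonneg _) zero_le_one)
    have h3 := (norm_mul_le (A - C) (C ^ n)).trans (mul_le_of_le_one_right (norm_nonneg _) h1)
    rw [show A ^ (n + 1) - C ^ (n + 1) = A * (A ^ n - C ^ n) + (A - C) * C ^ n by
      rw [mul_sub, sub_mul, pow_succ', pow_succ', sub_add_sub_cancel]]
    push_cast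
    linarith [norm_add_le (A * (A ^ n - C ^ n)) ((A - C) * C ^ n)]

theorem rot_pow (N : Fin 3) (a : ℝ) : ∀ n : ℕ, rot N a ^ n = rot N (n * a)
  | 0 => by simp [rot_zero]
  | n + 1 => by rw [pow_succ, rot_pow N a n, rot_add, Nat.cast_succ, add_one_mul]

theorem lim {A C : ℕ → M2} {B : M2} (hA : ∀ n, (A n)ᴴ * A n = 1) (hC : ∀ n, (C n)ᴴ * C n = 1)
    (hB : ∀ᶠ n in atTop, C n ^ n = B) (h : Tendsto (fun n : ℕ => (n : ℝ) • (A n - C n)) atTop (𝓝 0)) :
    Tendsto (fun n => A n ^ n) atTop (𝓝 B) :=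
  tendsto_iff_norm_sub_tendsto_zero.2 (squeeze_zero' (.of_forall fun _ => norm_nonneg _)
    (hB.mono fun n hn => by
      rw [← hn, norm_smul, Real.norm_natCast]
      exact pow_sub (norm_le (hA n)) (norm_le (hC n)) n) (tendsto_zero_iff_norm_tendsto_zero.1 h))

end QLTrotAux

open QLTrotAux in
theorem trot : S_trot := by
  intro F N a h0 h1 h2 t i j
  refine tendsto_pi_nhds.1 (tendsto_pi_nhds.1 (lim (C := fun n => rot N (t / n * a))
    (fun n => h1 _) (fun n => by rw [rot_star, rot_add, neg_add_cancel, rot_zero])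
    ((eventually_ne_atTop 0).mono fun n hn => ?_)
    (tendsto_pi_nhds.2 fun i => tendsto_pi_nhds.2 fun j => ?_)) i) j
  · rw [rot_pow, ← mul_assoc, mul_div_cancel₀ _ (Nat.cast_ne_zero.2 hn)]
  · have h3 : HasDerivAt (fun s : ℝ => rot N (s * a) i j) (((-I * a) • pau N) i j) 0 :=
      (((hasDerivAt_mul_const a).cos.ofReal_comp.mul_const ((1 : M2) i j)).sub
        (((hasDerivAt_mul_const a).sin.ofReal_comp.const_mul I).mul_const (pau N i j))).congr_deriv
        (by simp)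
    simpa [h0, rot_zero, div_eq_inv_mul, Function.comp_def] using
      (((h2 i j).sub h3).hasFDerivAt.lim_real t).comp tendsto_natCast_atTop_atTop

end Vale.Agent.P367.Q
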