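import Vale.Agent.P367.QLSc
import Vale.Agent.P367.QLTrot
import Vale.Agent.P367.QLSin
import Vale.Agent.P367.QLRv
import Vale.Agent.P367.QLAlg
import Vale.Agent.P367.QLPv
import Vale.Agent.P367.QLRed
import Vale.Agent.P367.QLBip
import Vale.Agent.P367.QLRk
import Vale.Agent.P367.QLR0
import Vale.Agent.P367.QLProc

/-! # P367, local control: the gates of the next level lie in the closure -/

namespace Vale.Agent.P367.Q

open Complex MeasureTheory Filter Topology Matrix

namespace FS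

variable {K : ℕ} {M : FS (Lab K) (muK K)} {T : Set ℝ} {D : Fin K → Lab K → ℝ} {A : Set ℝ}
  {U : M.H →L[ℂ] M.H}

theorem lev_cut {k : ℕ} {a : SimpleFunc (Lab K) ℝ} (ha : Lev k a) (B : Set ℝ) (v : ℝ) :
    Lev k (((Prod.fst ⁻¹' B : Set (Lab K)) \ a ⁻¹' {v}).indicator (1 : Lab K → ℝ)) := by
  intro c c' h1 h2
  have h3 := ha c c' h1 h2
  have h4 : c ∈ (Prod.fst ⁻¹' B : Set (Lab K)) \ a ⁻¹' {v} ↔
      c' ∈ (Prod.fst ⁻¹' B : Set (Lab K)) \ a ⁻¹' {v} := by
    simp only [Set.mem_sdiff, Set.mem_preimage, Set.mem_singleton_iff, h1, h3]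
  by_cases hc : c ∈ (Prod.fst ⁻¹' B : Set (Lab K)) \ a ⁻¹' {v}
  · rw [Set.indicator_of_mem hc, Set.indicator_of_mem (h4.1 hc)]; rfl
  · rw [Set.indicator_of_notMem hc, Set.indicator_of_notMem fun h => hc (h4.2 h)]

theorem lev_fst (k : ℕ) (B : Set ℝ) (t : ℝ) :
    Lev k fun c : Lab K => t * (Prod.fst ⁻¹' B : Set (Lab K)).indicator (1 : Lab K → ℝ) c := by
  intro c c' h1 _
  have h4 : c ∈ (Prod.fst ⁻¹' B : Set (Lab K)) ↔ c' ∈ (Prod.fst ⁻¹' B : Set (Lab K)) := by
    simp only [Set.mem_preimage, h1]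
  by_cases hc : c ∈ (Prod.fst ⁻¹' B : Set (Lab K))
  · simp only [Set.indicator_of_mem hc, Set.indicator_of_mem (h4.1 hc), Pi.one_apply]
  · simp only [Set.indicator_of_notMem hc, Set.indicator_of_notMem fun h => hc (h4.2 h)]

/-- all gates of level `k` on `A` preserve the closure once the rotations and the interactions of
two classes do -/
theorem steps_sc {P : Gate K → Prop} (hD : Fam T D) (hA : MeasurableSet A) (hP : ∀ g, P g → g.Meas)
    {k : ℕ} (hr : ∀ N α, Measurable α → Lev k α → (∀ c : Lab K, c.1 ∉ A → α c = 0) →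
      M.RV D P N α)
    (hb : ∀ B, MeasurableSet B → ∀ (γ : ℝ) (a0 b0 : SimpleFunc (Lab K) ℝ),
      (∀ c, a0 c = γ * (Prod.fst ⁻¹' (A ∩ B) : Set (Lab K)).indicator 1 c) →
      (∀ c, b0 c = (Prod.fst ⁻¹' (A \ B) : Set (Lab K)).indicator 1 c) → M.PV D P a0 b0)
    (h : M.Steps D (Gate.OK k A) 1 U) : M.SC D P U := by
  obtain ⟨hs, hg⟩ := scE K M T D P hD hP
  have hv := rvE (sinE trot) K M D P hs hg
  have hp := pvE K M T D P hD
  induction h with
  | refl => exact hs.one
  | @step g U' hg' _ ih =>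
    cases g with
    | loc N α => exact hv.use N α U' (hr N α hg'.1 hg'.2.1 hg'.2.2) ih
    | pul a b =>
      obtain ⟨ha, hb', B, hB, h1, h2⟩ := hg'
      have m1 : MeasurableSet (Prod.fst ⁻¹' (A ∩ B) : Set (Lab K)) := measurable_fst (hA.inter hB)
      have m2 : MeasurableSet (Prod.fst ⁻¹' (A \ B) : Set (Lab K)) := measurable_fst (hA.diff hB)
      refine red K M D P hp _ _ a b m1 m2 ?_ (hb B hB) h1 h2 (fun v => ?_) (fun v => ?_) U' ih
      · exact Set.disjoint_left.2 fun c h3 h4 => h4.2 h3.2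
      · refine hr 0 _ (measurable_one.indicator (m1.diff (a.measurableSet_fiber v)))
          (lev_cut ha _ v) fun c hc => Set.indicator_of_notMem (fun h3 => hc h3.1.1) _
      · refine hr 0 _ (measurable_one.indicator (m2.diff (b.measurableSet_fiber v)))
          (lev_cut hb' _ v) fun c hc => Set.indicator_of_notMem (fun h3 => hc h3.1.1) _

theorem lk (hD : Fam T D) (hA : MeasurableSet A) (k : Fin K)
    (h : M.Steps D (Gate.OK (k.val + 1) A) 1 U) : M.SC D (Gate.Prim k A) U := by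
  have hP : ∀ g, Gate.Prim k A g → g.Meas := fun g hg => hg.meas hA
  obtain ⟨hs, hg⟩ := scE K M T D _ hD hP
  have hv := rvE (sinE trot) K M D _ hs hg
  refine steps_sc hD hA hP (rk algE K M D A k hA hv) (fun B hB γ a0 b0 h1 h2 V hV => ?_) h
  refine hs.gate _ V (Or.inl ⟨?_, ?_, B, hB, fun c hc => ?_, fun c hc => ?_⟩) hV
  · rw [show (a0 : Lab K → ℝ) = _ from funext h1]
    exact lev_fst _ _ _
  · rw [show (b0 : Lab K → ℝ) = _ from funext fun c => (h2 c).trans (one_mul _).symm]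
    exact lev_fst _ _ _
  · by_contra h3
    have h4 : c ∉ (Prod.fst ⁻¹' (A ∩ B) : Set (Lab K)) := h3
    rw [h1, Set.indicator_of_notMem h4, mul_zero] at hc
    exact hc rfl
  · by_contra h3
    have h4 : c ∉ (Prod.fst ⁻¹' (A \ B) : Set (Lab K)) := h3
    rw [h2, Set.indicator_of_notMem h4] at hc
    exact hc rfl

theorem b0 (hD : Fam T D) (hA : MeasurableSet A) (h : M.Steps D (Gate.OK 0 A) 1 U) :
    M.SC D Gate.Base U := by
  have hP : ∀ g : Gate K, Gate.Base g → g.Meas := fun g hg => hg.meas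
  obtain ⟨hs, hg⟩ := scE K M T D _ hD hP
  have hv := rvE (sinE trot) K M D _ hs hg
  have hr := r0 algE K M D hv
  have hi : ∀ B : Set ℝ, MeasurableSet B →
      M.RV D Gate.Base 0 ((Prod.fst ⁻¹' B : Set (Lab K)).indicator 1) := fun B hB =>
    hr 0 _ (measurable_one.indicator (measurable_fst hB)) (by
      have h1 := lev_fst (K := K) 0 B 1
      simp only [one_mul] at h1
      exact h1)
  refine steps_sc hD hA hP (fun N α h1 h2 _ => hr N α h1 h2) (fun B hB => ?_) h
  refine bip K M D _ (pvE K M T D _ hD) _ _ (measurable_fst (hA.inter hB))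
    (measurable_fst (hA.diff hB)) (Set.disjoint_left.2 fun c h3 h4 => h4.2 h3.2)
    (fun γ V hV => hs.gate _ V (Or.inr (Or.inr ⟨γ, rfl⟩)) hV) (hi _ (hA.inter hB))
    (hi _ (hA.diff hB))

end FS

end Vale.Agent.P367.Q
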