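import Vale.Agent.P367.QMDefs

/-! # P367, existence of the model: QMCoh -/

namespace Vale.Agent.P367.Q

open Complex MeasureTheory Filter Topology Matrix TopologicalSpace
open scoped InnerProductSpace ENNReal

namespace QMCohAux

variable {h : Type} [NormedAddCommGroup h] [InnerProductSpace ℂ h]

theorem conj_kk (a b : h) : (starRingEnd ℂ) (kk b a) = kk a b := by
  rw [kk, kk, ← exp_conj, map_sub, map_sub, inner_conj_symm, conj_ofReal, conj_ofReal]
  congr 1
  ring

/-- the form on finitely supported functions -/
@[reducible] noncomputable def core (h1 : S_psd) (h : Type) [NormedAddCommGroup h]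
    [InnerProductSpace ℂ h] : PreInnerProductSpace.Core ℂ (h →₀ ℂ) where
  inner f g := f.sum fun a z => g.sum fun b w => (starRingEnd ℂ) z * w * kk a b
  conj_inner_symm f g := by
    rw [Finsupp.sum_comm]
    simp only [map_finsuppSum, map_mul, conj_conj, conj_kk]
    exact Finsupp.sum_congr fun a _ => Finsupp.sum_congr fun b _ => by rw [mul_comm (g b)]
  add_left _ _ _ := by
    rw [Finsupp.sum_add_index'] <;> simp [← Finsupp.sum_add, add_mul]
  smul_left _ _ _ := by
    rw [Finsupp.sum_smul_index] <;> simp [Finsupp.mul_sum, ← mul_assoc]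
  re_inner_nonneg f := h1 h f.support f

end QMCohAux

open QMCohAux in
theorem cohE (h1 : S_psd) : S_coh := by
  intro h _ _
  let := core h1 h
  let : SeminormedAddCommGroup (h →₀ ℂ) :=
    InnerProductSpace.Core.toSeminormedAddCommGroup (𝕜 := ℂ)
  let : InnerProductSpace ℂ (h →₀ ℂ) := .ofCore _
  have hi : ∀ f g : h →₀ ℂ,
      ⟪f, g⟫_ℂ = f.sum fun a z => g.sum fun b w => (starRingEnd ℂ) z * w * kk a b := fun _ _ => rfl
  refine ⟨{ G := UniformSpace.Completion (h →₀ ℂ)
            e := fun a => ((Finsupp.single a 1 : h →₀ ℂ) : UniformSpace.Completion (h →₀ ℂ))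
            inner_e := fun a b => ?_
            dense := ?_ }⟩
  · rw [UniformSpace.Completion.inner_coe, hi]
    simp
  · refine UniformSpace.Completion.denseRange_coe.mono ?_
    rintro _ ⟨f, rfl⟩
    induction f using Finsupp.induction with
    | zero =>
      rw [UniformSpace.Completion.coe_zero]
      exact zero_mem _
    | single_add a z f _ _ ih =>
      rw [UniformSpace.Completion.coe_add, ← mul_one z, ← smul_eq_mul, ← Finsupp.smul_single,
        UniformSpace.Completion.coe_smul]
      exact add_mem (Submodule.smul_mem _ _ (Submodule.subset_span ⟨a, rfl⟩)) ih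

end Vale.Agent.P367.Q
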