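import Vale.Agent.P367.QMDefs

/-! # P367, existence of the model: QMEmb -/

namespace Vale.Agent.P367.Q

open Complex MeasureTheory Filter Topology Matrix TopologicalSpace
open scoped InnerProductSpace ENNReal

namespace QMEmbAux

theorem countable {H : Type} [NormedAddCommGroup H] [InnerProductSpace ℂ H] [SeparableSpace H]
    {w : Set H} (hw : Orthonormal ℂ ((↑) : w → H)) : w.Countable := by
  refine Set.PairwiseDisjoint.countable_of_isOpen (s := fun x : H => Metric.ball x (1 / 2)) ?_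
    (fun x _ => Metric.isOpen_ball) fun x _ => Metric.nonempty_ball.2 (by norm_num)
  intro x hx y hy hxy
  refine Metric.ball_disjoint_ball ?_
  have h1 : ‖x‖ = 1 := hw.1 ⟨x, hx⟩
  have h2 : ‖y‖ = 1 := hw.1 ⟨y, hy⟩
  have h3 : ⟪x, y⟫_ℂ = 0 := hw.2 (i := ⟨x, hx⟩) (j := ⟨y, hy⟩) fun h => hxy (congrArg Subtype.val h)
  have h4 := norm_sub_sq (𝕜 := ℂ) x y
  rw [h1, h2, h3, map_zero] at h4
  rw [dist_eq_norm]
  nlinarith [norm_nonneg (x - y)]

end QMEmbAux

theorem emb : S_emb := by
  intro H _ _ _ _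
  obtain ⟨w, b, hb⟩ := exists_hilbertBasis ℂ H
  have hw : Orthonormal ℂ ((↑) : w → H) := hb ▸ b.orthonormal
  have : Countable w := (QMEmbAux.countable hw).to_subtype
  obtain ⟨f, hf⟩ := Countable.exists_injective_nat w
  have : Fact ((0 : ℝ) < 1) := ⟨one_pos⟩
  have hv := (orthonormal_fourier (T := 1)).comp (fun x : w => (f x : ℤ))
    (Nat.cast_injective.comp hf)
  exact ⟨hv.orthogonalFamily.linearIsometry.comp b.repr.toLinearIsometry⟩

end Vale.Agent.P367.Q
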