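import Vale.Agent.P367.QMDefs

/-! # P367, existence of the model: QMFock -/

namespace Vale.Agent.P367.Q

open Complex MeasureTheory Filter Topology Matrix TopologicalSpace
open scoped InnerProductSpace ENNReal

namespace QMFockAux

variable {h : Type} [NormedAddCommGroup h] [InnerProductSpace ℂ h]

theorem exD (V : CohV h) (v : h → V.G) (hv : ∀ a b, ⟪v a, v b⟫_ℂ = ⟪V.e a, V.e b⟫_ℂ) :
    ∃ D : V.G →L[ℂ] V.G, (∀ g, D (V.e g) = v g) ∧ ∀ ψ, ‖D ψ‖ = ‖ψ‖ := by
  have hd : DenseRange (Finsupp.linearCombination ℂ V.e) := by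
    have := V.dense
    rwa [← Finsupp.range_linearCombination, LinearMap.coe_range] at this
  have hn : ∀ f, ‖Finsupp.linearCombination ℂ v f‖ = ‖Finsupp.linearCombination ℂ V.e f‖ := by
    intro f
    rw [@norm_eq_sqrt_re_inner ℂ, @norm_eq_sqrt_re_inner ℂ]
    simp only [Finsupp.linearCombination_apply, Finsupp.sum, sum_inner, inner_sum,
      inner_smul_left, inner_smul_right, hv]
  have he := LinearMap.extendOfNorm_eq (f := Finsupp.linearCombination ℂ v) hd
    ⟨1, fun f => by rw [one_mul, hn]⟩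
  refine ⟨(Finsupp.linearCombination ℂ v).extendOfNorm (Finsupp.linearCombination ℂ V.e),
    fun g => by simpa using he (Finsupp.single g 1), fun ψ => ?_⟩
  refine hd.induction_on ψ (isClosed_eq (by fun_prop) continuous_norm) fun f => ?_
  rw [he, hn]

theorem inn (V : CohV h) (x a b : h) :
    ⟪exp (-I * (⟪x, a⟫_ℂ).im) • V.e (a + x), exp (-I * (⟪x, b⟫_ℂ).im) • V.e (b + x)⟫_ℂ =
      ⟪V.e a, V.e b⟫_ℂ := by
  rw [inner_smul_left, inner_smul_right, V.inner_e, V.inner_e, kk, kk, ← exp_conj, ← exp_add,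
    ← exp_add, norm_add_sq (𝕜 := ℂ), norm_add_sq (𝕜 := ℂ), inner_add_left, inner_add_right,
    inner_add_right, inner_self_eq_norm_sq_to_K]
  have h1 : (⟪b, x⟫_ℂ).re = (⟪x, b⟫_ℂ).re := inner_re_symm (𝕜 := ℂ) b x
  have h2 : (⟪a, x⟫_ℂ).im = -(⟪x, a⟫_ℂ).im := inner_im_symm (𝕜 := ℂ) a x
  congr 1
  apply Complex.ext
  · simp [← ofReal_pow, h1]
    ring
  · simp [← ofReal_pow, h2]

theorem cont_e (V : CohV h) : Continuous V.e := by
  refine continuous_iff_continuousAt.2 fun b => tendsto_iff_norm_sub_tendsto_zero.2 ?_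
  have e : ∀ a, ‖V.e a - V.e b‖ = √((kk a a).re - 2 * (kk a b).re + (kk b b).re) := fun a => by
    rw [← Real.sqrt_sq (norm_nonneg _), norm_sub_sq (𝕜 := ℂ), ← inner_self_eq_norm_sq (𝕜 := ℂ),
      ← inner_self_eq_norm_sq (𝕜 := ℂ), V.inner_e, V.inner_e, V.inner_e]
    rfl
  have c : Continuous fun a : h => √((kk a a).re - 2 * (kk a b).re + (kk b b).re) := by
    unfold kk
    fun_prop
  simp only [e]
  refine c.tendsto' b 0 ?_
  rw [show (kk b b).re - 2 * (kk b b).re + (kk b b).re = 0 by ring, Real.sqrt_zero]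

end QMFockAux

open QMFockAux in
theorem fock (h1 : S_coh) : S_fock := by
  intro h _ _ _
  obtain ⟨V⟩ := h1 h
  choose D hD hn using fun x : h => exD V _ (inn V x)
  have ext : ∀ {A B : V.G →L[ℂ] V.G}, (∀ g, A (V.e g) = B (V.e g)) → A = B := fun k =>
    ContinuousLinearMap.ext_on V.dense (by rintro _ ⟨g, rfl⟩; exact k g)
  have zero : D 0 = 1 := ext fun g => by simp [hD]
  have mul : ∀ x y, D x * D y = exp (-I * (⟪x, y⟫_ℂ).im) • D (x + y) := fun x y => ext fun g => by
    rw [mul_apply_eq_comp, _root_.smul_apply, hD, hD, map_smul, hD,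
      smul_smul, smul_smul, ← exp_add, ← exp_add, inner_add_left, inner_add_right,
      add_assoc g, add_comm y x, add_im, add_im]
    congr 2
    push_cast
    ring
  have sep : SeparableSpace V.G := by
    have k := ((isSeparable_range (cont_e V)).span (R := ℂ)).closure
    rwa [V.dense.closure_eq, isSeparable_univ_iff] at k
  refine ⟨⟨V.G, V.e 0, D, zero, mul, fun x => ?_, hn, fun x => ?_, fun ψ => ?_⟩⟩
  · have k : D x * D (-x) = 1 := by
      rw [mul, add_neg_cancel, zero, inner_neg_right, inner_self_eq_norm_sq_to_K]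
      simp [← ofReal_pow]
    rw [ContinuousLinearMap.star_eq_adjoint]
    refine ((ContinuousLinearMap.eq_adjoint_iff _ _).2 fun a b => ?_).symm
    have k2 := LinearIsometry.inner_map_map (⟨(D x).toLinearMap, hn x⟩ : V.G →ₗᵢ[ℂ] V.G)
      (D (-x) a) b
    rw [← k2]
    exact congrArg (fun z => ⟪z, D x b⟫_ℂ) (congrArg (fun A : V.G →L[ℂ] V.G => A a) k)
  · rw [hD, inner_smul_right, V.inner_e, kk]
    simp
  · refine continuous_of_uniform_approx_of_continuous fun u hu => ?_
    obtain ⟨ε, hε, hu⟩ := Metric.mem_uniformity_dist.1 hu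
    obtain ⟨φ, h2, h3⟩ := V.dense.exists_dist_lt ψ hε
    refine ⟨fun x => D x φ, ?_, fun x => hu ?_⟩
    · refine Submodule.span_induction (p := fun φ _ => Continuous fun x => D x φ) ?_ ?_ ?_ ?_ h2
      · rintro _ ⟨g, rfl⟩
        have := cont_e V
        simp only [hD]
        fun_prop
      · simpa using continuous_const
      · intro a b _ _ ha hb
        simp only [map_add]
        exact ha.add hb
      · intro c a _ ha
        simp only [map_smul]
        exact ha.const_smul c
    · rwa [dist_eq_norm, ← map_sub, hn, ← dist_eq_norm]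

end Vale.Agent.P367.Q
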