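import Vale.Agent.P367.QMDefs

/-! # P367, existence of the model: QMMat -/

namespace Vale.Agent.P367.Q

open Complex MeasureTheory Filter Topology Matrix TopologicalSpace
open scoped InnerProductSpace ENNReal

namespace QMMatAux

variable {G : Type} [NormedAddCommGroup G] [InnerProductSpace ℂ G]

/-- an operator given by its two components -/
noncomputable def pi2 (f : Fin 2 → E2 G →L[ℂ] G) : E2 G →L[ℂ] E2 G :=
  (PiLp.continuousLinearEquiv 2 ℂ fun _ : Fin 2 => G).symm.toContinuousLinearMap ∘L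
    ContinuousLinearMap.pi f

/-- the action of a matrix -/
noncomputable def mat (m : M2) : E2 G →L[ℂ] E2 G :=
  pi2 fun i => m i 0 • PiLp.proj 2 (fun _ : Fin 2 => G) 0 + m i 1 • PiLp.proj 2 (fun _ => G) 1

/-- the diagonal action of a bath operator -/
noncomputable def dg (T : G →L[ℂ] G) : E2 G →L[ℂ] E2 G :=
  pi2 fun i => T ∘L PiLp.proj 2 (fun _ : Fin 2 => G) i

/-- the state with equal components -/
noncomputable def om (o : G) : E2 G := WithLp.toLp 2 fun _ => ((√2)⁻¹ : ℝ) • o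

theorem mat_apply (m : M2) (y : E2 G) (i : Fin 2) : mat m y i = m i 0 • y 0 + m i 1 • y 1 := rfl

theorem dg_apply (T : G →L[ℂ] G) (y : E2 G) (i : Fin 2) : dg T y i = T (y i) := rfl

theorem om_apply (o : G) (i : Fin 2) : om o i = ((√2)⁻¹ : ℝ) • o := rfl

theorem mat_add (m m' : M2) : (mat (m + m') : E2 G →L[ℂ] E2 G) = mat m + mat m' := by
  ext y i
  simp only [_root_.add_apply, PiLp.add_apply, mat_apply, Matrix.add_apply]
  module

theorem mat_smul (a : ℂ) (m : M2) : (mat (a • m) : E2 G →L[ℂ] E2 G) = a • mat m := by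
  ext y i
  simp only [_root_.smul_apply, PiLp.smul_apply, mat_apply, Matrix.smul_apply,
    smul_eq_mul]
  module

theorem mat_cont : Continuous (mat : M2 → E2 G →L[ℂ] E2 G) :=
  LinearMap.continuous_of_finiteDimensional
    (⟨⟨mat, mat_add⟩, mat_smul⟩ : M2 →ₗ[ℂ] E2 G →L[ℂ] E2 G)

theorem mat_le (m : M2) (C : ℝ) (h : ∀ i j, ‖m i j‖ ≤ C) :
    ‖(mat m : E2 G →L[ℂ] E2 G)‖ ≤ 4 * C := by
  have h0 : 0 ≤ C := (norm_nonneg _).trans (h 0 0)
  refine ContinuousLinearMap.opNorm_le_bound _ (by positivity) fun y => ?_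
  have h1 : ∀ i j, ‖m i j • y j‖ ≤ C * ‖y‖ := fun i j => by
    rw [norm_smul]
    exact mul_le_mul (h i j) (PiLp.norm_apply_le y j) (norm_nonneg _) h0
  have h2 : ∀ i, ‖mat m y i‖ ^ 2 ≤ (2 * (C * ‖y‖)) ^ 2 := fun i => by
    rw [mat_apply]
    exact pow_le_pow_left₀ (norm_nonneg _)
      ((norm_add_le _ _).trans (by linarith [h1 i 0, h1 i 1])) 2
  refine le_of_pow_le_pow_left₀ two_ne_zero (by positivity) ?_
  rw [PiLp.norm_sq_eq_of_L2, Fin.sum_univ_two]
  nlinarith [h2 0, h2 1, sq_nonneg (C * ‖y‖)]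

theorem dg_le (T : G →L[ℂ] G) (h : ∀ ψ, ‖T ψ‖ = ‖ψ‖) : ‖dg T‖ ≤ 1 := by
  refine ContinuousLinearMap.opNorm_le_bound _ zero_le_one fun y => ?_
  refine le_of_pow_le_pow_left₀ two_ne_zero (by positivity) ?_
  simp only [one_mul, PiLp.norm_sq_eq_of_L2, dg_apply, h, le_refl]

end QMMatAux

open QMMatAux in
theorem matE : S_mat := by
  intro G _ _ _
  refine ⟨mat, dg, om, mat_cont, ?_, mat_add, mat_smul, fun m m' => ?_, fun m => ?_, mat_le, ?_,
    fun a T => ?_, fun T T' => ?_, fun T => ?_, dg_le, fun T hT y => ?_, fun m T => ?_,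
    fun m T o => ?_⟩
  · ext y i
    fin_cases i <;> simp [mat_apply]
  · ext y i
    simp only [mul_apply_eq_comp, mat_apply, Matrix.mul_apply, Fin.sum_univ_two]
    module
  · refine ((ContinuousLinearMap.eq_adjoint_iff _ _).2 fun x y => ?_).symm
    simp only [PiLp.inner_apply, Fin.sum_univ_two, mat_apply, inner_add_left, inner_add_right,
      inner_smul_left, inner_smul_right, conjTranspose_apply, star_def, conj_conj]
    ring
  · ext y i
    rfl
  · ext y i
    rfl
  · ext y i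
    rfl
  · refine ((ContinuousLinearMap.eq_adjoint_iff _ _).2 fun x y => ?_).symm
    simp only [PiLp.inner_apply, dg_apply, ContinuousLinearMap.star_eq_adjoint,
      ContinuousLinearMap.adjoint_inner_left]
  · exact (PiLp.continuous_toLp 2 _).comp (continuous_pi fun i => hT (y i))
  · ext y i
    simp only [mul_apply_eq_comp, mat_apply, dg_apply, map_add, map_smul]
  · have h1 : (((√2)⁻¹ : ℝ) : ℂ) * (((√2)⁻¹ : ℝ) : ℂ) = 1 / 2 := by
      rw [← ofReal_mul, ← mul_inv, Real.mul_self_sqrt zero_le_two]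
      norm_num
    simp only [PiLp.inner_apply, Fin.sum_univ_two, mat_apply, dg_apply, om_apply,
      ← Complex.coe_smul, map_smul, inner_add_right, inner_smul_left, inner_smul_right, conj_ofReal,
      vac]
    linear_combination (m 0 0 + m 0 1 + m 1 0 + m 1 1) * ⟪o, T o⟫_ℂ * h1

end Vale.Agent.P367.Q
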