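import Vale.Agent.P367.QMDefs

/-! # P367, existence of the model: QMMo -/

namespace Vale.Agent.P367.Q

open Complex MeasureTheory Filter Topology Matrix TopologicalSpace
open scoped InnerProductSpace ENNReal

namespace QMMoAux

variable {Λ : Type} [MeasurableSpace Λ] (μ : Measure Λ) {E : Type} [NormedAddCommGroup E]
  [InnerProductSpace ℂ E]

theorem ex : ∃ mo : (Λ → E →L[ℂ] E) → Lp E 2 μ →L[ℂ] Lp E 2 μ,
    ∀ A, MemLp A ∞ μ → ∀ f, mo A f =ᵐ[μ] fun c => A c (f c) := by
  classical
  refine ⟨fun A => if h : MemLp A ∞ μ then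
    (ContinuousLinearMap.id ℂ (E →L[ℂ] E)).holderL μ ∞ 2 2 (h.toLp A) else 0, fun A h f => ?_⟩
  simp only [dif_pos h, ContinuousLinearMap.holderL_apply_apply]
  filter_upwards [(ContinuousLinearMap.id ℂ (E →L[ℂ] E)).coeFn_holder (r := 2) (h.toLp A) f,
    h.coeFn_toLp] with c h1 h2
  rw [h1, h2]
  rfl

theorem nrm (u : E) : ‖⟪u, u⟫_ℂ‖ = ‖u‖ ^ 2 := by
  rw [inner_self_eq_norm_sq_to_K, norm_pow, RCLike.norm_ofReal, abs_norm]

end QMMoAux

open QMMoAux in
theorem moE : S_mo := by
  intro Λ _ μ _ E _ _ _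
  obtain ⟨mo, h⟩ := ex μ (E := E)
  refine ⟨mo, h, ?_, fun A B hA hB => ?_, fun a A hA => ?_, fun A B hA hB => ?_, fun A hA => ?_,
    fun A C hA hC hb => ?_, fun A B C hA hB hb hl f => ?_⟩
  · exact ContinuousLinearMap.ext fun f => Lp.ext (h _ (memLp_top_const 1) f)
  · refine ContinuousLinearMap.ext fun f => Lp.ext ?_
    filter_upwards [h (fun c => A c + B c) (hA.add hB) f, h A hA f, h B hB f,
      Lp.coeFn_add (mo A f) (mo B f)] with c h1 h2 h3 h4
    rw [h1, ContinuousLinearMap.add_apply (mo A), h4, Pi.add_apply, h2, h3]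
    rfl
  · refine ContinuousLinearMap.ext fun f => Lp.ext ?_
    filter_upwards [h (fun c => a • A c) (hA.const_smul a) f, h A hA f,
      Lp.coeFn_smul a (mo A f)] with c h1 h2 h3
    rw [h1, show (a • mo A) f = a • mo A f from rfl, h3, Pi.smul_apply, h2]
    rfl
  · refine ContinuousLinearMap.ext fun f => Lp.ext ?_
    filter_upwards [h (fun c => A c * B c) (hB.mul' hA) f, h A hA (mo B f), h B hB f]
      with c h1 h2 h3
    rw [h1, ContinuousLinearMap.mul_apply (mo A), h2, h3]
    rfl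
  · refine ((ContinuousLinearMap.eq_adjoint_iff _ _).2 fun f g => ?_).symm
    rw [L2.inner_def, L2.inner_def]
    refine integral_congr_ae ?_
    filter_upwards [h (fun c => star (A c)) hA.star f, h A hA g] with c h1 h2
    rw [h1, h2]
    exact ContinuousLinearMap.adjoint_inner_left _ _ _
  · refine ContinuousLinearMap.opNorm_le_bound _ hC fun f => Lp.norm_le_mul_norm_of_ae_le_mul ?_
    filter_upwards [h A hA f] with c h1
    rw [h1]
    exact (A c).le_of_opNorm_le (hb c) _
  · have e : ∀ n, ∀ᵐ c ∂μ, (mo (A n) f - mo B f) c = A n c (f c) - B c (f c) := fun n => by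
      filter_upwards [h _ (hA n) f, h B hB f, Lp.coeFn_sub (mo (A n) f) (mo B f)] with c h1 h2 h3
      rw [h3, Pi.sub_apply, h1, h2]
    have t := tendsto_integral_of_dominated_convergence (μ := μ) (f := fun _ => (0 : ℂ))
      (F := fun n c => ⟪(mo (A n) f - mo B f) c, (mo (A n) f - mo B f) c⟫_ℂ)
      (fun c => (2 * C) ^ 2 * ‖f c‖ ^ 2) (fun n => (L2.integrable_inner _ _).1)
      (((memLp_two_iff_integrable_sq_norm (Lp.aestronglyMeasurable f)).1 (Lp.memLp f)).const_mul _)
      (fun n => ?_) ?_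
    · simp only [← L2.inner_def, integral_zero] at t
      have t1 := t.norm.sqrt
      simp only [nrm, norm_zero, Real.sqrt_zero, Real.sqrt_sq (norm_nonneg _)] at t1
      exact tendsto_iff_norm_sub_tendsto_zero.2 t1
    · filter_upwards [e n, hl] with c h1 h2
      have b1 : ∀ n, ‖A n c (f c)‖ ≤ C * ‖f c‖ := fun n => (A n c).le_of_opNorm_le (hb n c) _
      have b2 : ‖B c (f c)‖ ≤ C * ‖f c‖ := le_of_tendsto' (h2 (f c)).norm b1
      rw [nrm, h1, ← mul_pow]
      refine pow_le_pow_left₀ (norm_nonneg _) ((norm_sub_le _ _).trans ?_) 2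
      linarith [b1 n]
    · filter_upwards [ae_all_iff.2 e, hl] with c h1 h2
      have t1 := (h2 (f c)).sub_const (B c (f c))
      have t2 := t1.inner (𝕜 := ℂ) t1
      rw [sub_self, inner_zero_left] at t2
      simpa only [h1] using t2

end Vale.Agent.P367.Q
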