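import Vale.Agent.P367.QMPsd
import Vale.Agent.P367.QMCoh
import Vale.Agent.P367.QMFock
import Vale.Agent.P367.QMEmb
import Vale.Agent.P367.QMMat
import Vale.Agent.P367.QMMo

/-! # P367: existence of the model -/

namespace Vale.Agent.P367.Q

open Complex MeasureTheory Filter Topology Matrix TopologicalSpace
open scoped InnerProductSpace ENNReal

theorem modelOf (h1 : S_fock) (h2 : S_emb) (h3 : S_mat) (h4 : S_mo) {Λ : Type}
    [MeasurableSpace Λ] [MeasurableSpace.CountablyGenerated Λ] (μ : Measure Λ)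
    [IsProbabilityMeasure μ] : Nonempty (FS Λ μ) := by
  haveI : Fact ((2 : ℝ≥0∞) ≠ ∞) := ⟨ENNReal.ofNat_ne_top⟩
  obtain ⟨F⟩ := h1 h0
  obtain ⟨mat, dg, om, hm⟩ := h3 F.G
  obtain ⟨mo, ho⟩ := h4 Λ μ (E2 F.G)
  haveI : SecondCountableTopology F.G := UniformSpace.secondCountable_of_separable _
  obtain ⟨ι⟩ := h2 (Lp (E2 F.G) 2 μ)
  have L : ∀ {u : Λ → M2}, BM u → MemLp (fun c => mat (u c)) ∞ μ := fun {u} hu => by
    obtain ⟨hu, C, hC⟩ := hu
    have s : StronglyMeasurable fun c => (u c : Fin 2 → Fin 2 → ℂ) :=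
      (measurable_pi_iff.2 fun i => measurable_pi_iff.2 fun j => hu i j).stronglyMeasurable
    exact memLp_top_of_bound (hm.cont.comp_stronglyMeasurable s).aestronglyMeasurable (4 * C)
      (ae_of_all _ fun c => hm.le _ C (hC c))
  have Lc : ∀ T : E2 F.G →L[ℂ] E2 F.G, MemLp (fun _ : Λ => T) ∞ μ := fun T => memLp_top_const T
  refine ⟨
    { H := Lp (E2 F.G) 2 μ
      Ω := Lp.const 2 μ (om F.o)
      loc := fun u => mo fun c => mat (u c)
      W := fun x => mo fun _ => dg (F.D (ι x))
      loc_one := by simp only [hm.one, ho.one]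
      loc_add := fun hu hv => by simp only [hm.add, ho.add _ _ (L hu) (L hv)]
      loc_smul := fun a _ hu => by simp only [hm.smul, ho.smul a _ (L hu)]
      loc_mul := fun hu hv => by simp only [hm.mul, ho.mul _ _ (L hu) (L hv)]
      loc_star := fun hu => by simp only [ho.star _ (L hu), hm.star]
      loc_le := fun hu hC h => ho.le _ _ (L hu) (by linarith) fun c => hm.le _ _ (h c)
      loc_dom := fun {u v C} hu hv hC h => ho.dom _ _ (4 * C) (fun n => L (hu n)) (L hv)
        (fun n c => hm.le _ _ (hC n c)) (h.mono fun c hc y => ?_)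
      W_zero := by simp only [map_zero, F.zero, hm.dg_one, ho.one]
      W_mul := fun x y => by
        rw [← ho.mul _ _ (Lc _) (Lc _), ← ho.smul _ _ (Lc _), ← hm.dg_mul, F.mul, hm.dg_smul,
          ι.inner_map_map, map_add]
      W_star := fun x => by simp only [ho.star _ (Lc _), hm.dg_star, F.star, map_neg]
      W_loc := fun x _ hu => by
        rw [← ho.mul _ _ (Lc _) (L hu), ← ho.mul _ _ (L hu) (Lc _)]
        simp only [hm.comm]
      W_vac := fun x u hu => ?_
      W_cont := fun ψ => ?_ }⟩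
  · have t : Tendsto (fun n => u n c) atTop (𝓝 (v c)) :=
      tendsto_pi_nhds.2 fun i => tendsto_pi_nhds.2 fun j => hc i j
    exact ((ContinuousLinearMap.apply ℂ _ y).continuous.tendsto _).comp
      ((hm.cont.tendsto _).comp t)
  · rw [L2.inner_def, ← ι.norm_map x, ← F.vac, ← integral_mul_const]
    refine integral_congr_ae ?_
    filter_upwards [Lp.coeFn_const (p := 2) (μ := μ) (om F.o),
      ho.ae _ (L hu) (mo (fun _ => dg (F.D (ι x))) (Lp.const 2 μ (om F.o))),
      ho.ae _ (Lc (dg (F.D (ι x)))) (Lp.const 2 μ (om F.o))] with c e1 e2 e3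
    rw [e2, e3, e1]
    exact hm.vac _ _ _
  · refine continuous_iff_seqContinuous.2 fun x a hx => ?_
    exact ho.dom (fun n _ => dg (F.D (ι (x n)))) (fun _ => dg (F.D (ι a))) 1 (fun _ => Lc _) (Lc _)
      (fun n _ => hm.dg_le _ (F.norm _)) (ae_of_all _ fun _ y =>
        ((hm.dg_cont (fun z => F.D (ι z)) (fun φ => (F.cont φ).comp ι.continuous) y).tendsto
          a).comp hx) ψ

theorem model (K : ℕ) : Nonempty (FS (Lab K) (muK K)) :=
  modelOf (fock (cohE psd)) emb matE moE _

end Vale.Agent.P367.Q
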