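import Vale.Agent.P367.QF
import Vale.Agent.P367.QLMain
import Vale.Agent.P367.QI
import Vale.Agent.P367.QDMain
import Vale.Agent.P367.QMMain
import Vale.Agent.P367.CIface
import Vale.Agent.P367.QFin

/-! # P367: the assembly -/

namespace Vale.Agent.P367

open MeasureTheory Filter Topology

theorem lStm : Q.LStm := fun _ _ _ _ hD =>
  ⟨fun hA k h => Q.FS.lk hD hA k h, fun hA h => Q.FS.b0 hD hA h, fun h => Q.FS.base_proc hD h⟩

theorem near_opt : ∀ ε > 0, ∃ (p : ℕ) (γ β : Fin p → ℝ), ∀ n ≥ 1, gse n - ε ≤ vLim γ β := by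
  intro ε hε
  obtain ⟨K, m, D, h1, h2, h3, h4, h5, h6⟩ := cStm (ε / 3) (by positivity)
  obtain ⟨β, γ, s, p, h7⟩ := Q.quant Q.model lStm h1 h2 h3 h4 h5 (ε := ε / 3) (by positivity)
  obtain ⟨β', γ', p', h8⟩ := Q.stepI (Q.model 0) β γ s p (ε / 3) (by positivity)
  refine ⟨p', fun j => γ' j, fun j => β' j, fun n hn => ?_⟩
  have e1 : vLim (fun j : Fin p' => γ' j) (fun j => β' j) = Q.vR β' γ' 0 p' := by
    rw [vLim, (Q.dStm p' _ _).limUnder_eq]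
    exact Q.vR_congr p' fun j hj => by simp [co, hj]
  have h9 := h6 n hn
  unfold gK at h9
  linarith [(abs_lt.1 h8).1]

theorem qaoa : Tendsto gse atTop (𝓝 Pstar) ∧
    (∀ (p : ℕ) (γ β : Fin p → ℝ), Tendsto (energy γ β) atTop (𝓝 (vLim γ β))) ∧
    (∀ p : ℕ, IsLUB {v | ∃ γ β : Fin p → ℝ, v = vLim γ β} (Qp p)) ∧
    Tendsto Qp atTop (𝓝 Pstar) := by
  have hD : ∀ (p : ℕ) (γ β : Fin p → ℝ), ∃ v, Tendsto (energy γ β) atTop (𝓝 v) :=
    fun p γ β => ⟨_, Q.dStm p γ β⟩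
  have hv : ∀ (p : ℕ) (γ β : Fin p → ℝ), Tendsto (energy γ β) atTop (𝓝 (vLim γ β)) :=
    fun p γ β => tendsto_nhds_limUnder (hD p γ β)
  obtain ⟨h1, h2⟩ := fin hD near_opt
  refine ⟨h1, hv, fun p => ?_, h2⟩
  have b : BddAbove (Set.range fun x : (Fin p → ℝ) × (Fin p → ℝ) => vLim x.1 x.2) :=
    ⟨Pstar, by
      rintro _ ⟨x, rfl⟩
      exact le_of_tendsto_of_tendsto' (hv p _ _) h1 (QFinAux.energy_le _ _)⟩
  have e : {v | ∃ γ β : Fin p → ℝ, v = vLim γ β} =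
      Set.range fun x : (Fin p → ℝ) × (Fin p → ℝ) => vLim x.1 x.2 := by
    ext v
    exact ⟨fun ⟨γ, β, h⟩ => ⟨(γ, β), h.symm⟩, fun ⟨x, h⟩ => ⟨x.1, x.2, h.symm⟩⟩
  rw [e]
  exact isLUB_ciSup b

end Vale.Agent.P367
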