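import Vale.Agent.P367.QDefs

/-! Basic algebra of the spin and label operators. -/

namespace Vale.Agent.P367.Q

open Complex MeasureTheory ProbabilityTheory Filter Topology Matrix
open scoped InnerProductSpace

/-! ### matrices -/

theorem sg_sq (σ : Bool) : sg σ * sg σ = 1 := by cases σ <;> simp [sg]

theorem sg_not (σ : Bool) : sg (!σ) = -sg σ := by cases σ <;> simp [sg]

theorem pau_sq (N : Fin 3) : pau N * pau N = 1 := by
  fin_cases N <;> ext i j <;> fin_cases i <;> fin_cases j <;> simp [pau, Matrix.mul_apply]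

theorem pau_star (N : Fin 3) : (pau N)ᴴ = pau N := by
  fin_cases N <;> ext i j <;> fin_cases i <;> fin_cases j <;> simp [pau]

theorem pau_le (N : Fin 3) (i j : Fin 2) : ‖pau N i j‖ ≤ 1 := by
  fin_cases N <;> fin_cases i <;> fin_cases j <;> simp [pau]

theorem pau_ZX : pau 2 * pau 0 = I • pau 1 := by
  ext i j; fin_cases i <;> fin_cases j <;> simp [pau, Matrix.mul_apply]

theorem pau_XZ : pau 0 * pau 2 = -I • pau 1 := by
  ext i j; fin_cases i <;> fin_cases j <;> simp [pau, Matrix.mul_apply]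

theorem pau_XY : pau 0 * pau 1 = I • pau 2 := by
  ext i j; fin_cases i <;> fin_cases j <;> simp [pau, Matrix.mul_apply]

theorem pau_YX : pau 1 * pau 0 = -I • pau 2 := by
  ext i j; fin_cases i <;> fin_cases j <;> simp [pau, Matrix.mul_apply]

theorem pau_YZ : pau 1 * pau 2 = I • pau 0 := by
  ext i j; fin_cases i <;> fin_cases j <;> simp [pau, Matrix.mul_apply]

theorem pau_ZY : pau 2 * pau 1 = -I • pau 0 := by
  ext i j; fin_cases i <;> fin_cases j <;> simp [pau, Matrix.mul_apply]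

theorem pr_mul (σ τ : Bool) : pr σ * pr τ = if σ = τ then pr σ else 0 := by
  cases σ <;> cases τ <;> ext i j <;> fin_cases i <;> fin_cases j <;> simp [pr, Matrix.mul_apply]

theorem pr_add : pr true + pr false = 1 := by
  ext i j; fin_cases i <;> fin_cases j <;> simp [pr]

theorem pr_sub : pr true - pr false = pau 2 := by
  ext i j; fin_cases i <;> fin_cases j <;> simp [pr, pau]

theorem pr_star (σ : Bool) : (pr σ)ᴴ = pr σ := by
  cases σ <;> ext i j <;> fin_cases i <;> fin_cases j <;> simp [pr]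

theorem pZ_pr (σ : Bool) : pau 2 * pr σ = (sg σ : ℂ) • pr σ := by
  cases σ <;> ext i j <;> fin_cases i <;> fin_cases j <;> simp [pr, pau, sg, Matrix.mul_apply]

theorem pr_pZ (σ : Bool) : pr σ * pau 2 = (sg σ : ℂ) • pr σ := by
  cases σ <;> ext i j <;> fin_cases i <;> fin_cases j <;> simp [pr, pau, sg, Matrix.mul_apply]

theorem pX_pr (σ : Bool) : pau 0 * pr σ = pr (!σ) * pau 0 := by
  cases σ <;> ext i j <;> fin_cases i <;> fin_cases j <;> simp [pr, pau, Matrix.mul_apply]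

theorem rot_zero (N : Fin 3) : rot N 0 = 1 := by simp [rot]

theorem rot_add (N : Fin 3) (a b : ℝ) : rot N a * rot N b = rot N (a + b) := by
  simp only [rot, sub_mul, mul_sub, smul_mul_smul_comm, pau_sq, one_mul, mul_one, Real.cos_add,
    Real.sin_add]
  push_cast
  have h : I * Complex.sin a * (I * Complex.sin b) = -(Complex.sin a * Complex.sin b) := by
    linear_combination Complex.sin a * Complex.sin b * I_mul_I
  rw [h]
  module

theorem rot_star (N : Fin 3) (a : ℝ) : (rot N a)ᴴ = rot N (-a) := by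
  simp [rot, pau_star, ← ofReal_cos, ← ofReal_sin]

theorem rot_le (N : Fin 3) (a : ℝ) (i j : Fin 2) : ‖rot N a i j‖ ≤ 2 := by
  have h1 : ‖(1 : M2) i j‖ ≤ 1 := by fin_cases i <;> fin_cases j <;> simp
  have h2 := mul_le_mul (Real.abs_cos_le_one a) h1 (norm_nonneg _) zero_le_one
  have h3 := mul_le_mul (Real.abs_sin_le_one a) (pau_le N i j) (norm_nonneg _) zero_le_one
  refine (norm_sub_le _ _).trans ?_
  simp only [Matrix.smul_apply, smul_eq_mul, norm_mul, norm_real, Real.norm_eq_abs, norm_I, one_mul]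
  linarith

theorem rot_Z (a : ℝ) : rot 2 a = exp (-I * a) • pr true + exp (I * a) • pr false := by
  rw [show -I * a = (-a) * I by ring, mul_comm I, exp_mul_I, exp_mul_I, rot, ← pr_add, ← pr_sub]
  simp only [Complex.cos_neg, Complex.sin_neg, ofReal_cos, ofReal_sin]
  module

theorem rot_pau (N : Fin 3) (a : ℝ) : rot N a * pau N = pau N * rot N a := by
  simp [rot, sub_mul, mul_sub]

theorem rot_half (N : Fin 3) : rot N (Real.pi / 2) = -I • pau N := by simp [rot]

theorem vac_one : vac 1 = 1 := by simp [vac]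

theorem vac_pau : vac (pau 0) = 1 ∧ vac (pau 1) = 0 ∧ vac (pau 2) = 0 := by simp [vac, pau]

theorem vac_smul (a : ℂ) (m : M2) : vac (a • m) = a * vac m := by simp [vac]; ring

theorem vac_add (m m' : M2) : vac (m + m') = vac m + vac m' := by simp [vac]; ring

theorem vac_pr (σ : Bool) : vac (pr σ) = 1 / 2 := by cases σ <;> simp [vac, pr]

/-! ### bounded measurable functions -/

section Bdd

variable {Λ : Type} [MeasurableSpace Λ] {u v : Λ → M2} {g g' : Λ → ℝ}

theorem BR.const (a : ℝ) : BR fun _ : Λ => a := ⟨measurable_const, |a|, fun _ => le_rfl⟩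

theorem BR.mul (h : BR g) (h' : BR g') : BR fun c => g c * g' c := by
  obtain ⟨h1, C, h2⟩ := h
  obtain ⟨h3, C', h4⟩ := h'
  exact ⟨h1.mul h3, C * C', fun c => by
    rw [abs_mul]; exact mul_le_mul (h2 c) (h4 c) (abs_nonneg _) ((abs_nonneg _).trans (h2 c))⟩

theorem BR.add (h : BR g) (h' : BR g') : BR fun c => g c + g' c := by
  obtain ⟨h1, C, h2⟩ := h
  obtain ⟨h3, C', h4⟩ := h'
  exact ⟨h1.add h3, C + C', fun c => (abs_add_le _ _).trans (add_le_add (h2 c) (h4 c))⟩

theorem BR.simple (a : SimpleFunc Λ ℝ) : BR a := by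
  obtain ⟨C, hC⟩ := a.exists_forall_norm_le
  exact ⟨a.measurable, C, hC⟩

theorem BR.indicator {S : Set Λ} (hS : MeasurableSet S) : BR (S.indicator (1 : Λ → ℝ)) :=
  ⟨measurable_const.indicator hS, 1, fun c => by by_cases h : c ∈ S <;> simp [h]⟩

theorem BR.ind {K : ℕ} {B : Set ℝ} (hB : MeasurableSet B) : BR (ind B : Lab K → ℝ) :=
  ⟨Measurable.ite (measurable_fst hB) measurable_const measurable_const, 1, fun c => by
    unfold Q.ind; split_ifs <;> simp⟩

theorem BM.const (m : M2) : BM fun _ : Λ => m :=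
  ⟨fun _ _ => measurable_const, ∑ i, ∑ j, ‖m i j‖, fun _ i j =>
    (Finset.single_le_sum (f := fun j => ‖m i j‖) (fun _ _ => norm_nonneg _)
      (Finset.mem_univ j)).trans (Finset.single_le_sum (f := fun i => ∑ j, ‖m i j‖)
        (fun _ _ => Finset.sum_nonneg fun _ _ => norm_nonneg _) (Finset.mem_univ i))⟩

theorem BM.add (h : BM u) (h' : BM v) : BM fun c => u c + v c := by
  obtain ⟨h1, C, h2⟩ := h
  obtain ⟨h3, C', h4⟩ := h'
  exact ⟨fun i j => (h1 i j).add (h3 i j), C + C', fun c i j =>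
    (norm_add_le _ _).trans (add_le_add (h2 c i j) (h4 c i j))⟩

theorem BM.mul (h : BM u) (h' : BM v) : BM fun c => u c * v c := by
  obtain ⟨h1, C, h2⟩ := h
  obtain ⟨h3, C', h4⟩ := h'
  refine ⟨fun i j => ?_, C * C' + C * C', fun c i j => ?_⟩
  · simp only [Matrix.mul_apply]
    exact Finset.measurable_sum _ fun k _ => (h1 i k).mul (h3 k j)
  · have h5 : ∀ k, ‖u c i k * v c k j‖ ≤ C * C' := fun k => by
      rw [norm_mul]
      exact mul_le_mul (h2 _ _ _) (h4 _ _ _) (norm_nonneg _) ((norm_nonneg _).trans (h2 c i k))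
    show ‖(u c * v c) i j‖ ≤ _
    rw [Matrix.mul_apply, Fin.sum_univ_two]
    exact (norm_add_le _ _).trans (add_le_add (h5 0) (h5 1))

/-- multiplication by a bounded measurable complex function -/
theorem BM.fsmul {φ : Λ → ℂ} {C : ℝ} (hφ : Measurable φ) (hC : ∀ c, ‖φ c‖ ≤ C) (h : BM u) :
    BM fun c => φ c • u c := by
  obtain ⟨h1, C', h2⟩ := h
  exact ⟨fun i j => hφ.mul (h1 i j), C * C', fun c i j => by
    show ‖φ c * u c i j‖ ≤ _
    rw [norm_mul]
    exact mul_le_mul (hC c) (h2 c i j) (norm_nonneg _) ((norm_nonneg _).trans (hC c))⟩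

theorem BM.smul (a : ℂ) (h : BM u) : BM fun c => a • u c :=
  h.fsmul measurable_const fun _ => le_rfl

theorem BM.star (h : BM u) : BM fun c => (u c)ᴴ := by
  obtain ⟨h1, C, h2⟩ := h
  exact ⟨fun i j => continuous_star.measurable.comp (h1 j i), C, fun c i j => by
    simpa using h2 c j i⟩

theorem BR.bms (h : BR g) (hu : BM u) : BM fun c => (g c : ℂ) • u c := by
  obtain ⟨h1, C, h2⟩ := h
  exact hu.fsmul (measurable_ofReal.comp h1) fun c => by simpa using h2 c

theorem BR.bm (h : BR g) : BM fun c => (g c : ℂ) • (1 : M2) := h.bms (BM.const 1)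

theorem BM.phs (h : Measurable g) (hu : BM u) : BM fun c => exp (-I * g c) • u c :=
  hu.fsmul (C := 1) (by fun_prop) fun c => by simp [norm_exp]

theorem BM.ph (h : Measurable g) : BM fun c => exp (-I * g c) • (1 : M2) := BM.phs h (BM.const 1)

theorem BM.rot (N : Fin 3) (h : Measurable g) : BM fun c => rot N (g c) :=
  ⟨fun i j => by simp only [Q.rot, Matrix.sub_apply, Matrix.smul_apply, smul_eq_mul]; fun_prop,
    2, fun c => rot_le N _⟩

end Bdd

namespace FS

variable {Λ : Type} [MeasurableSpace Λ] {μ : Measure Λ} (M : FS Λ μ) {u v : Λ → M2}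
  {g g' : Λ → ℝ} {U V : M.H →L[ℂ] M.H}

theorem loc_zero : M.loc (fun _ => 0) = 0 := by
  simpa using M.loc_smul 0 (BM.const (Λ := Λ) 1)

theorem loc_sub (hu : BM u) (hv : BM v) : M.loc (fun c => u c - v c) = M.loc u - M.loc v := by
  have := M.loc_add hu (hv.smul (-1))
  rw [M.loc_smul _ hv] at this
  simpa [sub_eq_add_neg] using this

theorem loc_congr (hu : BM u) (hv : BM v) (h : ∀ᵐ c ∂μ, u c = v c) : M.loc u = M.loc v := by
  obtain ⟨C, hC⟩ := hu.2
  ext x
  exact tendsto_nhds_unique tendsto_const_nhds (M.loc_dom (u := fun _ => u) (fun _ => hu) hv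
    (fun _ => hC) (h.mono fun c hc i j => by rw [hc]; exact tendsto_const_nhds) x)

theorem loc_comm (hu : BM u) (hv : BM v) (h : ∀ c, u c * v c = v c * u c) :
    M.loc u * M.loc v = M.loc v * M.loc u := by
  rw [← M.loc_mul hu hv, ← M.loc_mul hv hu, funext h]

theorem sp_one : M.sp 1 = 1 := M.loc_one

theorem sp_zero : M.sp 0 = 0 := M.loc_zero

theorem sp_mul (m m' : M2) : M.sp (m * m') = M.sp m * M.sp m' :=
  M.loc_mul (BM.const m) (BM.const m')

theorem sp_add (m m' : M2) : M.sp (m + m') = M.sp m + M.sp m' :=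
  M.loc_add (BM.const m) (BM.const m')

theorem sp_sub (m m' : M2) : M.sp (m - m') = M.sp m - M.sp m' :=
  M.loc_sub (BM.const m) (BM.const m')

theorem sp_smul (a : ℂ) (m : M2) : M.sp (a • m) = a • M.sp m := M.loc_smul a (BM.const m)

theorem sp_star (m : M2) : star (M.sp m) = M.sp mᴴ := M.loc_star (BM.const m)

theorem sp_sp (m m' : M2) (x : M.H) : M.sp m (M.sp m' x) = M.sp (m * m') x := by
  rw [sp_mul]; rfl

theorem sc_loc (hg : BR g) (hu : BM u) : M.sc g * M.loc u = M.loc u * M.sc g :=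
  M.loc_comm hg.bm hu fun c => by simp

theorem sc_mul_loc (hg : BR g) (hu : BM u) : M.sc g * M.loc u = M.loc fun c => (g c : ℂ) • u c := by
  rw [sc, ← M.loc_mul hg.bm hu]; simp

theorem sc_sp (hg : BR g) (m : M2) : M.sc g * M.sp m = M.sp m * M.sc g := M.sc_loc hg (BM.const m)

theorem sc_mul (hg : BR g) (hg' : BR g') : M.sc (fun c => g c * g' c) = M.sc g * M.sc g' := by
  rw [sc, sc, sc, ← M.loc_mul hg.bm hg'.bm]
  simp only [smul_mul_smul_comm, one_mul, ofReal_mul]

theorem sc_add (hg : BR g) (hg' : BR g') : M.sc (fun c => g c + g' c) = M.sc g + M.sc g' := by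
  rw [sc, sc, sc, ← M.loc_add hg.bm hg'.bm]; simp [add_smul]

theorem sc_const (a : ℝ) : M.sc (fun _ => a) = (a : ℂ) • 1 := by
  rw [sc, M.loc_smul _ (BM.const 1), M.loc_one]

theorem sc_smul (a : ℝ) (hg : BR g) : M.sc (fun c => a * g c) = (a : ℂ) • M.sc g := by
  rw [M.sc_mul (BR.const a) hg, sc_const, smul_mul_assoc, one_mul]

theorem sc_star (hg : BR g) : star (M.sc g) = M.sc g := by
  rw [sc, M.loc_star hg.bm]; simp

theorem ph_loc (hg : Measurable g) (hu : BM u) : M.ph g * M.loc u = M.loc u * M.ph g :=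
  M.loc_comm (BM.ph hg) hu fun c => by simp

theorem ph_add (hg : Measurable g) (hg' : Measurable g') :
    M.ph g * M.ph g' = M.ph fun c => g c + g' c := by
  rw [ph, ph, ph, ← M.loc_mul (BM.ph hg) (BM.ph hg')]
  simp only [smul_mul_smul_comm, one_mul, ← exp_add, ofReal_add, mul_add]

theorem ph_zero : M.ph (fun _ => 0) = 1 := by simpa [ph] using M.loc_one

theorem ph_star (hg : Measurable g) : star (M.ph g) = M.ph fun c => -g c := by
  rw [ph, M.loc_star (BM.ph hg), ph]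
  simp [← exp_conj]

theorem ph_eq (hg : Measurable g) :
    M.ph g = M.sc (fun c => Real.cos (g c)) - I • M.sc fun c => Real.sin (g c) := by
  have h1 : BR fun c => Real.cos (g c) := ⟨by fun_prop, 1, fun c => Real.abs_cos_le_one _⟩
  have h2 : BR fun c => Real.sin (g c) := ⟨by fun_prop, 1, fun c => Real.abs_sin_le_one _⟩
  rw [sc, sc, ← M.loc_smul _ h2.bm, ← M.loc_sub h1.bm (h2.bm.smul _), ph]
  congr 1
  funext c
  rw [show -I * g c = (-g c) * I by ring, exp_mul_I]
  simp only [Complex.cos_neg, Complex.sin_neg, ofReal_cos, ofReal_sin]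
  module

theorem lr_add (N : Fin 3) (hg : Measurable g) (hg' : Measurable g') :
    M.lr N g * M.lr N g' = M.lr N fun c => g c + g' c := by
  rw [lr, lr, lr, ← M.loc_mul (BM.rot N hg) (BM.rot N hg')]
  simp only [rot_add]

theorem lr_zero (N : Fin 3) : M.lr N (fun _ => 0) = 1 := by simpa [lr, rot_zero] using M.loc_one

theorem lr_star (N : Fin 3) (hg : Measurable g) : star (M.lr N g) = M.lr N fun c => -g c := by
  rw [lr, M.loc_star (BM.rot N hg), lr]
  simp only [rot_star]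

theorem inner_star (A : M.H →L[ℂ] M.H) (x y : M.H) : ⟪star A x, y⟫_ℂ = ⟪x, A y⟫_ℂ :=
  ContinuousLinearMap.adjoint_inner_left A y x

theorem inner_star' (A : M.H →L[ℂ] M.H) (x y : M.H) : ⟪x, star A y⟫_ℂ = ⟪A x, y⟫_ℂ :=
  ContinuousLinearMap.adjoint_inner_right A x y

variable {M}

theorem inner_of_iso (h : star U * U = 1) (x y : M.H) : ⟪U x, U y⟫_ℂ = ⟪x, y⟫_ℂ := by
  rw [← M.inner_star', ← ContinuousLinearMap.mul_apply, h, ContinuousLinearMap.one_apply]

theorem norm_of_iso (h : star U * U = 1) (x : M.H) : ‖U x‖ = ‖x‖ := by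
  rw [@norm_eq_sqrt_re_inner ℂ, inner_of_iso h, ← @norm_eq_sqrt_re_inner ℂ]

theorem Dec.norm (h : M.Dec U) (x : M.H) : ‖U x‖ = ‖x‖ := norm_of_iso h.1 x

theorem Dec.inner (h : M.Dec U) (x y : M.H) : ⟪U x, U y⟫_ℂ = ⟪x, y⟫_ℂ := inner_of_iso h.1 x y

theorem Dec.one : M.Dec 1 := ⟨by simp, by simp, fun _ _ => by simp⟩

theorem Dec.mul (h : M.Dec U) (h' : M.Dec V) : M.Dec (U * V) :=
  ⟨by rw [star_mul, mul_assoc, ← mul_assoc (star U), h.1, one_mul, h'.1],
    by rw [star_mul, mul_assoc, ← mul_assoc V, h'.2.1, one_mul, h.2.1],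
    fun g hg => by rw [mul_assoc, h'.2.2 g hg, ← mul_assoc, h.2.2 g hg, mul_assoc]⟩

theorem Dec.star (h : M.Dec U) : M.Dec (star U) :=
  ⟨by rw [star_star, h.2.1], by rw [star_star, h.1], fun g hg => by
    have := congrArg Star.star (h.2.2 g hg)
    rw [star_mul, star_mul, M.sc_star hg] at this
    exact this.symm⟩

theorem Dec.apply_star (h : M.Dec U) (x : M.H) : U (Star.star U x) = x := by
  rw [← ContinuousLinearMap.mul_apply, h.2.1, ContinuousLinearMap.one_apply]

theorem Dec.star_apply (h : M.Dec U) (x : M.H) : Star.star U (U x) = x := by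
  rw [← ContinuousLinearMap.mul_apply, h.1, ContinuousLinearMap.one_apply]

theorem Dec.sc_apply (h : M.Dec U) (hg : BR g) (x : M.H) : U (M.sc g x) = M.sc g (U x) :=
  congrArg (· x) (h.2.2 g hg)

theorem Dec.ph (h : M.Dec U) (hg : Measurable g) : U * M.ph g = M.ph g * U := by
  rw [M.ph_eq hg, mul_sub, sub_mul, mul_smul_comm, smul_mul_assoc,
    h.2.2 _ ⟨by fun_prop, 1, fun c => Real.abs_cos_le_one _⟩,
    h.2.2 _ ⟨by fun_prop, 1, fun c => Real.abs_sin_le_one _⟩]

variable (M)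

theorem dec_loc (hu : BM u) (h : ∀ c, (u c)ᴴ * u c = 1) : M.Dec (M.loc u) :=
  ⟨by rw [M.loc_star hu, ← M.loc_mul hu.star hu, funext h, M.loc_one],
    by rw [M.loc_star hu, ← M.loc_mul hu hu.star,
      funext fun c => mul_eq_one_comm.1 (h c), M.loc_one],
    fun _ hg => (M.sc_loc hg hu).symm⟩

theorem dec_lr (N : Fin 3) (hg : Measurable g) : M.Dec (M.lr N g) :=
  M.dec_loc (BM.rot N hg) fun c => by rw [rot_star, rot_add, neg_add_cancel, rot_zero]

theorem dec_rot (N : Fin 3) (a : ℝ) : M.Dec (M.sp (rot N a)) := M.dec_lr N measurable_const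

theorem dec_pau (N : Fin 3) : M.Dec (M.sp (pau N)) :=
  M.dec_loc (BM.const _) fun _ => by rw [pau_star, pau_sq]

theorem dec_ph (hg : Measurable g) : M.Dec (M.ph g) :=
  M.dec_loc (BM.ph hg) fun c => by
    simp [smul_smul, ← exp_conj, ← exp_add]

theorem isW : M.IsW M.W ⊤ :=
  ⟨M.W_zero, fun x _ y _ => M.W_mul x y, fun x _ => M.W_star x, fun x _ => M.W_loc x,
    fun ψ => (M.W_cont ψ).continuousOn⟩

theorem IsW.mono {w : M.H → M.H →L[ℂ] M.H} {Y Y' : Submodule ℝ M.H} (h : M.IsW w Y)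
    (hY : Y' ≤ Y) : M.IsW w Y' :=
  ⟨h.zero, fun x hx y hy => h.mul x (hY hx) y (hY hy), fun x hx => h.star x (hY hx),
    fun x hx => h.loc x (hY hx), fun ψ => (h.cont ψ).mono hY⟩

theorem IsW.dec {w : M.H → M.H →L[ℂ] M.H} {Y : Submodule ℝ M.H} (h : M.IsW w Y) {x : M.H}
    (hx : x ∈ Y) : M.Dec (w x) :=
  ⟨by rw [h.star x hx, h.mul _ (neg_mem hx) _ hx]; simp [h.zero, ← ofReal_pow],
    by rw [h.star x hx, h.mul _ hx _ (neg_mem hx)]; simp [h.zero, ← ofReal_pow],
    fun _ hg => h.loc x hx hg.bm⟩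

theorem inner_loc (hu : BM u) : ⟪M.Ω, M.loc u M.Ω⟫_ℂ = ∫ c, vac (u c) ∂μ := by
  simpa [M.W_zero] using M.W_vac 0 hu

theorem inner_sc (hg : BR g) (hg' : BR g') :
    ⟪M.sc g M.Ω, M.sc g' M.Ω⟫_ℂ = (∫ c, g c * g' c ∂μ : ℝ) := by
  rw [← M.inner_star', M.sc_star hg, ← ContinuousLinearMap.mul_apply, ← M.sc_mul hg hg', sc,
    M.inner_loc (hg.mul hg').bm, ← integral_complex_ofReal]
  simp only [vac_smul, vac_one, mul_one]

theorem norm_sc_sq (hg : BR g) : ‖M.sc g M.Ω‖ ^ 2 = ∫ c, g c ^ 2 ∂μ := by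
  rw [@norm_sq_eq_re_inner ℂ, M.inner_sc hg hg]
  simp [sq]

theorem sc_mem (hg : BR g) : M.sc g M.Ω ∈ M.XX := fun g' hg' => by
  rw [M.inner_sc hg' hg, ofReal_im]

theorem XX.sc {x : M.H} (hx : x ∈ M.XX) (hg : BR g) : M.sc g x ∈ M.XX := fun g' hg' => by
  rw [← M.inner_star, M.sc_star hg, ← ContinuousLinearMap.mul_apply, ← M.sc_mul hg hg']
  exact hx _ (hg.mul hg')

theorem isClosed_XX : IsClosed (M.XX : Set M.H) := by
  have : (M.XX : Set M.H) = ⋂ g, ⋂ _ : BR g, {x | (⟪M.sc g M.Ω, x⟫_ℂ).im = 0} := by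
    ext x; simp [XX]
  rw [this]
  exact isClosed_iInter fun g => isClosed_iInter fun _ => isClosed_eq (by fun_prop) continuous_const

variable {M}

/-- expectations of commuting self adjoint operators are real -/
theorem Dec.inner_pau_im (h : M.Dec U) (N : Fin 3) (hg : BR g) (hg' : BR g') :
    (⟪M.sc g M.Ω, M.sc g' (Star.star U (M.sp (pau N) (U M.Ω)))⟫_ℂ).im = 0 := by
  have h1 : IsSelfAdjoint (M.sc (fun c => g c * g' c) * M.sp (pau N)) := by
    rw [IsSelfAdjoint, star_mul, M.sc_star (hg.mul hg'), sp_star, pau_star,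
      M.sc_sp (hg.mul hg')]
  rw [← h.star.sc_apply hg', M.inner_star', h.sc_apply hg, ← M.inner_star', M.sc_star hg,
    ← ContinuousLinearMap.mul_apply, ← M.sc_mul hg hg', ← ContinuousLinearMap.mul_apply,
    ← conj_eq_iff_im, inner_conj_symm, ← M.inner_star', h1.star_eq]

theorem Dec.pau_mem (h : M.Dec U) (N : Fin 3) : Star.star U (M.sp (pau N) (U M.Ω)) ∈ M.XX :=
  fun g hg => by simpa [M.sc_const] using h.inner_pau_im N hg (BR.const 1)

theorem Dec.xi_mem (h : M.Dec U) : M.xi U ∈ M.XX := h.pau_mem 2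

theorem Dec.norm_sc_xi (h : M.Dec U) (hg : BR g) : ‖M.sc g (M.xi U)‖ = ‖M.sc g M.Ω‖ := by
  rw [xi, ← h.star.sc_apply hg, h.star.norm, ← (M.dec_pau 2).sc_apply hg, (M.dec_pau 2).norm,
    ← h.sc_apply hg, h.norm]

/-- the vectors `g ξ` have real inner products -/
theorem Dec.inner_xi (h : M.Dec U) (hg : BR g) (hg' : BR g') :
    ⟪M.sc g (M.xi U), M.sc g' (M.xi U)⟫_ℂ = (∫ c, g c * g' c ∂μ : ℝ) := by
  rw [xi, ← h.star.sc_apply hg, ← h.star.sc_apply hg', h.star.inner, ← (M.dec_pau 2).sc_apply hg,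
    ← (M.dec_pau 2).sc_apply hg', (M.dec_pau 2).inner, ← h.sc_apply hg, ← h.sc_apply hg', h.inner,
    M.inner_sc hg hg']

/-- a unitary which commutes with `Z` does not change `ξ` -/
theorem xi_mul (h : star V * V = 1) (hZ : M.sp (pau 2) * V = V * M.sp (pau 2)) :
    M.xi (V * U) = M.xi U := by
  have h1 : star V * (M.sp (pau 2) * V) = M.sp (pau 2) := by rw [hZ, ← mul_assoc, h, one_mul]
  rw [xi, xi, star_mul, ContinuousLinearMap.mul_apply, ContinuousLinearMap.mul_apply,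
    ← ContinuousLinearMap.mul_apply (M.sp (pau 2)) V, ← ContinuousLinearMap.mul_apply (star V), h1]

variable (M) [IsProbabilityMeasure μ]

theorem inner_sp (m : M2) : ⟪M.Ω, M.sp m M.Ω⟫_ℂ = vac m := by
  simpa [sp] using M.inner_loc (BM.const m)

theorem norm_Ω : ‖M.Ω‖ = 1 := by
  have := M.norm_sc_sq (BR.const 1)
  rw [← pow_eq_one_iff_of_nonneg (norm_nonneg _) two_ne_zero]
  simpa [M.sc_const] using this

theorem pX_Ω : M.sp (pau 0) M.Ω = M.Ω := by
  rw [← sub_eq_zero, ← norm_eq_zero, ← sq_eq_zero_iff, @norm_sub_sq ℂ, (M.dec_pau 0).norm,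
    ← inner_conj_symm, M.inner_sp, vac_pau.1, M.norm_Ω]
  norm_num

theorem Dec.norm_xi {M : FS Λ μ} {U : M.H →L[ℂ] M.H} (h : M.Dec U) : ‖M.xi U‖ = 1 := by
  rw [xi, h.star.norm, (M.dec_pau 2).norm, h.norm, M.norm_Ω]

end FS

end Vale.Agent.P367.Q
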