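import Vale.Agent.P367.QCellB

/-! The relay gate for one cell. -/

namespace Vale.Agent.P367.Q

open Complex MeasureTheory ProbabilityTheory Filter Topology Matrix
open scoped InnerProductSpace

namespace FS

variable {K : ℕ} {M : FS (Lab K) (muK K)} {D : Fin K → Lab K → ℝ} {T A A' b C : Set ℝ}
  {U : M.H →L[ℂ] M.H}

theorem qcell_t {γ ω η m J : ℝ} (hγ : 1 ≤ γ) (hη : 0 ≤ η) (hω : ω * (γ * η) = 1)
    (hm : γ ^ 2 * m ≤ 1 / 16) (hJ : Real.exp (-(2 * γ ^ 2 * m)) * (η / 2) ≤ |J|) :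
    ∃ t : ℝ, t * (2 * (γ * J)) = Real.pi / 4 ∧ |t| ≤ ω := by
  have g0 : 0 < γ := one_pos.trans_le hγ
  have e0 : 0 < η := hη.lt_of_ne fun h => by simp [← h] at hω
  have h1 := Real.add_one_le_exp (-(2 * γ ^ 2 * m))
  have h2 : 7 / 8 * (η / 2) ≤ |J| :=
    (mul_le_mul_of_nonneg_right (by linarith) (by linarith)).trans hJ
  have J0 : 0 < |J| := lt_of_lt_of_le (by positivity) h2
  have J1 := abs_pos.1 J0
  have w0 : 0 < ω := (mul_pos_iff_of_pos_right (mul_pos g0 e0)).1 (hω ▸ one_pos)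
  refine ⟨Real.pi / (8 * (γ * J)), by field_simp; norm_num, ?_⟩
  rw [abs_div, abs_of_pos Real.pi_pos, abs_mul, abs_mul, abs_of_pos g0, div_le_iff₀ (by positivity)]
  have h3 := mul_le_mul_of_nonneg_left h2 (mul_pos w0 g0).le
  have h4 := Real.pi_lt_d2
  rw [abs_of_pos (by norm_num : (0 : ℝ) < 8)]
  nlinarith

theorem cell (hD : Fam T D) (hA : MeasurableSet A) (hA' : MeasurableSet A') (hb : MeasurableSet b)
    (hC : MeasurableSet C) (hT : T ⊆ A') (hbA : b ⊆ A) (hAA' : A ⊆ A') (hAC : Disjoint A' C)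
    {k : ℕ} {a : SimpleFunc (Lab K) ℝ} (ha : Lev k a) {L : ℝ} (hL : ∀ c, |a c| ≤ L) (s : ℝ)
    {γ ω : ℝ} (hγ : 1 ≤ γ) (hω : ω * (γ * nu0.real C) = 1) (hm : γ ^ 4 * nu0.real b ≤ 1 / 16)
    (hU : M.Dec U) (hUb : U (M.sc (ind b) M.Ω) ∈ M.LL D b A')
    (hv : M.Vac (M.WZ D) (M.Md b) (M.orb (U (M.sc (ind C) M.Ω))))
    (hx : nu0.real C / 2 ≤ (⟪U (M.sc (ind C) M.Ω), M.sp (pau 0) (U (M.sc (ind C) M.Ω))⟫_ℂ).re) :
    ∃ V, M.Steps D (Gate.OK k (A ∪ C)) U (V * U) ∧ M.Dec V ∧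
      (∃ d ∈ M.Md b, ‖d‖ ≤ L * √(nu0.real b) ∧
        ‖d - M.sc a (M.sc (ind b) M.Ω)‖ ≤ 100 * L * ω * √(nu0.real b) ∧
        M.sc (ind (A \ b)) * V = M.sc (ind (A \ b)) * M.EZc (M.WZ D) (s • d)) ∧
      (∀ ψ ∈ M.LL D b A', ‖V ψ - M.Wf (M.WZ D) (M.bk A b a s U) ψ‖ ≤ 300 * ω * ‖ψ‖) ∧
      ∃ E, M.Ev (M.WZ D) (M.Md b) E ∧ M.sc (ind C) * V = M.sc (ind C) * E ∧
        (1 - 2 ^ 17 * ω ^ 2 * nu0.real b) * nu0.real C ≤
          ‖⟪M.sc (ind C) M.Ω, E (M.sc (ind C) M.Ω)⟫_ℂ‖ := by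
  have g0 : 0 < γ := one_pos.trans_le hγ
  have hη : 0 ≤ nu0.real C := measureReal_nonneg
  have hη1 : nu0.real C ≤ 1 := measureReal_le_one
  have hμ : 0 ≤ nu0.real b := measureReal_nonneg
  have r0 := Real.sqrt_nonneg (nu0.real b)
  have g2 : 1 ≤ γ ^ 2 := one_le_pow₀ hγ
  have m1 : γ ^ 2 * nu0.real b ≤ 1 / 16 := by nlinarith [mul_nonneg (sq_nonneg γ) hμ]
  have m2 : γ ^ 2 * √(nu0.real b) ≤ 1 / 4 := by
    refine abs_le_of_sq_le_sq' ?_ (by norm_num) |>.2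
    rw [mul_pow, Real.sq_sqrt hμ]
    linarith
  have m3 : γ * √(nu0.real b) ≤ 1 / 2 := by nlinarith [mul_nonneg g0.le r0]
  have hAC' : Disjoint A C := hAC.mono_left hAA'
  have hW := isW_WZ (M := M) hD
  obtain ⟨t, ht, htω⟩ := qcell_t (J := (⟪M.mx C (M.bus D b γ U), M.mx C U⟫_ℂ).im) hγ hη hω m1 (by
    rw [mark hD hb hC hU hv γ]
    exact mul_le_mul_of_nonneg_left (hx.trans (le_abs_self _)) (Real.exp_pos _).le)
  have w0 : 0 ≤ ω := (abs_nonneg t).trans htω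
  obtain ⟨l, hl1, hl2⟩ := reset t
  have l0 := wt_nonneg l
  have l1 : wt l ≤ 4 * ω := by linarith
  obtain ⟨V, U₂, U₃, P, hS, h⟩ := cellA hD hA hb hC hbA hAC' ha s γ l hU
  have hbus : M.Dec (M.bus D b γ U) := ((M.dec_rot _ _).mul
    (hW.EZc_dec (M.XX.smul_mem γ (ind_mem_Md hb hU.xi_mem).1))).mul hU
  have f0 : 0 ≤ 12 * ω / γ := by positivity
  have f1 : 12 * ω / γ ≤ 12 * ω := div_le_self (by positivity) hγ
  have hf : ∀ ψ ∈ M.LL D b A', ‖M.sp (pr false) (M.wO (M.WZ D) (M.mx C (M.bus D b γ U)) l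
      (M.EZc (M.WZ D) (γ • M.mx C U) ψ))‖ ≤ 12 * ω / γ * ‖ψ‖ := by
    intro ψ hψ
    refine (reset_norm hW Md_le (M.XX.smul_mem γ (ind_mem_Md hC hU.xi_mem).1)
      (ind_mem_Md hC hbus.xi_mem) (t := t) ?_ hl2 fun x hx ψ₁ h₁ ψ₂ h₂ =>
        vac_LL hD hA' hC hT hAC x hx ψ₁ (LL_orb hψ h₁) ψ₂ (LL_orb hψ h₂)).trans ?_
    · rw [← Complex.coe_smul, inner_smul_right, im_ofReal_mul]
      exact ht
    · rw [hbus.norm_sc_xi (BR.ind hC), norm_ind_sq hC]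
      refine mul_le_mul_of_nonneg_right ?_ (norm_nonneg _)
      have t2 : t ^ 2 ≤ ω ^ 2 := sq_le_sq' (abs_le.1 htω).1 (abs_le.1 htω).2
      rw [le_div_iff₀ g0]
      calc 12 * t ^ 2 * nu0.real C * γ ≤ 12 * ω ^ 2 * nu0.real C * γ := by gcongr
        _ = 12 * ω * (ω * (γ * nu0.real C)) := by ring
        _ = 12 * ω := by rw [hω, mul_one]
  have L0 : 0 ≤ L := (abs_nonneg _).trans (hL 0)
  obtain ⟨c1, c2, c3⟩ := h.c1 hD hb hC hU hL hUb f0 hf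
  obtain ⟨E, e1, e2, e3⟩ := h.c3 hD hA hb hC hAC' hU g0.le m3 hUb f0 hf
  refine ⟨V, hS, h.dV, ⟨_, c1, c2, c3.trans ?_, h.ea⟩, fun ψ hψ =>
    (h.c2 hD hA hA' hb hC hT hAA' hAC hU g0.le hf hψ).trans ?_, E, e1, e2, le_trans ?_ e3⟩
  · refine mul_le_mul_of_nonneg_right ?_ r0
    nlinarith [mul_le_mul_of_nonneg_left f1 L0, mul_nonneg L0 w0]
  · refine mul_le_mul_of_nonneg_right ?_ (norm_nonneg _)
    have k := h.mis hD hb hC hU g0.le m3 hv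
    have k1 : √(nu0.real C) ≤ 1 := Real.sqrt_le_one.2 hη1
    have k2 : (2 * γ + γ ^ 2) * ‖M.mx C U₃ - M.mx C U‖ ≤ 96 * ω :=
      calc _ ≤ (3 * γ ^ 2) * (32 * (4 * ω) * √(nu0.real b) * 1) := by
            refine mul_le_mul (by nlinarith) (k.trans ?_) (norm_nonneg _) (by positivity)
            gcongr
        _ = 384 * ω * (γ ^ 2 * √(nu0.real b)) := by ring
        _ ≤ 384 * ω * (1 / 4) := by gcongr
        _ = 96 * ω := by ring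
    linarith
  · refine mul_le_mul_of_nonneg_right (sub_le_sub_left (mul_le_mul_of_nonneg_right ?_ hμ) _) hη
    have k : 8 * γ * (12 * ω / γ) = 96 * ω := by field_simp; ring
    have k1 : (16 * wt l + 96 * ω) ^ 2 ≤ (160 * ω) ^ 2 :=
      pow_le_pow_left₀ (by positivity) (by linarith) 2
    rw [k]
    nlinarith [sq_nonneg ω]

end FS

end Vale.Agent.P367.Q
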