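import Vale.Agent.P367.QW1

/-! Vacuum estimates. -/

namespace Vale.Agent.P367.Q

open Complex MeasureTheory ProbabilityTheory Filter Topology Matrix
open scoped InnerProductSpace

namespace FS

variable {Λ : Type} [MeasurableSpace Λ] {μ : Measure Λ} {M : FS Λ μ}
  {w : M.H → M.H →L[ℂ] M.H} {Y Y' : Submodule ℝ M.H} {S : Set M.H} {x y ψ : M.H}

theorem Vac.mono (h : M.Vac w Y S) (hY : Y' ≤ Y) {S' : Set M.H} (hS : S' ⊆ S) : M.Vac w Y' S' :=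
  fun x hx ψ h1 ψ' h2 => h x (hY hx) ψ (hS h1) ψ' (hS h2)

theorem QV_clos (L : M.H →L[ℂ] ℂ) (h : ∀ u ∈ S, L u = 0) :
    ∀ u ∈ (Submodule.span ℂ S).topologicalClosure, L u = 0 := fun _ hu =>
  Submodule.topologicalClosure_minimal _ (t := L.ker) (Submodule.span_le.2 h) L.isClosed_ker hu

theorem Vac.span (h : M.Vac w Y S) :
    M.Vac w Y ((Submodule.span ℂ S).topologicalClosure : Set M.H) := by
  intro x hx ψ h1 ψ' h2
  have e : ∀ u v : M.H, ⟪u, w x v⟫_ℂ = ⟪u, v⟫_ℂ * exp (-(‖x‖ ^ 2 / 2 : ℝ)) ↔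
      ⟪u, (w x - exp (-(‖x‖ ^ 2 / 2 : ℝ)) • 1) v⟫_ℂ = 0 := fun u v => by
    rw [ContinuousLinearMap.sub_apply, ContinuousLinearMap.smul_apply,
      ContinuousLinearMap.one_apply, inner_sub_right, inner_smul_right, sub_eq_zero, mul_comm]
  rw [e, ← inner_eq_zero_symm]
  refine QV_clos (innerSL ℂ _) (fun u hu => ?_) ψ h1
  rw [innerSL_apply_apply, inner_eq_zero_symm]
  exact QV_clos (innerSL ℂ u ∘L _) (fun v hv => (e u v).1 (h x hx u hu v hv)) ψ' h2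

theorem Vac.sub_le (h : M.Vac w Y' S) (hw : M.IsW w Y) (hY : Y' ≤ Y) (hx : x ∈ Y') (hψ : ψ ∈ S) :
    ‖w x ψ - ψ‖ ≤ ‖x‖ * ‖ψ‖ := by
  refine le_of_sq_le_sq ?_ (by positivity)
  have e : RCLike.re ⟪ψ, w x ψ⟫_ℂ = ‖ψ‖ ^ 2 * Real.exp (-(‖x‖ ^ 2 / 2)) := by
    rw [h x hx ψ hψ ψ hψ, ← ofReal_neg, ← ofReal_exp, @norm_sq_eq_re_inner ℂ _ _ _ _ ψ]
    exact re_mul_ofReal _ _
  rw [norm_sub_rev, @norm_sub_sq ℂ, (hw.dec M (hY hx)).norm, e]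
  nlinarith [Real.add_one_le_exp (-(‖x‖ ^ 2 / 2)), sq_nonneg ‖ψ‖]

/-- the estimate for a displaced vector -/
theorem Vac.disp_le (h : M.Vac w Y' S) (hw : M.IsW w Y) (hY : Y' ≤ Y) (hx : x ∈ Y') (hy : y ∈ Y)
    (hψ : ψ ∈ S) : ‖w x (w y ψ) - w y ψ‖ ≤ ‖x‖ * (1 + 2 * ‖y‖) * ‖ψ‖ := by
  have h1 := h.sub_le hw hY hx hψ
  have h2 : ‖exp (-I * (2 * (⟪x, y⟫_ℂ).im : ℝ)) - 1‖ ≤ 2 * (‖x‖ * ‖y‖) := by
    rw [neg_mul_comm, ← ofReal_neg]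
    refine Real.norm_exp_I_mul_ofReal_sub_one_le.trans ?_
    rw [norm_neg, norm_mul, Real.norm_two]
    exact mul_le_mul_of_nonneg_left ((abs_im_le_norm _).trans (norm_inner_le_norm x y)) zero_le_two
  have h3 : ‖exp (-I * (2 * (⟪x, y⟫_ℂ).im : ℝ))‖ = 1 := by
    rw [neg_mul_comm, ← ofReal_neg, norm_exp_I_mul_ofReal]
  have e : w x (w y ψ) - w y ψ = w y (exp (-I * (2 * (⟪x, y⟫_ℂ).im : ℝ)) • (w x ψ - ψ) +
      (exp (-I * (2 * (⟪x, y⟫_ℂ).im : ℝ)) - 1) • ψ) := by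
    rw [← ContinuousLinearMap.mul_apply, hw.w_comm (hY hx) hy, smul_sub, sub_smul, one_smul,
      sub_add_sub_cancel, map_sub, map_smul]
    rfl
  rw [e, (hw.dec M hy).norm]
  refine (norm_add_le _ _).trans ?_
  rw [norm_smul, norm_smul, h3]
  nlinarith [mul_le_mul_of_nonneg_right h2 (norm_nonneg ψ)]

theorem Vac.EZc_sub_le (h : M.Vac w Y' (M.orb ψ)) (hw : M.IsW w Y) (hY : Y' ≤ Y) (hx : x ∈ Y') :
    ‖M.EZc w x ψ - ψ‖ ≤ 2 * ‖x‖ * ‖ψ‖ := by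
  have h0 : ψ ∈ M.orb ψ := ⟨1, by simp only [sp_one, ContinuousLinearMap.one_apply]⟩
  have h1 := h.sub_le hw hY hx h0
  have h2 := h.sub_le hw hY (neg_mem hx) h0
  rw [norm_neg] at h2
  linarith [hw.EZc_sub_le (hY hx) ψ]

/-- the estimate after an interaction and a spin operator -/
theorem Vac.EZc_disp_le (h : M.Vac w Y' (M.orb ψ)) (hw : M.IsW w Y) (hY : Y' ≤ Y) (hx : x ∈ Y')
    (hy : y ∈ Y) {m : M2} (hm : mᴴ * m = 1) :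
    ‖M.EZc w x (M.sp m (M.EZc w y ψ)) - M.sp m (M.EZc w y ψ)‖ ≤ 4 * ‖x‖ * (1 + 2 * ‖y‖) * ‖ψ‖ := by
  have c : ∀ z ∈ Y, ∀ σ, M.sp m (M.sp (pr σ) (w z ψ)) = w z (M.sp (m * pr σ) ψ) := fun z hz σ => by
    rw [sp_sp]
    exact (congrArg (· ψ) (hw.loc z hz (BM.const (m * pr σ)))).symm
  have e : M.sp m (M.EZc w y ψ) = w y (M.sp (m * pr true) ψ) + w (-y) (M.sp (m * pr false) ψ) := by
    rw [← c y hy, ← c (-y) (neg_mem hy), ← map_add]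
    rfl
  have k : ∀ z ∈ Y', ∀ u ∈ Y, ∀ σ, ‖w z (w u (M.sp (m * pr σ) ψ)) - w u (M.sp (m * pr σ) ψ)‖ ≤
      ‖z‖ * (1 + 2 * ‖u‖) * ‖ψ‖ := fun z hz u hu σ => by
    refine (h.disp_le hw hY hz hu ⟨_, rfl⟩).trans (mul_le_mul_of_nonneg_left ?_ (by positivity))
    show ‖M.sp (m * pr σ) ψ‖ ≤ _
    rw [← sp_sp]
    exact ((M.dec_loc (BM.const m) fun _ => hm).norm _).trans_le (norm_pr_le σ ψ)
  have k2 : ∀ z ∈ Y', ‖w z (M.sp m (M.EZc w y ψ)) - M.sp m (M.EZc w y ψ)‖ ≤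
      2 * (‖z‖ * (1 + 2 * ‖y‖) * ‖ψ‖) := fun z hz => by
    have h1 := k z hz y hy true
    have h2 := k z hz (-y) (neg_mem hy) false
    rw [norm_neg] at h2
    rw [e, map_add, add_sub_add_comm]
    linarith [norm_add_le (w z (w y (M.sp (m * pr true) ψ)) - w y (M.sp (m * pr true) ψ))
      (w z (w (-y) (M.sp (m * pr false) ψ)) - w (-y) (M.sp (m * pr false) ψ))]
  have h1 := k2 x hx
  have h2 := k2 (-x) (neg_mem hx)
  rw [norm_neg] at h2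
  linarith [hw.EZc_sub_le (hY hx) (M.sp m (M.EZc w y ψ))]

theorem Vac.inner_EZc (h : M.Vac w Y (M.orb ψ)) (hx : x ∈ Y) (m m' : M2) :
    ⟪M.sp m ψ, M.EZc w x (M.sp m' ψ)⟫_ℂ = ⟪M.sp m ψ, M.sp m' ψ⟫_ℂ * exp (-(‖x‖ ^ 2 / 2 : ℝ)) := by
  have c : ∀ σ (u : M.H), ⟪M.sp m ψ, M.sp (pr σ) u⟫_ℂ = ⟪M.sp (pr σ * m) ψ, u⟫_ℂ := fun σ u => by
    rw [← M.inner_star, sp_star, pr_star, sp_sp]
  have e : M.EZc w x (M.sp m' ψ) =
      M.sp (pr true) (w x (M.sp m' ψ)) + M.sp (pr false) (w (-x) (M.sp m' ψ)) := rfl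
  rw [e, inner_add_right, c, c, h x hx _ ⟨_, rfl⟩ _ ⟨_, rfl⟩,
    h (-x) (neg_mem hx) _ ⟨_, rfl⟩ _ ⟨_, rfl⟩, norm_neg, ← add_mul, ← inner_add_left, ← ContinuousLinearMap.add_apply, ← sp_add, ← add_mul,
    pr_add, one_mul]

theorem QV_gauss (t : ℝ) :
    ∫ g : ℝ, exp (t * g * I) ∂gaussianReal 0 1 = exp (-(t ^ 2 / 2 : ℝ)) := by
  rw [← charFun_apply_real, charFun_gaussianReal]
  simp [neg_div]

/-- norms of trigonometric polynomials of a field in the vacuum -/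
theorem Vac.norm_comb (h : M.Vac w Y' S) (hw : M.IsW w Y) (hY : Y' ≤ Y) (hx : x ∈ Y')
    {ι : Type} (s : Finset ι) (θ : ι → ℝ) (v : ι → M.H) (hv : ∀ j, v j ∈ S) :
    ‖∑ j ∈ s, w (θ j • x) (v j)‖ ^ 2 =
      ∫ g, ‖∑ j ∈ s, exp (-I * (θ j * ‖x‖ * g : ℝ)) • v j‖ ^ 2 ∂gaussianReal 0 1 := by
  have e : ∀ u : M.H, ((‖u‖ ^ 2 : ℝ) : ℂ) = ⟪u, u⟫_ℂ := fun u => by
    rw [inner_self_eq_norm_sq_to_K, ofReal_pow]
    rfl
  have e1 : ∀ j k, ⟪w (θ j • x) (v j), w (θ k • x) (v k)⟫_ℂ =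
      ⟪v j, v k⟫_ℂ * exp (-(((θ j - θ k) * ‖x‖) ^ 2 / 2 : ℝ)) := fun j k => by
    have m1 := hY (Y'.smul_mem (θ j) hx)
    have m2 := hY (Y'.smul_mem (θ k) hx)
    have h0 : (⟪-(θ j • x), θ k • x⟫_ℂ).im = 0 := by
      rw [← neg_smul, ← Complex.coe_smul, ← Complex.coe_smul, inner_smul_left, inner_smul_right,
        ← e, conj_ofReal, ← ofReal_mul, ← ofReal_mul, ofReal_im]
    rw [← M.inner_star', hw.star _ m1, ← ContinuousLinearMap.mul_apply, hw.mul _ (neg_mem m1) _ m2,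
      h0, ofReal_zero, mul_zero, exp_zero, one_smul, ← neg_smul, ← add_smul,
      h _ (Y'.smul_mem _ hx) _ (hv j) _ (hv k), norm_smul, mul_pow, mul_pow, Real.norm_eq_abs, sq_abs,
      show (-θ j + θ k) ^ 2 = (θ j - θ k) ^ 2 by ring]
  have e2 : ∀ j k (g : ℝ), ⟪exp (-I * (θ j * ‖x‖ * g : ℝ)) • v j,
      exp (-I * (θ k * ‖x‖ * g : ℝ)) • v k⟫_ℂ =
      ⟪v j, v k⟫_ℂ * exp (((θ j - θ k) * ‖x‖ : ℝ) * g * I) := fun j k g => by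
    rw [inner_smul_left, inner_smul_right, ← mul_assoc, ← exp_conj, ← exp_add, mul_comm]
    congr 2
    simp only [map_mul, map_neg, conj_I, conj_ofReal]
    push_cast
    ring
  have i1 : ∀ j k, Integrable (fun g : ℝ => ⟪v j, v k⟫_ℂ * exp (((θ j - θ k) * ‖x‖ : ℝ) * g * I))
      (gaussianReal 0 1) := fun j k =>
    (Integrable.of_bound (by fun_prop) 1 (ae_of_all _ fun g => by
      rw [← ofReal_mul, norm_exp_ofReal_mul_I])).const_mul _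
  apply ofReal_injective
  rw [← integral_complex_ofReal]
  simp only [e, sum_inner, inner_sum, e1, e2]
  rw [integral_finsetSum _ fun j _ => integrable_finsetSum _ fun k _ => i1 k j]
  refine Finset.sum_congr rfl fun j _ => ?_
  rw [integral_finsetSum _ fun k _ => i1 k j]
  refine Finset.sum_congr rfl fun k _ => ?_
  rw [integral_const_mul, QV_gauss]

end FS

end Vale.Agent.P367.Q
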