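import Vale.Agent.P367.QZ1
import Vale.Agent.P367.QV

/-! Vacuum property and equicontinuity on the spaces `LL`. -/

namespace Vale.Agent.P367.Q

open Complex MeasureTheory ProbabilityTheory Filter Topology Matrix
open scoped InnerProductSpace

namespace FS

section gen

variable {Λ : Type} [MeasurableSpace Λ] {μ : Measure Λ} {M : FS Λ μ} {u v : Λ → M2}

theorem qz2x_inner (hu : BM u) (hv : BM v) (a z : M.H) :
    ⟪M.loc u (M.W a M.Ω), M.loc v (M.W z M.Ω)⟫_ℂ = exp (-I * (⟪-a, z⟫_ℂ).im) *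
      ((∫ c, vac ((u c)ᴴ * v c) ∂μ) * exp (-(‖-a + z‖ ^ 2 / 2 : ℝ))) := by
  have e : star (M.W a) * (star (M.loc u) * (M.loc v * M.W z)) =
      exp (-I * (⟪-a, z⟫_ℂ).im) • (M.loc (fun c => (u c)ᴴ * v c) * M.W (-a + z)) := by
    rw [M.W_star, M.loc_star hu, ← mul_assoc (M.loc _), ← M.loc_mul hu.star hv, ← mul_assoc,
      M.W_loc _ (hu.star.mul hv), mul_assoc, M.W_mul, mul_smul_comm]
  rw [← M.inner_star', ← M.inner_star', ← M.W_vac _ (hu.star.mul hv), ← inner_smul_right]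
  exact congrArg (fun A : M.H →L[ℂ] M.H => ⟪M.Ω, A M.Ω⟫_ℂ) e

theorem qz2x_vac (hu : BM u) (hv : BM v) {a b x : M.H} (ha : ⟪a, x⟫_ℂ = 0) (hb : ⟪b, x⟫_ℂ = 0) :
    ⟪M.loc u (M.W a M.Ω), M.W x (M.loc v (M.W b M.Ω))⟫_ℂ =
      ⟪M.loc u (M.W a M.Ω), M.loc v (M.W b M.Ω)⟫_ℂ * exp (-(‖x‖ ^ 2 / 2 : ℝ)) := by
  have hb' : ⟪x, b⟫_ℂ = 0 := inner_eq_zero_symm.1 hb
  have e : M.W x * (M.loc v * M.W b) = M.loc v * M.W (b + x) := by
    rw [← mul_assoc, M.W_loc _ hv, mul_assoc, M.W_mul, hb', add_comm]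
    simp
  have e1 : M.W x (M.loc v (M.W b M.Ω)) = M.loc v (M.W (b + x) M.Ω) :=
    congrArg (fun A : M.H →L[ℂ] M.H => A M.Ω) e
  have e2 : ‖-a + (b + x)‖ ^ 2 = ‖-a + b‖ ^ 2 + ‖x‖ ^ 2 := by
    rw [← add_assoc, @norm_add_sq ℂ, inner_add_left, inner_neg_left, ha, hb]
    simp
  have e3 : ⟪-a, b + x⟫_ℂ = ⟪-a, b⟫_ℂ := by
    rw [inner_add_right, inner_neg_left a x, ha, neg_zero, add_zero]
  rw [e1, qz2x_inner hu hv, qz2x_inner hu hv, e2, e3, mul_assoc, mul_assoc, ← exp_add]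
  congr 3
  push_cast
  ring

end gen

variable {K : ℕ} {M : FS (Lab K) (muK K)} {T : Set ℝ} {D : Fin K → Lab K → ℝ}
  {A A' B B' C : Set ℝ} {x y ψ : M.H}

theorem qz2x_vac_LL (hD : Fam T D) (hA' : MeasurableSet A') (hC : MeasurableSet C) (hT : T ⊆ A')
    (h : Disjoint A' C) : M.Vac (M.WZ D) (M.Md C) (M.LL D A A') := by
  refine Vac.span fun x hx => ?_
  have key : ∀ (u : Lab K → M2) (y : M.H), BM u → y ∈ M.Md A' → ∃ (v : Lab K → M2) (a : M.H),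
      BM v ∧ ⟪a, x⟫_ℂ = 0 ∧ M.loc u (M.WZ D y M.Ω) = M.loc v (M.W a M.Ω) := by
    intro u y hu hy
    have hm : Measurable fun c : Lab K => ∑ l, (⟪M.sc (D l) M.Ω, y⟫_ℂ).re * c.2 l := by fun_prop
    have hΩ : M.Ω ∈ M.XX := by simpa [M.sc_const] using M.sc_mem (BR.const 1)
    refine ⟨_, y - ∑ l, ⟪M.sc (D l) M.Ω, y⟫_ℂ • M.sc (D l) M.Ω, hu.mul (BM.ph hm), ?_, ?_⟩
    · rw [inner_sub_left, Md_orth hA' hC h hy hx, sum_inner, Finset.sum_eq_zero, sub_zero]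
      intro l _
      rw [inner_smul_left, Md_orth hA' hC h (sc_mem_Md hA' hΩ (hD.br l)
        fun c hc => hD.supp l c fun h' => hc (hT h')) hx, mul_zero]
    · rw [M.loc_mul hu (BM.ph hm)]
      rfl
  rintro _ ⟨u, hu, -, y, hy, rfl⟩ _ ⟨u', hu', -, y', hy', rfl⟩
  obtain ⟨v, a, h1, h2, h3⟩ := key u y hu hy
  obtain ⟨v', a', h1', h2', h3'⟩ := key u' y' hu' hy'
  rw [h3, h3', WZ_eq_W hD hC (h.symm.mono_right hT) hx]
  exact qz2x_vac h1 h1' h2 h2'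

theorem qz2x_gen (hD : Fam T D) (hy : y ∈ M.XX) {δ : ℝ} (hδ : 0 ≤ δ)
    {f : SimpleFunc (Lab K) M.H} (h0 : Lev 0 f) (h1 : ∀ c, f c ∈ M.XX) (h2 : ∀ c, ‖f c‖ ≤ δ) :
    ‖M.Wf (M.WZ D) f (M.WZ D y M.Ω) - M.WZ D y M.Ω‖ ≤ δ * (1 + 2 * ‖y‖) := by
  have hw : M.IsW (M.WZ D) M.XX := isW_WZ hD
  refine (pow_le_pow_iff_left₀ (norm_nonneg _) (by positivity) two_ne_zero).1 ?_
  have e := norm_sq_cells f M.Ω
  rw [M.norm_Ω, one_pow] at e
  rw [← norm_sq_cells f]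
  refine le_of_le_of_eq ?_ ((congrArg ((δ * (1 + 2 * ‖y‖)) ^ 2 * ·) e).trans (mul_one _))
  rw [Finset.mul_sum]
  refine Finset.sum_le_sum fun v hv => ?_
  obtain ⟨c, rfl⟩ := SimpleFunc.mem_range.1 hv
  have mE := f.measurableSet_fiber (f c)
  have mB : MeasurableSet {r : ℝ | f (r, 0) = f c} :=
    (show Measurable fun r : ℝ => ((r, 0) : Lab K) by fun_prop) mE
  have eE : ((f ⁻¹' {f c}).indicator 1 : Lab K → ℝ) = ind {r : ℝ | f (r, 0) = f c} := by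
    rw [ind_eq]
    congr 1
    ext c'
    have := h0 c' (c'.1, 0) rfl fun l hl => absurd hl (Nat.not_lt_zero _)
    simp [this]
  have e1 := congrArg (fun A : M.H →L[ℂ] M.H => A (M.WZ D y M.Ω))
    (sc_Wf (f := f) (M.WZ D) mE fun _ h => h)
  simp only [ContinuousLinearMap.mul_apply] at e1
  rw [map_sub, e1, eE, ← (hw.dec M (h1 c)).sc_apply (BR.ind mB),
    ← (hw.dec M hy).sc_apply (BR.ind mB), ← mul_pow]
  refine pow_le_pow_left₀ (norm_nonneg _) (((vac_ind hD mB).disp_le hw le_rfl (h1 c) hy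
    ⟨1, by simp [M.sp_one]⟩).trans ?_) 2
  have := h2 c
  gcongr

theorem qz2x_equi (hD : Fam T D) (hψ : ψ ∈ M.LL D A A') {ε : ℝ} (hε : 0 < ε) :
    ∃ δ > 0, ∀ f : SimpleFunc (Lab K) M.H, Lev 0 f → (∀ c, f c ∈ M.XX) → (∀ c, ‖f c‖ ≤ δ) →
      ‖M.Wf (M.WZ D) f ψ - ψ‖ ≤ ε := by
  have hw : M.IsW (M.WZ D) M.XX := isW_WZ hD
  obtain ⟨φ, hφ, hd⟩ := Metric.mem_closure_iff.1 hψ (ε / 3) (by positivity)
  have key : ∃ L, 0 ≤ L ∧ ∀ δ, 0 ≤ δ → ∀ f : SimpleFunc (Lab K) M.H, Lev 0 f →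
      (∀ c, f c ∈ M.XX) → (∀ c, ‖f c‖ ≤ δ) → ‖M.Wf (M.WZ D) f φ - φ‖ ≤ L * δ := by
    clear hd
    induction hφ using Submodule.span_induction with
    | mem φ h =>
      obtain ⟨u, hu, -, y, hy, rfl⟩ := h
      refine ⟨‖M.loc u‖ * (1 + 2 * ‖y‖), by positivity, fun δ hδ f h0 h1 h2 => ?_⟩
      rw [← ContinuousLinearMap.mul_apply, hw.Wf_loc h1 hu, ContinuousLinearMap.mul_apply,
        ← map_sub]
      refine ((M.loc u).le_of_opNorm_le_of_le le_rfl (qz2x_gen hD hy.1 hδ h0 h1 h2)).trans_eq ?_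
      ring
    | zero => exact ⟨0, le_rfl, fun _ _ _ _ _ _ => by simp⟩
    | add a b _ _ ha hb =>
      obtain ⟨L, L0, hL⟩ := ha
      obtain ⟨L', L0', hL'⟩ := hb
      refine ⟨L + L', by positivity, fun δ hδ f h0 h1 h2 => ?_⟩
      rw [map_add, add_sub_add_comm, add_mul]
      exact (norm_add_le _ _).trans (add_le_add (hL δ hδ f h0 h1 h2) (hL' δ hδ f h0 h1 h2))
    | smul r a _ ha =>
      obtain ⟨L, L0, hL⟩ := ha
      refine ⟨‖r‖ * L, by positivity, fun δ hδ f h0 h1 h2 => ?_⟩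
      rw [map_smul, ← smul_sub, norm_smul, mul_assoc]
      exact mul_le_mul_of_nonneg_left (hL δ hδ f h0 h1 h2) (norm_nonneg _)
  obtain ⟨L, L0, hL⟩ := key
  refine ⟨ε / 3 / (L + 1), by positivity, fun f h0 h1 h2 => ?_⟩
  have b1 := hL _ (by positivity) f h0 h1 h2
  have b2 : L * (ε / 3 / (L + 1)) ≤ ε / 3 := by
    rw [← mul_div_assoc, div_le_iff₀ (by positivity)]
    nlinarith
  have e : M.Wf (M.WZ D) f ψ - ψ = M.Wf (M.WZ D) f (ψ - φ) + (M.Wf (M.WZ D) f φ - φ) - (ψ - φ) := by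
    rw [map_sub]
    abel
  have b3 := norm_sub_le (M.Wf (M.WZ D) f (ψ - φ) + (M.Wf (M.WZ D) f φ - φ)) (ψ - φ)
  have b4 := norm_add_le (M.Wf (M.WZ D) f (ψ - φ)) (M.Wf (M.WZ D) f φ - φ)
  rw [(hw.Wf_dec h1).norm] at b4
  rw [dist_eq_norm] at hd
  rw [e]
  linarith

theorem qz2x_equi' (hD : Fam T D) (hψ : ψ ∈ M.LL D A A') (a : SimpleFunc (Lab K) ℝ) {ε : ℝ}
    (hε : 0 < ε) : ∃ δ > 0, ∀ f g : SimpleFunc (Lab K) M.H, Lev 0 f → (∀ c, f c ∈ M.XX) →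
      (∀ c, ‖f c‖ ≤ δ) → (∀ c, g c = a c • f c) → ‖M.Wf (M.WZ D) g ψ - ψ‖ ≤ ε := by
  obtain ⟨δ, d0, hδ⟩ := qz2x_equi hD hψ (ε := ε / (a.range.card + 1)) (by positivity)
  obtain ⟨L, hL⟩ := a.exists_forall_norm_le
  have L0 : 0 ≤ L := (norm_nonneg _).trans (hL (0, 0))
  refine ⟨δ / (L + 1), by positivity, fun f g h0 h1 h2 h3 => ?_⟩
  have e := congrArg (fun A : M.H →L[ℂ] M.H => A (M.Wf (M.WZ D) g ψ - ψ)) (sum_cells (M := M) a)
  simp only [ContinuousLinearMap.sum_apply, ContinuousLinearMap.one_apply] at e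
  rw [← e]
  refine (norm_sum_le_of_le (n := fun _ => ε / (a.range.card + 1)) _ fun r hr => ?_).trans ?_
  · obtain ⟨c, rfl⟩ := SimpleFunc.mem_range.1 hr
    have mE := a.measurableSet_fiber (a c)
    have e1 := congrArg (fun A : M.H →L[ℂ] M.H => A ψ)
      (sc_Wf_congr (f := g) (g := f.map fun z => a c • z) (M.WZ D) mE fun c' hc' => by
        rw [h3, SimpleFunc.map_apply, show a c' = a c from hc'])
    simp only [ContinuousLinearMap.mul_apply] at e1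
    rw [map_sub, e1, ← map_sub]
    refine (norm_sc_ind_le mE _).trans (hδ _ (fun c₁ c₂ p q => ?_) (fun c' => ?_) fun c' => ?_)
    · rw [SimpleFunc.map_apply, SimpleFunc.map_apply, h0 c₁ c₂ p q]
    · exact M.XX.smul_mem _ (h1 c')
    · rw [SimpleFunc.map_apply, norm_smul]
      refine (mul_le_mul (hL c) (h2 c') (norm_nonneg _) L0).trans ?_
      rw [← mul_div_assoc, div_le_iff₀ (by positivity)]
      nlinarith
  · rw [Finset.sum_const, nsmul_eq_mul, ← mul_div_assoc, div_le_iff₀ (by positivity)]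
    nlinarith

end FS

end Vale.Agent.P367.Q
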