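import Vale.Agent.P367.QZ1
import Vale.Agent.P367.QV
import Vale.Agent.P367.QZ2x

/-! The spaces of vectors which only excite some of the modes. -/

namespace Vale.Agent.P367.Q

open Complex MeasureTheory ProbabilityTheory Filter Topology Matrix
open scoped InnerProductSpace

namespace FS

variable {K : ℕ} {M : FS (Lab K) (muK K)} {T : Set ℝ} {D : Fin K → Lab K → ℝ}
  {A A' B B' C : Set ℝ} {x y ψ : M.H} {U U' : M.H →L[ℂ] M.H}

theorem LL_gen {u : Lab K → M2} (hu : BM u) (h : ∀ c : Lab K, c.1 ∉ A → u c = 0)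
    (hy : y ∈ M.Md A') : M.loc u (M.WZ D y M.Ω) ∈ M.LL D A A' :=
  Submodule.le_topologicalClosure _ (Submodule.subset_span ⟨u, hu, h, y, hy, rfl⟩)

theorem isClosed_LL : IsClosed (M.LL D A A' : Set M.H) := Submodule.isClosed_topologicalClosure _

/-- it suffices to test an operator on the generators -/
theorem LL_map {S : Submodule ℂ M.H} (hS : IsClosed (S : Set M.H)) (V : M.H →L[ℂ] M.H)
    (h : ∀ u, BM u → (∀ c : Lab K, c.1 ∉ A → u c = 0) → ∀ y ∈ M.Md A',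
      V (M.loc u (M.WZ D y M.Ω)) ∈ S) (hψ : ψ ∈ M.LL D A A') : V ψ ∈ S := by
  have h1 : M.LL D A A' ≤ S.comap (V : M.H →ₗ[ℂ] M.H) :=
    Submodule.topologicalClosure_minimal _
      (Submodule.span_le.2 fun _ ⟨u, hu, h1, y, hy, e⟩ => e ▸ h u hu h1 y hy)
      (hS.preimage V.continuous)
  exact h1 hψ

theorem LL_mono (hA' : MeasurableSet A') (hB' : MeasurableSet B') (h : A ⊆ B) (h' : A' ⊆ B') :
    M.LL D A A' ≤ M.LL D B B' :=
  Submodule.topologicalClosure_mono (Submodule.span_mono fun _ ⟨u, hu, h1, y, hy, e⟩ =>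
    ⟨u, hu, fun c hc => h1 c fun h2 => hc (h h2), y, Md_mono hA' hB' h' hy, e⟩)

theorem ind_mem_LL (hD : Fam T D) (hA : MeasurableSet A) : M.sc (ind A) M.Ω ∈ M.LL D A A' := by
  have h := LL_gen (M := M) (D := D) (A := A) (A' := A') (BR.ind hA).bm
    (fun c hc => by simp [ind, hc]) (zero_mem _)
  rwa [(isW_WZ hD).zero, ContinuousLinearMap.one_apply] at h

theorem sc_loc_apply {g : Lab K → ℝ} {u : Lab K → M2} (hg : BR g) (hu : BM u) (x : M.H) :
    M.sc g (M.loc u x) = M.loc (fun c => (g c : ℂ) • u c) x :=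
  congrArg (· x) (M.sc_mul_loc hg hu)

theorem LL_supp (hA : MeasurableSet A) (hψ : ψ ∈ M.LL D A A') : M.sc (ind A) ψ = ψ := by
  have h := LL_map (S := ⊥) isClosed_singleton (M.sc (ind A) - 1) (fun u hu h y _ => by
    have e : (fun c => ((ind A c : ℝ) : ℂ) • u c) = u := funext fun c => by
      by_cases hc : c.1 ∈ A
      · simp [ind, hc]
      · simp [h c hc]
    rw [Submodule.mem_bot, ContinuousLinearMap.sub_apply, sc_loc_apply (BR.ind hA) hu, e,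
      ContinuousLinearMap.one_apply, sub_self]) hψ
  exact sub_eq_zero.1 h

theorem LL_loc (hψ : ψ ∈ M.LL D A A') {u : Lab K → M2} (hu : BM u) : M.loc u ψ ∈ M.LL D A A' :=
  LL_map isClosed_LL _ (fun v hv h y hy => by
    rw [← ContinuousLinearMap.mul_apply, ← M.loc_mul hu hv]
    exact LL_gen (hu.mul hv) (fun c hc => by rw [h c hc, mul_zero]) hy) hψ

theorem LL_ind (hB : MeasurableSet B) (hψ : ψ ∈ M.LL D A A') : M.sc (ind B) ψ ∈ M.LL D B A' :=
  LL_map isClosed_LL _ (fun v hv _ y hy => by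
    rw [sc_loc_apply (BR.ind hB) hv]
    exact LL_gen ((BR.ind hB).bms hv) (fun c hc => by simp [ind, hc]) hy) hψ

theorem LL_orb (hψ : ψ ∈ M.LL D A A') : M.orb ψ ⊆ M.LL D A A' := by
  rintro _ ⟨m, rfl⟩
  exact LL_loc hψ (BM.const m)

theorem LL_WZ (hD : Fam T D) (hψ : ψ ∈ M.LL D A A') (hx : x ∈ M.Md A') :
    M.WZ D x ψ ∈ M.LL D A A' :=
  LL_map isClosed_LL _ (fun v hv h y hy => by
    rw [← ContinuousLinearMap.mul_apply, (isW_WZ hD).loc x hx.1 hv, ContinuousLinearMap.mul_apply,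
      ← ContinuousLinearMap.mul_apply (M.WZ D x), (isW_WZ hD).mul x hx.1 y hy.1,
      ContinuousLinearMap.smul_apply, map_smul]
    exact Submodule.smul_mem _ _ (LL_gen hv h (add_mem hx hy))) hψ

theorem LL_EZc (hD : Fam T D) (hψ : ψ ∈ M.LL D A A') (hx : x ∈ M.Md A') :
    M.EZc (M.WZ D) x ψ ∈ M.LL D A A' :=
  add_mem (LL_loc (LL_WZ hD hψ hx) (BM.const _)) (LL_loc (LL_WZ hD hψ (neg_mem hx)) (BM.const _))

theorem LL_Wf (hD : Fam T D) (hψ : ψ ∈ M.LL D A A') {f : SimpleFunc (Lab K) M.H}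
    (hf : ∀ c, f c ∈ M.Md A') : M.Wf (M.WZ D) f ψ ∈ M.LL D A A' := by
  rw [Wf, ContinuousLinearMap.sum_apply]
  refine Submodule.sum_mem _ fun v hv => ?_
  obtain ⟨c, rfl⟩ := SimpleFunc.mem_range.1 hv
  exact LL_loc (LL_WZ hD hψ (hf c)) (BR.indicator (f.measurableSet_fiber _)).bm

theorem LL_EZ (hD : Fam T D) (hψ : ψ ∈ M.LL D A A') {f : SimpleFunc (Lab K) M.H}
    (hf : ∀ c, f c ∈ M.Md A') : M.EZ (M.WZ D) f ψ ∈ M.LL D A A' :=
  add_mem (LL_loc (LL_Wf hD hψ hf) (BM.const _))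
    (LL_loc (LL_Wf hD hψ (f := -f) fun c => neg_mem (hf c)) (BM.const _))

theorem Steps.LL_of (hD : Fam T D) {P : Gate K → Prop} (hP : ∀ g, P g → g.Meas)
    (hP' : ∀ a b, P (.pul a b) → ∀ x ∈ M.XX, ∀ c, M.pv a b x c ∈ M.Md A')
    (h : M.Steps D P 1 U) (hψ : ψ ∈ M.LL D A A') :
    U ψ ∈ M.LL D A A' ∧ star U ψ ∈ M.LL D A A' := by
  induction h generalizing ψ with
  | refl => exact ⟨hψ, by rwa [star_one]⟩
  | @step g V hg h ih =>
    cases g with
    | loc N α =>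
      have hα : Measurable α := hP _ hg
      refine ⟨LL_loc (ih hψ).1 (BM.rot N hα), ?_⟩
      rw [ev, star_mul, M.lr_star N hα]
      exact (ih (LL_loc hψ (BM.rot N hα.neg))).2
    | pul a b =>
      have hf := hP' a b hg _ (h.dec hD hP Dec.one).xi_mem
      refine ⟨LL_EZ hD (ih hψ).1 hf, ?_⟩
      rw [ev, star_mul, (isW_WZ hD).EZ_star fun c => (hf c).1]
      exact (ih (LL_EZ hD hψ (f := -M.pv a b (M.xi V)) fun c => neg_mem (hf c))).2

theorem pv_mem_Md (hA' : MeasurableSet A') {k : ℕ} {a b : SimpleFunc (Lab K) ℝ}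
    (h : (Gate.pul a b).OK k A') (hx : x ∈ M.XX) (c : Lab K) : M.pv a b x c ∈ M.Md A' := by
  obtain ⟨-, -, B, -, ha, hb⟩ := h
  rw [pv_apply]
  exact add_mem
    (Submodule.smul_mem _ _ (sc_mem_Md hA' hx (BR.simple b) fun c hc =>
      by_contra fun h => hc (hb c h).1))
    (Submodule.smul_mem _ _ (sc_mem_Md hA' hx (BR.simple a) fun c hc =>
      by_contra fun h => hc (ha c h).1))

/-- gates on the classes in `A'` only excite the modes of `A'` -/
theorem Steps.LL_ok (hD : Fam T D) (hA' : MeasurableSet A') {k : ℕ}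
    (h : M.Steps D (Gate.OK k A') 1 U) (hψ : ψ ∈ M.LL D A A') :
    U ψ ∈ M.LL D A A' ∧ star U ψ ∈ M.LL D A A' :=
  h.LL_of hD (fun _ hg => hg.meas) (fun _ _ hg _ hx => pv_mem_Md hA' hg hx) hψ

theorem Steps.LL_prim (hD : Fam T D) (hA' : MeasurableSet A') {k : Fin K}
    (h : M.Steps D (Gate.Prim k A') 1 U) (hψ : ψ ∈ M.LL D A A') :
    U ψ ∈ M.LL D A A' ∧ star U ψ ∈ M.LL D A A' :=
  h.LL_of hD (fun _ hg => hg.meas hA') (fun _ _ hg _ hx =>
    pv_mem_Md hA' (hg.resolve_right fun ⟨_, e⟩ => nomatch e) hx) hψ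

/-- the modes of a fresh class are in the vacuum -/
theorem vac_LL (hD : Fam T D) (hA' : MeasurableSet A') (hC : MeasurableSet C) (hT : T ⊆ A')
    (h : Disjoint A' C) : M.Vac (M.WZ D) (M.Md C) (M.LL D A A') := qz2x_vac_LL hD hA' hC hT h

/-- equicontinuity for displacements which only depend on the class -/
theorem LL_equi (hD : Fam T D) (hψ : ψ ∈ M.LL D A A') {ε : ℝ} (hε : 0 < ε) :
    ∃ δ > 0, ∀ f : SimpleFunc (Lab K) M.H, Lev 0 f → (∀ c, f c ∈ M.XX) → (∀ c, ‖f c‖ ≤ δ) →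
      ‖M.Wf (M.WZ D) f ψ - ψ‖ ≤ ε := qz2x_equi hD hψ hε

/-- the same with a fixed simple factor -/
theorem LL_equi' (hD : Fam T D) (hψ : ψ ∈ M.LL D A A') (a : SimpleFunc (Lab K) ℝ) {ε : ℝ}
    (hε : 0 < ε) : ∃ δ > 0, ∀ f g : SimpleFunc (Lab K) M.H, Lev 0 f → (∀ c, f c ∈ M.XX) →
      (∀ c, ‖f c‖ ≤ δ) → (∀ c, g c = a c • f c) → ‖M.Wf (M.WZ D) g ψ - ψ‖ ≤ ε :=
  qz2x_equi' hD hψ a hε

end FS

end Vale.Agent.P367.Q
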