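import Vale.Agent.P367.QWd
import Vale.Agent.P367.QZ2

/-! The relay gate for one cell: construction. -/

namespace Vale.Agent.P367.Q

open Complex MeasureTheory ProbabilityTheory Filter Topology Matrix
open scoped InnerProductSpace

namespace FS

variable {K : ℕ} (M : FS (Lab K) (muK K)) (D : Fin K → Lab K → ℝ)

/-- the mode which records -/
noncomputable def mx (C : Set ℝ) (U : M.H →L[ℂ] M.H) : M.H := M.sc (ind C) (M.xi U)

/-- the state of the bus `C` after the recording and the rotation -/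
noncomputable def bus (b : Set ℝ) (γ : ℝ) (U : M.H →L[ℂ] M.H) : M.H →L[ℂ] M.H :=
  M.sp (rot 0 (Real.pi / 4)) * M.EZc (M.WZ D) (γ • M.mx b U) * U

/-- the displacement felt by the cell during the broadcast -/
noncomputable def bk (A b : Set ℝ) (a : SimpleFunc (Lab K) ℝ) (s : ℝ) (U : M.H →L[ℂ] M.H) :
    SimpleFunc (Lab K) M.H := a.map fun r => r • s • M.mx (A \ b) U

/-- exact description of the relay gate `V` -/
structure CellD (A b C : Set ℝ) (a : SimpleFunc (Lab K) ℝ) (s γ : ℝ) (l : Wd)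
    (U V U₂ U₃ P : M.H →L[ℂ] M.H) : Prop where
  dV : M.Dec V
  d2 : M.Dec U₂
  d3 : M.Dec U₃
  e2 : M.sc (ind b) * U₂ = M.sc (ind b) * (M.wO (M.WZ D) (M.mx C (M.bus D b γ U)) l *
    M.EZc (M.WZ D) (γ • M.mx C U) * U)
  e3 : M.sc (ind b) * U₃ = M.sc (ind b) * (star (M.wO (M.WZ D) (M.mx C (M.bus D b γ U)) l) *
    M.EZ (M.WZ D) (M.bk A b a s U) * M.wO (M.WZ D) (M.mx C (M.bus D b γ U)) l *
    M.EZc (M.WZ D) (γ • M.mx C U) * U)
  sm : M.Sm (M.WZ D) (M.Md b) (2 * wt l * √(nu0.real b)) P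
  e3C : M.sc (ind C) * U₃ = M.sc (ind C) * (star (M.sp (rot 0 (Real.pi / 4))) * P * M.bus D b γ U)
  ea : M.sc (ind (A \ b)) * V =
    M.sc (ind (A \ b)) * M.EZc (M.WZ D) (s • M.sc a (M.mx b U₂))
  eb : M.sc (ind b) * V = M.sc (ind b) * (M.EZc (M.WZ D) (-(γ • M.mx C U₃)) *
    star (M.wO (M.WZ D) (M.mx C (M.bus D b γ U)) l) * M.EZ (M.WZ D) (M.bk A b a s U) *
    M.wO (M.WZ D) (M.mx C (M.bus D b γ U)) l * M.EZc (M.WZ D) (γ • M.mx C U))
  eC : M.sc (ind C) * V = M.sc (ind C) * (M.EZc (M.WZ D) (-(γ • M.mx b U₃)) *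
    star (M.sp (rot 0 (Real.pi / 4))) * P * M.sp (rot 0 (Real.pi / 4)) *
    M.EZc (M.WZ D) (γ • M.mx b U))

variable {M D} {T A b C : Set ℝ} {U : M.H →L[ℂ] M.H}

/-- the broadcast pulse -/
theorem bcast (hD : Fam T D) (hA : MeasurableSet A) (hb : MeasurableSet b) (hC : MeasurableSet C)
    (hbA : b ⊆ A) (hAC : Disjoint A C) {k : ℕ} {a : SimpleFunc (Lab K) ℝ} (ha : Lev k a) (s : ℝ)
    (hU : M.Dec U) : ∃ V, M.Steps D (Gate.OK k A) U (V * U) ∧ M.Dec V ∧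
      M.sc (ind (A \ b)) * V = M.sc (ind (A \ b)) * M.EZc (M.WZ D) (s • M.sc a (M.mx b U)) ∧
      M.sc (ind b) * V = M.sc (ind b) * M.EZ (M.WZ D) (M.bk A b a s U) ∧
      M.sc (ind C) * V = M.sc (ind C) := by
  classical
  have m1 : MeasurableSet (Prod.fst ⁻¹' (A \ b) : Set (Lab K)) := measurable_fst (hA.diff hb)
  have m2 : MeasurableSet (Prod.fst ⁻¹' b : Set (Lab K)) := measurable_fst hb
  have m3 : MeasurableSet (Prod.fst ⁻¹' C : Set (Lab K)) := measurable_fst hC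
  let α : SimpleFunc (Lab K) ℝ := SimpleFunc.piecewise _ m1 (SimpleFunc.const _ s) 0
  let β : SimpleFunc (Lab K) ℝ := SimpleFunc.piecewise _ m2 a 0
  have hα : ∀ c, α c = s * ind (A \ b) c := fun c => by
    by_cases h : c.1 ∈ A \ b <;> simp only [α, SimpleFunc.piecewise_apply, Set.mem_preimage, ind, h,
      if_true, if_false, SimpleFunc.const_apply, SimpleFunc.coe_zero, Pi.zero_apply, mul_one, mul_zero]
  have hβ : ∀ c, β c = a c * ind b c := fun c => by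
    by_cases h : c.1 ∈ b <;> simp [β, SimpleFunc.piecewise_apply, ind, h]
  have e1 : M.sc α (M.xi U) = s • M.mx (A \ b) U := by
    rw [show (α : Lab K → ℝ) = _ from funext hα, M.sc_smul s (BR.ind (hA.diff hb))]
    exact Complex.coe_smul s _
  have e2 : M.sc β (M.xi U) = M.sc a (M.mx b U) := by
    rw [show (β : Lab K → ℝ) = _ from funext hβ, M.sc_mul (BR.simple a) (BR.ind hb)]
    rfl
  have hg : (Gate.pul α β).OK k A := by
    refine ⟨fun c c' h _ => by rw [hα, hα, ind, ind, h], fun c c' h h' => by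
      rw [hβ, hβ, ind, ind, h, ha c c' h h'], A \ b, hA.diff hb, fun c hc => ?_, fun c hc => ?_⟩
    · have h : c.1 ∈ A \ b := by_contra fun h => hc (by rw [hα, ind, if_neg h, mul_zero])
      exact ⟨h.1, h⟩
    · have h : c.1 ∈ b := by_contra fun h => hc (by rw [hβ, ind, if_neg h, mul_zero])
      exact ⟨hbA h, fun h' => h'.2 h⟩
  refine ⟨M.EZ (M.WZ D) (M.pv α β (M.xi U)), .step hg .refl,
    (isW_WZ hD).EZ_dec (pv_mem α β hU.xi_mem), ?_, ?_, ?_⟩ <;> rw [ind_eq]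
  · refine sc_EZ _ m1 fun c (hc : c.1 ∈ A \ b) => ?_
    rw [pv_apply, e2, hα, hβ, ind, ind, if_pos hc, if_neg hc.2, mul_one, mul_zero, zero_smul,
      add_zero]
  · refine sc_EZ_congr _ m2 fun c (hc : c.1 ∈ b) => ?_
    rw [pv_apply, e1, hα, hβ, ind, ind, if_neg fun h => h.2 hc, if_pos hc, mul_one, mul_zero,
      zero_smul, zero_add]
    rfl
  · rw [sc_EZ (v := 0) _ m3 fun c hc => ?_, (isW_WZ hD).EZc_zero, mul_one]
    have h : c.1 ∉ A := Set.disjoint_right.1 hAC hc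
    rw [pv_apply, hα, hβ, ind, ind, if_neg fun h' => h h'.1, if_neg fun h' => h (hbA h'), mul_zero,
      mul_zero, zero_smul, zero_smul, add_zero]

theorem qca_mul {B : Set ℝ} (hB : MeasurableSet B) {X X' Y Y' : M.H →L[ℂ] M.H} (hX : M.Dec X)
    (h1 : M.sc (ind B) * X = M.sc (ind B) * X') (h2 : M.sc (ind B) * Y = M.sc (ind B) * Y') :
    M.sc (ind B) * (X * Y) = M.sc (ind B) * (X' * Y') := by
  have h := hX.2.2 _ (BR.ind (K := K) hB)
  rw [← mul_assoc, ← h, mul_assoc, h2, ← mul_assoc, h, h1, mul_assoc]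

theorem qca_id {B E : Set ℝ} (hD : Fam T D) (hE : MeasurableSet E) (hB : MeasurableSet B)
    (h : Disjoint E B) {k : ℕ} {V : M.H →L[ℂ] M.H} (hU : M.Dec U)
    (hs : M.Steps D (Gate.OK k E) U (V * U)) : M.sc (ind B) * V = M.sc (ind B) * 1 := by
  have e := congrArg (· * star U) (hs.id_compl hD hE hB h)
  simpa only [mul_assoc, hU.2.1, mul_one] using e

theorem cellA (hD : Fam T D) (hA : MeasurableSet A) (hb : MeasurableSet b) (hC : MeasurableSet C)
    (hbA : b ⊆ A) (hAC : Disjoint A C) {k : ℕ} {a : SimpleFunc (Lab K) ℝ} (ha : Lev k a)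
    (s γ : ℝ) (l : Wd) (hU : M.Dec U) :
    ∃ V U₂ U₃ P, M.Steps D (Gate.OK k (A ∪ C)) U (V * U) ∧
      M.CellD D A b C a s γ l U V U₂ U₃ P := by
  have hw := isW_WZ (M := M) hD
  have hbC : Disjoint b C := hAC.mono_left hbA
  have hAb := hA.diff hb
  have d2 : Disjoint C (A \ b) := hAC.symm.mono_right Set.sdiff_subset
  have d1 : Disjoint (b ∪ C) (A \ b) := Set.disjoint_union_left.2 ⟨Set.disjoint_sdiff_right, d2⟩
  have hmx : ∀ {B : Set ℝ} {W : M.H →L[ℂ] M.H}, MeasurableSet B → M.Dec W → M.mx B W ∈ M.XX :=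
    fun hB hW => XX.sc M hW.xi_mem (BR.ind hB)
  have dbus : M.Dec (M.bus D b γ U) :=
    ((M.dec_rot _ _).mul (hw.EZc_dec (M.XX.smul_mem γ (hmx hb hU)))).mul hU
  obtain ⟨V1, s1, q1, b1, c1⟩ := pulse hD hb hC hbC hU γ
  have u1 := q1.mul hU
  obtain ⟨V2, s2, q2, c2, b2⟩ := turn hD hC hb hbC.symm (V1 * U) 0 (Real.pi / 4)
  have u2 := q2.mul u1
  obtain ⟨V3, P1, s3, q3, b3, c3, p1⟩ := word hD hb hC hbC u2 l
  have u3 := q3.mul u2
  obtain ⟨V4, s4, q4, a4, b4, c4⟩ := bcast hD hA hb hC hbA hAC ha s u3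
  have u4 := q4.mul u3
  obtain ⟨V5, P2, s5, q5, b5, c5, p2⟩ := word hD hb hC hbC u4 (wInv l)
  have u5 := q5.mul u4
  obtain ⟨V6, s6, q6, c6, b6⟩ := turn hD hC hb hbC.symm (V5 * (V4 * (V3 * (V2 * (V1 * U))))) 0
    (-(Real.pi / 4))
  have u6 := q6.mul u5
  obtain ⟨V7, s7, q7, b7, c7⟩ := pulse hD hb hC hbC u6 (-γ)
  have a1 := qca_id hD (hb.union hC) hAb d1 hU s1
  have a2 := qca_id hD hC hAb d2 u1 s2
  have a3 := qca_id hD (hb.union hC) hAb d1 u2 s3
  have a5 := qca_id hD (hb.union hC) hAb d1 u4 s5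
  have a6 := qca_id hD hC hAb d2 u5 s6
  have a7 := qca_id hD (hb.union hC) hAb d1 u6 s7
  have b2' := b2.trans (mul_one _).symm
  have b6' := b6.trans (mul_one _).symm
  have c4' := c4.trans (mul_one _).symm
  have dP := hw.Ev_dec Md_le p1.1
  have x2 : M.sc (ind C) * (V2 * (V1 * U)) = M.sc (ind C) * M.bus D b γ U := by
    rw [bus, mul_assoc]
    exact qca_mul hC q2 c2 (qca_mul hC q1 c1 rfl)
  have x4 := qca_mul hC q4 c4' (qca_mul hC q3 c3 x2)
  rw [one_mul] at x4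
  have y2 : M.sc (ind C) (M.xi (V2 * (V1 * U))) = M.mx C (M.bus D b γ U) := xi_congr hC dbus u2 x2
  have y4 : M.sc (ind C) (M.xi (V4 * (V3 * (V2 * (V1 * U))))) = M.mx C (M.bus D b γ U) := by
    rw [xi_congr hC (dP.mul dbus) u4 x4, xi_mul dP.1 p1.2.1, mx]
  have y3 : M.bk A b a s (V3 * (V2 * (V1 * U))) = M.bk A b a s U := by
    have h := qca_mul hAb q3 a3 (qca_mul hAb q2 a2 (qca_mul (Y := U) hAb q1 a1 rfl))
    rw [one_mul, one_mul, one_mul] at h
    rw [bk, bk, mx, mx, xi_congr hAb hU u3 h]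
  rw [y2] at b3
  rw [y3] at b4
  rw [y4, hw.wO_inv (hmx hC dbus)] at b5
  rw [neg_smul] at b7 c7
  rw [← rot_star, ← sp_star] at c6
  have o1 : ∀ g, Gate.OK (K := K) 0 (b ∪ C) g → Gate.OK k (A ∪ C) g :=
    fun g hg => hg.mono (Nat.zero_le k) (Set.union_subset_union_left C hbA)
  have o2 : ∀ g, Gate.OK (K := K) 0 C g → Gate.OK k (A ∪ C) g :=
    fun g hg => hg.mono (Nat.zero_le k) Set.subset_union_right
  have o3 : ∀ g, Gate.OK (K := K) k A g → Gate.OK k (A ∪ C) g :=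
    fun g hg => hg.mono le_rfl Set.subset_union_left
  have hb3 := qca_mul hb q3 b3 (qca_mul hb q2 b2' b1)
  have hb6 := qca_mul hb q6 b6' (qca_mul hb q5 b5 (qca_mul hb q4 b4 hb3))
  refine ⟨V7 * (V6 * (V5 * (V4 * (V3 * (V2 * V1))))), _, _, P2 * P1, ?_,
    q7.mul (q6.mul (q5.mul (q4.mul (q3.mul (q2.mul q1))))), u3, u6, ?_, ?_, ?_, ?_, ?_, ?_, ?_⟩
  · simp only [mul_assoc]
    exact ((((((s1.mono o1).trans (s2.mono o2)).trans (s3.mono o1)).trans (s4.mono o3)).trans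
      (s5.mono o1)).trans (s6.mono o2)).trans (s7.mono o1)
  · simpa only [mul_assoc, one_mul, mx] using congrArg (· * U) hb3
  · simpa only [mul_assoc, one_mul, mx] using congrArg (· * U) hb6
  · refine (Sm.mul hw Md_le p2 p1).mono (le_of_eq ?_)
    rw [wt_inv]
    ring
  · simpa only [mul_assoc] using qca_mul hC q6 c6 (qca_mul hC q5 c5 x4)
  · simpa only [mul_one, one_mul] using qca_mul hAb q7 a7 (qca_mul hAb q6 a6 (qca_mul hAb q5 a5
      (qca_mul hAb q4 a4 (qca_mul hAb q3 a3 (qca_mul hAb q2 a2 a1)))))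
  · simpa only [mul_assoc, one_mul, mx] using qca_mul hb q7 b7 hb6
  · simpa only [mul_assoc, one_mul, mx] using qca_mul hC q7 c7 (qca_mul hC q6 c6 (qca_mul hC q5 c5
      (qca_mul hC q4 c4' (qca_mul hC q3 c3 (qca_mul hC q2 c2 c1)))))

end FS

end Vale.Agent.P367.Q
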