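import Vale.Agent.P367.QCellA

/-! The relay gate for one cell: estimates. -/

namespace Vale.Agent.P367.Q

open Complex MeasureTheory ProbabilityTheory Filter Topology Matrix
open scoped InnerProductSpace

namespace FS

variable {K : ℕ} {M : FS (Lab K) (muK K)} {D : Fin K → Lab K → ℝ} {T A A' b C : Set ℝ}
  {a : SimpleFunc (Lab K) ℝ} {s γ f : ℝ} {l : Wd} {U V U₂ U₃ P : M.H →L[ℂ] M.H}

theorem qcb_RZR : (rot 0 (Real.pi / 4))ᴴ * pau 2 * rot 0 (Real.pi / 4) = pau 1 := by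
  have h : ((√2 : ℝ) : ℂ) * (√2 : ℝ) = 2 := by
    rw [← ofReal_mul, Real.mul_self_sqrt (by norm_num)]; norm_num
  rw [rot_star]
  ext i j
  fin_cases i <;> fin_cases j <;>
    simp [rot, pau, Matrix.mul_apply, Fin.sum_univ_two, Real.cos_pi_div_four,
      Real.sin_pi_div_four, -ofReal_cos, -ofReal_sin] <;>
    [linear_combination (1 / 4 : ℂ) * (√2 : ℝ) * (√2 : ℝ) * I_mul_I;
      linear_combination (-I / 2) * h; linear_combination (I / 2) * h;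
      linear_combination (-1 / 4 : ℂ) * (√2 : ℝ) * (√2 : ℝ) * I_mul_I]

theorem qcb_mx (hC : MeasurableSet C) (hU : M.Dec U) :
    M.mx C U = star U (M.sp (pau 2) (U (M.sc (ind C) M.Ω))) := by
  have h := DFunLike.congr_fun (M.sc_sp (BR.ind hC) (pau 2)) (U M.Ω)
  simp only [mul_apply_eq_comp] at h
  rw [hU.sc_apply (BR.ind hC), ← h, hU.star.sc_apply (BR.ind hC)]
  rfl

theorem qcb_norm (hC : MeasurableSet C) : ‖M.sc (ind C) M.Ω‖ = √(nu0.real C) := by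
  rw [← norm_ind_sq (M := M) hC, Real.sqrt_sq (norm_nonneg _)]

theorem qcb_mem (hb : MeasurableSet b) (hU : M.Dec U) (γ : ℝ) : γ • M.mx b U ∈ M.Md b :=
  Submodule.smul_mem _ γ (ind_mem_Md hb hU.xi_mem)

theorem qcb_norm_mx (hb : MeasurableSet b) (hU : M.Dec U) (γ : ℝ) :
    ‖γ • M.mx b U‖ = |γ| * √(nu0.real b) := by
  rw [norm_smul, mx, hU.norm_sc_xi (BR.ind hb), qcb_norm hb, Real.norm_eq_abs]

/-- the value of the mark -/
theorem mark (hD : Fam T D) (hb : MeasurableSet b) (hC : MeasurableSet C) (hU : M.Dec U)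
    (hv : M.Vac (M.WZ D) (M.Md b) (M.orb (U (M.sc (ind C) M.Ω)))) (γ : ℝ) :
    |(⟪M.mx C (M.bus D b γ U), M.mx C U⟫_ℂ).im| = Real.exp (-(2 * γ ^ 2 * nu0.real b)) *
      |(⟪U (M.sc (ind C) M.Ω), M.sp (pau 0) (U (M.sc (ind C) M.Ω))⟫_ℂ).re| := by
  have hw : M.IsW (M.WZ D) M.XX := isW_WZ hD
  have hx := qcb_mem hb hU γ
  have hn := qcb_norm_mx hb hU γ
  set x := γ • M.mx b U with hxd
  set ψ := U (M.sc (ind C) M.Ω) with hψ
  have hx' : x ∈ M.XX := Md_le hx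
  have hE := hw.EZc_dec hx'
  have hB : M.Dec (M.bus D b γ U) := ((M.dec_rot _ _).mul hE).mul hU
  have h1 : M.mx C (M.bus D b γ U) =
      star U (M.EZc (M.WZ D) (-x) (M.EZc (M.WZ D) (-x) (M.sp (pau 1) ψ))) := by
    have h2 := DFunLike.congr_fun (hw.EZc_Y hx') ψ
    simp only [mul_apply_eq_comp] at h2
    rw [qcb_mx hC hB, ← h2, ← qcb_RZR, ← M.sp_sp, ← M.sp_sp, ← hw.EZc_star hx', ← M.sp_star]
    simp only [bus, star_mul, mul_apply_eq_comp]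
    rfl
  have h3 := DFunLike.congr_fun (hw.EZc_mul hx' hx') (M.sp (pau 2) ψ)
  have h4 : (⟪x, x⟫_ℂ).im = 0 := inner_self_im (𝕜 := ℂ) x
  simp only [mul_apply_eq_comp, h4, ofReal_zero, mul_zero, exp_zero, one_smul] at h3
  have h5 : ⟪M.sp (pau 1) ψ, M.sp (pau 2) ψ⟫_ℂ = I * ⟪ψ, M.sp (pau 0) ψ⟫_ℂ := by
    rw [← M.inner_star', M.sp_star, pau_star, M.sp_sp, pau_YZ, M.sp_smul,
      _root_.smul_apply, inner_smul_right]
  have h6 : ‖x + x‖ ^ 2 / 2 = 2 * γ ^ 2 * nu0.real b := by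
    rw [← two_smul ℝ x, norm_smul, hn, mul_pow, mul_pow, sq_abs,
      Real.sq_sqrt measureReal_nonneg]
    norm_num; ring
  rw [h1, qcb_mx hC hU, hU.star.inner, ← hw.EZc_star hx', M.inner_star, M.inner_star, h3,
    hv.inner_EZc (add_mem hx hx), h5, h6, ← ofReal_neg, ← ofReal_exp, mul_comm, im_ofReal_mul,
    abs_mul, abs_of_pos (Real.exp_pos _), I_mul_im]

/-- the recording mode hardly changes -/
theorem CellD.mis (h : M.CellD D A b C a s γ l U V U₂ U₃ P) (hD : Fam T D) (hb : MeasurableSet b)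
    (hC : MeasurableSet C) (hU : M.Dec U) (hγ : 0 ≤ γ) (hγb : γ * √(nu0.real b) ≤ 1 / 2)
    (hv : M.Vac (M.WZ D) (M.Md b) (M.orb (U (M.sc (ind C) M.Ω)))) :
    ‖M.mx C U₃ - M.mx C U‖ ≤ 32 * wt l * √(nu0.real b) * √(nu0.real C) := by
  have hw : M.IsW (M.WZ D) M.XX := isW_WZ hD
  have hy := qcb_mem hb hU γ
  have hn := qcb_norm_mx hb hU γ
  rw [abs_of_nonneg hγ] at hn
  set y := γ • M.mx b U with hyd
  set ψ := U (M.sc (ind C) M.Ω) with hψ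
  have hy' : y ∈ M.XX := Md_le hy
  have hE := hw.EZc_dec hy'
  have hR := M.dec_rot 0 (Real.pi / 4)
  have hP : M.Dec P := hw.Ev_dec Md_le h.sm.1
  have hB : M.Dec (M.bus D b γ U) := (hR.mul hE).mul hU
  have hU' := (hR.star.mul hP).mul hB
  have hEU := hE.mul hU
  have hψn : ‖ψ‖ = √(nu0.real C) := by rw [hψ, hU.norm, qcb_norm hC]
  have key : ∀ m : M2, mᴴ * m = 1 →
      ‖P (M.sp m (M.EZc (M.WZ D) y ψ)) - M.sp m (M.EZc (M.WZ D) y ψ)‖ ≤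
        8 * √(nu0.real C) * (2 * wt l * √(nu0.real b)) := by
    intro m hm
    refine h.sm.2.2 _ _ (by positivity) fun x hx => ?_
    refine (hv.EZc_disp_le hw Md_le hx hy' hm).trans ?_
    rw [hψn, hn]
    have h0 : 0 ≤ ‖x‖ * √(nu0.real C) := by positivity
    nlinarith
  have hR1 : (rot 0 (Real.pi / 4))ᴴ * rot 0 (Real.pi / 4) = 1 := by
    rw [rot_star, rot_add, neg_add_cancel, rot_zero]
  have k1 := key _ hR1
  have k2 := key (rot 0 (Real.pi / 4) * pau 2) (by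
    rw [conjTranspose_mul, mul_assoc, ← mul_assoc _ (rot _ _), hR1, one_mul, pau_star, pau_sq])
  have red : ∀ φ : M.H, ‖star (M.sp (rot 0 (Real.pi / 4))) (P (M.sp (rot 0 (Real.pi / 4)) φ)) - φ‖ =
      ‖P (M.sp (rot 0 (Real.pi / 4)) φ) - M.sp (rot 0 (Real.pi / 4)) φ‖ := by
    intro φ
    rw [← hR.norm, map_sub, hR.apply_star]
  have e1 : M.mx C U₃ =
      M.mx C (star (M.sp (rot 0 (Real.pi / 4))) * P * M.bus D b γ U) := xi_congr hC hU' h.d3 h.e3C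
  have e2 : M.mx C U = M.mx C (M.EZc (M.WZ D) y * U) := by
    rw [mx, mx, xi_mul hE.1 (hw.EZc_Z hy')]
  have e3 : (M.EZc (M.WZ D) y * U) (M.mx C (M.EZc (M.WZ D) y * U)) =
      M.sp (pau 2) (M.EZc (M.WZ D) y ψ) := by
    rw [qcb_mx hC hEU, hEU.apply_star]; rfl
  have h1 := hEU.xi_sub_le hU' (BR.ind hC)
  have e4 : ∀ φ, (star (M.sp (rot 0 (Real.pi / 4))) * P * M.bus D b γ U) φ =
      star (M.sp (rot 0 (Real.pi / 4))) (P (M.sp (rot 0 (Real.pi / 4))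
        ((M.EZc (M.WZ D) y * U) φ))) := fun _ => rfl
  rw [e4, e4, red, red] at h1
  rw [← M.sp_sp, ← e3] at k2
  rw [e1, e2]
  refine h1.trans ?_
  have k3 := add_le_add k1 k2
  refine k3.trans (le_of_eq ?_)
  ring

/-- the broadcast acts as a displacement -/
theorem mid (hD : Fam T D) (hA : MeasurableSet A) (hb : MeasurableSet b) (hC : MeasurableSet C)
    (hAC : Disjoint A C) (hU : M.Dec U) {x y ψ : M.H} (hx : x ∈ M.Md C) (hy : y ∈ M.Md C) :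
    ‖(star (M.wO (M.WZ D) y l) * M.EZ (M.WZ D) (M.bk A b a s U) * M.wO (M.WZ D) y l *
        M.EZc (M.WZ D) x) ψ - M.EZc (M.WZ D) x (M.Wf (M.WZ D) (M.bk A b a s U) ψ)‖ ≤
      2 * ‖M.sp (pr false) (M.wO (M.WZ D) y l (M.EZc (M.WZ D) x ψ))‖ := by
  have hw : M.IsW (M.WZ D) M.XX := isW_WZ hD
  have hAb : MeasurableSet (A \ b) := hA.diff hb
  have hd : Disjoint C (A \ b) := (hAC.mono_left Set.sdiff_subset).symm
  set F := M.bk A b a s U with hF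
  have hFm : ∀ c, F c ∈ M.Md (A \ b) := fun c => Submodule.smul_mem _ _ (qcb_mem hAb hU s)
  have hF1 : ∀ c, F c ∈ M.XX := fun c => Md_le (hFm c)
  have hF2 : ∀ c, (-F) c ∈ M.XX := fun c => neg_mem (hF1 c)
  have hO := hw.wO_dec (Md_le hy) l
  have hE := hw.EZc_dec (Md_le hx)
  have c1 : M.wO (M.WZ D) y l * M.Wf (M.WZ D) F = M.Wf (M.WZ D) F * M.wO (M.WZ D) y l :=
    cell_comm hFm (fun E hE _ h => sc_Wf _ hE h) (fun g hg => (hO.2.2 g hg).symm)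
      fun v hv => hw.wO_w (Md_le hv) (Md_le hy) (by rw [Md_orth hC hAb hd hy hv, zero_im]) l
  have c2 : M.EZc (M.WZ D) x * M.Wf (M.WZ D) F = M.Wf (M.WZ D) F * M.EZc (M.WZ D) x :=
    cell_comm hFm (fun E hE _ h => sc_Wf _ hE h) (fun g hg => (hE.2.2 g hg).symm)
      fun v hv => by
        rw [hw.EZc_w (Md_le hx) (Md_le hv), Md_orth hC hAb hd hx hv, zero_im, mul_zero, rot_zero,
          M.sp_one, mul_one]
  have c3 : M.EZ (M.WZ D) F - M.Wf (M.WZ D) F =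
      (M.Wf (M.WZ D) (-F) - M.Wf (M.WZ D) F) * M.sp (pr false) := by
    have a1 : M.Wf (M.WZ D) F * M.sp (pr false) = M.sp (pr false) * M.Wf (M.WZ D) F :=
      hw.Wf_loc hF1 (BM.const _)
    have a2 : M.Wf (M.WZ D) (-F) * M.sp (pr false) = M.sp (pr false) * M.Wf (M.WZ D) (-F) :=
      hw.Wf_loc hF2 (BM.const _)
    rw [sub_mul, a1, a2, EZ]
    nth_rewrite 2 [← one_mul (M.Wf (M.WZ D) F)]
    rw [← qwa_sum M, add_mul]
    abel
  set φ := M.wO (M.WZ D) y l (M.EZc (M.WZ D) x ψ) with hφ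
  have e1 : M.wO (M.WZ D) y l (M.EZc (M.WZ D) x (M.Wf (M.WZ D) F ψ)) = M.Wf (M.WZ D) F φ := by
    have d1 := DFunLike.congr_fun c1 (M.EZc (M.WZ D) x ψ)
    have d2 := DFunLike.congr_fun c2 ψ
    simp only [mul_apply_eq_comp] at d1 d2
    rw [d2, d1]
  have e2 := DFunLike.congr_fun c3 φ
  simp only [mul_apply_eq_comp, _root_.sub_apply] at e2
  rw [← hO.norm, map_sub, e1]
  simp only [mul_apply_eq_comp]
  rw [hO.apply_star, e2]
  refine (norm_sub_le _ _).trans (le_of_eq ?_)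
  rw [(hw.Wf_dec hF1).norm, (hw.Wf_dec hF2).norm, two_mul]

theorem qcb2_mem (hC : MeasurableSet C) (hU : M.Dec U) : M.mx C U ∈ M.Md C :=
  ind_mem_Md hC hU.xi_mem

theorem qcb2_ind (hb : MeasurableSet b) : ‖M.sc (ind b) M.Ω‖ = √(nu0.real b) := by
  rw [← norm_ind_sq (M := M) hb, Real.sqrt_sq (norm_nonneg _)]

theorem qcb2_norm (hb : MeasurableSet b) (hU : M.Dec U) : ‖M.mx b U‖ = √(nu0.real b) :=
  (hU.norm_sc_xi (BR.ind hb)).trans (qcb2_ind hb)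

theorem qcb2_bus (hD : Fam T D) (hb : MeasurableSet b) (hU : M.Dec U) (γ : ℝ) :
    M.Dec (M.bus D b γ U) :=
  ((M.dec_rot _ _).mul ((isW_WZ hD).EZc_dec
    (Md_le ((M.Md b).smul_mem γ (qcb2_mem hb hU))))).mul hU

theorem qcb2_bk (hA : MeasurableSet A) (hb : MeasurableSet b) (hU : M.Dec U) (c : Lab K) :
    M.bk A b a s U c ∈ M.Md (A \ b) :=
  (M.Md _).smul_mem _ ((M.Md _).smul_mem _ (qcb2_mem (hA.diff hb) hU))

theorem qcb2_sc (hb : MeasurableSet b) {L : ℝ} (hL : ∀ c, |a c| ≤ L) :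
    ‖M.sc a (M.sc (ind b) M.Ω)‖ ≤ L * √(nu0.real b) := by
  have h0 : 0 ≤ L := (abs_nonneg _).trans (hL (0, 0))
  have h1 : M.sc a (M.sc (ind b) M.Ω) = M.sc (fun c => a c * ind b c) M.Ω := by
    rw [M.sc_mul (BR.simple a) (BR.ind hb)]
    rfl
  obtain ⟨h2, B, h3⟩ := (BR.ind (K := K) hb).mul (BR.ind hb)
  have h4 : Integrable (fun c : Lab K => ind b c ^ 2) (muK K) := by
    simp only [sq]
    exact Integrable.of_bound h2.aestronglyMeasurable B (Eventually.of_forall h3)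
  refine le_of_pow_le_pow_left₀ two_ne_zero (by positivity) ?_
  rw [h1, M.norm_sc_sq ((BR.simple a).mul (BR.ind hb)), ← qcb2_ind (M := M) hb, mul_pow,
    M.norm_sc_sq (BR.ind hb), ← integral_const_mul]
  refine integral_mono_of_nonneg (Eventually.of_forall fun c => sq_nonneg _) (h4.const_mul _)
    (Eventually.of_forall fun c => ?_)
  beta_reduce
  rw [mul_pow]
  exact mul_le_mul_of_nonneg_right (sq_le_sq' (abs_le.1 (hL c)).1 (abs_le.1 (hL c)).2)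
    (sq_nonneg _)

theorem qcb2_Z (ψ : M.H) : ‖M.sp (pau 2) ψ - ψ‖ = 2 * ‖M.sp (pr false) ψ‖ := by
  have h1 : M.sp (pr true) ψ + M.sp (pr false) ψ = ψ := congrArg (· ψ) (qwa_sum M)
  have h2 : M.sp (pau 2) ψ = M.sp (pr true) ψ - M.sp (pr false) ψ := by
    rw [← pr_sub, sp_sub]
    rfl
  have h3 : M.sp (pau 2) ψ - ψ = -((2 : ℝ) • M.sp (pr false) ψ) := by
    rw [h2, two_smul, sub_eq_iff_eq_add]
    refine Eq.trans ?_ (congrArg (-(M.sp (pr false) ψ + M.sp (pr false) ψ) + ·) h1)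
    abel
  rw [h3, norm_neg, norm_smul, Real.norm_ofNat]

theorem qcb2_phase {E : M.H →L[ℂ] M.H} (hE : M.Dec E) {ψ : M.H} {z : ℂ} (hz : ‖z‖ = 1) {r : ℝ}
    (h : ‖E ψ - z • ψ‖ ≤ r) : ‖ψ‖ ^ 2 - r ^ 2 / 2 ≤ ‖⟪ψ, E ψ⟫_ℂ‖ := by
  have h1 := pow_le_pow_left₀ (norm_nonneg _) h 2
  rw [@norm_sub_sq ℂ, hE.norm, norm_smul, hz, one_mul] at h1
  have h2 : RCLike.re ⟪E ψ, z • ψ⟫_ℂ ≤ ‖⟪ψ, E ψ⟫_ℂ‖ := by
    refine (RCLike.re_le_norm _).trans (le_of_eq ?_)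
    rw [inner_smul_right, norm_mul, hz, one_mul, norm_inner_symm]
  linarith

theorem CellD.c1 (h : M.CellD D A b C a s γ l U V U₂ U₃ P) (hD : Fam T D) (hb : MeasurableSet b)
    (hC : MeasurableSet C) (hU : M.Dec U) {L : ℝ} (hL : ∀ c, |a c| ≤ L)
    (hUb : U (M.sc (ind b) M.Ω) ∈ M.LL D b A') (hf0 : 0 ≤ f)
    (hf : ∀ ψ ∈ M.LL D b A', ‖M.sp (pr false) (M.wO (M.WZ D) (M.mx C (M.bus D b γ U)) l
      (M.EZc (M.WZ D) (γ • M.mx C U) ψ))‖ ≤ f * ‖ψ‖) :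
    M.sc a (M.mx b U₂) ∈ M.Md b ∧ ‖M.sc a (M.mx b U₂)‖ ≤ L * √(nu0.real b) ∧
      ‖M.sc a (M.mx b U₂) - M.sc a (M.sc (ind b) M.Ω)‖ ≤ 2 * L * f * √(nu0.real b) := by
  have ha := BR.simple a
  have hi := BR.ind (K := K) hb
  have hw := isW_WZ (M := M) hD
  have h1 : ∀ x, M.sc a (M.sc (ind b) x) = M.sc (fun c => a c * ind b c) x := fun x => by
    rw [M.sc_mul ha hi]
    rfl
  have h2 := qcb2_sc (M := M) hb hL
  refine ⟨?_, ?_, ?_⟩
  · rw [mx, h1]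
    exact sc_mem_Md hb h.d2.xi_mem (ha.mul hi) fun c hc => by simp [ind, hc]
  · rw [mx, h1, h.d2.norm_sc_xi (ha.mul hi), ← h1]
    exact h2
  have dO := hw.wO_dec (Md_le (qcb2_mem hC (qcb2_bus hD hb hU γ))) l
  have dE := hw.EZc_dec (Md_le ((M.Md C).smul_mem γ (qcb2_mem hC hU)))
  have h3 : U₂ (M.sc a (M.sc (ind b) M.Ω)) = M.wO (M.WZ D) (M.mx C (M.bus D b γ U)) l
      (M.EZc (M.WZ D) (γ • M.mx C U) (M.sc a (U (M.sc (ind b) M.Ω)))) := by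
    have k : M.sc (ind b) (U₂ M.Ω) = M.sc (ind b) (M.wO (M.WZ D) (M.mx C (M.bus D b γ U)) l
        (M.EZc (M.WZ D) (γ • M.mx C U) (U M.Ω))) := congrArg (· M.Ω) h.e2
    rw [h.d2.sc_apply ha, h.d2.sc_apply hi, k, hU.sc_apply hi, dE.sc_apply ha, dE.sc_apply hi,
      dO.sc_apply ha, dO.sc_apply hi]
  have h4 : M.sc a (M.mx b U₂) - M.sc a (M.sc (ind b) M.Ω) =
      star U₂ (M.sp (pau 2) (U₂ (M.sc a (M.sc (ind b) M.Ω))) - U₂ (M.sc a (M.sc (ind b) M.Ω))) := by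
    rw [map_sub, h.d2.star_apply, h.d2.sc_apply ha, h.d2.sc_apply hi, (M.dec_pau 2).sc_apply ha,
      (M.dec_pau 2).sc_apply hi, h.d2.star.sc_apply ha, h.d2.star.sc_apply hi]
    rfl
  have h5 := hf _ (LL_loc hUb ha.bm)
  have h6 : ‖M.sc a (U (M.sc (ind b) M.Ω))‖ ≤ L * √(nu0.real b) := by
    rw [← hU.sc_apply ha, hU.norm]
    exact h2
  have h7 := h5.trans (mul_le_mul_of_nonneg_left h6 hf0)
  rw [h4, h.d2.star.norm, qcb2_Z, h3]
  exact (mul_le_mul_of_nonneg_left h7 zero_le_two).trans_eq (by ring)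

theorem CellD.c2 (h : M.CellD D A b C a s γ l U V U₂ U₃ P) (hD : Fam T D) (hA : MeasurableSet A)
    (hA' : MeasurableSet A') (hb : MeasurableSet b) (hC : MeasurableSet C) (hT : T ⊆ A')
    (hAA' : A ⊆ A') (hAC : Disjoint A' C) (hU : M.Dec U) (hγ : 0 ≤ γ)
    (hf : ∀ ψ ∈ M.LL D b A', ‖M.sp (pr false) (M.wO (M.WZ D) (M.mx C (M.bus D b γ U)) l
      (M.EZc (M.WZ D) (γ • M.mx C U) ψ))‖ ≤ f * ‖ψ‖) {ψ : M.H} (hψ : ψ ∈ M.LL D b A') :
    ‖V ψ - M.Wf (M.WZ D) (M.bk A b a s U) ψ‖ ≤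
      (2 * f + (2 * γ + γ ^ 2) * ‖M.mx C U₃ - M.mx C U‖) * ‖ψ‖ := by
  have hi := BR.ind (K := K) hb
  have hw := isW_WZ (M := M) hD
  have mx0 := (M.Md C).smul_mem γ (qcb2_mem hC hU)
  have mx3 := (M.Md C).smul_mem γ (qcb2_mem hC h.d3)
  have h1 := mid (a := a) (s := s) (l := l) (ψ := ψ) hD hA hb hC (hAC.mono_left hAA') hU mx0
    (qcb2_mem hC (qcb2_bus hD hb hU γ))
  have h2 : M.Wf (M.WZ D) (M.bk A b a s U) ψ ∈ M.LL D b A' := LL_Wf hD hψ fun c =>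
    Md_mono (hA.diff hb) hA' (Set.sdiff_subset.trans hAA') (qcb2_bk hA hb hU c)
  have h3 : ‖M.Wf (M.WZ D) (M.bk A b a s U) ψ‖ = ‖ψ‖ :=
    (hw.Wf_dec fun c => Md_le (qcb2_bk hA hb hU c)).norm ψ
  have h4 := hf ψ hψ
  have h5 : V ψ = M.sc (ind b) (M.EZc (M.WZ D) (-(γ • M.mx C U₃))
      ((star (M.wO (M.WZ D) (M.mx C (M.bus D b γ U)) l) * M.EZ (M.WZ D) (M.bk A b a s U) *
        M.wO (M.WZ D) (M.mx C (M.bus D b γ U)) l * M.EZc (M.WZ D) (γ • M.mx C U)) ψ)) := by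
    refine Eq.trans ?_ (congrArg (· ψ) h.eb)
    rw [mul_apply_eq_comp, ← h.dV.sc_apply hi, LL_supp hb hψ]
  generalize (star (M.wO (M.WZ D) (M.mx C (M.bus D b γ U)) l) * M.EZ (M.WZ D) (M.bk A b a s U) *
    M.wO (M.WZ D) (M.mx C (M.bus D b γ U)) l * M.EZc (M.WZ D) (γ • M.mx C U)) ψ = χ at h1 h5
  generalize M.Wf (M.WZ D) (M.bk A b a s U) ψ = φ at h1 h2 h3
  have dE := hw.EZc_dec (Md_le mx3)
  have h6 : V ψ - φ = M.sc (ind b) (star (M.EZc (M.WZ D) (γ • M.mx C U₃))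
      ((χ - M.EZc (M.WZ D) (γ • M.mx C U) φ) +
        (M.EZc (M.WZ D) (γ • M.mx C U) φ - M.EZc (M.WZ D) (γ • M.mx C U₃) φ))) := by
    rw [sub_add_sub_cancel, map_sub, map_sub, dE.star_apply, LL_supp hb h2, h5,
      hw.EZc_star (Md_le mx3)]
  have h7 := hw.EZc_sub_EZc (Md_le mx0) (Md_le mx3) φ
  have h8 := ((vac_LL hD hA' hC hT hAC).mono le_rfl (LL_orb h2)).EZc_sub_le hw Md_le
    (sub_mem mx0 mx3)
  have h9 : ‖γ • M.mx C U - γ • M.mx C U₃‖ = γ * ‖M.mx C U₃ - M.mx C U‖ := by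
    rw [← smul_sub, norm_smul, Real.norm_of_nonneg hγ, norm_sub_rev]
  have k1 : ‖γ • M.mx C U₃‖ ≤ γ := by
    rw [norm_smul, Real.norm_of_nonneg hγ]
    exact mul_le_of_le_one_right hγ ((norm_ind_le hC _).trans h.d3.norm_xi.le)
  have k2 := mul_le_mul_of_nonneg_right (mul_le_mul_of_nonneg_left k1
    (mul_nonneg hγ (norm_nonneg (M.mx C U₃ - M.mx C U)))) (norm_nonneg ψ)
  rw [h9, h3] at h7 h8
  rw [h6]
  refine (norm_ind_le hb _).trans ?_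
  rw [dE.star.norm]
  refine (norm_add_le _ _).trans ?_
  nlinarith

theorem CellD.qcb2_mx (h : M.CellD D A b C a s γ l U V U₂ U₃ P) (hD : Fam T D)
    (hA : MeasurableSet A) (hb : MeasurableSet b) (hC : MeasurableSet C) (hAC : Disjoint A C)
    (hU : M.Dec U) (hUb : U (M.sc (ind b) M.Ω) ∈ M.LL D b A')
    (hf : ∀ ψ ∈ M.LL D b A', ‖M.sp (pr false) (M.wO (M.WZ D) (M.mx C (M.bus D b γ U)) l
      (M.EZc (M.WZ D) (γ • M.mx C U) ψ))‖ ≤ f * ‖ψ‖) :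
    ‖M.mx b U₃ - M.mx b U‖ ≤ 4 * f * √(nu0.real b) := by
  have hi := BR.ind (K := K) hb
  have hw := isW_WZ (M := M) hD
  have mx0 := (M.Md C).smul_mem γ (qcb2_mem hC hU)
  have my := qcb2_mem hC (qcb2_bus hD hb hU γ)
  have hF : ∀ c, M.bk A b a s U c ∈ M.XX := fun c => Md_le (qcb2_bk hA hb hU c)
  have dO := hw.wO_dec (Md_le my) l
  have dE := hw.EZc_dec (Md_le mx0)
  have dG := (((dO.star.mul (hw.EZ_dec hF)).mul dO).mul dE).mul hU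
  have dW := dE.mul (hw.Wf_dec hF)
  have h1 := xi_congr hb dG h.d3 h.e3
  have h2 : M.xi (M.EZc (M.WZ D) (γ • M.mx C U) * M.Wf (M.WZ D) (M.bk A b a s U) * U) =
      M.xi U := xi_mul dW.1 (by
    rw [← mul_assoc, hw.EZc_Z (Md_le mx0), mul_assoc, mul_assoc]
    exact congrArg _ (hw.Wf_loc hF (BM.const _)).symm)
  have h3 := (dW.mul hU).xi_sub_le dG hi
  rw [h2, ← h1] at h3
  have h4 : U (M.sc (ind b) (M.xi U)) = M.sp (pau 2) (U (M.sc (ind b) M.Ω)) := by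
    rw [hU.sc_apply hi, xi, hU.apply_star, hU.sc_apply hi, (M.dec_pau 2).sc_apply hi]
  have h5 : U (M.sc (ind b) (M.xi U)) ∈ M.LL D b A' := h4 ▸ LL_orb hUb ⟨_, rfl⟩
  have k1 := (mid (a := a) (s := s) (l := l) hD hA hb hC hAC hU mx0 my).trans
    (mul_le_mul_of_nonneg_left (hf _ hUb) zero_le_two)
  have k2 := (mid (a := a) (s := s) (l := l) hD hA hb hC hAC hU mx0 my).trans
    (mul_le_mul_of_nonneg_left (hf _ h5) zero_le_two)
  rw [hU.norm, qcb2_ind hb] at k1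
  rw [hU.norm, hU.norm_sc_xi hi, qcb2_ind hb] at k2
  exact h3.trans ((add_le_add k1 k2).trans_eq (by ring))

theorem CellD.c3 (h : M.CellD D A b C a s γ l U V U₂ U₃ P) (hD : Fam T D) (hA : MeasurableSet A)
    (hb : MeasurableSet b) (hC : MeasurableSet C) (hAC : Disjoint A C) (hU : M.Dec U)
    (hγ : 0 ≤ γ) (hγb : γ * √(nu0.real b) ≤ 1 / 2)
    (hUb : U (M.sc (ind b) M.Ω) ∈ M.LL D b A') (hf0 : 0 ≤ f)
    (hf : ∀ ψ ∈ M.LL D b A', ‖M.sp (pr false) (M.wO (M.WZ D) (M.mx C (M.bus D b γ U)) l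
      (M.EZc (M.WZ D) (γ • M.mx C U) ψ))‖ ≤ f * ‖ψ‖) :
    ∃ E, M.Ev (M.WZ D) (M.Md b) E ∧ M.sc (ind C) * V = M.sc (ind C) * E ∧
      (1 - (16 * wt l + 8 * γ * f) ^ 2 / 2 * nu0.real b) * nu0.real C ≤
        ‖⟪M.sc (ind C) M.Ω, E (M.sc (ind C) M.Ω)⟫_ℂ‖ := by
  have hw := isW_WZ (M := M) hD
  have mx0 := (M.Md b).smul_mem γ (qcb2_mem hb hU)
  have mx3 := neg_mem ((M.Md b).smul_mem γ (qcb2_mem hb h.d3))
  have ez : ∀ x ∈ M.Md b, M.Ev (M.WZ D) (M.Md b) (M.EZc (M.WZ D) x) := fun x hx =>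
    mul_one (M.EZc (M.WZ D) x) ▸ Ev.ez hx Ev.one
  have er : ∀ t, M.Ev (M.WZ D) (M.Md b) (M.sp (rot 0 t)) := fun t =>
    mul_one (M.sp (rot 0 t)) ▸ Ev.rot t Ev.one
  have er' : M.Ev (M.WZ D) (M.Md b) (star (M.sp (rot 0 (Real.pi / 4)))) := by
    rw [sp_star, rot_star]
    exact er _
  have hE := ((((ez _ mx3).mul er').mul h.sm.1).mul (er (Real.pi / 4))).mul (ez _ mx0)
  refine ⟨_, hE, h.eC, ?_⟩
  have hv := vac_ind (M := M) hD hC
  have n0 : ‖γ • M.mx b U‖ ≤ 1 / 2 := by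
    rw [norm_smul, Real.norm_of_nonneg hγ, qcb2_norm hb hU]
    exact hγb
  have n1 : ‖-(γ • M.mx b U₃) + γ • M.mx b U‖ ≤ γ * (4 * f * √(nu0.real b)) := by
    rw [neg_add_eq_sub, ← smul_sub, norm_smul, Real.norm_of_nonneg hγ, norm_sub_rev]
    exact mul_le_mul_of_nonneg_left (h.qcb2_mx hD hA hb hC hAC hU hUb hf) hγ
  have n2 := norm_ind_sq (M := M) hC
  generalize M.sc (ind C) M.Ω = ψ at hv n2
  have h1 := h.sm.2.2 (M.sp (rot 0 (Real.pi / 4)) (M.EZc (M.WZ D) (γ • M.mx b U) ψ)) (8 * ‖ψ‖)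
    (by positivity) fun x hx => (hv.EZc_disp_le hw le_rfl (Md_le hx) (Md_le mx0)
      (by rw [rot_star, rot_add, neg_add_cancel, rot_zero])).trans (by
        nlinarith [mul_nonneg (norm_nonneg x) (norm_nonneg ψ)])
  have h2 := (hv.EZc_sub_le hw le_rfl (Md_le (add_mem mx3 mx0))).trans
    (mul_le_mul_of_nonneg_right (mul_le_mul_of_nonneg_left n1 zero_le_two) (norm_nonneg ψ))
  have h3 := congrArg (· ψ) (hw.EZc_mul (Md_le mx3) (Md_le mx0))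
  have hz : ‖exp (-I * (⟪-(γ • M.mx b U₃), γ • M.mx b U⟫_ℂ).im)‖ = 1 := by
    simp only [norm_exp, neg_mul, neg_re, mul_re, I_re, I_im, ofReal_re, ofReal_im, zero_mul,
      mul_zero, sub_zero, neg_zero, Real.exp_zero]
  generalize exp (-I * (⟪-(γ • M.mx b U₃), γ • M.mx b U⟫_ℂ).im) = z at h3 hz
  have h4 : (M.EZc (M.WZ D) (-(γ • M.mx b U₃)) * star (M.sp (rot 0 (Real.pi / 4))) * P *
      M.sp (rot 0 (Real.pi / 4)) * M.EZc (M.WZ D) (γ • M.mx b U)) ψ - z • ψ =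
      M.EZc (M.WZ D) (-(γ • M.mx b U₃)) (star (M.sp (rot 0 (Real.pi / 4)))
        (P (M.sp (rot 0 (Real.pi / 4)) (M.EZc (M.WZ D) (γ • M.mx b U) ψ)) -
          M.sp (rot 0 (Real.pi / 4)) (M.EZc (M.WZ D) (γ • M.mx b U) ψ))) +
        z • (M.EZc (M.WZ D) (-(γ • M.mx b U₃) + γ • M.mx b U) ψ - ψ) := by
    have k : M.EZc (M.WZ D) (-(γ • M.mx b U₃)) (M.EZc (M.WZ D) (γ • M.mx b U) ψ) =
        z • M.EZc (M.WZ D) (-(γ • M.mx b U₃) + γ • M.mx b U) ψ := h3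
    rw [map_sub, map_sub, (M.dec_rot _ _).star_apply, k, smul_sub, sub_add_sub_cancel]
    rfl
  have h5 := qcb2_phase (hw.Ev_dec Md_le hE) hz
    (r := (16 * wt l + 8 * γ * f) * √(nu0.real b) * ‖ψ‖) (by
      rw [h4]
      refine (norm_add_le _ _).trans ?_
      rw [(hw.EZc_dec (Md_le mx3)).norm, (M.dec_rot _ _).star.norm, norm_smul, hz, one_mul]
      exact (add_le_add h1 h2).trans_eq (by ring))
  rw [mul_pow, mul_pow, Real.sq_sqrt measureReal_nonneg, n2] at h5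
  exact le_trans (le_of_eq (by ring)) h5

end FS

end Vale.Agent.P367.Q
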