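import Mathlib

/-! QAOA on the SK model: the path sums describing the limit of infinite size. -/

namespace Vale.Agent.P367.Q

open Complex

/-- the sign of a spin value -/
def sg (σ : Bool) : ℝ := if σ then 1 else -1

/-- matrix element of `exp (-i β X)` -/
noncomputable def rx (β : ℝ) (x y : Bool) : ℂ := if x = y then Real.cos β else -I * Real.sin β

/-- a pair of paths (ket, bra), extended beyond its length by a default value -/
def ext {d : ℕ} (a : Fin (d + 1) → Bool × Bool) (n : ℕ) : Bool × Bool :=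
  if h : n < d + 1 then a ⟨n, h⟩ else (true, true)

/-- the amplitude of a pair of paths which is closed at time `d` -/
noncomputable def amp (β : ℕ → ℝ) (d : ℕ) (a : ℕ → Bool × Bool) : ℂ :=
  (if (a d).1 = (a d).2 then 1 / 2 else 0) * ∏ j ∈ Finset.range d,
    rx (β j) (a (j + 1)).1 (a j).1 * (starRingEnd ℂ) (rx (β j) (a (j + 1)).2 (a j).2)

/-- the Gaussian exponent of a pair of paths for the Gram matrix `Γ` -/
noncomputable def EE (Γ : ℕ → ℕ → ℂ) (d : ℕ) (a : ℕ → Bool × Bool) : ℂ :=
  ∑ i ∈ Finset.range d, ∑ j ∈ Finset.range d,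
    (sg (a i).2 * sg (a j).1 - (if j < i then sg (a i).1 * sg (a j).1 else 0) -
      (if i < j then sg (a i).2 * sg (a j).2 else 0) - (if i = j then 1 else 0) : ℝ) * Γ i j

/-- the path sum with weight `F` -/
noncomputable def PS (β : ℕ → ℝ) (Γ : ℕ → ℕ → ℂ) (d : ℕ) (F : (ℕ → Bool × Bool) → ℂ) : ℂ :=
  ∑ a : Fin (d + 1) → Bool × Bool, amp β d (ext a) * exp (EE Γ d (ext a)) * F (ext a)

/-- the two time correlations (`u` on the bra, `t` on the ket, meaningful for `u, t ≤ d`) -/
noncomputable def GR (β γ s : ℕ → ℝ) : ℕ → ℕ → ℕ → ℂ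
  | 0 => fun u t => PS β 0 0 fun a => (sg (a u).2 * sg (a t).1 : ℝ)
  | d + 1 => fun u t => PS β (fun i j => γ i * γ j * GR β γ s d i j + s i * s j) (d + 1)
      fun a => (sg (a u).2 * sg (a t).1 : ℝ)

/-- the limiting energy; `s = 0` is the plain QAOA, `s` is the strength of a random field -/
noncomputable def vR (β γ s : ℕ → ℝ) (p : ℕ) : ℝ :=
  ∑ t ∈ Finset.range p, γ t * (GR β γ s p p t ^ 2).im

end Vale.Agent.P367.Q
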