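import Vale.Agent.P367.Stmt
import Vale.Agent.P367.QPath

/-! # P367, the limit of infinite size: definitions and interface statements -/

namespace Vale.Agent.P367.Q

open Complex MeasureTheory Filter Topology

/-- pairs of paths of length `d` -/
abbrev Pd (d : ℕ) : Type := Fin (d + 1) → Bool × Bool

/-- infinite pairs of paths -/
abbrev Pa : Type := ℕ → Bool × Bool

/-- the phase of a coupling between two sites -/
def Ph (γ : ℕ → ℝ) (d : ℕ) (a b : Pa) : ℝ :=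
  ∑ t ∈ Finset.range d, γ t * (sg (a t).1 * sg (b t).1 - sg (a t).2 * sg (b t).2)

/-- the interaction inside a family of sites -/
noncomputable def En (γ : ℕ → ℝ) (d : ℕ) {ι : Type} [Fintype ι] (b : ι → Pa) : ℝ :=
  (∑ j, ∑ l, Ph γ d (b j) (b l) ^ 2) / 4

/-- the potential created by a family of sites -/
noncomputable def ps (γ : ℕ → ℝ) (d : ℕ) {ι : Type} [Fintype ι] (b : ι → Pa) (c : Pa) : ℝ :=
  (∑ j, Ph γ d (b j) c ^ 2) / 2

/-- the partition function of `m` free sites in the potential `φ` -/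
noncomputable def YY (β γ : ℕ → ℝ) (d : ℕ) (N : ℝ) (φ : Pa → ℝ) (m : ℕ) : ℂ :=
  ∑ b : Fin m → Pd d, (∏ j, amp β d (ext (b j))) *
    exp (-((∑ j, φ (ext (b j)) + En γ d fun j => ext (b j)) / N : ℝ))

/-- the limiting weight of one site -/
noncomputable def HH (β γ : ℕ → ℝ) : ℕ → Pa → ℂ
  | 0 => fun _ => 1
  | d + 1 => fun a => exp (-∑ b : Pd d, amp β d (ext b) * HH β γ d (ext b) *
      (Ph γ (d + 1) a (ext b) ^ 2 / 2 : ℝ))

/-- the limiting average over one site -/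
noncomputable def av (β γ : ℕ → ℝ) (d : ℕ) (F : Pa → ℂ) : ℂ :=
  ∑ b : Pd d, amp β d (ext b) * HH β γ d (ext b) * F (ext b)

/-- functions of the times up to `d` -/
def Dp {α : Type} (d : ℕ) (F : Pa → α) : Prop := ∀ a a' : Pa, (∀ t, t ≤ d → a t = a' t) → F a = F a'

/-- the state after `d` layers -/
noncomputable def st (β γ : ℕ → ℝ) {n : ℕ} (g : P146.Edge n → ℝ) : ℕ → (Fin n → Bool) → ℂ
  | 0 => fun _ => ((1 / √2 : ℝ) : ℂ) ^ n
  | d + 1 => fun σ => ∑ τ, (∏ i, rx (β d) (σ i) (τ i)) *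
      (exp (-I * γ d * P146.ham g τ) * st β γ g d τ)

/-- the phase of a family of paths -/
noncomputable def phs (γ : ℕ → ℝ) (d : ℕ) {n : ℕ} (g : P146.Edge n → ℝ) (a : Fin n → Pa) : ℝ :=
  ∑ t ∈ Finset.range d, γ t * (P146.ham g (fun i => (a i t).1) - P146.ham g fun i => (a i t).2)

/-- the observable of an edge -/
noncomputable def ob (γ : ℕ → ℝ) (d : ℕ) (c : Fin 2 → Pa) : ℂ :=
  -I * (sg (c 0 d).1 * sg (c 1 d).1 * Ph γ d (c 0) (c 1) : ℝ)

theorem ext_lt {d : ℕ} (a : Pd d) (t : Fin (d + 1)) : ext a t = a t := dif_pos t.2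

theorem ext_snoc {d : ℕ} (b : Pd d) (x : Bool × Bool) :
    ext (Fin.snoc b x : Pd (d + 1)) = Function.update (ext b) (d + 1) x := by
  funext t
  rcases lt_trichotomy t (d + 1) with h | rfl | h
  · rw [Function.update_of_ne h.ne, ext, dif_pos (by omega), ext, dif_pos h]
    exact Fin.snoc_castSucc (α := fun _ => Bool × Bool) x b ⟨t, h⟩
  · rw [Function.update_self, ext, dif_pos (by omega)]
    exact Fin.snoc_last (α := fun _ => Bool × Bool) x b
  · rw [Function.update_of_ne h.ne', ext, dif_neg (by omega), ext, dif_neg (by omega)]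

/-- splitting off the last time -/
theorem sum_snoc {ι : Type} [Fintype ι] [DecidableEq ι] (d : ℕ) (G : (ι → Pa) → ℂ) :
    ∑ a : ι → Pd (d + 1), G (fun j => ext (a j)) = ∑ b : ι → Pd d, ∑ x : ι → Bool × Bool,
      G fun j => Function.update (ext (b j)) (d + 1) (x j) := by
  rw [← Fintype.sum_prod_type']
  let e : (ι → Pd d) × (ι → Bool × Bool) ≃ (ι → Pd (d + 1)) :=
    ⟨fun p j => Fin.snoc (p.1 j) (p.2 j), fun a => (fun j => Fin.init (a j),
      fun j => a j (Fin.last _)), fun p => by simp, fun a => by simp⟩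
  refine (Fintype.sum_equiv e _ _ fun p => ?_).symm
  simp only [e, Equiv.coe_fn_mk, ext_snoc]

theorem Ph_symm (γ : ℕ → ℝ) (d : ℕ) (a b : Pa) : Ph γ d a b = Ph γ d b a :=
  Finset.sum_congr rfl fun t _ => by ring

theorem Ph_self (γ : ℕ → ℝ) (d : ℕ) (a : Pa) : Ph γ d a a = 0 :=
  Finset.sum_eq_zero fun t _ => by
    cases (a t).1 <;> cases (a t).2 <;> simp [sg]

theorem Ph_succ (γ : ℕ → ℝ) {d : ℕ} {a b : Pa} (ha : (a d).1 = (a d).2) (hb : (b d).1 = (b d).2) :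
    Ph γ (d + 1) a b = Ph γ d a b := by
  simp [Ph, Finset.sum_range_succ, ha, hb]

theorem Ph_congr (γ : ℕ → ℝ) {d : ℕ} {a a' b b' : Pa} (ha : ∀ t, t < d → a t = a' t)
    (hb : ∀ t, t < d → b t = b' t) : Ph γ d a b = Ph γ d a' b' :=
  Finset.sum_congr rfl fun t ht => by
    rw [ha t (Finset.mem_range.1 ht), hb t (Finset.mem_range.1 ht)]

theorem amp_closed {β : ℕ → ℝ} {d : ℕ} {a : Pa} (h : amp β d a ≠ 0) : (a d).1 = (a d).2 := by
  by_contra h'
  exact h (by simp [amp, h'])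

/-! ## Interface statements -/

/-- The last mixer drops out. -/
def S_marg : Prop := ∀ (ι : Type) [Fintype ι] [DecidableEq ι] (β : ℕ → ℝ) (d : ℕ)
  (G : (ι → Pa) → ℂ), (∀ b b', (∀ j t, t ≤ d → b j t = b' j t) → G b = G b') →
  ∑ b : ι → Pd (d + 1), (∏ j, amp β (d + 1) (ext (b j))) * G (fun j => ext (b j))
    = ∑ b : ι → Pd d, (∏ j, amp β d (ext (b j))) * G fun j => ext (b j)

/-- Lowering the level of the free sites. -/
def S_low : Prop := ∀ (β γ : ℕ → ℝ) (d : ℕ) (N : ℝ) (φ : Pa → ℝ) (m : ℕ), Dp d φ →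
  YY β γ (d + 1) N φ m = YY β γ d N φ m

/-- Marked sites and free sites. -/
def S_split : Prop := ∀ (ι : Type) [Fintype ι] [DecidableEq ι] (k : ℕ) (e : Fin k ↪ ι)
  (β γ : ℕ → ℝ) (d : ℕ) (N : ℝ) (F : (Fin k → Pa) → ℂ),
  ∑ b : ι → Pd d, (∏ j, amp β d (ext (b j))) * exp (-((En γ d fun j => ext (b j)) / N : ℝ)) *
      F (fun j => ext (b (e j)))
    = ∑ c : Fin k → Pd d, (∏ j, amp β d (ext (c j))) *
      exp (-((En γ d fun j => ext (c j)) / N : ℝ)) * F (fun j => ext (c j)) *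
      YY β γ d N (ps γ d fun j => ext (c j)) (Fintype.card ι - k)

/-- The expansion in the potential. -/
def S_rec : Prop := ∀ (β γ : ℕ → ℝ) (d : ℕ) (N : ℝ) (φ : Pa → ℝ) (m : ℕ),
  YY β γ d N φ m = ∑ k ∈ Finset.range (m + 1), (m.choose k : ℂ) * ∑ c : Fin k → Pd d,
    (∏ j, amp β d (ext (c j))) * exp (-((En γ d fun j => ext (c j)) / N : ℝ)) *
      (∏ j, (exp (-(φ (ext (c j)) / N : ℝ)) - 1)) * YY β γ d N (ps γ d fun j => ext (c j)) (m - k)

/-- The uniform bound. -/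
def S_bd : Prop := ∀ (β γ : ℕ → ℝ) (d : ℕ), ∃ c : ℝ, ∀ (N m k : ℕ) (b : Fin k → Pa), m ≤ N →
  ‖YY β γ d N (ps γ d b) m‖ ≤ Real.exp (c * k)

/-- The limit. -/
def S_lim : Prop := ∀ (β γ : ℕ → ℝ) (d k : ℕ) (b : Fin k → Pa) (r : ℕ),
  Tendsto (fun N : ℕ => YY β γ d N (ps γ d b) (N - r)) atTop (𝓝 (∏ j, HH β γ d (b j)))

/-- The state as an iterated sum. -/
def S_st : Prop := ∀ (n p : ℕ) (g : P146.Edge n → ℝ) (γ β : Fin p → ℝ),
  state g γ β = st (co β) (co γ) g p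

/-- The path expansion. -/
def S_path : Prop := ∀ (β γ : ℕ → ℝ) (n : ℕ) (g : P146.Edge n → ℝ) (d : ℕ)
  (F : (Fin n → Bool) → ℂ),
  ∑ σ, (starRingEnd ℂ) (st β γ g d σ) * (F σ * st β γ g d σ)
    = ∑ a : Fin n → Pd d, (∏ i, amp β d (ext (a i))) *
      (exp (-I * phs γ d g fun i => ext (a i)) * F fun i => (ext (a i) d).1)

/-- The average over the couplings. -/
def S_gau : Prop := ∀ (γ : ℕ → ℝ) (n d : ℕ) (a : Fin n → Pa),
  Integrable (fun g => exp (-I * phs γ d g a) * P146.ham g fun i => (a i d).1)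
    (P146.disorder n) ∧
  ∫ g, exp (-I * phs γ d g a) * P146.ham g (fun i => (a i d).1) ∂P146.disorder n
    = (∑ e : P146.Edge n, exp (-(En γ d a / n : ℝ)) * ob γ d ![a e.1.1, a e.1.2]) / n

/-- The energy at finite size. -/
def S_en : Prop := ∀ (n p : ℕ) (γ β : Fin p → ℝ), energy γ β n =
  ((n - 1 : ℝ) / (2 * n)) * (∑ c : Fin 2 → Pd p, (∏ j, amp (co β) p (ext (c j))) *
    exp (-((En (co γ) p fun j => ext (c j)) / n : ℝ)) * ob (co γ) p (fun j => ext (c j)) *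
    YY (co β) (co γ) p n (ps (co γ) p fun j => ext (c j)) (n - 2)).re

/-- Later times drop out of the limiting average. -/
def S_close : Prop := ∀ (β γ : ℕ → ℝ) (d : ℕ) (F : Pa → ℂ), Dp d F →
  av β γ (d + 1) F = av β γ d F

/-- The correlations are limiting averages. -/
def S_id : Prop := ∀ (β γ : ℕ → ℝ) (d u t : ℕ),
  GR β γ 0 d u t = av β γ d fun a => (sg (a u).2 * sg (a t).1 : ℝ)

/-- The value. -/
def S_val : Prop := ∀ (β γ : ℕ → ℝ) (p : ℕ),
  1 / 2 * (∑ c : Fin 2 → Pd p, (∏ j, amp β p (ext (c j))) * ob γ p (fun j => ext (c j)) *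
    ∏ j, HH β γ p (ext (c j))).re = vR β γ 0 p

end Vale.Agent.P367.Q
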