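import Vale.Agent.P367.QDDefs

/-! # P367, the limit of infinite size: QDMarg -/

namespace Vale.Agent.P367.Q

open Complex MeasureTheory Filter Topology

namespace QDMargAux

theorem unit (b : ℝ) (p q : Bool) :
    rx b true p * (starRingEnd ℂ) (rx b true q) + rx b false p * (starRingEnd ℂ) (rx b false q)
      = if p = q then 1 else 0 := by
  have h : (Real.cos b : ℂ) ^ 2 + (Real.sin b : ℂ) ^ 2 = 1 := by
    exact_mod_cast Real.cos_sq_add_sin_sq b
  cases p <;> cases q <;>
    simp only [rx, Bool.true_eq_false, Bool.false_eq_true, if_true, if_false, map_mul, map_neg,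
      conj_I, conj_ofReal]
  · linear_combination h - (Real.sin b : ℂ) ^ 2 * I_mul_I
  · ring
  · ring
  · linear_combination h - (Real.sin b : ℂ) ^ 2 * I_mul_I

theorem one (β : ℕ → ℝ) (d : ℕ) (a : Pa) :
    ∑ x : Bool × Bool, amp β (d + 1) (Function.update a (d + 1) x) = amp β d a := by
  have e : ∀ x : Bool × Bool, amp β (d + 1) (Function.update a (d + 1) x) =
      (if x.1 = x.2 then 1 / 2 else 0) * ((∏ j ∈ Finset.range d, rx (β j) (a (j + 1)).1 (a j).1 *
        (starRingEnd ℂ) (rx (β j) (a (j + 1)).2 (a j).2)) *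
        (rx (β d) x.1 (a d).1 * (starRingEnd ℂ) (rx (β d) x.2 (a d).2))) := fun x => by
    rw [amp, Finset.prod_range_succ, Function.update_self, Function.update_of_ne d.succ_ne_self.symm,
      Finset.prod_congr rfl fun j hj => ?_]
    have := Finset.mem_range.1 hj
    rw [Function.update_of_ne (by omega), Function.update_of_ne (by omega)]
  have u := unit (β d) (a d).1 (a d).2
  simp only [e, Fintype.sum_prod_type, Fintype.sum_bool, Bool.true_eq_false, Bool.false_eq_true,
    if_true, if_false]
  rw [amp]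
  split_ifs at u ⊢
  · linear_combination (1 / 2 * ∏ j ∈ Finset.range d, rx (β j) (a (j + 1)).1 (a j).1 *
      (starRingEnd ℂ) (rx (β j) (a (j + 1)).2 (a j).2)) * u
  · linear_combination (1 / 2 * ∏ j ∈ Finset.range d, rx (β j) (a (j + 1)).1 (a j).1 *
      (starRingEnd ℂ) (rx (β j) (a (j + 1)).2 (a j).2)) * u

end QDMargAux

theorem marg : S_marg := by
  intro ι _ _ β d G hG
  refine (sum_snoc d fun b => (∏ j, amp β (d + 1) (b j)) * G b).trans
    (Finset.sum_congr rfl fun b _ => ?_)
  have e : ∀ x : ι → Bool × Bool,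
      G (fun j => Function.update (ext (b j)) (d + 1) (x j)) = G fun j => ext (b j) :=
    fun x => hG _ _ fun j t ht => Function.update_of_ne (by omega) _ _
  simp only [e]
  rw [← Finset.sum_mul, ← Fintype.piFinset_univ, ← Finset.prod_univ_sum (fun _ => Finset.univ)
    fun j x => amp β (d + 1) (Function.update (ext (b j)) (d + 1) x)]
  simp only [QDMargAux.one]

theorem low (h1 : S_marg) : S_low := by
  intro β γ d N φ m hφ
  refine (h1 (Fin m) β d (fun b => exp (-((∑ j, φ (b j) + En γ (d + 1) b) / N : ℝ)))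
    fun b b' h => ?_).trans (Finset.sum_congr rfl fun b _ => ?_)
  · have e1 : ∀ j, φ (b j) = φ (b' j) := fun j => hφ _ _ (h j)
    have e2 : ∀ j l, Ph γ (d + 1) (b j) (b l) = Ph γ (d + 1) (b' j) (b' l) := fun j l =>
      Ph_congr γ (fun t ht => h j t (by omega)) fun t ht => h l t (by omega)
    simp only [En, e1, e2]
  · by_cases h0 : ∏ j, amp β d (ext (b j)) = 0
    · rw [h0, zero_mul, zero_mul]
    · have hc := fun j => amp_closed (Finset.prod_ne_zero_iff.1 h0 j (Finset.mem_univ j))
      simp only [En, Ph_succ γ (hc _) (hc _)]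

end Vale.Agent.P367.Q
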