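import Vale.Agent.P367.QPath

/-! QAOA on the SK model: one spin, classical labels and a bath of Weyl operators. -/

namespace Vale.Agent.P367.Q

open Complex MeasureTheory ProbabilityTheory Filter Topology Matrix
open scoped InnerProductSpace

abbrev M2 : Type := Matrix (Fin 2) (Fin 2) ℂ

/-- the Pauli matrices `X`, `Y`, `Z` -/
def pau : Fin 3 → M2 := ![!![0, 1; 1, 0], !![0, -I; I, 0], !![1, 0; 0, -1]]

/-- `exp (-i a N)` for a Pauli matrix `N` -/
noncomputable def rot (N : Fin 3) (a : ℝ) : M2 :=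
  (Real.cos a : ℂ) • (1 : M2) - (I * Real.sin a) • pau N

/-- the spectral projections of `Z` -/
def pr (σ : Bool) : M2 := if σ then !![1, 0; 0, 0] else !![0, 0; 0, 1]

/-- the expectation in the state `|+⟩` -/
noncomputable def vac (m : M2) : ℂ := (m 0 0 + m 0 1 + m 1 0 + m 1 1) / 2

/-- bounded measurable real functions -/
def BR {Λ : Type} [MeasurableSpace Λ] (g : Λ → ℝ) : Prop := Measurable g ∧ ∃ C, ∀ c, |g c| ≤ C

/-- bounded measurable matrix functions -/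
def BM {Λ : Type} [MeasurableSpace Λ] (u : Λ → M2) : Prop :=
  (∀ i j, Measurable fun c => u c i j) ∧ ∃ C, ∀ c i j, ‖u c i j‖ ≤ C

/-- A spin with classical labels, coupled to a bath whose one particle space is the Hilbert space
of the system itself. -/
structure FS (Λ : Type) [MeasurableSpace Λ] (μ : Measure Λ) where
  H : Type
  [nH : NormedAddCommGroup H]
  [iH : InnerProductSpace ℂ H]
  [cH : CompleteSpace H]
  Ω : H
  loc : (Λ → M2) → H →L[ℂ] H
  W : H → H →L[ℂ] H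
  loc_one : loc (fun _ => 1) = 1
  loc_add : ∀ {u v}, BM u → BM v → loc (fun c => u c + v c) = loc u + loc v
  loc_smul : ∀ (a : ℂ) {u}, BM u → loc (fun c => a • u c) = a • loc u
  loc_mul : ∀ {u v}, BM u → BM v → loc (fun c => u c * v c) = loc u * loc v
  loc_star : ∀ {u}, BM u → star (loc u) = loc fun c => (u c)ᴴ
  loc_le : ∀ {u} {C : ℝ}, BM u → 0 ≤ C → (∀ c i j, ‖u c i j‖ ≤ C) → ‖loc u‖ ≤ 4 * C
  loc_dom : ∀ {u : ℕ → Λ → M2} {v} {C : ℝ}, (∀ n, BM (u n)) → BM v →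
    (∀ n c i j, ‖u n c i j‖ ≤ C) →
    (∀ᵐ c ∂μ, ∀ i j, Tendsto (fun n => u n c i j) atTop (𝓝 (v c i j))) →
    ∀ x, Tendsto (fun n => loc (u n) x) atTop (𝓝 (loc v x))
  W_zero : W 0 = 1
  W_mul : ∀ x y, W x * W y = exp (-I * (⟪x, y⟫_ℂ).im) • W (x + y)
  W_star : ∀ x, star (W x) = W (-x)
  W_loc : ∀ x {u}, BM u → W x * loc u = loc u * W x
  W_vac : ∀ x {u}, BM u →
    ⟪Ω, loc u (W x Ω)⟫_ℂ = (∫ c, vac (u c) ∂μ) * exp (-(‖x‖ ^ 2 / 2 : ℝ))
  W_cont : ∀ ψ, Continuous fun x => W x ψ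

attribute [instance] FS.nH FS.iH FS.cH

namespace FS

variable {Λ : Type} [MeasurableSpace Λ] {μ : Measure Λ} (M : FS Λ μ)

/-- operators on the spin -/
def sp (m : M2) : M.H →L[ℂ] M.H := M.loc fun _ => m

/-- multiplication by a real function of the label -/
noncomputable def sc (g : Λ → ℝ) : M.H →L[ℂ] M.H := M.loc fun c => (g c : ℂ) • (1 : M2)

/-- a phase depending on the label -/
noncomputable def ph (α : Λ → ℝ) : M.H →L[ℂ] M.H := M.loc fun c => exp (-I * α c) • (1 : M2)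

/-- a rotation whose angle depends on the label -/
noncomputable def lr (N : Fin 3) (α : Λ → ℝ) : M.H →L[ℂ] M.H := M.loc fun c => rot N (α c)

/-- the vector `U* Z U Ω` -/
noncomputable def xi (U : M.H →L[ℂ] M.H) : M.H := star U (M.sp (pau 2) (U M.Ω))

/-- unitaries which commute with the labels -/
def Dec (U : M.H →L[ℂ] M.H) : Prop :=
  star U * U = 1 ∧ U * star U = 1 ∧ ∀ g, BR g → U * M.sc g = M.sc g * U

/-- vectors with real components along the classical vectors -/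
def XX : Submodule ℝ M.H where
  carrier := {x | ∀ g, BR g → (⟪M.sc g M.Ω, x⟫_ℂ).im = 0}
  add_mem' hx hy g hg := by rw [inner_add_right, add_im, hx g hg, hy g hg, add_zero]
  zero_mem' g _ := by simp
  smul_mem' a x hx g hg := by
    rw [← Complex.coe_smul, inner_smul_right, mul_im, hx g hg]; simp

/-- a family of Weyl operators on a real subspace -/
structure IsW (w : M.H → M.H →L[ℂ] M.H) (Y : Submodule ℝ M.H) : Prop where
  zero : w 0 = 1
  mul : ∀ x ∈ Y, ∀ y ∈ Y, w x * w y = exp (-I * (⟪x, y⟫_ℂ).im) • w (x + y)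
  star : ∀ x ∈ Y, star (w x) = w (-x)
  loc : ∀ x ∈ Y, ∀ {u}, BM u → w x * M.loc u = M.loc u * w x
  cont : ∀ ψ, ContinuousOn (fun x => w x ψ) Y

/-- the modes in `Y` are in the vacuum for the vectors in `S` -/
def Vac (w : M.H → M.H →L[ℂ] M.H) (Y : Submodule ℝ M.H) (S : Set M.H) : Prop :=
  ∀ x ∈ Y, ∀ ψ ∈ S, ∀ ψ' ∈ S, ⟪ψ, w x ψ'⟫_ℂ = ⟪ψ, ψ'⟫_ℂ * exp (-(‖x‖ ^ 2 / 2 : ℝ))

/-- the spin orbit of a vector -/
def orb (ψ : M.H) : Set M.H := Set.range fun m => M.sp m ψ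

variable (w : M.H → M.H →L[ℂ] M.H)

/-- `exp (-i Z φ(x))` -/
noncomputable def EZc (x : M.H) : M.H →L[ℂ] M.H := M.sp (pr true) * w x + M.sp (pr false) * w (-x)

/-- a displacement depending on the label -/
noncomputable def Wf (f : SimpleFunc Λ M.H) : M.H →L[ℂ] M.H :=
  ∑ v ∈ f.range, M.sc ((f ⁻¹' {v}).indicator 1) * w v

/-- `exp (-i Z φ(f))` with `f` depending on the label -/
noncomputable def EZ (f : SimpleFunc Λ M.H) : M.H →L[ℂ] M.H :=
  M.sp (pr true) * M.Wf w f + M.sp (pr false) * M.Wf w (-f)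

/-- one layer: interaction, random field, mixer -/
noncomputable def lay (ρ : Λ → ℝ) (β s : ℝ) (x : M.H) : M.H →L[ℂ] M.H :=
  M.sp (rot 0 β) * M.lr 2 (fun c => s * ρ c) * M.EZc w x

/-- layers with prescribed bath vectors -/
noncomputable def OO (ρ : Λ → ℝ) (β s : ℕ → ℝ) (f : ℕ → M.H) : ℕ → M.H →L[ℂ] M.H
  | 0 => 1
  | j + 1 => M.lay w ρ (β j) (s j) (f j) * OO ρ β s f j

/-- the self consistent process -/
noncomputable def proc (ρ : Λ → ℝ) (β γ s : ℕ → ℝ) : ℕ → M.H →L[ℂ] M.H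
  | 0 => 1
  | j + 1 => M.lay w ρ (β j) (s j) (γ j • M.xi (proc ρ β γ s j)) * proc ρ β γ s j

/-- the vacuum property together with a symmetric Gaussian random field of modulus `ρ` -/
def VacR (Y : Submodule ℝ M.H) (ρ : Λ → ℝ) (χ : ℝ → ℂ) : Prop :=
  Measurable ρ ∧ (∀ L, χ L + χ (-L) = 2 * exp (-(L ^ 2 / 2 : ℝ))) ∧ χ 0 = 1 ∧
    ∀ x ∈ Y, ∀ (L : ℝ) (m : M2), ⟪M.Ω, M.loc (fun c => exp (-I * (L * ρ c : ℝ)) • m) (w x M.Ω)⟫_ℂ =
      χ L * vac m * exp (-(‖x‖ ^ 2 / 2 : ℝ))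

/-- the one particle vector `φ(x) Ω` -/
noncomputable def SS (x : M.H) : M.H := I • deriv (fun t : ℝ => w (t • x) M.Ω) 0

/-- finite sums of coherent vectors with bounded displacement -/
def Coh (N : ℕ) (R : ℝ) (Y : Submodule ℝ M.H) (χ : M.H) : Prop :=
  ∃ (m : Fin N → M2) (y : Fin N → M.H), (∀ k, ‖M.sp (m k)‖ ≤ 1 ∧ y k ∈ Y ∧ ‖y k‖ ≤ R) ∧
    χ = ∑ k, M.sp (m k) (w (y k) M.Ω)

/-- words in rotations about `X` and interactions with the modes in `Y` -/
inductive Ev (Y : Submodule ℝ M.H) : (M.H →L[ℂ] M.H) → Prop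
  | one : Ev Y 1
  | rot (a : ℝ) {V} : Ev Y V → Ev Y (M.sp (rot 0 a) * V)
  | ez {x V} : x ∈ Y → Ev Y V → Ev Y (M.EZc w x * V)

/-- the operator is the function `A` of the field `φ(y)` -/
inductive Rep (y : M.H) : (M.H →L[ℂ] M.H) → (ℝ → M2) → Prop
  | one : Rep y 1 fun _ => 1
  | rot (N : Fin 3) (a : ℝ) {V A} : Rep y V A → Rep y (M.sp (rot N a) * V) fun h => rot N a * A h
  | ez (t : ℝ) {V A} : Rep y V A → Rep y (M.EZc w (t • y) * V) fun h => rot 2 (t * h) * A h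

end FS

/-! ### labels -/

/-- the label: modulus of the random field and the classical fields -/
abbrev Lab (K : ℕ) : Type := ℝ × (Fin K → ℝ)

/-- the law of the modulus of a standard Gaussian -/
noncomputable def nu0 : Measure ℝ := (gaussianReal 0 1).map fun r => |r|

noncomputable def muK (K : ℕ) : Measure (Lab K) :=
  nu0.prod (Measure.pi fun _ => gaussianReal 0 1)

instance : IsProbabilityMeasure nu0 :=
  Measure.isProbabilityMeasure_map (by fun_prop)

instance (K : ℕ) : IsProbabilityMeasure (muK K) := by unfold muK; infer_instance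

/-- functions of the first coordinate and of the fields with index `< k` -/
def Lev {K : ℕ} {α : Type} (k : ℕ) (g : Lab K → α) : Prop :=
  ∀ c c' : Lab K, c.1 = c'.1 → (∀ l : Fin K, l.val < k → c.2 l = c'.2 l) → g c = g c'

open Classical in
/-- the indicator of a class -/
noncomputable def ind {K : ℕ} (B : Set ℝ) (c : Lab K) : ℝ := if c.1 ∈ B then 1 else 0

/-- an adapted orthonormal family supported on `T` -/
structure Fam {K : ℕ} (T : Set ℝ) (D : Fin K → Lab K → ℝ) : Prop where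
  mT : MeasurableSet T
  br : ∀ l, BR (D l)
  lev : ∀ l : Fin K, Lev l.val (D l)
  supp : ∀ l c, c.1 ∉ T → D l c = 0
  orth : ∀ l l', ∫ c, D l c * D l' c ∂muK K = if l = l' then 1 else 0

/-- gates: a rotation depending on the label, an interaction with kernel `a ⊗ b + b ⊗ a` -/
inductive Gate (K : ℕ)
  | loc (N : Fin 3) (α : Lab K → ℝ)
  | pul (a b : SimpleFunc (Lab K) ℝ)

/-- gates of level `k` acting on the classes in `A` -/
def Gate.OK {K : ℕ} (k : ℕ) (A : Set ℝ) : Gate K → Prop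
  | .loc _ α => Measurable α ∧ Lev k α ∧ ∀ c : Lab K, c.1 ∉ A → α c = 0
  | .pul a b => Lev k a ∧ Lev k b ∧ ∃ B, MeasurableSet B ∧
      (∀ c : Lab K, a c ≠ 0 → c.1 ∈ A ∧ c.1 ∈ B) ∧ ∀ c : Lab K, b c ≠ 0 → c.1 ∈ A ∧ c.1 ∉ B

/-- gates of level `k` and the rotation by the field `k` -/
def Gate.Prim {K : ℕ} (k : Fin K) (A : Set ℝ) (g : Gate K) : Prop :=
  g.OK k A ∨ ∃ s : ℝ, g = .loc 2 fun c => s * ind A c * c.2 k

/-- the mixer, the random field and the full interaction -/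
def Gate.Base {K : ℕ} (g : Gate K) : Prop :=
  (∃ β : ℝ, g = .loc 0 fun _ => β) ∨ (∃ s : ℝ, g = .loc 2 fun c => s * c.1) ∨
    ∃ γ : ℝ, g = .pul (SimpleFunc.const _ (γ / 2)) (SimpleFunc.const _ 1)

namespace FS

variable {K : ℕ} (M : FS (Lab K) (muK K)) (D : Fin K → Lab K → ℝ)

/-- the Weyl operators in which the modes `D l` are the classical fields -/
noncomputable def WZ (x : M.H) : M.H →L[ℂ] M.H :=
  M.ph (fun c => ∑ l, (⟪M.sc (D l) M.Ω, x⟫_ℂ).re * c.2 l) *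
    M.W (x - ∑ l, ⟪M.sc (D l) M.Ω, x⟫_ℂ • M.sc (D l) M.Ω)

/-- the modes produced by the classes in `B` -/
def Md (B : Set ℝ) : Submodule ℝ M.H where
  carrier := {x | x ∈ M.XX ∧ M.sc (ind B) x = x}
  add_mem' hx hy := ⟨add_mem hx.1 hy.1, by rw [map_add, hx.2, hy.2]⟩
  zero_mem' := ⟨zero_mem _, map_zero _⟩
  smul_mem' a x hx := ⟨M.XX.smul_mem a hx.1, by rw [ContinuousLinearMap.map_smul_of_tower, hx.2]⟩

/-- vectors with root in `A` which only excite the modes of `A'` -/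
noncomputable def LL (A A' : Set ℝ) : Submodule ℂ M.H :=
  (Submodule.span ℂ {ψ | ∃ u, BM u ∧ (∀ c : Lab K, c.1 ∉ A → u c = 0) ∧
    ∃ y ∈ M.Md A', ψ = M.loc u (M.WZ D y M.Ω)}).topologicalClosure

/-- the bath vector seen by the root in an interaction -/
noncomputable def pv (a b : SimpleFunc (Lab K) ℝ) (x : M.H) : SimpleFunc (Lab K) M.H :=
  a.map (fun r => r • M.sc b x) + b.map fun r => r • M.sc a x

/-- the action of a gate -/
noncomputable def ev (g : Gate K) (U : M.H →L[ℂ] M.H) : M.H →L[ℂ] M.H :=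
  match g with
  | .loc N α => M.lr N α * U
  | .pul a b => M.EZ (M.WZ D) (M.pv a b (M.xi U)) * U

/-- `U'` is obtained from `U` by gates in `P` -/
inductive Steps (P : Gate K → Prop) (U : M.H →L[ℂ] M.H) : (M.H →L[ℂ] M.H) → Prop
  | refl : Steps P U U
  | step {g U'} : P g → Steps P U U' → Steps P U (M.ev D g U')

/-- the strong closure of the reachable set -/
def SC (P : Gate K → Prop) (U : M.H →L[ℂ] M.H) : Prop :=
  M.Dec U ∧ ∀ ε > 0, ∀ F : Finset M.H, ∃ U', M.Steps D P 1 U' ∧ ∀ x ∈ F, ‖U' x - U x‖ < ε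

/-- gates in `Q` approximate gates in `P` on the class `T` -/
def Near (P Q : Gate K → Prop) (T : Set ℝ) : Prop :=
  ∀ U, M.Steps D P 1 U → ∀ ε > 0, ∃ U', M.Steps D Q 1 U' ∧
    ‖M.sc (ind T) (M.xi U' - M.xi U)‖ < ε

end FS

end Vale.Agent.P367.Q
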