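import Vale.Agent.P367.QV

/-! Words which respect the spin flip symmetry. -/

namespace Vale.Agent.P367.Q

open Complex MeasureTheory ProbabilityTheory Filter Topology Matrix
open scoped InnerProductSpace

namespace FS

variable {Λ : Type} [MeasurableSpace Λ] {μ : Measure Λ} {M : FS Λ μ}
  {w : M.H → M.H →L[ℂ] M.H} {Y Y₁ Y₂ : Submodule ℝ M.H} {E V : M.H →L[ℂ] M.H} {ψ : M.H}

/-- symmetric expansion of a word -/
theorem IsW.Ev_sum (hw : M.IsW w Y) (h1 : Y₁ ≤ Y) (hE : M.Ev w Y₁ E) :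
    ∃ (ι : Type) (_ : Fintype ι) (τ : ι ≃ ι) (m : ι → M2) (y : ι → M.H), (∀ j, y j ∈ Y₁) ∧
      (∀ j, y (τ j) = -y j) ∧ (∀ j, m (τ j) = pau 0 * m j * pau 0) ∧
      E = ∑ j, M.sp (m j) * w (y j) := by
  induction hE with
  | one =>
    exact ⟨Unit, inferInstance, Equiv.refl _, fun _ => 1, fun _ => 0, fun _ => zero_mem _,
      fun _ => neg_zero.symm, fun _ => by rw [mul_one, pau_sq], by simp [sp_one, hw.zero]⟩
  | rot a _ ih =>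
    obtain ⟨ι, _, τ, m, y, h2, h3, h4, h5⟩ := ih
    refine ⟨ι, inferInstance, τ, fun j => rot 0 a * m j, y, h2, h3, fun j => ?_, ?_⟩
    · show rot 0 a * m (τ j) = pau 0 * (rot 0 a * m j) * pau 0
      rw [h4, ← mul_assoc (pau 0) (rot 0 a), ← rot_pau]
      simp only [mul_assoc]
    · rw [h5, Finset.mul_sum]
      exact Finset.sum_congr rfl fun j _ => by rw [sp_mul, mul_assoc]
  | @ez x _ hx _ ih =>
    obtain ⟨ι, _, τ, m, y, h2, h3, h4, h5⟩ := ih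
    refine ⟨Bool × ι, inferInstance, Equiv.prodCongr ⟨not, not, Bool.not_not, Bool.not_not⟩ τ,
      fun p => exp (-I * (⟪sg p.1 • x, y p.2⟫_ℂ).im) • (pr p.1 * m p.2),
      fun p => sg p.1 • x + y p.2, fun p => add_mem (Y₁.smul_mem _ hx) (h2 _), fun p => ?_,
      fun p => ?_, ?_⟩
    · show sg (!p.1) • x + y (τ p.2) = -(sg p.1 • x + y p.2)
      rw [sg_not, h3, neg_smul, neg_add]
    · show exp (-I * (⟪sg (!p.1) • x, y (τ p.2)⟫_ℂ).im) • (pr (!p.1) * m (τ p.2)) =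
        pau 0 * (exp (-I * (⟪sg p.1 • x, y p.2⟫_ℂ).im) • (pr p.1 * m p.2)) * pau 0
      rw [sg_not, h3, neg_smul, inner_neg_neg, h4, mul_smul_comm, smul_mul_assoc,
        ← mul_assoc (pau 0) (pr _), pX_pr]
      simp only [mul_assoc]
    · have e : M.EZc w x = ∑ σ, M.sp (pr σ) * w (sg σ • x) := by
        simp [EZc, sg]
      rw [h5, e, Finset.sum_mul_sum, Fintype.sum_prod_type]
      refine Finset.sum_congr rfl fun σ _ => Finset.sum_congr rfl fun j _ => ?_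
      have k := h1 (Y₁.smul_mem (sg σ) hx)
      rw [mul_assoc, ← mul_assoc (w _), hw.qwa_sp k, mul_assoc, hw.mul _ k _ (h1 (h2 j)),
        sp_smul, sp_mul]
      simp only [mul_smul_comm, smul_mul_assoc, mul_assoc]

theorem QEv_inner (hw : M.IsW w Y) (hv : M.Vac w Y (M.orb ψ)) {y z : M.H} (hy : y ∈ Y)
    (hz : z ∈ Y) (m m' : M2) : ⟪M.sp m (w y ψ), M.sp m' (w z ψ)⟫_ℂ =
      exp (-I * (⟪-y, z⟫_ℂ).im) *
        (⟪M.sp m ψ, M.sp m' ψ⟫_ℂ * exp (-(‖-y + z‖ ^ 2 / 2 : ℝ))) := by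
  have c : ∀ u ∈ Y, ∀ n, M.sp n (w u ψ) = w u (M.sp n ψ) := fun u hu n =>
    (congrArg (· ψ) (hw.qwa_sp hu n)).symm
  rw [c y hy, c z hz, ← M.inner_star', hw.star _ hy, ← ContinuousLinearMap.mul_apply,
    hw.mul _ (neg_mem hy) _ hz, ContinuousLinearMap.smul_apply, inner_smul_right,
    hv _ (add_mem (neg_mem hy) hz) _ ⟨_, rfl⟩ _ ⟨_, rfl⟩]

theorem Ev.vac (hw : M.IsW w Y) (hv : M.Vac w Y (M.orb ψ)) (h1 : Y₁ ≤ Y) (h2 : Y₂ ≤ Y)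
    (ho : ∀ x ∈ Y₁, ∀ y ∈ Y₂, ⟪x, y⟫_ℂ = 0) (hE : M.Ev w Y₁ E) :
    M.Vac w Y₂ (M.orb (E ψ) ∪ M.orb ψ) := by
  have key : M.Vac w Y₂ {φ | ∃ m, ∃ y ∈ Y₁, φ = M.sp m (w y ψ)} := by
    rintro x hx _ ⟨m, y, hy, rfl⟩ _ ⟨m', z, hz, rfl⟩
    have e : w x (M.sp m' (w z ψ)) = M.sp m' (w (z + x) ψ) := by
      have a1 : w x (M.sp m' (w z ψ)) = M.sp m' ((w x * w z) ψ) :=
        congrArg (· (w z ψ)) (hw.qwa_sp (h2 hx) m')
      rw [a1, hw.mul _ (h2 hx) _ (h1 hz), qwa_im, ho z hz x hx, add_comm]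
      simp
    have o := ho _ (add_mem (neg_mem hy) hz) x hx
    have n := norm_add_sq_eq_norm_sq_add_norm_sq_of_inner_eq_zero _ _ o
    rw [e, QEv_inner hw hv (h1 hy) (add_mem (h1 hz) (h2 hx)), QEv_inner hw hv (h1 hy) (h1 hz),
      inner_add_right, ho _ (neg_mem hy) x hx, add_zero, ← add_assoc, mul_assoc, mul_assoc,
      ← exp_add, sq, n]
    congr 3
    push_cast
    ring
  obtain ⟨ι, _, τ, m, y, h3, -, -, h5⟩ := hw.Ev_sum h1 hE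
  refine key.span.mono le_rfl ?_
  rintro _ (⟨n, rfl⟩ | ⟨n, rfl⟩) <;> refine Submodule.le_topologicalClosure _ ?_
  · show M.sp n (E ψ) ∈ _
    rw [h5, ContinuousLinearMap.sum_apply, map_sum]
    exact sum_mem fun j _ => Submodule.subset_span ⟨n * m j, y j, h3 j, M.sp_sp _ _ _⟩
  · exact Submodule.subset_span ⟨n, 0, zero_mem _, by rw [hw.zero]; rfl⟩

theorem QEv_sym (m : M2) :
    m + pau 0 * m * pau 0 = (m 0 0 + m 1 1) • (1 : M2) + (m 0 1 + m 1 0) • pau 0 := by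
  ext i j
  fin_cases i <;> fin_cases j <;>
    simp [pau, Matrix.mul_apply, Matrix.vecMul, dotProduct, Fin.sum_univ_two] <;> ring

theorem QEv_X (hX : M.sp (pau 0) ψ = ψ) (φ : M.H) : ⟪ψ, M.sp (pau 0) φ⟫_ℂ = ⟪ψ, φ⟫_ℂ := by
  rw [← M.inner_star, sp_star, pau_star, hX]

theorem Ev.mult (hw : M.IsW w Y) (hv : M.Vac w Y (M.orb ψ)) (hX : M.sp (pau 0) ψ = ψ)
    (h1 : Y₁ ≤ Y) (h2 : Y₂ ≤ Y) (ho : ∀ x ∈ Y₁, ∀ y ∈ Y₂, ⟪x, y⟫_ℂ = 0) (hE : M.Ev w Y₁ E)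
    (hV : M.Ev w Y₂ V) : ⟪ψ, V (E ψ)⟫_ℂ * ⟪ψ, ψ⟫_ℂ = ⟪ψ, V ψ⟫_ℂ * ⟪ψ, E ψ⟫_ℂ := by
  have hv2 := hE.vac hw hv h1 h2 ho
  obtain ⟨ι, _, τ, m, y, h3, h4, h5, h6⟩ := hw.Ev_sum h2 hV
  have key : ∀ φ ∈ M.orb (E ψ) ∪ M.orb ψ, 2 * ⟪ψ, V φ⟫_ℂ = (∑ j, (m j 0 0 + m j 1 1 +
      (m j 0 1 + m j 1 0)) * exp (-(‖y j‖ ^ 2 / 2 : ℝ))) * ⟪ψ, φ⟫_ℂ := fun φ hφ => by
    have a1 : ⟪ψ, V φ⟫_ℂ = ∑ j, ⟪ψ, M.sp (m j) φ⟫_ℂ * exp (-(‖y j‖ ^ 2 / 2 : ℝ)) := by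
      rw [h6, ContinuousLinearMap.sum_apply, inner_sum]
      refine Finset.sum_congr rfl fun j _ => ?_
      rw [ContinuousLinearMap.mul_apply, ← M.inner_star, ← M.inner_star (M.sp (m j)) ψ φ, sp_star]
      exact hv2 _ (h3 j) _ (Or.inr ⟨_, rfl⟩) _ hφ
    rw [two_mul, Finset.sum_mul]
    nth_rewrite 2 [a1]
    rw [a1, ← τ.sum_comp fun j => ⟪ψ, M.sp (m j) φ⟫_ℂ * exp (-(‖y j‖ ^ 2 / 2 : ℝ))]
    nth_rewrite 1 [τ.sum_comp fun j => ⟪ψ, M.sp (m j) φ⟫_ℂ * exp (-(‖y j‖ ^ 2 / 2 : ℝ))]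
    rw [← Finset.sum_add_distrib]
    refine Finset.sum_congr rfl fun j _ => ?_
    rw [h4, h5, norm_neg, ← add_mul, ← inner_add_right, ← ContinuousLinearMap.add_apply, ← sp_add,
      QEv_sym, sp_add, sp_smul, sp_smul, sp_one, ContinuousLinearMap.add_apply,
      ContinuousLinearMap.smul_apply, ContinuousLinearMap.smul_apply, inner_add_right,
      inner_smul_right, inner_smul_right, QEv_X hX, ContinuousLinearMap.one_apply]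
    ring
  have k1 := key (E ψ) (Or.inl ⟨1, by simp only [sp_one, ContinuousLinearMap.one_apply]⟩)
  have k2 := key ψ (Or.inr ⟨1, by simp only [sp_one, ContinuousLinearMap.one_apply]⟩)
  linear_combination (⟪ψ, ψ⟫_ℂ / 2) * k1 - (⟪ψ, E ψ⟫_ℂ / 2) * k2

theorem inner_X_ge (hX : M.sp (pau 0) ψ = ψ) (φ : M.H) :
    2 * ‖⟪ψ, φ⟫_ℂ‖ ^ 2 ≤ ‖ψ‖ ^ 2 * (‖φ‖ ^ 2 + (⟪φ, M.sp (pau 0) φ⟫_ℂ).re) := by
  have h1 : ⟪ψ, φ + M.sp (pau 0) φ⟫_ℂ = 2 * ⟪ψ, φ⟫_ℂ := by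
    rw [inner_add_right, QEv_X hX, two_mul]
  have h2 := norm_inner_le_norm (𝕜 := ℂ) ψ (φ + M.sp (pau 0) φ)
  rw [h1, norm_mul, Complex.norm_two] at h2
  have h3 := pow_le_pow_left₀ (by positivity) h2 2
  rw [mul_pow ‖ψ‖, @norm_add_sq ℂ, (M.dec_pau 0).norm, RCLike.re_to_complex] at h3
  nlinarith

end FS

end Vale.Agent.P367.Q
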