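import Vale.Agent.P367.QS

/-! The optimal rotation at the top level. -/

namespace Vale.Agent.P367.Q

open Complex MeasureTheory ProbabilityTheory Filter Topology Matrix
open scoped InnerProductSpace

theorem ind_mul_ind {K : ℕ} (T : Set ℝ) (c : Lab K) : ind T c * ind T c = ind T c := by
  unfold ind; split_ifs <;> simp

theorem integral_ind_mul {K : ℕ} {T : Set ℝ} (hT : MeasurableSet T) (F : (Fin K → ℝ) → ℝ) :
    ∫ c, ind T c * F c.2 ∂muK K =
      nu0.real T * ∫ z, F z ∂(Measure.pi fun _ => gaussianReal 0 1) := by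
  rw [← integral_indicator_one hT, ← integral_prod_mul]
  refine integral_congr_ae (Eventually.of_forall fun c => ?_)
  simp only [ind, Set.indicator, Pi.one_apply]

theorem br_cut {K : ℕ} {T : Set ℝ} (hT : MeasurableSet T) {F : (Fin K → ℝ) → ℝ}
    (h : Measurable F ∧ ∃ C, ∀ z, |F z| ≤ C) (a : ℝ) : BR fun c : Lab K => ind T c * F c.2 / a := by
  obtain ⟨h1, C, h2⟩ := h
  have h3 : BR fun c : Lab K => F c.2 := ⟨h1.comp measurable_snd, C, fun c => h2 _⟩
  simpa only [div_eq_mul_inv] using ((BR.ind hT).mul h3).mul (BR.const a⁻¹)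

theorem fam_cut {K : ℕ} {T : Set ℝ} (hT : MeasurableSet T) (h0 : 0 < nu0.real T)
    {D : Fin K → (Fin K → ℝ) → ℝ} (h1 : ∀ l, Measurable (D l) ∧ ∃ C, ∀ z, |D l z| ≤ C)
    (h2 : ∀ l z z', (∀ i : Fin K, i.val < l.val → z i = z' i) → D l z = D l z')
    (h3 : ∀ l l', ∫ z, D l z * D l' z ∂(Measure.pi fun _ => gaussianReal 0 1) =
      if l = l' then 1 else 0) :
    Fam T fun l (c : Lab K) => ind T c * D l c.2 / √(nu0.real T) where
  mT := hT
  br l := br_cut hT (h1 l) _
  lev l c c' hc h := by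
    show ind T c * D l c.2 / _ = ind T c' * D l c'.2 / _
    rw [h2 l c.2 c'.2 h, ind, ind, hc]
  supp l c hc := by simp [ind, hc]
  orth l l' := by
    have h4 : ∀ c : Lab K, ind T c * D l c.2 / √(nu0.real T) * (ind T c * D l' c.2 / √(nu0.real T)) =
        ind T c * (D l c.2 * D l' c.2) / nu0.real T := fun c => by
      rw [div_mul_div_comm, Real.mul_self_sqrt h0.le, mul_mul_mul_comm, ind_mul_ind]
    simp only [h4]
    rw [integral_div, integral_ind_mul hT fun z => D l z * D l' z, h3, mul_div_cancel_left₀ _ h0.ne']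

theorem vac_rot (a : ℝ) : vac (rot 1 (-a) * (pau 2 * rot 1 a)) = (-Real.sin (2 * a) : ℝ) := by
  have h : ∀ b : ℝ, rot 1 b =
      !![(Real.cos b : ℂ), -Real.sin b; (Real.sin b : ℂ), Real.cos b] := fun b => by
    ext i j
    fin_cases i <;> fin_cases j <;> simp [rot, pau, mul_right_comm I _ I]
  rw [Real.sin_two_mul, h, h]
  simp [vac, pau]
  ring

namespace FS

variable {K : ℕ} {M : FS (Lab K) (muK K)} {T : Set ℝ}

theorem top_aux (hT : MeasurableSet T) (h0 : 0 < nu0.real T) {D : Fin K → (Fin K → ℝ) → ℝ}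
    {E : Fin K → Lab K → ℝ} (hE : ∀ l c, E l c = ind T c * D l c.2 / √(nu0.real T))
    (hD : Fam T E) {m : (Fin K → ℝ) → ℝ} (hm : Measurable m) (hm1 : ∀ z, |m z| ≤ 1) :
    ∃ U, M.Steps E (Gate.OK K T) 1 U ∧
      (⟪M.sc (ind T) (M.xi U), M.SS (M.WZ E) (M.sc (ind T) (M.xi U))⟫_ℂ).re =
        nu0.real T * √(nu0.real T) * ∑ l,
          (∫ z, D l z * m z ∂(Measure.pi fun _ => gaussianReal 0 1)) *
            ∫ z, m z * z l ∂(Measure.pi fun _ => gaussianReal 0 1) := by
  set α : Lab K → ℝ := fun c => ind T c * (-Real.arcsin (m c.2) / 2) with hα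
  have hαm : Measurable α := (BR.ind hT).1.mul
    (((Real.measurable_arcsin.comp (hm.comp measurable_snd)).neg).div_const 2)
  have hαn : Measurable fun c => -α c := hαm.neg
  have hok : Gate.OK K T (.loc 1 α) := ⟨hαm, fun c c' h h' => by
    rw [show c = c' from Prod.ext h (funext fun l => h' l l.2)], fun c hc => by simp [hα, ind, hc]⟩
  refine ⟨_, Steps.step hok Steps.refl, ?_⟩
  have hU : M.ev E (.loc 1 α) 1 = M.lr 1 α := mul_one _
  have hb : BM fun c => rot 1 (-α c) * (pau 2 * rot 1 (α c)) :=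
    (BM.rot 1 hαn).mul ((BM.const _).mul (BM.rot 1 hαm))
  set u : Lab K → M2 := fun c => (ind T c : ℂ) • (rot 1 (-α c) * (pau 2 * rot 1 (α c))) with hu
  have hub : BM u := (BR.ind hT).bms hb
  have hx : M.sc (ind T) (M.xi (M.lr 1 α)) = M.loc u M.Ω := by
    rw [hu, ← M.sc_mul_loc (BR.ind hT) hb, M.loc_mul (BM.rot 1 hαn)
      ((BM.const _).mul (BM.rot 1 hαm)), M.loc_mul (BM.const _) (BM.rot 1 hαm), xi,
      M.lr_star 1 hαm]
    rfl
  have hv : ∀ c, vac (u c) = (ind T c * m c.2 : ℝ) := fun c => by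
    rw [hu]
    simp only [vac_smul, vac_rot, hα, ind]
    split_ifs
    · rw [show 2 * (1 * (-Real.arcsin (m c.2) / 2)) = -Real.arcsin (m c.2) by ring, Real.sin_neg,
        Real.sin_arcsin (abs_le.1 (hm1 _)).1 (abs_le.1 (hm1 _)).2]
      simp
    · simp
  have hX : M.loc u M.Ω ∈ M.XX := hx ▸ XX.sc M (M.dec_lr 1 hαm).xi_mem (BR.ind hT)
  have hs : 0 < √(nu0.real T) := Real.sqrt_pos.2 h0
  have h1 : ∀ l, ⟪M.sc (E l) M.Ω, M.loc u M.Ω⟫_ℂ =
      (√(nu0.real T) * ∫ z, D l z * m z ∂(Measure.pi fun _ => gaussianReal 0 1) : ℝ) := fun l => by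
    rw [← M.inner_star', M.sc_star (hD.br l), ← ContinuousLinearMap.mul_apply,
      M.sc_mul_loc (hD.br l) hub, M.inner_loc ((hD.br l).bms hub)]
    have h2 : ∀ c, vac ((E l c : ℂ) • u c) =
        (ind T c * (D l c.2 * m c.2) / √(nu0.real T) : ℝ) := fun c => by
      rw [vac_smul, hv, hE, ← ofReal_mul, div_mul_eq_mul_div, mul_mul_mul_comm, ind_mul_ind]
    simp only [h2]
    rw [integral_complex_ofReal, integral_div, integral_ind_mul hT fun z => D l z * m z]
    congr 1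
    rw [div_eq_iff hs.ne', mul_right_comm, Real.mul_self_sqrt h0.le]
  have h3 : ∀ l, ∫ c, (starRingEnd ℂ) (vac (u c)) * (c.2 l : ℝ) ∂muK K =
      (nu0.real T * ∫ z, m z * z l ∂(Measure.pi fun _ => gaussianReal 0 1) : ℝ) := fun l => by
    simp only [hv, conj_ofReal, ← ofReal_mul, mul_assoc]
    rw [integral_complex_ofReal, integral_ind_mul hT fun z => m z * z l]
  rw [hU, hx, SS_loc hD hX hub]
  simp only [h1, h3, ← ofReal_mul, ← ofReal_sum, ofReal_re, Finset.mul_sum]
  exact Finset.sum_congr rfl fun l _ => by ring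

end FS

end Vale.Agent.P367.Q
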