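import Vale.Agent.P367.QBase

/-! Auxiliary facts on the Weyl operators with classical modes. -/

namespace Vale.Agent.P367.Q

open Complex MeasureTheory ProbabilityTheory Filter Topology Matrix
open scoped InnerProductSpace

theorem za_gauss (a : ℝ) :
    ∫ t : ℝ, exp (-I * (a * t : ℝ)) ∂gaussianReal 0 1 = exp (-(a ^ 2 / 2 : ℝ)) := by
  have h := charFun_gaussianReal (μ := 0) (v := 1) (-a)
  rw [charFun_apply_real] at h
  have h1 : (fun t : ℝ => exp (-I * (a * t : ℝ))) = fun t : ℝ => exp (((-a : ℝ) : ℂ) * t * I) := by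
    funext t; congr 1; push_cast; ring
  rw [h1, h]
  congr 1
  push_cast
  ring

theorem za_pi {K : ℕ} (a : Fin K → ℝ) :
    ∫ z : Fin K → ℝ, exp (-I * (∑ l, a l * z l : ℝ)) ∂(Measure.pi fun _ => gaussianReal 0 1) =
      exp (-((∑ l, a l ^ 2) / 2 : ℝ)) := by
  have h1 : (fun z : Fin K → ℝ => exp (-I * (∑ l, a l * z l : ℝ))) =
      fun z => ∏ l, exp (-I * (a l * z l : ℝ)) := by
    funext z
    rw [← Complex.exp_sum, ofReal_sum, Finset.mul_sum]
  rw [h1, integral_fintype_prod_eq_prod (fun l (t : ℝ) => exp (-I * (a l * t : ℝ)))]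
  simp only [za_gauss]
  rw [← Complex.exp_sum, Finset.sum_div, ofReal_sum, Finset.sum_neg_distrib]

theorem za_int (L : ℝ) (ν : Measure ℝ) [IsProbabilityMeasure ν] {g : ℝ → ℝ} (hg : Measurable g) :
    Integrable (fun r => exp (-I * (L * g r : ℝ))) ν :=
  Integrable.of_bound (C := 1) (Measurable.aestronglyMeasurable (by fun_prop))
    (ae_of_all _ fun r => by simp [norm_exp])

theorem za_chi (L : ℝ) :
    ∫ r, exp (-I * (L * r : ℝ)) ∂nu0 + ∫ r, exp (-I * (-L * r : ℝ)) ∂nu0 =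
      2 * exp (-(L ^ 2 / 2 : ℝ)) := by
  have hm : ∀ L : ℝ, ∫ r, exp (-I * (L * r : ℝ)) ∂nu0 =
      ∫ r, exp (-I * (L * |r| : ℝ)) ∂gaussianReal 0 1 := fun L => by
    rw [nu0, integral_map (by fun_prop) (Measurable.aestronglyMeasurable (by fun_prop))]
  rw [hm, hm, ← integral_add (za_int L _ (by fun_prop)) (za_int (-L) _ (by fun_prop))]
  have h1 : (fun r : ℝ => exp (-I * (L * |r| : ℝ)) + exp (-I * (-L * |r| : ℝ))) =
      fun r : ℝ => exp (-I * (L * r : ℝ)) + exp (-I * (-L * r : ℝ)) := by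
    funext r
    rcases abs_choice r with h | h
    · rw [h]
    · rw [h, add_comm, neg_mul_neg, mul_neg, neg_mul L r]
  rw [h1, integral_add (za_int L _ measurable_id') (za_int (-L) _ measurable_id'), za_gauss,
    za_gauss, neg_sq, two_mul]

theorem za_prod {K : ℕ} (f : ℝ → ℂ) (a : Fin K → ℝ) :
    ∫ c : Lab K, f c.1 * exp (-I * (∑ l, a l * c.2 l : ℝ)) ∂muK K =
      (∫ r, f r ∂nu0) * exp (-((∑ l, a l ^ 2) / 2 : ℝ)) := by
  rw [muK, integral_prod_mul f (fun z : Fin K → ℝ => exp (-I * (∑ l, a l * z l : ℝ))), za_pi]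

theorem BM.fst {K : ℕ} {u : ℝ → M2} (hu : BM u) : BM fun c : Lab K => u c.1 := by
  obtain ⟨h1, C, h2⟩ := hu
  exact ⟨fun i j => (h1 i j).comp measurable_fst, C, fun c => h2 c.1⟩

namespace FS

variable {K : ℕ} {M : FS (Lab K) (muK K)} {T : Set ℝ} {D : Fin K → Lab K → ℝ} {x y : M.H}

/-- the classical phase -/
noncomputable def zal (M : FS (Lab K) (muK K)) (D : Fin K → Lab K → ℝ) (x : M.H) (c : Lab K) : ℝ :=
  ∑ l, (⟪M.sc (D l) M.Ω, x⟫_ℂ).re * c.2 l

/-- the projection off the classical modes -/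
noncomputable def zpr (M : FS (Lab K) (muK K)) (D : Fin K → Lab K → ℝ) (x : M.H) : M.H :=
  x - ∑ l, ⟪M.sc (D l) M.Ω, x⟫_ℂ • M.sc (D l) M.Ω

theorem WZ_def (x : M.H) : M.WZ D x = M.ph (M.zal D x) * M.W (M.zpr D x) := rfl

theorem zal_meas (x : M.H) : Measurable (M.zal D x) := by
  unfold zal
  fun_prop

theorem zal_add (x y : M.H) : (fun c => M.zal D x c + M.zal D y c) = M.zal D (x + y) := by
  funext c
  simp only [zal, inner_add_right, add_re, add_mul, Finset.sum_add_distrib]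

theorem zal_neg (x : M.H) : (fun c => -M.zal D x c) = M.zal D (-x) := by
  funext c
  simp only [zal, inner_neg_right, neg_re, neg_mul, Finset.sum_neg_distrib]

theorem zpr_add (x y : M.H) : M.zpr D x + M.zpr D y = M.zpr D (x + y) := by
  simp only [zpr, inner_add_right, add_smul, Finset.sum_add_distrib]
  abel

theorem zpr_neg (x : M.H) : -M.zpr D x = M.zpr D (-x) := by
  simp only [zpr, inner_neg_right, neg_smul, Finset.sum_neg_distrib]
  abel

theorem za_orth (hD : Fam T D) (l l' : Fin K) :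
    ⟪M.sc (D l) M.Ω, M.sc (D l') M.Ω⟫_ℂ = if l = l' then 1 else 0 := by
  rw [M.inner_sc (hD.br l) (hD.br l'), hD.orth]
  split_ifs <;> simp

theorem za_real (hD : Fam T D) (hx : x ∈ M.XX) (l : Fin K) :
    ⟪M.sc (D l) M.Ω, x⟫_ℂ = ((⟪M.sc (D l) M.Ω, x⟫_ℂ).re : ℂ) :=
  Complex.ext (by simp) (by rw [ofReal_im]; exact hx _ (hD.br l))

theorem za_d_zpr (hD : Fam T D) (l : Fin K) (x : M.H) : ⟪M.sc (D l) M.Ω, M.zpr D x⟫_ℂ = 0 := by
  simp only [zpr, inner_sub_right, inner_sum, inner_smul_right, za_orth hD, mul_ite, mul_one,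
    mul_zero, Finset.sum_ite_eq, Finset.mem_univ, if_true, sub_self]

theorem inner_zpr (hD : Fam T D) (hx : x ∈ M.XX) (hy : y ∈ M.XX) :
    ⟪M.zpr D x, M.zpr D y⟫_ℂ = ⟪x, y⟫_ℂ -
      (∑ l, (⟪M.sc (D l) M.Ω, x⟫_ℂ).re * (⟪M.sc (D l) M.Ω, y⟫_ℂ).re : ℝ) := by
  have h1 : ⟪M.zpr D x, M.zpr D y⟫_ℂ = ⟪x, M.zpr D y⟫_ℂ := by
    conv_lhs => rw [zpr]
    simp only [inner_sub_left, sum_inner, inner_smul_left, za_d_zpr hD, mul_zero,
      Finset.sum_const_zero, sub_zero]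
  rw [h1, zpr, inner_sub_right, inner_sum, ofReal_sum]
  congr 1
  refine Finset.sum_congr rfl fun l _ => ?_
  rw [inner_smul_right, ← inner_conj_symm x, za_real hD hx l, za_real hD hy l, conj_ofReal,
    ofReal_re, ofReal_re, ofReal_mul, mul_comm]

theorem norm_zpr (hD : Fam T D) (hx : x ∈ M.XX) :
    ‖M.zpr D x‖ ^ 2 = ‖x‖ ^ 2 - ∑ l, (⟪M.sc (D l) M.Ω, x⟫_ℂ).re ^ 2 := by
  rw [@norm_sq_eq_re_inner ℂ, @norm_sq_eq_re_inner ℂ, inner_zpr hD hx hx]
  simp only [map_sub, RCLike.re_to_complex, ofReal_re, sq]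

theorem zal_cont (φ : M.H) : Continuous fun x => M.ph (M.zal D x) φ := by
  refine SeqContinuous.continuous fun z x hz => ?_
  refine M.loc_dom (C := 1) (u := fun n c => exp (-I * M.zal D (z n) c) • (1 : M2))
    (fun n => BM.ph (zal_meas _)) (BM.ph (zal_meas x)) (fun n c i j => ?_)
    (ae_of_all _ fun c i j => ?_) φ
  · fin_cases i <;> fin_cases j <;> simp [norm_exp]
  · have h : Continuous fun x : M.H => (exp (-I * M.zal D x c) • (1 : M2)) i j := by
      simp only [Matrix.smul_apply, smul_eq_mul, zal]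
      fun_prop
    exact (h.tendsto x).comp hz

theorem WZ_cont (ψ : M.H) : Continuous fun x => M.WZ D x ψ := by
  have hp : Continuous (M.zpr D) := by
    unfold zpr
    fun_prop
  have hW : Continuous fun x => M.W (M.zpr D x) ψ := (M.W_cont ψ).comp hp
  refine continuous_iff_continuousAt.2 fun x₀ => ?_
  have h1 : Tendsto (fun x => M.ph (M.zal D x) (M.W (M.zpr D x) ψ - M.W (M.zpr D x₀) ψ)) (𝓝 x₀)
      (𝓝 0) := by
    rw [tendsto_zero_iff_norm_tendsto_zero]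
    simp only [(M.dec_ph (zal_meas _)).norm]
    exact tendsto_iff_norm_sub_tendsto_zero.1 (hW.tendsto x₀)
  have h2 := h1.add ((zal_cont (D := D) (M.W (M.zpr D x₀) ψ)).tendsto x₀)
  simp only [map_sub, sub_add_cancel, zero_add] at h2
  exact h2

theorem za_isW (hD : Fam T D) : M.IsW (M.WZ D) M.XX where
  zero := by
    have h1 : M.zal D 0 = fun _ => 0 := by funext c; simp [zal]
    have h2 : M.zpr D 0 = 0 := by simp [zpr]
    rw [WZ_def, h1, h2, M.ph_zero, M.W_zero, one_mul]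
  mul x hx y hy := by
    have h : M.W (M.zpr D x) * M.ph (M.zal D y) = M.ph (M.zal D y) * M.W (M.zpr D x) :=
      M.W_loc _ (BM.ph (zal_meas y))
    rw [WZ_def, WZ_def, WZ_def, mul_assoc, ← mul_assoc (M.W _), h, mul_assoc, ← mul_assoc,
      M.ph_add (zal_meas x) (zal_meas y), zal_add, M.W_mul, zpr_add, inner_zpr hD hx hy, sub_im,
      ofReal_im, sub_zero, mul_smul_comm]
  star x _ := by
    rw [WZ_def, WZ_def, star_mul, M.W_star, M.ph_star (zal_meas x), zal_neg, zpr_neg]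
    exact M.W_loc _ (BM.ph (zal_meas _))
  loc x _ u hu := by
    rw [WZ_def, mul_assoc, M.W_loc _ hu, ← mul_assoc, M.ph_loc (zal_meas x) hu, mul_assoc]
  cont ψ := (WZ_cont ψ).continuousOn

theorem za_cl (hD : Fam T D) (l : Fin K) (s : ℝ) :
    M.WZ D (s • M.sc (D l) M.Ω) = M.ph fun c => s * c.2 l := by
  have h0 : ∀ l', ⟪M.sc (D l') M.Ω, s • M.sc (D l) M.Ω⟫_ℂ = if l' = l then (s : ℂ) else 0 := by
    intro l'
    rw [← Complex.coe_smul, inner_smul_right, za_orth hD]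
    split_ifs <;> simp
  have h1 : M.zal D (s • M.sc (D l) M.Ω) = fun c => s * c.2 l := by
    funext c
    simp only [zal, h0, apply_ite re, ofReal_re, zero_re, ite_mul, zero_mul, Finset.sum_ite_eq',
      Finset.mem_univ, if_true]
  have h2 : M.zpr D (s • M.sc (D l) M.Ω) = 0 := by
    simp only [zpr, h0, ite_smul, zero_smul, Finset.sum_ite_eq', Finset.mem_univ, if_true,
      Complex.coe_smul, sub_self]
  rw [WZ_def, h1, h2, M.W_zero, mul_one]

theorem za_eq_W (hD : Fam T D) {C : Set ℝ} (hC : MeasurableSet C) (h : Disjoint C T)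
    (hx : x ∈ M.Md C) : M.WZ D x = M.W x := by
  have h0 : ∀ l, ⟪M.sc (D l) M.Ω, x⟫_ℂ = 0 := by
    intro l
    have h1 : (fun c : Lab K => ind C c * D l c) = fun _ => 0 := by
      funext c
      by_cases hc : c.1 ∈ C
      · rw [hD.supp l c (Set.disjoint_left.1 h hc), mul_zero]
      · simp [ind, hc]
    rw [← hx.2, ← M.inner_star, M.sc_star (BR.ind hC), ← ContinuousLinearMap.mul_apply,
      ← M.sc_mul (BR.ind hC) (hD.br l), h1, M.sc_const]
    simp
  have h1 : M.zal D x = fun _ => 0 := by funext c; simp [zal, h0]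
  have h2 : M.zpr D x = x := by simp [zpr, h0]
  rw [WZ_def, h1, h2, M.ph_zero, one_mul]

theorem za_inner (hD : Fam T D) (hx : x ∈ M.XX) {u : ℝ → M2} (hu : BM u) :
    ⟪M.Ω, M.loc (fun c => u c.1) (M.WZ D x M.Ω)⟫_ℂ =
      (∫ r, vac (u r) ∂nu0) * exp (-(‖x‖ ^ 2 / 2 : ℝ)) := by
  have h1 : (fun c : Lab K => vac (u c.1 * (exp (-I * M.zal D x c) • (1 : M2)))) =
      fun c : Lab K => vac (u c.1) *
        exp (-I * (∑ l, (⟪M.sc (D l) M.Ω, x⟫_ℂ).re * c.2 l : ℝ)) := by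
    funext c
    rw [mul_smul_comm, mul_one, vac_smul, mul_comm]
    rfl
  rw [WZ_def, ContinuousLinearMap.mul_apply, ← ContinuousLinearMap.mul_apply, ph,
    ← M.loc_mul hu.fst (BM.ph (zal_meas x)), M.W_vac _ (hu.fst.mul (BM.ph (zal_meas x))), h1,
    norm_zpr hD hx, za_prod (fun r => vac (u r)) (fun l => (⟪M.sc (D l) M.Ω, x⟫_ℂ).re), mul_assoc,
    ← Complex.exp_add]
  congr 2
  push_cast
  ring

theorem za_vac (hD : Fam T D) (hx : x ∈ M.XX) {u v : ℝ → M2} (hu : BM u) (hv : BM v) :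
    ⟪M.loc (fun c => u c.1) M.Ω, M.WZ D x (M.loc (fun c => v c.1) M.Ω)⟫_ℂ =
      ⟪M.loc (fun c => u c.1) M.Ω, M.loc (fun c => v c.1) M.Ω⟫_ℂ * exp (-(‖x‖ ^ 2 / 2 : ℝ)) := by
  have key : ∀ y ∈ M.XX, ⟪M.loc (fun c => u c.1) M.Ω, M.WZ D y (M.loc (fun c => v c.1) M.Ω)⟫_ℂ =
      (∫ r, vac ((u r)ᴴ * v r) ∂nu0) * exp (-(‖y‖ ^ 2 / 2 : ℝ)) := by
    intro y hy
    rw [← ContinuousLinearMap.mul_apply, (za_isW hD).loc y hy hv.fst, ContinuousLinearMap.mul_apply,
      ← M.inner_star', M.loc_star hu.fst, ← ContinuousLinearMap.mul_apply,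
      ← M.loc_mul hu.fst.star hv.fst]
    exact za_inner hD hy (hu.star.mul hv)
  have h0 := key 0 (zero_mem _)
  rw [(za_isW hD).zero, ContinuousLinearMap.one_apply] at h0
  rw [key x hx, h0]
  simp

theorem za_vac_ind (hD : Fam T D) {B : Set ℝ} (hB : MeasurableSet B) :
    M.Vac (M.WZ D) M.XX (M.orb (M.sc (ind B) M.Ω)) := by
  have hb : BM fun r : ℝ => ((B.indicator (1 : ℝ → ℝ) r : ℝ) : ℂ) • (1 : M2) :=
    (BR.indicator hB).bm
  have h : ∀ m : M2, M.sp m (M.sc (ind B) M.Ω) = M.loc (fun c : Lab K =>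
      (fun r : ℝ => m * (((B.indicator (1 : ℝ → ℝ) r : ℝ) : ℂ) • (1 : M2))) c.1) M.Ω := by
    intro m
    rw [← ContinuousLinearMap.mul_apply, sp, sc, ← M.loc_mul (BM.const m) (BR.ind hB).bm]
    refine congrArg (fun u => M.loc u M.Ω) (funext fun c => ?_)
    by_cases hc : c.1 ∈ B <;> simp [ind, hc]
  rintro x hx _ ⟨m, rfl⟩ _ ⟨m', rfl⟩
  simp only [h]
  exact za_vac hD hx ((BM.const m).mul hb) ((BM.const m').mul hb)

end FS

end Vale.Agent.P367.Q
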