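import Vale.Agent.P367.QW2
import Vale.Agent.P367.QZa

/-! The Weyl operators with classical modes. -/

namespace Vale.Agent.P367.Q

open Complex MeasureTheory ProbabilityTheory Filter Topology Matrix
open scoped InnerProductSpace

theorem ind_eq {K : ℕ} (B : Set ℝ) :
    (ind B : Lab K → ℝ) = (Prod.fst ⁻¹' B : Set (Lab K)).indicator 1 := by
  funext c
  by_cases hc : c.1 ∈ B <;> simp [ind, hc]

/-- the characteristic function of the modulus of a Gaussian -/
noncomputable def chi0 (L : ℝ) : ℂ := ∫ r, exp (-I * (L * r : ℝ)) ∂nu0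

namespace FS

variable {K : ℕ} {M : FS (Lab K) (muK K)} {T : Set ℝ} {D : Fin K → Lab K → ℝ}
  {A A' B C : Set ℝ} {x y ψ : M.H} {U U' : M.H →L[ℂ] M.H}

theorem isW_WZ (hD : Fam T D) : M.IsW (M.WZ D) M.XX := za_isW hD

/-- the classical modes act by phases -/
theorem WZ_cl (hD : Fam T D) (l : Fin K) (s : ℝ) :
    M.WZ D (s • M.sc (D l) M.Ω) = M.ph fun c => s * c.2 l := za_cl hD l s

theorem WZ_eq_W (hD : Fam T D) (hC : MeasurableSet C) (h : Disjoint C T) (hx : x ∈ M.Md C) :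
    M.WZ D x = M.W x := za_eq_W hD hC h hx

/-- the vacuum formula for functions of the first coordinate of the label -/
theorem inner_WZ (hD : Fam T D) (hx : x ∈ M.XX) {u : ℝ → M2} (hu : BM u) :
    ⟪M.Ω, M.loc (fun c => u c.1) (M.WZ D x M.Ω)⟫_ℂ =
      (∫ r, vac (u r) ∂nu0) * exp (-(‖x‖ ^ 2 / 2 : ℝ)) := za_inner hD hx hu

theorem vacR_WZ (hD : Fam T D) : M.VacR (M.WZ D) M.XX (fun c => c.1) chi0 := by
  refine ⟨measurable_fst, za_chi, by simp [chi0], fun x hx L m => ?_⟩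
  rw [za_inner hD hx (u := fun r => exp (-I * (L * r : ℝ)) • m)
    (BM.phs (measurable_const.mul measurable_id') (BM.const m))]
  simp only [vac_smul]
  rw [integral_mul_const]
  rfl

theorem vac_ind (hD : Fam T D) (hB : MeasurableSet B) :
    M.Vac (M.WZ D) M.XX (M.orb (M.sc (ind B) M.Ω)) := za_vac_ind hD hB

theorem norm_ind_sq (hB : MeasurableSet B) : ‖M.sc (ind B) M.Ω‖ ^ 2 = nu0.real B := by
  have e : (fun c : Lab K => ind B c ^ 2) = (Prod.fst ⁻¹' B : Set (Lab K)).indicator 1 := by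
    funext c
    by_cases h : c.1 ∈ B <;> simp [ind, h]
  rw [M.norm_sc_sq (BR.ind hB), e, integral_indicator_one (measurable_fst hB)]
  exact (measurePreserving_fst (μ := nu0)
    (ν := Measure.pi fun _ : Fin K => gaussianReal 0 1)).measureReal_preimage hB.nullMeasurableSet

theorem sc_ind_ind (hA : MeasurableSet A) (hB : MeasurableSet B) :
    M.sc (ind A) * M.sc (ind B) = M.sc (ind (A ∩ B)) := by
  rw [← M.sc_mul (BR.ind hA) (BR.ind hB)]
  congr 1
  funext c
  by_cases h : c.1 ∈ A <;> by_cases h' : c.1 ∈ B <;> simp [ind, h, h']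

theorem sc_ind_union (hA : MeasurableSet A) (hB : MeasurableSet B) (h : Disjoint A B) :
    M.sc (ind (A ∪ B)) = M.sc (ind A) + M.sc (ind B) := by
  rw [← M.sc_add (BR.ind hA) (BR.ind hB)]
  congr 1
  funext c
  by_cases h1 : c.1 ∈ A
  · have h2 : c.1 ∉ B := Set.disjoint_left.1 h h1
    simp [ind, h1, h2]
  · by_cases h2 : c.1 ∈ B <;> simp [ind, h1, h2]

theorem sc_ind_univ : M.sc (ind Set.univ) = 1 := by
  have e : (ind Set.univ : Lab K → ℝ) = fun _ => 1 := by
    funext c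
    simp [ind]
  rw [e, M.sc_const, ofReal_one, one_smul]

theorem sc_ind_empty : M.sc (ind ∅) = 0 := by
  have e : (ind ∅ : Lab K → ℝ) = fun _ => 0 := by
    funext c
    simp [ind]
  rw [e, M.sc_const, ofReal_zero, zero_smul]

theorem norm_ind_le (hA : MeasurableSet A) (ψ : M.H) : ‖M.sc (ind A) ψ‖ ≤ ‖ψ‖ := by
  rw [ind_eq]
  exact norm_sc_ind_le (measurable_fst hA) ψ

theorem inner_ind_ind (hA : MeasurableSet A) (hB : MeasurableSet B) (h : Disjoint A B)
    (x y : M.H) : ⟪M.sc (ind A) x, M.sc (ind B) y⟫_ℂ = 0 := by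
  rw [← M.inner_star', M.sc_star (BR.ind hA), ← ContinuousLinearMap.mul_apply, sc_ind_ind hA hB,
    h.inter_eq, sc_ind_empty, ContinuousLinearMap.zero_apply, inner_zero_right]

theorem norm_sq_ind (hA : MeasurableSet A) (ψ : M.H) :
    ‖M.sc (ind A) ψ‖ ^ 2 + ‖M.sc (ind Aᶜ) ψ‖ ^ 2 = ‖ψ‖ ^ 2 := by
  have e : M.sc (ind A) ψ + M.sc (ind Aᶜ) ψ = ψ := by
    rw [← ContinuousLinearMap.add_apply, ← sc_ind_union hA hA.compl disjoint_compl_right,
      Set.union_compl_self, sc_ind_univ, ContinuousLinearMap.one_apply]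
  have h := norm_add_sq_eq_norm_sq_add_norm_sq_of_inner_eq_zero (𝕜 := ℂ) _ _
    (inner_ind_ind (M := M) hA hA.compl disjoint_compl_right ψ ψ)
  rw [e] at h
  rw [sq, sq, sq, h]

theorem Md_le : M.Md A ≤ M.XX := fun _ h => h.1

theorem Md_mono (hA : MeasurableSet A) (hB : MeasurableSet B) (h : A ⊆ B) : M.Md A ≤ M.Md B := by
  intro x hx
  refine ⟨hx.1, ?_⟩
  have e : M.sc (ind B) (M.sc (ind A) x) = M.sc (ind A) x := by
    rw [← ContinuousLinearMap.mul_apply, sc_ind_ind hB hA, Set.inter_eq_right.2 h]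
  rwa [hx.2] at e

theorem Md_orth (hA : MeasurableSet A) (hB : MeasurableSet B) (h : Disjoint A B) (hx : x ∈ M.Md A)
    (hy : y ∈ M.Md B) : ⟪x, y⟫_ℂ = 0 := by
  have e := inner_ind_ind (M := M) hA hB h x y
  rwa [hx.2, hy.2] at e

theorem isClosed_Md : IsClosed (M.Md A : Set M.H) :=
  M.isClosed_XX.inter (isClosed_eq (M.sc (ind A)).continuous continuous_id)

theorem sc_mem_Md (hA : MeasurableSet A) (hx : x ∈ M.XX) {g : Lab K → ℝ} (hg : BR g)
    (h : ∀ c : Lab K, c.1 ∉ A → g c = 0) : M.sc g x ∈ M.Md A := by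
  refine ⟨XX.sc M hx hg, ?_⟩
  have e : (fun c => ind A c * g c) = g := by
    funext c
    by_cases h1 : c.1 ∈ A
    · simp [ind, h1]
    · simp [h c h1]
  rw [← ContinuousLinearMap.mul_apply, ← M.sc_mul (BR.ind hA) hg, e]

theorem ind_mem_Md (hA : MeasurableSet A) (hx : x ∈ M.XX) : M.sc (ind A) x ∈ M.Md A :=
  sc_mem_Md hA hx (BR.ind hA) fun c h => by simp [ind, h]

theorem pv_apply (a b : SimpleFunc (Lab K) ℝ) (x : M.H) (c : Lab K) :
    M.pv a b x c = a c • M.sc b x + b c • M.sc a x := rfl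

theorem pv_mem (a b : SimpleFunc (Lab K) ℝ) (hx : x ∈ M.XX) (c : Lab K) : M.pv a b x c ∈ M.XX :=
  add_mem (M.XX.smul_mem (a c) (XX.sc M hx (BR.simple b)))
    (M.XX.smul_mem (b c) (XX.sc M hx (BR.simple a)))

theorem EZ_pv_cont (hD : Fam T D) (a b : SimpleFunc (Lab K) ℝ) (ψ : M.H) :
    ContinuousOn (fun x => M.EZ (M.WZ D) (M.pv a b x) ψ) M.XX := by
  have e : ∀ x, M.pv a b x = (a.pair b).map fun r => r.1 • M.sc b x + r.2 • M.sc a x :=
    fun x => SimpleFunc.ext fun c => rfl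
  simp only [e]
  refine (isW_WZ hD).EZ_cont (a.pair b) (fun x r => r.1 • M.sc b x + r.2 • M.sc a x)
    (fun r => Continuous.continuousOn (by fun_prop)) (fun x hx r => ?_) ψ
  exact add_mem (M.XX.smul_mem _ (XX.sc M hx (BR.simple b)))
    (M.XX.smul_mem _ (XX.sc M hx (BR.simple a)))

/-- the angle of a rotation gate is measurable -/
def _root_.Vale.Agent.P367.Q.Gate.Meas : Gate K → Prop
  | .loc _ α => Measurable α
  | .pul _ _ => True

theorem _root_.Vale.Agent.P367.Q.Gate.OK.meas {k : ℕ} {g : Gate K} (h : g.OK k A) : g.Meas := by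
  cases g with
  | loc N α => exact h.1
  | pul a b => trivial

theorem _root_.Vale.Agent.P367.Q.Gate.Prim.meas (hA : MeasurableSet A) {k : Fin K} {g : Gate K}
    (h : g.Prim k A) : g.Meas := by
  rcases h with h | ⟨s, rfl⟩
  · exact h.meas
  · exact (measurable_const.mul (BR.ind hA).1).mul ((measurable_pi_apply k).comp measurable_snd)

theorem _root_.Vale.Agent.P367.Q.Gate.Base.meas {g : Gate K} (h : g.Base) : g.Meas := by
  rcases h with ⟨β, rfl⟩ | ⟨s, rfl⟩ | ⟨γ, rfl⟩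
  · exact measurable_const
  · exact measurable_const.mul measurable_fst
  · trivial

theorem _root_.Vale.Agent.P367.Q.Gate.OK.mono {k k' : ℕ} {g : Gate K} (h : g.OK k A) (hk : k ≤ k')
    (hA : A ⊆ B) : g.OK k' B := by
  have hl : ∀ α : Lab K → ℝ, Lev k α → Lev k' α :=
    fun α h c c' h1 h2 => h c c' h1 fun l hl => h2 l (hl.trans_le hk)
  cases g with
  | loc N α => exact ⟨h.1, hl _ h.2.1, fun c hc => h.2.2 c fun h' => hc (hA h')⟩
  | pul a b =>
    obtain ⟨h1, h2, E, hE, h3, h4⟩ := h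
    exact ⟨hl _ h1, hl _ h2, E, hE, fun c hc => ⟨hA (h3 c hc).1, (h3 c hc).2⟩,
      fun c hc => ⟨hA (h4 c hc).1, (h4 c hc).2⟩⟩

theorem ev_dec (hD : Fam T D) {g : Gate K} (hg : g.Meas) (hU : M.Dec U) : M.Dec (M.ev D g U) := by
  cases g with
  | loc N α => exact (M.dec_lr N hg).mul hU
  | pul a b => exact ((isW_WZ hD).EZ_dec (pv_mem a b hU.xi_mem)).mul hU

theorem Steps.dec (hD : Fam T D) {P : Gate K → Prop} (hP : ∀ g, P g → g.Meas) (hU : M.Dec U)
    (h : M.Steps D P U U') : M.Dec U' := by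
  induction h with
  | refl => exact hU
  | step hg _ ih => exact ev_dec hD (hP _ hg) ih

theorem Steps.mono {P Q : Gate K → Prop} (hP : ∀ g, P g → Q g) (h : M.Steps D P U U') :
    M.Steps D Q U U' := by
  induction h with
  | refl => exact .refl
  | step hg _ ih => exact .step (hP _ hg) ih

theorem Steps.trans {P : Gate K → Prop} {U'' : M.H →L[ℂ] M.H} (h : M.Steps D P U U')
    (h' : M.Steps D P U' U'') : M.Steps D P U U'' := by
  induction h' with
  | refl => exact h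
  | step hg _ ih => exact .step hg ih

theorem ind_mul_ev (hD : Fam T D) (hB : MeasurableSet B) (hAB : Disjoint A B) {k : ℕ}
    {g : Gate K} (hg : g.OK k A) (V : M.H →L[ℂ] M.H) :
    M.sc (ind B) * M.ev D g V = M.sc (ind B) * V := by
  have hn : ∀ c ∈ (Prod.fst ⁻¹' B : Set (Lab K)), c.1 ∉ A :=
    fun c hc => Set.disjoint_right.1 hAB hc
  rw [ind_eq]
  cases g with
  | loc N α =>
    have e := sc_loc_congr (M := M) (measurable_fst hB) (BM.rot N hg.1) (BM.const 1)
      fun c hc => by rw [hg.2.2 c (hn c hc), rot_zero]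
    rw [M.loc_one, mul_one] at e
    rw [ev, ← mul_assoc, lr, e]
  | pul a b =>
    obtain ⟨-, -, E, -, h3, h4⟩ := hg
    have e := sc_EZ (M.WZ D) (f := M.pv a b (M.xi V)) (v := 0) (measurable_fst hB) fun c hc => by
      have ha : a c = 0 := by_contra fun h => hn c hc (h3 c h).1
      have hb : b c = 0 := by_contra fun h => hn c hc (h4 c h).1
      rw [pv_apply, ha, hb, zero_smul, zero_smul, add_zero]
    rw [(isW_WZ hD).EZc_zero, mul_one] at e
    rw [ev, ← mul_assoc, e]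

/-- gates on the classes in `A` do nothing to the other classes -/
theorem Steps.id_compl (hD : Fam T D) (hA : MeasurableSet A) (hB : MeasurableSet B)
    (hAB : Disjoint A B) {k : ℕ} (h : M.Steps D (Gate.OK k A) U U') :
    M.sc (ind B) * U' = M.sc (ind B) * U := by
  have _ := hA
  induction h with
  | refl => rfl
  | step hg _ ih => rw [ind_mul_ev hD hB hAB hg, ih]

theorem SC.near (hD : Fam T D) {P Q : Gate K → Prop} (hQ : ∀ g, Q g → g.Meas)
    (hA : MeasurableSet A) (h : ∀ U, M.Steps D P 1 U → M.SC D Q U) : M.Near D P Q A := by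
  classical
  intro U hU ε hε
  obtain ⟨hd, h1⟩ := h U hU
  obtain ⟨U', h2, h3⟩ := h1 (ε / 2) (half_pos hε) {M.sc (ind A) M.Ω, M.sc (ind A) (M.xi U)}
  refine ⟨U', h2, ?_⟩
  have h4 := hd.xi_sub_le (h2.dec hD hQ Dec.one) (BR.ind hA)
  have h5 := h3 (M.sc (ind A) M.Ω) (by simp)
  have h6 := h3 (M.sc (ind A) (M.xi U)) (by simp)
  rw [map_sub]
  linarith

theorem Near.trans {P Q R : Gate K → Prop} (h : M.Near D P Q A) (h' : M.Near D Q R A) :
    M.Near D P R A := by
  intro U hU ε hε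
  obtain ⟨U', h1, h2⟩ := h U hU (ε / 2) (half_pos hε)
  obtain ⟨U'', h3, h4⟩ := h' U' h1 (ε / 2) (half_pos hε)
  refine ⟨U'', h3, ?_⟩
  have h5 := norm_add_le (M.sc (ind A) (M.xi U'' - M.xi U')) (M.sc (ind A) (M.xi U' - M.xi U))
  rw [← map_add, sub_add_sub_cancel] at h5
  linarith

theorem Near.mono {P Q : Gate K → Prop} (hA : MeasurableSet A) (hB : MeasurableSet B) (hAB : A ⊆ B)
    (h : M.Near D P Q B) : M.Near D P Q A := by
  intro U hU ε hε
  obtain ⟨U', h1, h2⟩ := h U hU ε hε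
  refine ⟨U', h1, lt_of_le_of_lt ?_ h2⟩
  have h3 := norm_ind_le hA (M.sc (ind B) (M.xi U' - M.xi U))
  rwa [← ContinuousLinearMap.mul_apply, sc_ind_ind hA hB, Set.inter_eq_left.2 hAB] at h3

end FS

end Vale.Agent.P367.Q
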