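import Vale.Agent.P367.QG1
import Vale.Agent.P367.QZ1

/-! Auxiliary facts for the response formulas. -/

namespace Vale.Agent.P367.Q

open Complex MeasureTheory ProbabilityTheory Filter Topology Matrix
open scoped InnerProductSpace

theorem sb_gauss (r : ℝ) (c : ℂ) :
    HasDerivAt (fun t : ℝ => exp (-((t ^ 2 * r) / 2 : ℝ) - t * c)) (-c) 0 := by
  have h1 : HasDerivAt (fun t : ℝ => (t ^ 2 * r) / 2) 0 0 := by
    simpa using (((hasDerivAt_id (0 : ℝ)).pow 2).mul_const r).div_const 2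
  have h2 : HasDerivAt (fun t : ℝ => (t : ℂ) * c) c 0 := by
    simpa using (hasDerivAt_id (0 : ℝ)).ofReal_comp.mul_const c
  simpa using (h1.ofReal_comp.neg.sub h2).cexp

theorem sb_PS (β : ℕ → ℝ) (Γ : ℕ → ℕ → ℂ) (d : ℕ) {F : ℝ → (ℕ → Bool × Bool) → ℂ}
    {F' : (ℕ → Bool × Bool) → ℂ} (h : ∀ a, HasDerivAt (fun t => F t a) (F' a) 0) :
    HasDerivAt (fun t => PS β Γ d (F t)) (PS β Γ d F') 0 :=
  HasDerivAt.fun_sum fun a _ => (h (ext a)).const_mul _

theorem sb_split (β : ℕ → ℝ) (Γ : ℕ → ℕ → ℂ) (d : ℕ) (A : (ℕ → Bool × Bool) → ℂ) (c : ℕ → ℂ) :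
    PS β Γ d (fun a => A a * sg (a d).2 *
      -∑ j ∈ Finset.range d, (sg (a j).1 - sg (a j).2 : ℝ) * c j) =
    -∑ j ∈ Finset.range d, (PS β Γ d (fun a => A a * (sg (a d).2 * sg (a j).1 : ℝ)) -
      PS β Γ d fun a => A a * (sg (a j).2 * sg (a d).1 : ℝ)) * c j := by
  simp only [PS, ← Finset.sum_sub_distrib, Finset.sum_mul]
  rw [Finset.sum_comm, ← Finset.sum_neg_distrib]
  refine Finset.sum_congr rfl fun a _ => ?_
  simp only [mul_neg, Finset.mul_sum, neg_inj]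
  refine Finset.sum_congr rfl fun j _ => ?_
  by_cases h : (ext a d).1 = (ext a d).2
  · rw [h]
    push_cast
    ring
  · simp [amp, h]

theorem sb_vac (m : M2) : vac mᴴ = (starRingEnd ℂ) (vac m) := by
  simp only [vac, conjTranspose_apply, star_def, map_div₀, map_add, map_ofNat]
  ring

theorem sb_int {Λ : Type} [MeasurableSpace Λ] {μ : Measure Λ} [IsProbabilityMeasure μ]
    {g : Λ → ℝ} (hg : Measurable g) (hi : Integrable g μ) {v : Λ → ℂ} (hv : Measurable v) {C : ℝ}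
    (hC : ∀ c, ‖v c‖ ≤ C) :
    HasDerivAt (fun t : ℝ => ∫ c, exp (-I * (t * g c : ℝ)) * v c ∂μ)
      (-I * ∫ c, v c * g c ∂μ) 0 := by
  have hn : ∀ a : ℝ, ‖exp (-I * a)‖ = 1 := fun a => by simp [norm_exp]
  have h := (hasDerivAt_integral_of_dominated_loc_of_deriv_le (μ := μ) (x₀ := (0 : ℝ))
    (F := fun (t : ℝ) c => exp (-I * (t * g c : ℝ)) * v c)
    (F' := fun (t : ℝ) c => exp (-I * (t * g c : ℝ)) * (-I * g c) * v c)
    (bound := fun c => |g c| * C) univ_mem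
    (.of_forall fun t => Measurable.aestronglyMeasurable (by fun_prop))
    (Integrable.of_bound (Measurable.aestronglyMeasurable (by fun_prop)) C
      (.of_forall fun c => by rw [norm_mul, hn, one_mul]; exact hC c))
    (Measurable.aestronglyMeasurable (by fun_prop))
    (.of_forall fun c t _ => by
      rw [norm_mul, norm_mul, hn, one_mul, norm_mul, norm_neg, norm_I, one_mul, norm_real]
      exact mul_le_mul_of_nonneg_left (hC c) (norm_nonneg _))
    (hi.abs.mul_const C)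
    (.of_forall fun c t _ => by
      have h1 : HasDerivAt (fun t : ℝ => t * g c) (g c) t := by
        simpa using (hasDerivAt_id t).mul_const (g c)
      exact (h1.ofReal_comp.const_mul (-I)).cexp.mul_const (v c))).2
  rw [← integral_const_mul]
  refine h.congr_deriv (integral_congr_ae (.of_forall fun c => ?_))
  simp only [zero_mul, ofReal_zero, mul_zero, exp_zero]
  ring

theorem sb_coord {K : ℕ} (l : Fin K) : Integrable (fun c : Lab K => c.2 l) (muK K) := by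
  have h : MeasurePreserving (fun c : Lab K => c.2 l) (muK K) (gaussianReal 0 1) :=
    (measurePreserving_eval (fun _ : Fin K => gaussianReal 0 1) l).comp measurePreserving_snd
  exact h.integrable_comp_of_integrable (g := id)
    (memLp_one_iff_integrable.1 (memLp_id_gaussianReal 1))

namespace FS

section

variable {Λ : Type} [MeasurableSpace Λ] {μ : Measure Λ} {M : FS Λ μ}
  {w : M.H → M.H →L[ℂ] M.H} {Y : Submodule ℝ M.H} {ρ : Λ → ℝ} {χ : ℝ → ℂ} {x y : M.H}

theorem sb_inner {v : ℝ → M.H} {S : M.H} (h : HasDerivAt v (-I • S) 0) (ψ : M.H) {z : ℂ}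
    (h' : HasDerivAt (fun t => ⟪ψ, v t⟫_ℂ) (-I * z) 0) : ⟪ψ, S⟫_ℂ = z := by
  have h1 := ((hasDerivAt_const (0 : ℝ) ψ).inner ℂ h).unique h'
  rw [inner_zero_left, add_zero, inner_smul_right] at h1
  exact mul_left_cancel₀ (neg_ne_zero.2 I_ne_zero) h1

theorem sb_OO (hw : M.IsW w Y) (hv : M.VacR w Y ρ χ) (β s : ℕ → ℝ) {f : ℕ → M.H} (d : ℕ)
    (hf : ∀ j < d, f j ∈ Y) (hx : x ∈ Y) {S : M.H}
    (hS : HasDerivAt (fun t : ℝ => w (t • x) M.Ω) (-I • S) 0) :
    ⟪M.xi (M.OO w ρ β s f d), S⟫_ℂ = ∑ j ∈ Finset.range d,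
      (2 * (⟪M.xi (M.OO w ρ β s f d), M.xi (M.OO w ρ β s f j)⟫_ℂ).im : ℝ) * ⟪f j, x⟫_ℂ := by
  refine sb_inner hS _ ?_
  have h := sb_PS β (fun i j => ⟪f i, f j⟫_ℂ) d fun a => (sb_gauss (‖x‖ ^ 2)
    (∑ j ∈ Finset.range d, (sg (a j).1 - sg (a j).2 : ℝ) * ⟪f j, x⟫_ℂ)).const_mul
      (χ (LS s d a) * sg (a d).2)
  rw [sb_split] at h
  refine (h.congr_of_eventuallyEq (.of_forall fun t => ?_)).congr_deriv ?_
  · refine (g0b hw hv β s d hf (Y.smul_mem t hx)).trans ?_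
    simp only [norm_smul, mul_pow, Real.norm_eq_abs, sq_abs, G0.ir, Finset.mul_sum, mul_left_comm]
  · rw [neg_mul, Finset.mul_sum, neg_inj]
    refine Finset.sum_congr rfl fun j hj => ?_
    have hj' := (Finset.mem_range.1 hj).le
    rw [← g0a hw hv β s d hf le_rfl hj', ← g0a hw hv β s d hf hj' le_rfl, ← inner_conj_symm
      (M.xi (M.OO w ρ β s f j)), sub_conj]
    ring

theorem sb_proc (hw : M.IsW w Y) (hY : M.XX ≤ Y) (hv : M.VacR w Y ρ χ) (β γ s : ℕ → ℝ) (p : ℕ)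
    {S : M.H}
    (hS : HasDerivAt (fun t : ℝ => w (t • M.xi (M.proc w ρ β γ s p)) M.Ω) (-I • S) 0) :
    (⟪M.xi (M.proc w ρ β γ s p), S⟫_ℂ).re = vR β γ s p := by
  have hm : ∀ j, M.xi (M.proc w ρ β γ s j) ∈ Y := fun j =>
    hY (hw.proc_dec hY hv.1 β γ s j).xi_mem
  have h := sb_OO hw hv β s (f := fun j => γ j • M.xi (M.proc w ρ β γ s j)) p
    (fun j _ => Y.smul_mem _ (hm j)) (hm p) hS
  simp only [← proc_eq_OO] at h
  rw [h, re_sum, vR]
  refine Finset.sum_congr rfl fun j hj => ?_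
  rw [G0.il, ← inner_conj_symm (M.xi (M.proc w ρ β γ s j)),
    g1 hw hY hv β γ s p le_rfl (Finset.mem_range.1 hj).le, re_ofReal_mul, re_ofReal_mul, conj_re,
    sq, mul_im]
  ring

end

variable {K : ℕ} {M : FS (Lab K) (muK K)} {D : Fin K → Lab K → ℝ} {x : M.H}

theorem sb_loc {u : Lab K → M2} (hu : BM u) {S : M.H}
    (hS : HasDerivAt (fun t : ℝ => M.WZ D (t • x) M.Ω) (-I • S) 0) :
    ⟪M.loc u M.Ω, S⟫_ℂ = ∑ l, (⟪M.sc (D l) M.Ω, x⟫_ℂ).re *
      ∫ c, (starRingEnd ℂ) (Q.vac (u c)) * (c.2 l : ℝ) ∂muK K := by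
  refine sb_inner hS _ ?_
  obtain ⟨C, hC⟩ := hu.2
  have hm : Measurable fun c => (starRingEnd ℂ) (Q.vac (u c)) :=
    continuous_conj.measurable.comp
      (((((hu.1 0 0).add (hu.1 0 1)).add (hu.1 1 0)).add (hu.1 1 1)).div_const 2)
  have hb : ∀ c, ‖(starRingEnd ℂ) (Q.vac (u c))‖ ≤ 2 * C := fun c => by
    rw [RCLike.norm_conj, Q.vac, norm_div, Complex.norm_two, div_le_iff₀ two_pos]
    have h1 := norm_add_le (u c 0 0 + u c 0 1 + u c 1 0) (u c 1 1)
    have h2 := norm_add₃_le (a := u c 0 0) (b := u c 0 1) (c := u c 1 0)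
    linarith [hC c 0 0, hC c 0 1, hC c 1 0, hC c 1 1]
  have hi : Integrable (M.zal D x) (muK K) :=
    integrable_finsetSum _ fun l _ => (sb_coord l).const_mul _
  have h := (sb_int (zal_meas x) hi hm hb).mul (sb_gauss (‖M.zpr D x‖ ^ 2) 0)
  refine (h.congr_of_eventuallyEq (.of_forall fun t => ?_)).congr_deriv ?_
  · have h1 : M.zal D (t • x) = fun c => t * M.zal D x c := by
      funext c
      simp only [zal, G0.ir, re_ofReal_mul, Finset.mul_sum, mul_assoc]
    have h2 : M.zpr D (t • x) = t • M.zpr D x := by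
      simp only [zpr, G0.ir, smul_sub, Finset.smul_sum, mul_smul, Complex.coe_smul]
    have h3 : Measurable fun c => t * M.zal D x c := (zal_meas x).const_mul t
    have h4 := M.W_vac (t • M.zpr D x) (hu.star.mul (BM.ph h3))
    rw [M.loc_mul hu.star (BM.ph h3), ← M.loc_star hu] at h4
    refine Eq.trans ?_ (h4.trans ?_)
    · rw [WZ_def, h1, h2, ← M.inner_star']
      rfl
    · simp only [Pi.mul_apply, mul_zero, sub_zero, norm_smul, mul_pow, Real.norm_eq_abs, sq_abs,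
        mul_smul_comm, mul_one, vac_smul, sb_vac]
  · simp only [neg_zero, mul_zero, add_zero, zal]
    rw [show exp (-((0 : ℝ) ^ 2 * ‖M.zpr D x‖ ^ 2 / 2 : ℝ) - 0) = 1 by simp, mul_one]
    congr 1
    simp only [← integral_const_mul]
    refine Eq.trans (integral_congr_ae (.of_forall fun c => ?_)) (integral_finsetSum _ fun l _ =>
      ((sb_coord l).ofReal.bdd_mul hm.aestronglyMeasurable (.of_forall hb)).const_mul _)
    simp only [ofReal_sum, ofReal_mul, Finset.mul_sum, mul_left_comm]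

end FS

end Vale.Agent.P367.Q
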