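import Vale.Agent.P367.QG1
import Vale.Agent.P367.QZ1
import Vale.Agent.P367.QSb

/-! The one particle vectors and the energy. -/

namespace Vale.Agent.P367.Q

open Complex MeasureTheory ProbabilityTheory Filter Topology Matrix
open scoped InnerProductSpace

namespace FS

section

variable {Λ : Type} [MeasurableSpace Λ] {μ : Measure Λ} {M : FS Λ μ}
  {w : M.H → M.H →L[ℂ] M.H} {Y : Submodule ℝ M.H} {ρ : Λ → ℝ} {χ : ℝ → ℂ} {x y : M.H}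

theorem VacR.inner (hv : M.VacR w Y ρ χ) (hx : x ∈ Y) (m : M2) :
    ⟪M.Ω, M.sp m (w x M.Ω)⟫_ℂ = vac m * exp (-(‖x‖ ^ 2 / 2 : ℝ)) := by
  have := hv.2.2.2 x hx 0 m
  rw [hv.2.2.1, one_mul] at this
  simpa [FS.sp] using this

theorem VacR.vac (hv : M.VacR w Y ρ χ) (hw : M.IsW w Y) : M.Vac w Y (M.orb M.Ω) := by
  rintro x hx _ ⟨m, rfl⟩ _ ⟨m', rfl⟩
  have h0 := hv.inner Y.zero_mem (mᴴ * m')
  have c : w x * M.sp m' = M.sp m' * w x := hw.loc x hx (BM.const m')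
  rw [hw.zero] at h0
  simp only [← M.inner_star', sp_star]
  rw [← mul_apply_eq_comp (w x), c, mul_apply_eq_comp, sp_sp, sp_sp, hv.inner hx]
  simp at h0
  rw [h0]

theorem qsa_co (hw : M.IsW w Y) (hv : M.VacR w Y ρ χ) (hx : x ∈ Y) (hy : y ∈ Y) :
    ⟪G0.co M w x, G0.co M w y⟫_ℂ = exp ⟪x, y⟫_ℂ := by
  have := G0.co_lo hw hv hx hy 0 1
  rw [← G0.sp_eq, sp_one, hv.2.2.1, vac_one] at this
  simpa using this

variable (M w) in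
/-- the difference quotients of the coherent vectors -/
noncomputable def qsaQ (x : M.H) (t : ℝ) : M.H := t⁻¹ • (G0.co M w (t • x) - G0.co M w 0)

theorem qsa_inner (hw : M.IsW w Y) (hv : M.VacR w Y ρ χ) (hx : x ∈ Y) (hy : y ∈ Y) {s t : ℝ}
    (hs : s ≠ 0) (ht : t ≠ 0) :
    ⟪qsaQ M w x s, qsaQ M w y t⟫_ℂ = ⟪x, y⟫_ℂ * dslope exp 0 (s * t * ⟪x, y⟫_ℂ) := by
  have h := sub_smul_dslope exp 0 (s * t * ⟪x, y⟫_ℂ)
  have hs' : (s : ℂ) ≠ 0 := ofReal_ne_zero.2 hs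
  have ht' : (t : ℂ) ≠ 0 := ofReal_ne_zero.2 ht
  rw [sub_zero, exp_zero, smul_eq_mul] at h
  rw [qsaQ, qsaQ, G0.il, G0.ir, inner_sub_left, inner_sub_right, inner_sub_right,
    qsa_co hw hv (Y.smul_mem _ hx) (Y.smul_mem _ hy), qsa_co hw hv (Y.smul_mem _ hx) Y.zero_mem,
    qsa_co hw hv Y.zero_mem (Y.smul_mem _ hy), qsa_co hw hv Y.zero_mem Y.zero_mem, G0.il, G0.ir,
    inner_zero_right, inner_zero_left, inner_zero_left, exp_zero, ← mul_assoc (s : ℂ), sub_self,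
    sub_zero, ← h]
  push_cast
  field_simp

theorem qsa_lim (hw : M.IsW w Y) (hv : M.VacR w Y ρ χ) (hx : x ∈ Y) (hy : y ∈ Y) {α : Type}
    {l : Filter α} {s t : α → ℝ} (hs : Tendsto s l (𝓝[≠] 0)) (ht : Tendsto t l (𝓝[≠] 0)) :
    Tendsto (fun a => ⟪qsaQ M w x (s a), qsaQ M w y (t a)⟫_ℂ) l (𝓝 ⟪x, y⟫_ℂ) := by
  have h1 : ContinuousAt (dslope exp 0) 0 := continuousAt_dslope_same.2 differentiableAt_exp
  have h2 : Tendsto (fun a => (s a : ℂ) * t a * ⟪x, y⟫_ℂ) l (𝓝 0) := by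
    have := ((((continuous_ofReal.tendsto 0).comp (hs.mono_right nhdsWithin_le_nhds)).mul
      ((continuous_ofReal.tendsto 0).comp (ht.mono_right nhdsWithin_le_nhds))).mul_const ⟪x, y⟫_ℂ)
    simpa using this
  have h3 := (h1.tendsto.comp h2).const_mul ⟪x, y⟫_ℂ
  rw [dslope_same, Complex.deriv_exp, exp_zero, mul_one] at h3
  refine h3.congr' ?_
  filter_upwards [hs self_mem_nhdsWithin, ht self_mem_nhdsWithin] with a h h'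
  exact (qsa_inner hw hv hx hy h h').symm

theorem qsa_ex (hw : M.IsW w Y) (hv : M.VacR w Y ρ χ) (hx : x ∈ Y) :
    ∃ v, Tendsto (qsaQ M w x) (𝓝[≠] 0) (𝓝 v) := by
  refine cauchy_map_iff_exists_tendsto.1 (cauchy_map_iff'.2 ?_)
  rw [tendsto_uniformity_iff_dist_tendsto_zero]
  have r := fun {s t : ℝ × ℝ → ℝ} (hs : Tendsto s (𝓝[≠] 0 ×ˢ 𝓝[≠] 0) (𝓝[≠] 0))
    (ht : Tendsto t (𝓝[≠] 0 ×ˢ 𝓝[≠] 0) (𝓝[≠] 0)) => qsa_lim hw hv hx hx hs ht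
  have h := ((r tendsto_fst tendsto_fst).sub (r tendsto_fst tendsto_snd)).sub
    ((r tendsto_snd tendsto_fst).sub (r tendsto_snd tendsto_snd))
  rw [sub_self] at h
  have h' := ((continuous_re.tendsto 0).comp h).sqrt
  rw [zero_re, Real.sqrt_zero] at h'
  refine h'.congr fun p => ?_
  rw [dist_eq_norm, @norm_eq_sqrt_re_inner ℂ, inner_sub_left, inner_sub_right, inner_sub_right]
  rfl

theorem qsa_der {v : M.H} (h : Tendsto (qsaQ M w x) (𝓝[≠] 0) (𝓝 v)) :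
    HasDerivAt (fun t : ℝ => w (t • x) M.Ω) v 0 := by
  have h1 : HasDerivAt (fun t : ℝ => G0.co M w (t • x)) v 0 := by
    rw [hasDerivAt_iff_tendsto_slope_zero]
    simp only [zero_add, zero_smul]
    exact h
  have h2 : HasDerivAt (fun t : ℝ => Real.exp (-(t ^ 2 * ‖x‖ ^ 2 / 2))) 0 0 := by
    simpa using (((hasDerivAt_pow 2 (0 : ℝ)).mul_const (‖x‖ ^ 2)).div_const 2).neg.exp
  have h3 := h2.smul h1
  have e : (fun t : ℝ => w (t • x) M.Ω) =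
      (fun t : ℝ => Real.exp (-(t ^ 2 * ‖x‖ ^ 2 / 2))) • fun t : ℝ => G0.co M w (t • x) := by
    funext t
    rw [Pi.smul_apply', G0.co, ← Complex.coe_smul (Real.exp _), smul_smul, ofReal_exp, ← exp_add, norm_smul,
      mul_pow, Real.norm_eq_abs, sq_abs, ← ofReal_add, neg_add_cancel, ofReal_zero, exp_zero,
      one_smul]
  rw [e]
  simpa using h3

theorem qsa_SS {v : M.H} (h : Tendsto (qsaQ M w x) (𝓝[≠] 0) (𝓝 v)) : M.SS w x = I • v := by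
  rw [SS, (qsa_der h).deriv]

theorem SS_deriv (hw : M.IsW w Y) (hv : M.VacR w Y ρ χ) (hx : x ∈ Y) :
    HasDerivAt (fun t : ℝ => w (t • x) M.Ω) (-I • M.SS w x) 0 := by
  obtain ⟨v, h⟩ := qsa_ex hw hv hx
  rw [qsa_SS h, smul_smul, neg_mul, I_mul_I, neg_neg, one_smul]
  exact qsa_der h

theorem SS_inner (hw : M.IsW w Y) (hv : M.VacR w Y ρ χ) (hx : x ∈ Y) (hy : y ∈ Y) :
    ⟪M.SS w x, M.SS w y⟫_ℂ = ⟪x, y⟫_ℂ := by
  obtain ⟨v, h⟩ := qsa_ex hw hv hx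
  obtain ⟨v', h'⟩ := qsa_ex hw hv hy
  rw [qsa_SS h, qsa_SS h', inner_smul_left, inner_smul_right, conj_I, ← mul_assoc, neg_mul,
    I_mul_I, neg_neg, one_mul]
  exact tendsto_nhds_unique (h.inner h') (qsa_lim hw hv hx hy tendsto_id tendsto_id)

theorem SS_norm (hw : M.IsW w Y) (hv : M.VacR w Y ρ χ) (hx : x ∈ Y) : ‖M.SS w x‖ = ‖x‖ := by
  rw [@norm_eq_sqrt_re_inner ℂ, SS_inner hw hv hx hx, ← @norm_eq_sqrt_re_inner ℂ]

theorem SS_sub (hw : M.IsW w Y) (hv : M.VacR w Y ρ χ) (hx : x ∈ Y) (hy : y ∈ Y) :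
    ‖M.SS w x - M.SS w y‖ = ‖x - y‖ := by
  rw [@norm_eq_sqrt_re_inner ℂ, @norm_eq_sqrt_re_inner ℂ _ _ _ _ (x - y)]
  simp only [inner_sub_left, inner_sub_right, SS_inner hw hv, hx, hy]

theorem SS_energy_sub (hw : M.IsW w Y) (hv : M.VacR w Y ρ χ) (hx : x ∈ Y) (hy : y ∈ Y) :
    |(⟪x, M.SS w x⟫_ℂ).re - (⟪y, M.SS w y⟫_ℂ).re| ≤ ‖x - y‖ * (‖x‖ + ‖y‖) := by
  have e : ⟪x, M.SS w x⟫_ℂ - ⟪y, M.SS w y⟫_ℂ =
      ⟪x - y, M.SS w x⟫_ℂ + ⟪y, M.SS w x - M.SS w y⟫_ℂ := by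
    rw [inner_sub_left, inner_sub_right]; ring
  have h1 := norm_inner_le_norm (𝕜 := ℂ) (x - y) (M.SS w x)
  have h2 := norm_inner_le_norm (𝕜 := ℂ) y (M.SS w x - M.SS w y)
  rw [SS_norm hw hv hx] at h1
  rw [SS_sub hw hv hx hy] at h2
  rw [← sub_re, e]
  refine (abs_re_le_norm _).trans ((norm_add_le _ _).trans ?_)
  linarith

/-- response formula -/
theorem SS_OO (hw : M.IsW w Y) (hv : M.VacR w Y ρ χ) (β s : ℕ → ℝ) {f : ℕ → M.H} (d : ℕ)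
    (hf : ∀ j < d, f j ∈ Y) (hx : x ∈ Y) :
    ⟪M.xi (M.OO w ρ β s f d), M.SS w x⟫_ℂ = ∑ j ∈ Finset.range d,
      (2 * (⟪M.xi (M.OO w ρ β s f d), M.xi (M.OO w ρ β s f j)⟫_ℂ).im : ℝ) * ⟪f j, x⟫_ℂ :=
  sb_OO hw hv β s d hf hx (SS_deriv hw hv hx)

theorem SS_proc (hw : M.IsW w Y) (hY : M.XX ≤ Y) (hv : M.VacR w Y ρ χ) (β γ s : ℕ → ℝ) (p : ℕ) :
    (⟪M.xi (M.proc w ρ β γ s p), M.SS w (M.xi (M.proc w ρ β γ s p))⟫_ℂ).re = vR β γ s p :=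
  sb_proc hw hY hv β γ s p (SS_deriv hw hv (hY (hw.proc_dec hY hv.1 β γ s p).xi_mem))

end

variable {K : ℕ} {M : FS (Lab K) (muK K)} {T : Set ℝ} {D : Fin K → Lab K → ℝ} {x : M.H}

theorem SS_loc (hD : Fam T D) (hx : x ∈ M.XX) {u : Lab K → M2} (hu : BM u) :
    ⟪M.loc u M.Ω, M.SS (M.WZ D) x⟫_ℂ = ∑ l, (⟪M.sc (D l) M.Ω, x⟫_ℂ).re *
      ∫ c, (starRingEnd ℂ) (Q.vac (u c)) * (c.2 l : ℝ) ∂muK K :=
  sb_loc hu (SS_deriv (isW_WZ hD) (vacR_WZ hD) hx)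

end FS

end Vale.Agent.P367.Q
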