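import Vale.Agent.P367.QLev
import Vale.Agent.P367.QS
import Vale.Agent.P367.QFTop

/-! The optimal rotation at the top level and the chain of approximations. -/

namespace Vale.Agent.P367.Q

open Complex MeasureTheory ProbabilityTheory Filter Topology Matrix
open scoped InnerProductSpace

/-- the classical family, cut to the class `T` -/
noncomputable def cutF {K : ℕ} (T : Set ℝ) (D : Fin K → (Fin K → ℝ) → ℝ) (l : Fin K)
    (c : Lab K) : ℝ := ind T c * D l c.2 / √(nu0.real T)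

theorem fam_cutF {K : ℕ} {T : Set ℝ} (hT : MeasurableSet T) (h0 : 0 < nu0.real T)
    {D : Fin K → (Fin K → ℝ) → ℝ} (h1 : ∀ l, Measurable (D l) ∧ ∃ C, ∀ z, |D l z| ≤ C)
    (h2 : ∀ l z z', (∀ i : Fin K, i.val < l.val → z i = z' i) → D l z = D l z')
    (h3 : ∀ l l', ∫ z, D l z * D l' z ∂(Measure.pi fun _ => gaussianReal 0 1) =
      if l = l' then 1 else 0) : Fam T (cutF T D) := fam_cut hT h0 h1 h2 h3

namespace FS

variable {K : ℕ} {M : FS (Lab K) (muK K)} {T : Set ℝ}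

/-- the energy of the optimal rotation -/
theorem top (hT : MeasurableSet T) (h0 : 0 < nu0.real T) {D : Fin K → (Fin K → ℝ) → ℝ}
    (h1 : ∀ l, Measurable (D l) ∧ ∃ C, ∀ z, |D l z| ≤ C)
    (hD : Fam T (cutF T D)) {m : (Fin K → ℝ) → ℝ} (hm : Measurable m) (hm1 : ∀ z, |m z| ≤ 1) :
    ∃ U, M.Steps (cutF T D) (Gate.OK K T) 1 U ∧
      (⟪M.sc (ind T) (M.xi U), M.SS (M.WZ (cutF T D)) (M.sc (ind T) (M.xi U))⟫_ℂ).re =
        nu0.real T * √(nu0.real T) * ∑ l,
          (∫ z, D l z * m z ∂(Measure.pi fun _ => gaussianReal 0 1)) *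
            ∫ z, m z * z l ∂(Measure.pi fun _ => gaussianReal 0 1) :=
  top_aux hT h0 (fun _ _ => rfl) hD hm hm1

/-- the chain of levels -/
theorem chain {D : Fin K → Lab K → ℝ} {η : ℝ} (hη : 0 < η) (hD : Fam (Set.Ici η) D)
    (lk : ∀ {A U}, MeasurableSet A → ∀ k : Fin K, M.Steps D (Gate.OK (k.val + 1) A) 1 U →
      M.SC D (Gate.Prim k A) U)
    (b0 : ∀ {A U}, MeasurableSet A → M.Steps D (Gate.OK 0 A) 1 U → M.SC D Gate.Base U) :
    M.Near D (Gate.OK K (Set.Ici η)) Gate.Base (Set.Ici η) := by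
  have hK : (0 : ℝ) < K + 1 := by positivity
  have key : ∀ k : ℕ, k ≤ K → M.Near D (Gate.OK k (Set.Ici (η * ((k + 1) / (K + 1))))) Gate.Base
      (Set.Ici η) := by
    intro k
    induction k with
    | zero =>
      exact fun _ => SC.near hD (fun _ h => h.meas) measurableSet_Ici
        fun _ h => b0 measurableSet_Ici h
    | succ k ih =>
      intro hk
      have h0 : 0 ≤ η * (((k : ℝ) + 1) / (K + 1)) := by positivity
      have h1 : η * (((k : ℝ) + 1) / (K + 1)) < η * ((((k + 1 : ℕ) : ℝ) + 1) / (K + 1)) := by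
        push_cast
        gcongr
        exact lt_add_one _
      have h2 : Set.Ici η ⊆ Set.Ici (η * ((((k + 1 : ℕ) : ℝ) + 1) / (K + 1))) := by
        refine Set.Ici_subset_Ici.2 (mul_le_of_le_one_right hη.le ((div_le_one hK).2 ?_))
        exact_mod_cast Nat.succ_le_succ hk
      have h3 := level (M := M) hD ⟨k, hk⟩ measurableSet_Ici measurableSet_Ico h2
        (Set.disjoint_left.2 fun x hx hx' => absurd hx'.2 (not_lt.2 hx)) (nu0_Ico h0 h1)
      rw [Set.union_comm, Set.Ico_union_Ici_eq_Ici h1.le] at h3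
      exact (SC.near hD (fun _ h => h.meas measurableSet_Ici) measurableSet_Ici
        fun _ h => lk measurableSet_Ici ⟨k, hk⟩ h).trans
        ((h3.mono measurableSet_Ici measurableSet_Ici h2).trans (ih (Nat.le_of_succ_le hk)))
  have := key K le_rfl
  rwa [div_self hK.ne', mul_one] at this

/-- comparison of the energies -/
theorem near_energy {D : Fin K → Lab K → ℝ} (hD : Fam T D) {U U' : M.H →L[ℂ] M.H} (hU : M.Dec U)
    (hU' : M.Dec U') {ε : ℝ} (h : ‖M.sc (ind T) (M.xi U' - M.xi U)‖ ≤ ε) :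
    |(⟪M.xi U', M.SS (M.WZ D) (M.xi U')⟫_ℂ).re -
      (⟪M.sc (ind T) (M.xi U), M.SS (M.WZ D) (M.sc (ind T) (M.xi U))⟫_ℂ).re| ≤
        2 * (ε + √(1 - nu0.real T)) := by
  have hT := hD.mT
  refine (SS_energy_sub (isW_WZ hD) (vacR_WZ hD) hU'.xi_mem
    (XX.sc M hU.xi_mem (BR.ind hT))).trans ?_
  have e : M.sc (ind T) (M.xi U') + M.sc (ind Tᶜ) (M.xi U') = M.xi U' := by
    rw [← ContinuousLinearMap.add_apply, ← sc_ind_union hT hT.compl disjoint_compl_right,
      Set.union_compl_self, sc_ind_univ, ContinuousLinearMap.one_apply]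
  have h1 : ‖M.sc (ind Tᶜ) (M.xi U')‖ = √(1 - nu0.real T) := by
    rw [hU'.norm_sc_xi (BR.ind hT.compl), ← probReal_compl_eq_one_sub hT,
      ← norm_ind_sq (M := M) hT.compl, Real.sqrt_sq (norm_nonneg _)]
  have h2 : ‖M.xi U' - M.sc (ind T) (M.xi U)‖ ≤ ε + √(1 - nu0.real T) := by
    have e' : M.xi U' - M.sc (ind T) (M.xi U) =
        M.sc (ind T) (M.xi U' - M.xi U) + M.sc (ind Tᶜ) (M.xi U') := by
      rw [map_sub, sub_add_eq_add_sub, e]
    rw [e', ← h1]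
    exact (norm_add_le _ _).trans (add_le_add h le_rfl)
  have h3 := norm_ind_le hT (M.xi U)
  rw [hU.norm_xi] at h3
  rw [hU'.norm_xi, mul_comm]
  exact mul_le_mul (by linarith) h2 (norm_nonneg _) zero_le_two

end FS

/-- the three statements of block (L) -/
def LStm : Prop := ∀ (K : ℕ) (M : FS (Lab K) (muK K)) (T : Set ℝ) (D : Fin K → Lab K → ℝ),
  Fam T D → (∀ {A U}, MeasurableSet A → ∀ k : Fin K, M.Steps D (Gate.OK (k.val + 1) A) 1 U →
      M.SC D (Gate.Prim k A) U) ∧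
    (∀ {A U}, MeasurableSet A → M.Steps D (Gate.OK 0 A) 1 U → M.SC D Gate.Base U) ∧
    ∀ {U}, M.Steps D Gate.Base 1 U → ∃ p β γ s, U = M.proc (M.WZ D) (fun c => c.1) β γ s p

theorem quant (hM : ∀ K, Nonempty (FS (Lab K) (muK K))) (hL : LStm) {K : ℕ}
    {m : (Fin K → ℝ) → ℝ} {D : Fin K → (Fin K → ℝ) → ℝ} (hm : Measurable m) (hm1 : ∀ z, |m z| ≤ 1)
    (h1 : ∀ l, Measurable (D l) ∧ ∃ C, ∀ z, |D l z| ≤ C)
    (h2 : ∀ l z z', (∀ i : Fin K, i.val < l.val → z i = z' i) → D l z = D l z')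
    (h3 : ∀ l l', ∫ z, D l z * D l' z ∂(Measure.pi fun _ => gaussianReal 0 1) =
      if l = l' then 1 else 0) {ε : ℝ} (hε : 0 < ε) :
    ∃ β γ s p, (∑ l, (∫ z, D l z * m z ∂(Measure.pi fun _ => gaussianReal 0 1)) *
      ∫ z, m z * z l ∂(Measure.pi fun _ => gaussianReal 0 1)) - ε ≤ vR β γ s p := by
  obtain ⟨M⟩ := hM K
  generalize hV : (∑ l, (∫ z, D l z * m z ∂(Measure.pi fun _ => gaussianReal 0 1)) *
    ∫ z, m z * z l ∂(Measure.pi fun _ => gaussianReal 0 1)) = V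
  have hc : Continuous fun τ : ℝ => τ * √τ * V - 2 * √(1 - τ) := by fun_prop
  obtain ⟨δ, hδ, h⟩ := Metric.eventually_nhds_iff.1
    (((hc.tendsto' 1 V (by simp)).eventually (lt_mem_nhds (sub_lt_self V (half_pos hε)))).and
      (lt_mem_nhds one_pos))
  obtain ⟨η, hη, h4⟩ := nu0_Ici (half_pos hδ)
  have h5 : nu0.real (Set.Ici η) ≤ 1 := measureReal_le_one
  obtain ⟨h6, h0⟩ := h (y := nu0.real (Set.Ici η))
    (by rw [Real.dist_eq, abs_lt]; constructor <;> linarith)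
  have hD := fam_cutF measurableSet_Ici h0 h1 h2 h3
  obtain ⟨U, hU, e⟩ := FS.top (M := M) measurableSet_Ici h0 h1 hD hm hm1
  obtain ⟨lk, b0, pr⟩ := hL K M _ _ hD
  obtain ⟨U', hU', k⟩ := FS.chain hη hD lk b0 U hU (ε / 4) (by positivity)
  have k1 := FS.near_energy hD (hU.dec hD (fun _ hg => hg.meas) FS.Dec.one)
    (hU'.dec hD (fun _ hg => hg.meas) FS.Dec.one) k.le
  obtain ⟨p, β, γ, s, rfl⟩ := pr hU'
  rw [FS.SS_proc (FS.isW_WZ hD) le_rfl (FS.vacR_WZ hD), e, hV] at k1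
  exact ⟨β, γ, s, p, by linarith [(abs_le.1 k1).1]⟩

end Vale.Agent.P367.Q
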