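import Vale.Agent.P367.QW1

/-! Path expansion of the correlations. -/

namespace Vale.Agent.P367.Q

open Complex MeasureTheory ProbabilityTheory Filter Topology Matrix
open scoped InnerProductSpace

/-- the total coupling of a pair of paths to the random field -/
def LS (s : ℕ → ℝ) (d : ℕ) (a : ℕ → Bool × Bool) : ℝ :=
  ∑ j ∈ Finset.range d, (sg (a j).1 - sg (a j).2) * s j

namespace G0

open Finset

/-- a path, extended beyond its length -/
def ex {d : ℕ} (a : Fin d → Bool) (n : ℕ) : Bool := if h : n < d then a ⟨n, h⟩ else true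

theorem sum_ex {E : Type} [AddCommMonoid E] {d : ℕ} (F : (ℕ → Bool) → E) :
    ∑ a : Fin (d + 1) → Bool, F (ex a) =
      ∑ σ, ∑ a : Fin d → Bool, F (Function.update (ex a) d σ) := by
  rw [← (Fin.snocEquiv fun _ => Bool).sum_comp, Fintype.sum_prod_type]
  refine sum_congr rfl fun σ _ => sum_congr rfl fun a _ => congrArg F (funext fun n => ?_)
  rcases lt_trichotomy n d with h | rfl | h
  · rw [Function.update_of_ne h.ne, ex, ex, dif_pos h, dif_pos (h.trans d.lt_succ_self)]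
    exact Fin.snoc_castSucc (α := fun _ => Bool) σ a ⟨n, h⟩
  · rw [Function.update_self, ex, dif_pos n.lt_succ_self]
    exact Fin.snoc_last (α := fun _ => Bool) σ a
  · rw [Function.update_of_ne h.ne', ex, ex, dif_neg h.not_gt, dif_neg (by omega)]

theorem sum_ext {d : ℕ} (F : (ℕ → Bool × Bool) → ℂ) :
    ∑ a : Fin (d + 1) → Bool × Bool, F (ext a) =
      ∑ a : Fin (d + 1) → Bool, ∑ b : Fin (d + 1) → Bool, F fun n => (ex a n, ex b n) := by
  rw [← (Equiv.arrowProdEquivProdArrow _ (fun _ => Bool) fun _ => Bool).symm.sum_comp,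
    Fintype.sum_prod_type]
  refine sum_congr rfl fun a _ => sum_congr rfl fun b _ => congrArg F (funext fun n => ?_)
  unfold ext ex
  split_ifs <;> rfl

/-- matrix units -/
def Em (σ κ : Bool) : M2 := if σ = κ then pr σ else pr σ * pau 0

theorem pr_Em (σ τ κ : Bool) : pr σ * Em τ κ = if σ = τ then Em τ κ else 0 := by
  cases σ <;> cases τ <;> cases κ <;> simp [Em, ← mul_assoc, pr_mul]

theorem rot_Em (β : ℝ) (σ τ κ : Bool) : pr σ * (rot 0 β * Em τ κ) = rx β σ τ • Em σ κ := by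
  cases σ <;> cases τ <;> cases κ <;> ext i j <;> fin_cases i <;> fin_cases j <;>
    simp [Em, pr, pau, rot, rx, Matrix.mul_apply]

theorem vac_Em (σ κ τ κ' : Bool) : vac ((Em σ κ)ᴴ * Em τ κ') = if τ = σ then 1 / 2 else 0 := by
  cases σ <;> cases τ <;> cases κ <;> cases κ' <;> simp [Em, pr, pau, vac, Matrix.mul_apply]

theorem tri (d : ℕ) (G : ℕ → ℕ → ℂ) :
    ∑ i ∈ range d, ∑ j ∈ range d, (if j < i then G i j else 0) =
      ∑ i ∈ range d, ∑ j ∈ range i, G i j := by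
  refine sum_congr rfl fun i hi => ?_
  rw [← sum_filter]
  refine sum_congr (Finset.ext fun j => ?_) fun _ _ => rfl
  simp only [mem_filter, mem_range] at hi ⊢
  omega

theorem EE_eq (Γ : ℕ → ℕ → ℂ) (d : ℕ) (a b : ℕ → Bool) : EE Γ d (fun n => (a n, b n)) =
    ∑ i ∈ range d, ∑ j ∈ range d, sg (b i) * sg (a j) * Γ i j -
      ∑ i ∈ range d, ∑ j ∈ range i, sg (a j) * sg (a i) * Γ i j -
      ∑ i ∈ range d, ∑ j ∈ range i, sg (b j) * sg (b i) * Γ j i - ∑ i ∈ range d, Γ i i := by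
  have e : ∑ i ∈ range d, Γ i i = ∑ i ∈ range d, ∑ j ∈ range d, if i = j then Γ i j else 0 :=
    sum_congr rfl fun i hi => by rw [sum_ite_eq, if_pos hi]
  rw [e, ← tri, ← tri, sum_comm (f := fun i j => if j < i then sg (b j) * sg (b i) * Γ j i else 0)]
  simp only [EE, ← sum_sub_distrib]
  refine sum_congr rfl fun i _ => sum_congr rfl fun j _ => ?_
  split_ifs <;> push_cast <;> ring

section H

variable {H : Type} [NormedAddCommGroup H] [InnerProductSpace ℂ H]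

theorem il (r : ℝ) (x y : H) : ⟪r • x, y⟫_ℂ = r * ⟪x, y⟫_ℂ := by
  rw [← Complex.coe_smul, inner_smul_left, conj_ofReal]

theorem ir (r : ℝ) (x y : H) : ⟪x, r • y⟫_ℂ = r * ⟪x, y⟫_ℂ := by
  rw [← Complex.coe_smul, inner_smul_right]

/-- the total displacement -/
noncomputable def XS (f : ℕ → H) (a : ℕ → Bool) (d : ℕ) : H := ∑ j ∈ range d, sg (a j) • f j

/-- the exponent of one path -/
noncomputable def ep (f : ℕ → H) (y : H) (a : ℕ → Bool) (d : ℕ) : ℂ :=
  ∑ i ∈ range d, (-⟪sg (a i) • f i, XS f a i + y⟫_ℂ - ⟪sg (a i) • f i, sg (a i) • f i⟫_ℂ / 2)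

theorem ep_eq (f : ℕ → H) (y : H) (a b : ℕ → Bool) (d : ℕ) :
    (starRingEnd ℂ) (ep f 0 b d) + ep f y a d + ⟪XS f b d + 0, XS f a d + y⟫_ℂ =
      EE (fun i j => ⟪f i, f j⟫_ℂ) d (fun n => (a n, b n)) -
        ∑ j ∈ range d, (sg (a j) - sg (b j) : ℝ) * ⟪f j, y⟫_ℂ := by
  have q : ∀ σ (z : ℂ), sg σ * (sg σ * z) = z := fun σ z => by
    rw [← mul_assoc, ← ofReal_mul, sg_sq, ofReal_one, one_mul]
  rw [EE_eq]
  simp only [ep, XS, add_zero, inner_add_right, inner_sum, sum_inner, il, ir, q, map_sum, map_sub,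
    map_neg, map_mul, map_div₀, conj_ofReal, inner_conj_symm, map_ofNat, sum_sub_distrib,
    sum_neg_distrib, neg_add, sum_add_distrib, ofReal_sub, sub_mul, ← sum_div, mul_assoc]
  rw [sum_comm (f := fun j i => sg (a j) * (sg (b i) * ⟪f i, f j⟫_ℂ))]
  simp only [mul_left_comm (sg (a _) : ℂ) (sg (b _))]
  ring

end H

variable {Λ : Type} [MeasurableSpace Λ] {μ : Measure Λ} (M : FS Λ μ)
  (w : M.H → M.H →L[ℂ] M.H) {Y : Submodule ℝ M.H} (ρ : Λ → ℝ) {χ : ℝ → ℂ}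

/-- a phase times a matrix -/
noncomputable def lo (L : ℝ) (m : M2) : M.H →L[ℂ] M.H :=
  M.loc fun c => exp (-I * (L * ρ c : ℝ)) • m

/-- coherent vectors -/
noncomputable def co (x : M.H) : M.H := exp (‖x‖ ^ 2 / 2 : ℝ) • w x M.Ω

/-- the contribution of one path -/
noncomputable def VV (β s : ℕ → ℝ) (f : ℕ → M.H) (φ : M.H) (a : ℕ → Bool) : ℕ → M.H
  | 0 => M.sp (pr (a 0)) φ
  | j + 1 => M.sp (pr (a (j + 1))) (M.lay w ρ (β j) (s j) (f j) (VV β s f φ a j))

variable {M w ρ}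

theorem bm (hρ : Measurable ρ) (L : ℝ) (m : M2) : BM fun c => exp (-I * (L * ρ c : ℝ)) • m :=
  BM.phs (hρ.const_mul L) (BM.const m)

theorem lo_mul (hρ : Measurable ρ) (L L' : ℝ) (m m' : M2) :
    lo M ρ L m * lo M ρ L' m' = lo M ρ (L + L') (m * m') := by
  rw [lo, lo, lo, ← M.loc_mul (bm hρ L m) (bm hρ L' m')]
  simp only [smul_mul_smul_comm, ← exp_add, add_mul, ofReal_add, mul_add]

theorem sp_eq (m : M2) : M.sp m = lo M ρ 0 m := by simp [lo, FS.sp]

theorem lo_smul (hρ : Measurable ρ) (L : ℝ) (a : ℂ) (m : M2) :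
    lo M ρ L (a • m) = a • lo M ρ L m := by
  rw [lo, lo, ← M.loc_smul a (bm hρ L m)]
  simp only [smul_comm a]

theorem lo_zero (L : ℝ) : lo M ρ L 0 = 0 := by simpa [lo] using M.loc_zero

theorem lo_star (hρ : Measurable ρ) (L : ℝ) (m : M2) : star (lo M ρ L m) = lo M ρ (-L) mᴴ := by
  rw [lo, lo, M.loc_star (bm hρ L m)]
  simp [← exp_conj]

theorem lr_eq (hρ : Measurable ρ) (s : ℝ) :
    M.lr 2 (fun c => s * ρ c) = lo M ρ s (pr true) + lo M ρ (-s) (pr false) := by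
  rw [lo, lo, ← M.loc_add (bm hρ _ _) (bm hρ _ _), FS.lr]
  simp [rot_Z]

theorem step (hw : M.IsW w Y) (hρ : Measurable ρ) {x : M.H} (hx : x ∈ Y) (β s L : ℝ)
    (σ τ κ : Bool) : M.sp (pr σ) * (M.lay w ρ β s x * lo M ρ L (Em τ κ)) =
      rx β σ τ • (lo M ρ (L + sg τ * s) (Em σ κ) * w (sg τ • x)) := by
  have e1 : M.EZc w x * lo M ρ L (Em τ κ) = lo M ρ L (Em τ κ) * w (sg τ • x) := by
    have c : ∀ z ∈ Y, w z * lo M ρ L (Em τ κ) = lo M ρ L (Em τ κ) * w z := fun z hz =>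
      hw.loc z hz (bm hρ _ _)
    rw [FS.EZc, add_mul, mul_assoc, mul_assoc, c x hx, c _ (neg_mem hx), ← mul_assoc, ← mul_assoc,
      sp_eq (ρ := ρ), sp_eq (ρ := ρ), lo_mul hρ, lo_mul hρ, pr_Em, pr_Em]
    cases τ <;> simp [lo_zero, sg]
  have e2 : M.lr 2 (fun c => s * ρ c) * lo M ρ L (Em τ κ) = lo M ρ (L + sg τ * s) (Em τ κ) := by
    rw [lr_eq hρ, add_mul, lo_mul hρ, lo_mul hρ, pr_Em, pr_Em, add_comm L]
    cases τ <;> simp [lo_zero, sg]
  rw [FS.lay, mul_assoc, e1, mul_assoc, ← mul_assoc (M.lr _ _), e2, ← mul_assoc (M.sp (rot 0 β)),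
    ← mul_assoc, sp_eq (ρ := ρ), sp_eq (ρ := ρ), lo_mul hρ, lo_mul hρ, rot_Em, lo_smul hρ,
    zero_add, zero_add, smul_mul_assoc]

theorem w_co (hw : M.IsW w Y) {x y : M.H} (hx : x ∈ Y) (hy : y ∈ Y) :
    w x (co M w y) = exp (-⟪x, y⟫_ℂ - ⟪x, x⟫_ℂ / 2) • co M w (x + y) := by
  rw [co, co, map_smul, ← mul_apply_eq_comp, hw.mul x hx y hy,
    _root_.smul_apply, smul_smul, smul_smul, ← exp_add, ← exp_add,
    @norm_add_sq ℂ, inner_self_eq_norm_sq_to_K]
  congr 2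
  have := re_add_im ⟪x, y⟫_ℂ
  simp only [RCLike.re_to_complex, coe_algebraMap]
  push_cast
  linear_combination -this

theorem co_lo (hw : M.IsW w Y) (hv : M.VacR w Y ρ χ) {x y : M.H} (hx : x ∈ Y) (hy : y ∈ Y)
    (L : ℝ) (m : M2) :
    ⟪co M w x, lo M ρ L m (co M w y)⟫_ℂ = χ L * vac m * exp ⟪x, y⟫_ℂ := by
  have c : w (-x) * lo M ρ L m = lo M ρ L m * w (-x) := hw.loc _ (neg_mem hx) (bm hv.1 _ _)
  rw [co, inner_smul_left, ← M.inner_star', hw.star x hx, ← mul_apply_eq_comp, c,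
    mul_apply_eq_comp, w_co hw (neg_mem hx) hy, co, map_smul, map_smul,
    inner_smul_right, inner_smul_right, lo, hv.2.2.2 _ (add_mem (neg_mem hx) hy), ← exp_conj,
    conj_ofReal, inner_neg_neg, inner_neg_left, neg_neg, inner_self_eq_norm_sq_to_K, exp_neg,
    exp_sub]
  simp only [coe_algebraMap]
  push_cast
  field_simp

theorem XS_mem {f : ℕ → M.H} {d : ℕ} (hf : ∀ j < d, f j ∈ Y) (a : ℕ → Bool) : XS f a d ∈ Y :=
  sum_mem fun j hj => Y.smul_mem _ (hf j (mem_range.1 hj))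

theorem VV_eq (hw : M.IsW w Y) (hρ : Measurable ρ) (β s : ℕ → ℝ) {f : ℕ → M.H} {y : M.H}
    (hy : y ∈ Y) (a : ℕ → Bool) (d : ℕ) (hf : ∀ j < d, f j ∈ Y) :
    VV M w ρ β s f (co M w y) a d =
      ((∏ j ∈ range d, rx (β j) (a (j + 1)) (a j)) * exp (ep f y a d)) •
        lo M ρ (∑ j ∈ range d, sg (a j) * s j) (Em (a d) (a 0)) (co M w (XS f a d + y)) := by
  induction d with
  | zero => simp [VV, ep, XS, Em, sp_eq (ρ := ρ)]
  | succ d ih =>
    have hf' : ∀ j < d, f j ∈ Y := fun j hj => hf j (by omega)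
    have hd := hf d d.lt_succ_self
    have e : XS f a (d + 1) + y = sg (a d) • f d + (XS f a d + y) := by
      rw [XS, sum_range_succ, XS]
      abel
    rw [VV, ih hf', map_smul, map_smul, ← mul_apply_eq_comp (M.lay _ _ _ _ _),
      ← mul_apply_eq_comp, step hw hρ hd, _root_.smul_apply,
      mul_apply_eq_comp, w_co hw (Y.smul_mem _ hd) (add_mem (XS_mem hf' a) hy),
      map_smul, smul_smul, smul_smul, e, prod_range_succ, sum_range_succ, ep, ep, sum_range_succ,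
      exp_add]
    congr 1
    ring

theorem VV_congr (β s : ℕ → ℝ) (f : ℕ → M.H) (φ : M.H) {a b : ℕ → Bool} (d : ℕ)
    (h : ∀ j ≤ d, a j = b j) : VV M w ρ β s f φ a d = VV M w ρ β s f φ b d := by
  induction d with
  | zero => rw [VV, VV, h 0 le_rfl]
  | succ d ih => rw [VV, VV, h _ le_rfl, ih fun j hj => h j (by omega)]

theorem sum_pr (p : Prop) [Decidable p] (ψ : M.H) :
    ∑ σ, ((if p then sg σ else 1 : ℝ) : ℂ) • M.sp (pr σ) ψ = if p then M.sp (pau 2) ψ else ψ := by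
  split_ifs
  · rw [← pr_sub, M.sp_sub]
    simp [sg, sub_eq_add_neg]
  · simpa [M.sp_add, M.sp_one] using congrArg (fun m => M.sp m ψ) pr_add

theorem expand (hw : M.IsW w Y) (hρ : Measurable ρ) (β s : ℕ → ℝ) {f : ℕ → M.H} (φ : M.H)
    (t d : ℕ) (hf : ∀ j < d, f j ∈ Y) :
    ∑ a : Fin (d + 1) → Bool, ((if t ≤ d then sg (ex a t) else 1 : ℝ) : ℂ) •
      VV M w ρ β s f φ (ex a) d = M.OO w ρ β s f d (if t ≤ d then
        star (M.OO w ρ β s f t) (M.sp (pau 2) (M.OO w ρ β s f t φ)) else φ) := by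
  induction d with
  | zero =>
    rw [sum_ex fun a => ((if t ≤ 0 then sg (a t) else 1 : ℝ) : ℂ) • VV M w ρ β s f φ a 0]
    simp only [Fintype.sum_unique, VV, Function.update_self, Nat.le_zero]
    split_ifs with h
    · subst h
      simpa [FS.OO] using sum_pr True φ
    · simpa [FS.OO] using sum_pr False φ
  | succ d ih =>
    have e : ∀ (a : ℕ → Bool) σ, ((if t ≤ d + 1 then sg (Function.update a (d + 1) σ t) else 1 : ℝ) :
        ℂ) = ((if t = d + 1 then sg σ else 1 : ℝ) : ℂ) * (if t ≤ d then sg (a t) else 1 : ℝ) := by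
      intro a σ
      rcases lt_trichotomy t (d + 1) with h | rfl | h
      · rw [Function.update_of_ne h.ne, if_pos h.le, if_neg h.ne, if_pos (by omega), ofReal_one,
          one_mul]
      · simp
      · rw [if_neg (by omega), if_neg h.ne', if_neg (by omega), ofReal_one, one_mul]
    have e' : ∀ (a : ℕ → Bool) σ, VV M w ρ β s f φ (Function.update a (d + 1) σ) d =
        VV M w ρ β s f φ a d := fun a σ =>
      VV_congr β s f φ d fun j hj => Function.update_of_ne (by omega) _ _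
    rw [sum_ex fun a => ((if t ≤ d + 1 then sg (a t) else 1 : ℝ) : ℂ) • VV M w ρ β s f φ a (d + 1)]
    simp only [VV, e, e', Function.update_self, mul_smul, ← smul_sum, ← map_smul, ← map_sum]
    simp only [map_smul]
    rw [ih fun j hj => hf j (by omega), sum_pr]
    rcases lt_trichotomy t (d + 1) with h | rfl | h
    · rw [if_neg h.ne, if_pos h.le, if_pos (by omega)]
      rfl
    · rw [if_pos rfl, if_pos le_rfl, if_neg (by omega), (hw.OO_dec hρ β s _ hf).apply_star]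
      rfl
    · rw [if_neg h.ne', if_neg (by omega), if_neg (by omega)]
      rfl

theorem co_zero (hw : M.IsW w Y) : co M w 0 = M.Ω := by simp [co, hw.zero]

theorem main (hw : M.IsW w Y) (hv : M.VacR w Y ρ χ) (β s : ℕ → ℝ) {f : ℕ → M.H} (d : ℕ)
    (hf : ∀ j < d, f j ∈ Y) {y : M.H} (hy : y ∈ Y) {u : ℕ} (hu : u ≤ d) (t : ℕ) :
    ⟪M.xi (M.OO w ρ β s f u), if t ≤ d then
      star (M.OO w ρ β s f t) (M.sp (pau 2) (M.OO w ρ β s f t (co M w y))) else co M w y⟫_ℂ =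
      PS β (fun i j => ⟪f i, f j⟫_ℂ) d fun a => χ (LS s d a) *
        (sg (a u).2 * (if t ≤ d then sg (a t).1 else 1) : ℝ) *
        exp (-∑ j ∈ range d, (sg (a j).1 - sg (a j).2 : ℝ) * ⟪f j, y⟫_ℂ) := by
  have e := expand hw hv.1 β s (co M w 0) u d hf
  rw [if_pos hu] at e
  rw [← (hw.OO_dec hv.1 β s d hf).inner, FS.xi, ← co_zero hw, ← e, ← expand hw hv.1 β s _ t d hf,
    PS, sum_ext fun a => amp β d a * exp (EE (fun i j => ⟪f i, f j⟫_ℂ) d a) * (χ (LS s d a) *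
      (sg (a u).2 * (if t ≤ d then sg (a t).1 else 1) : ℝ) *
        exp (-∑ j ∈ range d, (sg (a j).1 - sg (a j).2 : ℝ) * ⟪f j, y⟫_ℂ)), inner_sum]
  refine sum_congr rfl fun a _ => ?_
  rw [sum_inner]
  refine sum_congr rfl fun b _ => ?_
  have k := congrArg exp (ep_eq f y (ex a) (ex b) d)
  have l : LS s d (fun n => (ex a n, ex b n)) =
      -∑ j ∈ range d, sg (ex b j) * s j + ∑ j ∈ range d, sg (ex a j) * s j := by
    simp only [LS, sub_mul, sum_sub_distrib]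
    ring
  rw [sub_eq_add_neg, exp_add, exp_add, exp_add] at k
  rw [VV_eq hw hv.1 β s hy _ d hf, VV_eq hw hv.1 β s Y.zero_mem _ d hf, inner_smul_left,
    inner_smul_left, inner_smul_right, inner_smul_right, ← M.inner_star', lo_star hv.1,
    ← mul_apply_eq_comp, lo_mul hv.1, co_lo hw hv (add_mem (XS_mem hf _) Y.zero_mem)
      (add_mem (XS_mem hf _) hy), vac_Em, if_pos hu, conj_ofReal, map_mul, map_prod, ← exp_conj, l,
    amp, prod_mul_distrib, ofReal_mul]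
  dsimp only
  linear_combination (sg (ex b u) * (∏ x ∈ range d, (starRingEnd ℂ) (rx (β x) (ex b (x + 1)) (ex b x))) *
    (if t ≤ d then sg (ex a t) else 1 : ℝ) * (∏ j ∈ range d, rx (β j) (ex a (j + 1)) (ex a j)) *
    χ (-∑ j ∈ range d, sg (ex b j) * s j + ∑ j ∈ range d, sg (ex a j) * s j) *
      if ex a d = ex b d then 1 / 2 else 0) * k

end G0

namespace FS

variable {Λ : Type} [MeasurableSpace Λ] {μ : Measure Λ} {M : FS Λ μ}
  {w : M.H → M.H →L[ℂ] M.H} {Y : Submodule ℝ M.H} {ρ : Λ → ℝ} {χ : ℝ → ℂ}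

theorem g0a (hw : M.IsW w Y) (hv : M.VacR w Y ρ χ) (β s : ℕ → ℝ) {f : ℕ → M.H} (d : ℕ)
    (hf : ∀ j < d, f j ∈ Y) {u t : ℕ} (hu : u ≤ d) (ht : t ≤ d) :
    ⟪M.xi (M.OO w ρ β s f u), M.xi (M.OO w ρ β s f t)⟫_ℂ =
      PS β (fun i j => ⟪f i, f j⟫_ℂ) d fun a => χ (LS s d a) * (sg (a u).2 * sg (a t).1 : ℝ) := by
  have h := G0.main hw hv β s d hf Y.zero_mem hu t
  simp only [if_pos ht, G0.co_zero hw, inner_zero_right, mul_zero, Finset.sum_const_zero, neg_zero,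
    exp_zero, mul_one] at h
  exact h

theorem g0b (hw : M.IsW w Y) (hv : M.VacR w Y ρ χ) (β s : ℕ → ℝ) {f : ℕ → M.H} (d : ℕ)
    (hf : ∀ j < d, f j ∈ Y) {y : M.H} (hy : y ∈ Y) :
    ⟪M.xi (M.OO w ρ β s f d), w y M.Ω⟫_ℂ =
      PS β (fun i j => ⟪f i, f j⟫_ℂ) d fun a => χ (LS s d a) * sg (a d).2 *
        exp (-(‖y‖ ^ 2 / 2 : ℝ) -
          ∑ j ∈ Finset.range d, (sg (a j).1 - sg (a j).2 : ℝ) * ⟪f j, y⟫_ℂ) := by
  have h := G0.main hw hv β s d hf hy le_rfl (d + 1)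
  have e : w y M.Ω = exp (-(‖y‖ ^ 2 / 2 : ℝ)) • G0.co M w y := by
    rw [G0.co, smul_smul, ← exp_add, neg_add_cancel, exp_zero, one_smul]
  simp only [if_neg d.not_succ_le_self, mul_one] at h
  rw [e, inner_smul_right, h, PS, PS, Finset.mul_sum]
  refine Finset.sum_congr rfl fun a _ => ?_
  rw [sub_eq_add_neg (-_), exp_add]
  ring

end FS

end Vale.Agent.P367.Q
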