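import Vale.Agent.P367.QG0

/-! The correlations of the self consistent process. -/

namespace Vale.Agent.P367.Q

open Complex MeasureTheory ProbabilityTheory Filter Topology Matrix
open scoped InnerProductSpace

section flip
variable {d : ℕ} {a b : ℕ → Bool × Bool}

theorem qg1_amp (β : ℕ → ℝ) (h : ∀ j ≤ d, b j = (!(a j).1, !(a j).2)) : amp β d b = amp β d a := by
  unfold amp
  congr 1
  · simp [h d le_rfl]
  · refine Finset.prod_congr rfl fun j hj => ?_
    have hj := Finset.mem_range.1 hj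
    simp [h j hj.le, h (j + 1) hj, rx]

theorem qg1_EE (Γ : ℕ → ℕ → ℂ) (h : ∀ j ≤ d, b j = (!(a j).1, !(a j).2)) :
    EE Γ d b = EE Γ d a :=
  Finset.sum_congr rfl fun i hi => Finset.sum_congr rfl fun j hj => by
    simp only [h i (Finset.mem_range.1 hi).le, h j (Finset.mem_range.1 hj).le, sg_not,
      neg_mul_neg]

theorem qg1_LS (s : ℕ → ℝ) (h : ∀ j ≤ d, b j = (!(a j).1, !(a j).2)) : LS s d b = -LS s d a := by
  rw [LS, LS, ← Finset.sum_neg_distrib]
  refine Finset.sum_congr rfl fun j hj => ?_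
  simp only [h j (Finset.mem_range.1 hj).le, sg_not]
  ring

theorem qg1_add (Γ : ℕ → ℕ → ℂ) (s : ℕ → ℝ) (d : ℕ) (a : ℕ → Bool × Bool) :
    EE (fun i j => Γ i j + s i * s j) d a = EE Γ d a + -(LS s d a ^ 2 / 2 : ℝ) := by
  set c : ℕ → ℕ → ℝ := fun i j =>
    sg (a i).2 * sg (a j).1 - (if j < i then sg (a i).1 * sg (a j).1 else 0) -
      (if i < j then sg (a i).2 * sg (a j).2 else 0) - (if i = j then 1 else 0) with hc
  have h1 : ∀ i j, c i j * (s i * s j) + c j i * (s j * s i) =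
      -((sg (a i).1 - sg (a i).2) * s i * ((sg (a j).1 - sg (a j).2) * s j)) := fun i j => by
    rcases lt_trichotomy i j with h | rfl | h
    · simp only [hc, if_pos h, if_neg h.not_gt, if_neg h.ne, if_neg h.ne']; ring
    · simp only [hc, lt_irrefl, if_false, if_true]
      linear_combination (s i * s i) * sg_sq (a i).1 + (s i * s i) * sg_sq (a i).2
    · simp only [hc, if_pos h, if_neg h.not_gt, if_neg h.ne, if_neg h.ne']; ring
  have h2 : ∑ i ∈ Finset.range d, ∑ j ∈ Finset.range d, c i j * (s i * s j) =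
      -(LS s d a ^ 2 / 2) := by
    have h3 : ∑ i ∈ Finset.range d, ∑ j ∈ Finset.range d, c i j * (s i * s j) +
        ∑ i ∈ Finset.range d, ∑ j ∈ Finset.range d, c j i * (s j * s i) = -LS s d a ^ 2 := by
      simp only [← Finset.sum_add_distrib, h1, LS, sq, Finset.sum_mul_sum, Finset.sum_neg_distrib]
    rw [Finset.sum_comm (f := fun i j => c j i * (s j * s i))] at h3
    linarith
  rw [← ofReal_neg, ← h2]
  simp only [EE, mul_add, Finset.sum_add_distrib, hc]
  push_cast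
  rfl

theorem qg1_PS {β β' : ℕ → ℝ} (Γ : ℕ → ℕ → ℂ) (h : ∀ j < d, β j = β' j)
    (F : (ℕ → Bool × Bool) → ℂ) : PS β Γ d F = PS β' Γ d F :=
  Finset.sum_congr rfl fun a _ => by
    rw [amp, amp, Finset.prod_congr rfl fun j hj => by rw [h j (Finset.mem_range.1 hj)]]

end flip

/-- for weights which are even under the global flip the random field is a symmetric Gaussian -/
theorem PS_sym {χ : ℝ → ℂ} (hχ : ∀ L, χ L + χ (-L) = 2 * exp (-(L ^ 2 / 2 : ℝ))) (β s : ℕ → ℝ)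
    (Γ : ℕ → ℕ → ℂ) (d : ℕ) {F : (ℕ → Bool × Bool) → ℂ}
    (hF : ∀ a b : ℕ → Bool × Bool, (∀ j ≤ d, b j = (!(a j).1, !(a j).2)) → F b = F a) :
    PS β Γ d (fun a => χ (LS s d a) * F a) = PS β (fun i j => Γ i j + s i * s j) d F := by
  have hi : Function.Involutive fun (a : Fin (d + 1) → Bool × Bool) i => (!(a i).1, !(a i).2) :=
    fun a => by simp
  have h1 : PS β Γ d (fun a => χ (LS s d a) * F a) = PS β Γ d fun a => χ (-LS s d a) * F a := by
    rw [PS, ← Equiv.sum_comp (hi.toPerm _)]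
    refine Finset.sum_congr rfl fun a _ => ?_
    have h : ∀ j ≤ d, ext (hi.toPerm _ a) j = (!(ext a j).1, !(ext a j).2) := fun j hj => by
      simp [ext, Nat.lt_succ_of_le hj]
    rw [qg1_amp β h, qg1_EE Γ h, qg1_LS s h, hF _ _ h]
  refine mul_left_cancel₀ two_ne_zero ?_
  rw [two_mul]
  nth_rewrite 2 [h1]
  rw [PS, PS, PS, ← Finset.sum_add_distrib, Finset.mul_sum]
  refine Finset.sum_congr rfl fun a _ => ?_
  rw [qg1_add, exp_add]
  linear_combination amp β d (ext a) * exp (EE Γ d (ext a)) * F (ext a) * hχ (LS s d (ext a))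

theorem PS_congr (β : ℕ → ℝ) {Γ Γ' : ℕ → ℕ → ℂ} (d : ℕ) (h : ∀ i < d, ∀ j < d, Γ i j = Γ' i j)
    (F : (ℕ → Bool × Bool) → ℂ) : PS β Γ d F = PS β Γ' d F :=
  Finset.sum_congr rfl fun a _ => by
    rw [EE, EE, Finset.sum_congr rfl fun i hi => Finset.sum_congr rfl fun j hj => by
      rw [h i (Finset.mem_range.1 hi) j (Finset.mem_range.1 hj)]]

/-- the correlations only depend on the first angles -/
theorem GR_congr {β γ s β' γ' s' : ℕ → ℝ} (d : ℕ)
    (h : ∀ j < d, β j = β' j ∧ γ j = γ' j ∧ s j = s' j) : GR β γ s d = GR β' γ' s' d := by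
  induction d with
  | zero =>
    rw [GR, GR]
    exact funext₂ fun u t => qg1_PS _ (fun j hj => (h j hj).1) _
  | succ d ih =>
    rw [GR, GR, ih fun j hj => h j (hj.trans d.lt_succ_self)]
    exact funext₂ fun u t => (qg1_PS _ (fun j hj => (h j hj).1) _).trans <|
      PS_congr _ _ (fun i hi j hj => by
        rw [(h i hi).2.1, (h j hj).2.1, (h i hi).2.2, (h j hj).2.2]) _

theorem vR_congr {β γ s β' γ' s' : ℕ → ℝ} (d : ℕ)
    (h : ∀ j < d, β j = β' j ∧ γ j = γ' j ∧ s j = s' j) : vR β γ s d = vR β' γ' s' d := by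
  rw [vR, vR, GR_congr d h]
  exact Finset.sum_congr rfl fun t ht => by rw [(h t (Finset.mem_range.1 ht)).2.1]

namespace FS

variable {Λ : Type} [MeasurableSpace Λ] {μ : Measure Λ} {M : FS Λ μ}
  {w : M.H → M.H →L[ℂ] M.H} {Y : Submodule ℝ M.H} {ρ : Λ → ℝ} {χ : ℝ → ℂ}

theorem g0s (hw : M.IsW w Y) (hv : M.VacR w Y ρ χ) (β s : ℕ → ℝ) {f : ℕ → M.H} (d : ℕ)
    (hf : ∀ j < d, f j ∈ Y) {u t : ℕ} (hu : u ≤ d) (ht : t ≤ d) :
    ⟪M.xi (M.OO w ρ β s f u), M.xi (M.OO w ρ β s f t)⟫_ℂ =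
      PS β (fun i j => ⟪f i, f j⟫_ℂ + s i * s j) d fun a => (sg (a u).2 * sg (a t).1 : ℝ) := by
  rw [g0a hw hv β s d hf hu ht]
  exact PS_sym hv.2.1 β s _ d fun a b h => by simp only [h u hu, h t ht, sg_not, neg_mul_neg]

theorem g1 (hw : M.IsW w Y) (hY : M.XX ≤ Y) (hv : M.VacR w Y ρ χ) (β γ s : ℕ → ℝ) (d : ℕ)
    {u t : ℕ} (hu : u ≤ d) (ht : t ≤ d) :
    ⟪M.xi (M.proc w ρ β γ s u), M.xi (M.proc w ρ β γ s t)⟫_ℂ = GR β γ s d u t := by
  have h := fun (d u t : ℕ) (hu : u ≤ d) (ht : t ≤ d) =>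
    g0s hw hv β s (f := fun j => γ j • M.xi (M.proc w ρ β γ s j)) d
      (fun j _ => Y.smul_mem _ (hY (hw.proc_dec hY hv.1 β γ s j).xi_mem)) hu ht
  simp only [← proc_eq_OO] at h
  induction d generalizing u t with
  | zero => exact (h 0 u t hu ht).trans (PS_congr _ _ (fun i hi => absurd hi i.not_lt_zero) _)
  | succ d ih =>
    refine (h _ u t hu ht).trans (PS_congr _ _ (fun i hi j hj => ?_) _)
    rw [← ih (Nat.le_of_lt_succ hi) (Nat.le_of_lt_succ hj), ← Complex.coe_smul,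
      ← Complex.coe_smul, inner_smul_left, inner_smul_right, conj_ofReal, mul_assoc]

end FS

end Vale.Agent.P367.Q
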