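import Vale.Agent.P367.QIDefs

/-! Step (I): exact algebra of the gates. -/

namespace Vale.Agent.P367.Q.I

open Complex MeasureTheory Filter Topology Asymptotics
open scoped InnerProductSpace

variable {M : Mod} {U V : Op M}

theorem inner_rl (a : ℝ) (x y : M.H) : ⟪a • x, y⟫_ℂ = a * ⟪x, y⟫_ℂ := by
  rw [← Complex.coe_smul, inner_smul_left, conj_ofReal]

theorem inner_rr (a : ℝ) (x y : M.H) : ⟪x, a • y⟫_ℂ = a * ⟪x, y⟫_ℂ := by
  rw [← Complex.coe_smul, inner_smul_right]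

theorem im_rl (a : ℝ) (x y : M.H) : (⟪a • x, y⟫_ℂ).im = a * (⟪x, y⟫_ℂ).im := by
  rw [inner_rl, im_ofReal_mul]

theorem im_rr (a : ℝ) (x y : M.H) : (⟪x, a • y⟫_ℂ).im = a * (⟪x, y⟫_ℂ).im := by
  rw [inner_rr, im_ofReal_mul]

theorem im_self (x : M.H) : (⟪x, x⟫_ℂ).im = 0 := inner_self_im (𝕜 := ℂ) x

theorem im_symm (x y : M.H) : (⟪y, x⟫_ℂ).im = -(⟪x, y⟫_ℂ).im := by
  rw [← inner_conj_symm, conj_im]

theorem abs_im_le (x y : M.H) : |(⟪x, y⟫_ℂ).im| ≤ ‖x‖ * ‖y‖ :=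
  (abs_im_le_norm _).trans (norm_inner_le_norm x y)

theorem map_rsmul (A : Op M) (a : ℝ) (x : M.H) : A (a • x) = a • A x :=
  ContinuousLinearMap.map_smul_of_tower A a x

theorem norm_ph (a : ℝ) : ‖exp (-I * a)‖ = 1 := by simp [norm_exp]

theorem abs_sg (σ : Bool) : |sg σ| = 1 := by cases σ <;> simp [sg]

theorem norm_sg (σ : Bool) (x : M.H) : ‖sg σ • x‖ = ‖x‖ := by
  rw [norm_smul, Real.norm_eq_abs, abs_sg, one_mul]

@[simp] theorem sg_true : sg true = 1 := rfl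

@[simp] theorem sg_false : sg false = -1 := rfl

/-! ### spin operators -/

theorem dec_Zo : M.Dec (Zo M) := M.dec_pau 2

theorem dec_Rt (b : ℝ) : M.Dec (Rt M b) := M.dec_rot 0 b

theorem dec_W (x : M.H) : M.Dec (M.W x) := FS.IsW.dec M M.isW Submodule.mem_top

theorem dec_Zb (b : ℝ) : M.Dec (Zb M b) := ((dec_Rt _).mul dec_Zo).mul (dec_Rt _)

theorem Rt_add (a b : ℝ) : Rt M a * Rt M b = Rt M (a + b) := by
  rw [Rt, Rt, Rt, ← M.sp_mul, rot_add]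

theorem Rt_Rt (a b : ℝ) (x : M.H) : Rt M a (Rt M b x) = Rt M (a + b) x := by
  rw [← Rt_add]; rfl

theorem Rt_zero : Rt M 0 = 1 := by rw [Rt, rot_zero, M.sp_one]

theorem Rt_star (b : ℝ) : star (Rt M b) = Rt M (-b) := by rw [Rt, M.sp_star, rot_star, Rt]

theorem Rt_eq (b : ℝ) :
    Rt M b = (Real.cos b : ℂ) • (1 : Op M) - (I * Real.sin b) • M.sp (pau 0) := by
  rw [Rt, rot, M.sp_sub, M.sp_smul, M.sp_smul, M.sp_one]

theorem Zo_star : star (Zo M) = Zo M := by rw [Zo, M.sp_star, pau_star]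

theorem Zo_sq : Zo M * Zo M = 1 := by rw [Zo, ← M.sp_mul, pau_sq, M.sp_one]

theorem Zo_Zo (x : M.H) : Zo M (Zo M x) = x := congrArg (· x) Zo_sq

theorem Zo_Rt (b : ℝ) : Zo M * Rt M b = Rt M (-b) * Zo M := by
  rw [Zo, Rt, Rt, ← M.sp_mul, ← M.sp_mul]
  congr 1
  simp only [rot, mul_sub, sub_mul, mul_smul_comm, smul_mul_assoc, pau_ZX, pau_XZ, mul_one, one_mul,
    Real.cos_neg, Real.sin_neg, ofReal_neg]
  module

theorem Zb_eq (b : ℝ) : Zb M b = Zo M * Rt M (2 * b) := by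
  rw [Zb, ← Zo_Rt, mul_assoc, Rt_add, two_mul]

theorem Zb_eq' (b : ℝ) : Zb M b = Rt M (-(2 * b)) * Zo M := by rw [Zb_eq, Zo_Rt]

theorem Zb_zero : Zb M 0 = Zo M := by rw [Zb_eq, mul_zero, Rt_zero, mul_one]

theorem Zb_star (b : ℝ) : star (Zb M b) = Zb M b := by
  rw [Zb_eq, star_mul, Rt_star, Zo_star, Zo_Rt]

theorem Zb_sp (b : ℝ) : Zb M b = M.sp (pau 2 * rot 0 (2 * b)) := by
  rw [Zb_eq, M.sp_mul]; rfl

theorem Zb_quarter : Zb M (Real.pi / 4) = -I • (Zo M * M.sp (pau 0)) := by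
  rw [Zb_eq, show 2 * (Real.pi / 4) = Real.pi / 2 by ring, Rt, rot_half, M.sp_smul, mul_smul_comm]

theorem Zb_lin (b : ℝ) : Zb M b =
    (Real.cos (2 * b) : ℂ) • Zo M + (Real.sin (2 * b) : ℂ) • Zb M (Real.pi / 4) := by
  rw [Zb_quarter, Zb_eq, Rt_eq, mul_sub, mul_smul_comm, mul_smul_comm, mul_one]
  module

theorem Rt_Zb (a b : ℝ) : Rt M (-a) * Zb M b * Rt M a = Zb M (b + a) := by
  rw [Zb, Zb, ← Rt_add b a, show -(b + a) = -a + -b by ring, ← Rt_add]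
  simp only [mul_assoc]

theorem Pr_add (x : M.H) : Pr M true x + Pr M false x = x := by
  rw [Pr, Pr, ← ContinuousLinearMap.add_apply, ← M.sp_add, pr_add, M.sp_one]; rfl

theorem Pr_sub (x : M.H) : Pr M true x - Pr M false x = Zo M x := by
  rw [Pr, Pr, ← ContinuousLinearMap.sub_apply, ← M.sp_sub, pr_sub]; rfl

theorem Pr_Pr (σ τ : Bool) (x : M.H) : Pr M σ (Pr M τ x) = if σ = τ then Pr M σ x else 0 := by
  rw [Pr, Pr, M.sp_sp, pr_mul]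
  split_ifs
  · rfl
  · rw [M.sp_zero]; rfl

theorem Pr_star (σ : Bool) : star (Pr M σ) = Pr M σ := by rw [Pr, M.sp_star, pr_star]

theorem inner_Pr (σ : Bool) (x y : M.H) : ⟪Pr M σ x, y⟫_ℂ = ⟪x, Pr M σ y⟫_ℂ := by
  rw [← M.inner_star, Pr_star]

theorem inner_Zo (x y : M.H) : ⟪Zo M x, y⟫_ℂ = ⟪x, Zo M y⟫_ℂ := by
  rw [← M.inner_star, Zo_star]

theorem Zo_Pr (σ : Bool) (x : M.H) : Zo M (Pr M σ x) = sg σ • Pr M σ x := by
  rw [Zo, Pr, M.sp_sp, pZ_pr, M.sp_smul, ← Complex.coe_smul]; rfl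

theorem Pr_Zo (σ : Bool) (x : M.H) : Pr M σ (Zo M x) = sg σ • Pr M σ x := by
  rw [Zo, Pr, M.sp_sp, pr_pZ, M.sp_smul, ← Complex.coe_smul]; rfl

theorem X_Pr (σ : Bool) (x : M.H) : M.sp (pau 0) (Pr M σ x) = Pr M (!σ) (M.sp (pau 0) x) := by
  rw [Pr, Pr, M.sp_sp, M.sp_sp, pX_pr]

theorem X_X (x : M.H) : M.sp (pau 0) (M.sp (pau 0) x) = x := by
  rw [M.sp_sp, pau_sq, M.sp_one]; rfl

theorem X_Zo (x : M.H) : M.sp (pau 0) (Zo M x) = -Zo M (M.sp (pau 0) x) := by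
  rw [Zo, M.sp_sp, M.sp_sp, pau_XZ, pau_ZX, neg_smul, ← neg_one_smul ℂ (I • pau 1), M.sp_smul]
  simp

theorem norm_Pr_sq (x : M.H) : ‖Pr M true x‖ ^ 2 + ‖Pr M false x‖ ^ 2 = ‖x‖ ^ 2 := by
  have h : ⟪Pr M true x, Pr M false x⟫_ℂ = 0 := by rw [inner_Pr, Pr_Pr]; simp
  have := norm_add_sq_eq_norm_sq_add_norm_sq_of_inner_eq_zero _ _ h
  rw [Pr_add] at this
  nlinarith

theorem norm_Pr_le (σ : Bool) (x : M.H) : ‖Pr M σ x‖ ≤ ‖x‖ := by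
  have := norm_Pr_sq x
  refine abs_le_of_sq_le_sq' ?_ (norm_nonneg _) |>.2
  cases σ <;> nlinarith [sq_nonneg ‖Pr M true x‖, sq_nonneg ‖Pr M false x‖]

theorem Rt_neg_half (σ : Bool) : Rt M (-(Real.pi / 2)) (Pr M σ M.Ω) = I • Pr M (!σ) M.Ω := by
  rw [Rt_eq]
  simp [X_Pr, M.pX_Ω]

/-! ### Weyl operators -/

theorem W_sp (x : M.H) (m : M2) (y : M.H) : M.W x (M.sp m y) = M.sp m (M.W x y) :=
  congrArg (· y) (M.W_loc x (BM.const m))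

theorem W_Pr (x : M.H) (σ : Bool) (y : M.H) : M.W x (Pr M σ y) = Pr M σ (M.W x y) := W_sp x _ y

theorem W_Zo (x y : M.H) : M.W x (Zo M y) = Zo M (M.W x y) := W_sp x _ y

theorem W_Rt (x : M.H) (b : ℝ) (y : M.H) : M.W x (Rt M b y) = Rt M b (M.W x y) := W_sp x _ y

theorem W_W (x y z : M.H) : M.W x (M.W y z) = exp (-I * (⟪x, y⟫_ℂ).im) • M.W (x + y) z :=
  congrArg (· z) (M.W_mul x y)

theorem W_neg_W (x z : M.H) : M.W (-x) (M.W x z) = z := by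
  rw [← M.W_star]; exact (dec_W x).star_apply z

theorem W_W_neg (x z : M.H) : M.W x (M.W (-x) z) = z := by
  rw [← M.W_star]; exact (dec_W x).apply_star z

theorem W_comm (f d z : M.H) :
    M.W f (M.W d z) = exp (-I * (2 * (⟪f, d⟫_ℂ).im : ℝ)) • M.W d (M.W f z) := by
  rw [W_W, W_W, smul_smul, ← exp_add, im_symm f d, add_comm d f]
  congr 2
  push_cast
  ring

theorem inner_W (x y z : M.H) : ⟪M.W x y, z⟫_ℂ = ⟪y, M.W (-x) z⟫_ℂ := by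
  rw [← M.W_star, M.inner_star']

theorem vac_W (m : M2) (x : M.H) :
    ⟪M.Ω, M.sp m (M.W x M.Ω)⟫_ℂ = vac m * exp (-(‖x‖ ^ 2 / 2 : ℝ)) := by
  simpa [FS.sp] using M.W_vac x (BM.const m)

theorem WZ_apply (x y : M.H) : WZ M x y = M.W x (Pr M true y) + M.W (-x) (Pr M false y) := by
  rw [W_Pr, W_Pr]; rfl

theorem WZ_Pr (x : M.H) (σ : Bool) (y : M.H) :
    WZ M x (Pr M σ y) = M.W (sg σ • x) (Pr M σ y) := by
  cases σ <;> simp [WZ_apply, Pr_Pr]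

theorem Pr_WZ (x : M.H) (σ : Bool) (y : M.H) :
    Pr M σ (WZ M x y) = M.W (sg σ • x) (Pr M σ y) := by
  cases σ <;> simp [WZ_apply, ← W_Pr, Pr_Pr]

theorem WZ_zero : WZ M 0 = 1 := by
  ext y; simp [WZ_apply, M.W_zero, Pr_add]

theorem WZ_WZ (x y z : M.H) : WZ M x (WZ M y z) = exp (-I * (⟪x, y⟫_ℂ).im) • WZ M (x + y) z := by
  rw [WZ_apply x, Pr_WZ, Pr_WZ, W_W, W_W, WZ_apply]
  simp [add_comm]

theorem WZ_mul (x y : M.H) : WZ M x * WZ M y = exp (-I * (⟪x, y⟫_ℂ).im) • WZ M (x + y) := by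
  ext z; exact WZ_WZ x y z

theorem WZ_star (x : M.H) : star (WZ M x) = WZ M (-x) := by
  ext y
  refine ext_inner_left ℂ fun z => ?_
  rw [M.inner_star', WZ_apply, WZ_apply, inner_add_left, inner_add_right, inner_W, inner_W,
    inner_Pr, inner_Pr, W_Pr, W_Pr]

theorem Zo_WZ (x y : M.H) : Zo M (WZ M x y) = WZ M x (Zo M y) := by
  rw [WZ_apply, WZ_apply, map_add, ← W_Zo, ← W_Zo, Zo_Pr, Zo_Pr, Pr_Zo, Pr_Zo]

theorem X_WZ (x y : M.H) : M.sp (pau 0) (WZ M x y) = WZ M (-x) (M.sp (pau 0) y) := by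
  rw [WZ_apply, WZ_apply, map_add, ← W_sp, ← W_sp, X_Pr, X_Pr, add_comm]
  simp

theorem dec_WZ (x : M.H) : M.Dec (WZ M x) := by
  refine ⟨by rw [WZ_star, WZ_mul]; simp [WZ_zero, ← ofReal_pow],
    by rw [WZ_star, WZ_mul]; simp [WZ_zero, ← ofReal_pow], fun g hg => ?_⟩
  rw [WZ, FS.EZc, add_mul, mul_add, mul_assoc, mul_assoc, (dec_W _).2.2 g hg, (dec_W _).2.2 g hg,
    ← mul_assoc, ← mul_assoc, ← mul_assoc, ← mul_assoc, M.sc_sp hg, M.sc_sp hg]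

theorem dec_WB (b : ℝ) (x : M.H) : M.Dec (WB M b x) := ((dec_Rt _).mul (dec_WZ _)).mul (dec_Rt _)

theorem WB_zero (x : M.H) : WB M 0 x = WZ M x := by
  rw [WB, neg_zero, Rt_zero, one_mul, mul_one]

theorem WB_apply (b : ℝ) (x y : M.H) : WB M b x y = Rt M (-b) (WZ M x (Rt M b y)) := rfl

theorem WB_WB (b : ℝ) (x y z : M.H) :
    WB M b x (WB M b y z) = exp (-I * (⟪x, y⟫_ℂ).im) • WB M b (x + y) z := by
  rw [WB_apply, WB_apply, WB_apply, Rt_Rt, add_neg_cancel, Rt_zero,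
    ContinuousLinearMap.one_apply, WZ_WZ, map_smul]

theorem WB_star (b : ℝ) (x : M.H) : star (WB M b x) = WB M b (-x) := by
  rw [WB, star_mul, star_mul, Rt_star, Rt_star, WZ_star, neg_neg, WB, mul_assoc]

theorem dec_CW (β : ℕ → ℝ) (f : ℕ → M.H) : ∀ j, M.Dec (CW M β f j)
  | 0 => FS.Dec.one
  | j + 1 => ((dec_Rt _).mul (dec_WZ _)).mul (dec_CW β f j)

theorem CW_congr {β β' : ℕ → ℝ} {f f' : ℕ → M.H} :
    ∀ j, (∀ i < j, β i = β' i) → (∀ i < j, f i = f' i) → CW M β f j = CW M β' f' j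
  | 0, _, _ => rfl
  | j + 1, h1, h2 => by
    rw [CW, CW, h1 j j.lt_succ_self, h2 j j.lt_succ_self,
      CW_congr j (fun i hi => h1 i (by omega)) fun i hi => h2 i (by omega)]

/-! ### the modes -/

theorem xi_def (U : Op M) : M.xi U = star U (Zo M (U M.Ω)) := rfl

theorem xi_one : M.xi 1 = Zo M M.Ω := by simp [xi_def]

theorem xi_WZ (x : M.H) (U : Op M) : M.xi (WZ M x * U) = M.xi U :=
  FS.xi_mul (dec_WZ x).1 (by ext y; exact Zo_WZ x y)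

theorem xi_Rt (b : ℝ) (U : Op M) : M.xi (Rt M b * U) = star U (Zb M b (U M.Ω)) := by
  rw [xi_def, star_mul, Rt_star]; rfl

theorem apply_xi (h : M.Dec U) : U (M.xi U) = Zo M (U M.Ω) := h.apply_star _

theorem apply_xi_Rt (h : M.Dec U) (b : ℝ) : U (M.xi (Rt M b * U)) = Zb M b (U M.Ω) := by
  rw [xi_Rt]; exact h.apply_star _

theorem inner_xi (U : Op M) (x : M.H) : ⟪x, M.xi U⟫_ℂ = ⟪U x, Zo M (U M.Ω)⟫_ℂ :=
  M.inner_star' _ _ _

theorem inner_xi_Rt (U : Op M) (b : ℝ) (x : M.H) :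
    ⟪x, M.xi (Rt M b * U)⟫_ℂ = ⟪U x, Zb M b (U M.Ω)⟫_ℂ := by
  rw [xi_Rt, M.inner_star']

theorem norm_xi (h : M.Dec U) : ‖M.xi U‖ = 1 := h.norm_xi

theorem norm_xi_Rt (h : M.Dec U) (b : ℝ) : ‖M.xi (Rt M b * U)‖ = 1 := ((dec_Rt b).mul h).norm_xi

theorem norm_le_one (h : M.Dec U) : ‖U‖ ≤ 1 :=
  ContinuousLinearMap.opNorm_le_bound _ zero_le_one fun x => by rw [h.norm, one_mul]

theorem Reach.dec {E : M.H → ℝ} (h : Reach M U E) : M.Dec U := by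
  induction h with
  | one => exact FS.Dec.one
  | rot b _ ih => exact (dec_Rt b).mul ih
  | pul g _ ih => exact (dec_WZ _).mul ih

theorem Reach.wb {E : M.H → ℝ} (h : Reach M U E) (b t : ℝ) :
    Reach M (WB M b (t • M.xi (Rt M b * U)) * U)
      fun η => E η + t * (⟪η, M.xi (Rt M b * U)⟫_ℂ ^ 2).im := by
  simpa only [WB, mul_assoc] using ((h.rot b).pul t).rot (-b)

theorem mark_eq (U : ℝ → Op M) (D : ℝ → M.H) (b δ : ℝ) :
    mark U D b δ = (⟪U δ (δ • D δ), Zb M b (U δ M.Ω)⟫_ℂ).im := by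
  rw [mark, ← inner_xi_Rt, im_rl]

theorem mark_zero (U : ℝ → Op M) (D : ℝ → M.H) (δ : ℝ) :
    mark U D 0 δ = δ * (⟪D δ, M.xi (U δ)⟫_ℂ).im := by
  rw [mark, Rt_zero, one_mul]

theorem mark_lin (U : ℝ → Op M) (D : ℝ → M.H) (b δ : ℝ) : mark U D b δ =
    Real.cos (2 * b) * mark U D 0 δ + Real.sin (2 * b) * mark U D (Real.pi / 4) δ := by
  rw [mark_eq, mark_eq, mark_eq, Zb_zero, Zb_lin b, ContinuousLinearMap.add_apply,
    ContinuousLinearMap.smul_apply, ContinuousLinearMap.smul_apply, inner_add_right,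
    inner_smul_right, inner_smul_right, add_im, im_ofReal_mul, im_ofReal_mul]

end Vale.Agent.P367.Q.I
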