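import Vale.Agent.P367.QIAlg

/-! Step (I): closure properties of the asymptotic classes. -/

namespace Vale.Agent.P367.Q.I

open Complex MeasureTheory Filter Topology Asymptotics
open scoped InnerProductSpace

variable {M : Mod} {l : Filter ℝ}

section Gen

variable {E : Type} [NormedAddCommGroup E] {f g : ℝ → E}

theorem O1.of_le {C : ℝ} (h : ∀ᶠ δ in l, ‖f δ‖ ≤ C) : O1 l f :=
  IsBigO.of_bound C (h.mono fun δ hδ => by simpa using hδ)

theorem O1.of_all {C : ℝ} (h : ∀ δ, ‖f δ‖ ≤ C) : O1 l f := O1.of_le (Eventually.of_forall h)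

theorem O1.const (a : E) : O1 l fun _ => a := O1.of_all fun _ => le_rfl

theorem O1.bound (h : O1 l f) : ∃ C, 0 < C ∧ ∀ᶠ δ in l, ‖f δ‖ ≤ C := by
  obtain ⟨C, hC, h⟩ := h.exists_pos
  exact ⟨C, hC, h.bound.mono fun δ hδ => by simpa using hδ⟩

theorem o1_iff : o1 l f ↔ f =o[l] fun _ => (1 : ℝ) := (isLittleO_one_iff ℝ).symm

theorem o1.bdd (h : o1 l f) : O1 l f := (o1_iff.1 h).isBigO

theorem o1.add (h : o1 l f) (h' : o1 l g) : o1 l fun δ => f δ + g δ := by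
  simpa using Tendsto.add h h'

theorem o1.sub (h : o1 l f) (h' : o1 l g) : o1 l fun δ => f δ - g δ := by
  simpa using Tendsto.sub h h'

theorem o1.neg (h : o1 l f) : o1 l fun δ => -f δ := by simpa using Tendsto.neg h

theorem o1.congr' (h : o1 l f) (h' : ∀ᶠ δ in l, f δ = g δ) : o1 l g := Tendsto.congr' h' h

theorem o1.of_le {E' : Type} [NormedAddCommGroup E'] {g : ℝ → E'} (h : o1 l g)
    (h' : ∀ᶠ δ in l, ‖f δ‖ ≤ ‖g δ‖) : o1 l f :=
  squeeze_zero_norm' h' (tendsto_zero_iff_norm_tendsto_zero.1 h)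

theorem o1.zero : o1 l fun _ => (0 : E) := tendsto_const_nhds

theorem o1_id (hl : l ≤ 𝓝[>] 0) : o1 l fun δ : ℝ => δ :=
  tendsto_id'.2 (hl.trans nhdsWithin_le_nhds)

theorem ev_pos (hl : l ≤ 𝓝[>] 0) : ∀ᶠ δ in l, (0 : ℝ) < δ := hl self_mem_nhdsWithin

theorem Od.small (hl : l ≤ 𝓝[>] 0) (h : Od l f) : o1 l f := h.trans_tendsto (o1_id hl)

theorem od.small (hl : l ≤ 𝓝[>] 0) (h : od l f) : o1 l f := Od.small hl h.isBigO

end Gen

section Smul

variable {K E : Type} [NormedField K] [NormedAddCommGroup E] [NormedSpace K E] {c : ℝ → K}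
  {f : ℝ → E}

theorem O1.smul_O {ρ : ℝ → ℝ} (hc : O1 l c) (h : f =O[l] ρ) : (fun δ => c δ • f δ) =O[l] ρ := by
  simpa using hc.smul h

theorem O1.smul_o {ρ : ℝ → ℝ} (hc : O1 l c) (h : f =o[l] ρ) : (fun δ => c δ • f δ) =o[l] ρ := by
  simpa using hc.smul_isLittleO h

theorem O1.smul_o1 (hc : O1 l c) (h : o1 l f) : o1 l fun δ => c δ • f δ :=
  o1_iff.2 (hc.smul_o (o1_iff.1 h))

theorem o1.smul_O1 (hc : o1 l c) (h : O1 l f) : o1 l fun δ => c δ • f δ :=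
  o1_iff.2 (by simpa using (o1_iff.1 hc).smul_isBigO h)

theorem Od.smul_O1 (hc : Od l c) (h : O1 l f) : Od l fun δ => c δ • f δ := by
  simpa using IsBigO.smul hc h

theorem Od.smul_o1 (hc : Od l c) (h : o1 l f) : od l fun δ => c δ • f δ := by
  simpa using IsBigO.smul_isLittleO hc (o1_iff.1 h)

end Smul

section Inner

variable {x y x' y' : ℝ → M.H} {U U' U'' G G' : ℝ → Op M} {u v : ℝ → ℂ}

theorem inner_O {ρ ρ' : ℝ → ℝ} (h : x =O[l] ρ) (h' : y =O[l] ρ') :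
    (fun δ => ⟪x δ, y δ⟫_ℂ) =O[l] fun δ => ρ δ * ρ' δ :=
  (IsBigO.of_norm_le fun δ => norm_inner_le_norm (x δ) (y δ)).trans
    (h.norm_left.mul h'.norm_left)

theorem inner_oO {ρ : ℝ → ℝ} (h : x =o[l] ρ) (h' : O1 l y) : (fun δ => ⟪x δ, y δ⟫_ℂ) =o[l] ρ :=
  (IsBigO.of_norm_le fun δ => norm_inner_le_norm (x δ) (y δ)).trans_isLittleO
    (by simpa using h.norm_left.mul_isBigO h'.norm_left)

theorem inner_Oo {ρ : ℝ → ℝ} (h : O1 l x) (h' : y =o[l] ρ) : (fun δ => ⟪x δ, y δ⟫_ℂ) =o[l] ρ :=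
  (IsBigO.of_norm_le fun δ => norm_inner_le_norm (x δ) (y δ)).trans_isLittleO
    (by simpa using h.norm_left.mul_isLittleO h'.norm_left)

theorem inner_o1_left (h : o1 l x) (h' : O1 l y) : o1 l fun δ => ⟪x δ, y δ⟫_ℂ :=
  o1_iff.2 (inner_oO (o1_iff.1 h) h')

theorem inner_o1_right (h : O1 l x) (h' : o1 l y) : o1 l fun δ => ⟪x δ, y δ⟫_ℂ :=
  o1_iff.2 (inner_Oo h (o1_iff.1 h'))

/-- continuity of the inner product along families -/
theorem inner_close (hx : O1 l x') (hy : O1 l y') (h : o1 l fun δ => x δ - x' δ)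
    (h' : o1 l fun δ => y δ - y' δ) : o1 l fun δ => ⟪x δ, y δ⟫_ℂ - ⟪x' δ, y' δ⟫_ℂ := by
  have hy1 : O1 l y := (h'.bdd.add hy).congr_left fun δ => by simp
  refine ((inner_o1_left h hy1).add (inner_o1_right hx h')).congr' (.of_forall fun δ => ?_)
  simp [inner_sub_left, inner_sub_right]

theorem im_O {z : ℝ → ℂ} : (fun δ => (z δ).im) =O[l] z :=
  IsBigO.of_bound 1 (.of_forall fun δ => by simpa using abs_im_le_norm (z δ))

theorem o1.im {z : ℝ → ℂ} (h : o1 l z) : o1 l fun δ => (z δ).im := im_O.trans_tendsto h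

theorem app_O (h : ∀ δ, ‖G δ‖ ≤ 1) : (fun δ => G δ (x δ)) =O[l] x :=
  IsBigO.of_bound 1 (.of_forall fun δ => ((G δ).le_opNorm _).trans (by gcongr; exact h δ))

theorem dec_O (h : ∀ δ, M.Dec (G δ)) : (fun δ => G δ (x δ)) =O[l] x :=
  app_O fun δ => norm_le_one (h δ)

theorem dec_O' (h : ∀ δ, M.Dec (G δ)) : x =O[l] fun δ => G δ (x δ) :=
  IsBigO.of_bound 1 (.of_forall fun δ => by rw [(h δ).norm, one_mul])

theorem o1.dec (h : ∀ δ, M.Dec (G δ)) (hx : o1 l x) : o1 l fun δ => G δ (x δ) :=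
  (dec_O h).trans_tendsto hx

theorem o1.of_dec (h : ∀ δ, M.Dec (G δ)) (hx : o1 l fun δ => G δ (x δ)) : o1 l x :=
  (dec_O' h).trans_tendsto hx

theorem clm_O (A : Op M) : (fun δ => A (x δ)) =O[l] x := A.isBigO_comp x l

theorem o1.clm (A : Op M) (hx : o1 l x) : o1 l fun δ => A (x δ) := (clm_O A).trans_tendsto hx

theorem Ph.one : Ph fun _ => 1 := fun _ => norm_one

theorem Ph.mul (h : Ph u) (h' : Ph v) : Ph fun δ => u δ * v δ := fun δ => by
  rw [norm_mul, h, h', one_mul]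

theorem Ph.exp (a : ℝ → ℝ) : Ph fun δ => exp (-I * a δ) := fun _ => norm_ph _

theorem Ph.bdd (h : Ph u) : O1 l u := O1.of_all fun δ => (h δ).le

theorem Ph.inner (h : Ph u) (δ : ℝ) (a b : M.H) : ⟪u δ • a, u δ • b⟫_ℂ = ⟪a, b⟫_ℂ := by
  rw [inner_smul_left, inner_smul_right, ← mul_assoc, conj_mul', h]; simp

theorem Ph.norm (h : Ph u) (δ : ℝ) (a : M.H) : ‖u δ • a‖ = ‖a‖ := by rw [norm_smul, h, one_mul]

theorem o1_ph {a : ℝ → ℝ} (h : o1 l a) : o1 l fun δ => exp (-I * a δ) - 1 := by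
  have : Continuous fun t : ℝ => exp (-I * t) - 1 := by fun_prop
  simpa [Function.comp_def] using (this.tendsto 0).comp h

theorem ph_O {a : ℝ → ℝ} : (fun δ => exp (-I * a δ) - 1) =O[l] a :=
  IsBigO.of_bound 1 (.of_forall fun δ => by
    have := Real.norm_exp_I_mul_ofReal_sub_one_le (x := -a δ)
    simpa using this)

/-! ### away from zero -/

theorem Away.close {m m' : ℝ → ℝ} (h : Away l m) (h' : o1 l fun δ => m' δ - m δ) : Away l m' := by
  obtain ⟨c, hc, h⟩ := h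
  refine ⟨c / 2, half_pos hc, ?_⟩
  filter_upwards [h, (Metric.tendsto_nhds.1 h') _ (half_pos hc)] with δ h1 h2
  rw [Real.dist_eq, sub_zero] at h2
  have := abs_sub_abs_le_abs_sub (m δ) (m' δ)
  rw [abs_sub_comm] at this
  linarith

theorem Away.mono {m m' : ℝ → ℝ} (h : Away l m) (h' : ∀ᶠ δ in l, |m δ| ≤ |m' δ|) : Away l m' := by
  obtain ⟨c, hc, h⟩ := h
  exact ⟨c, hc, by filter_upwards [h, h'] with δ h1 h2 using h1.trans h2⟩

theorem Away.const_mul {m : ℝ → ℝ} (h : Away l m) {a : ℝ} (ha : a ≠ 0) :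
    Away l fun δ => a * m δ := by
  obtain ⟨c, hc, h⟩ := h
  exact ⟨|a| * c, by positivity, h.mono fun δ hδ => by rw [abs_mul]; gcongr⟩

theorem Away.ne {m : ℝ → ℝ} (h : Away l m) : ∀ᶠ δ in l, m δ ≠ 0 := by
  obtain ⟨c, hc, h⟩ := h
  exact h.mono fun δ hδ h0 => by rw [h0, abs_zero] at hδ; linarith

theorem Away.inv {m : ℝ → ℝ} (h : Away l m) : O1 l fun δ => (m δ)⁻¹ := by
  obtain ⟨c, hc, h⟩ := h
  exact O1.of_le (C := c⁻¹) (h.mono fun δ hδ => by
    rw [norm_inv, Real.norm_eq_abs]; exact inv_anti₀ hc hδ)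

/-- the angle of a small pulse -/
theorem Away.angle {m : ℝ → ℝ} (h : Away l fun δ => δ * m δ) (a : ℝ) :
    (Od l fun δ => a / m δ) ∧ ∀ᶠ δ in l, a / m δ * m δ = a := by
  constructor
  · refine ((O1.const a).smul_O (h.inv.smul_O (isBigO_refl (fun δ : ℝ => δ) l))).congr' ?_ .rfl
    filter_upwards [h.ne] with δ hδ
    have := left_ne_zero_of_mul hδ
    simp only [smul_eq_mul]
    field_simp
  · exact h.ne.mono fun δ hδ => div_mul_cancel₀ _ (right_ne_zero_of_mul hδ)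

/-- a unit vector with a large symplectic product forces a large displacement -/
theorem Away.of_im {d e : ℝ → M.H} (h : Away l fun δ => δ * (⟪d δ, e δ⟫_ℂ).im)
    (he : ∀ δ, ‖e δ‖ ≤ 1) : Away l fun δ => δ * ‖d δ‖ :=
  h.mono (.of_forall fun δ => by
    rw [abs_mul, abs_mul, abs_norm]
    gcongr
    exact (abs_im_le _ _).trans (mul_le_of_le_one_right (norm_nonneg _) (he δ)))

/-! ### coherent families -/

theorem Bd.bdd (h : Bd M l x) : O1 l x := by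
  induction h with
  | base m _ => exact (clm_O _).trans (O1.of_all fun δ => by rw [(dec_W _).norm])
  | smul hc _ ih => exact hc.smul_O ih
  | add _ _ ih ih' => exact ih.add ih'
  | congr _ h ih => exact ih.congr' h .rfl

theorem Bd.sp_Ω (m : M2) : Bd M l fun _ => M.sp m M.Ω := by
  simpa [M.W_zero] using Bd.base (M := M) (l := l) m (O1.const 0)

theorem Bd.Ω : Bd M l fun _ => M.Ω := by simpa [M.sp_one] using Bd.sp_Ω (M := M) (l := l) 1

theorem Bd.eq (h : Bd M l x) (h' : ∀ δ, x δ = y δ) : Bd M l y := h.congr (.of_forall h')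

theorem Bd.neg (h : Bd M l x) : Bd M l fun δ => -x δ :=
  (h.smul (O1.const (-1))).eq fun δ => by simp

theorem Bd.sub (h : Bd M l x) (h' : Bd M l y) : Bd M l fun δ => x δ - y δ :=
  (h.add h'.neg).eq fun δ => by rw [sub_eq_add_neg]

theorem Bd.rsmul {c : ℝ → ℝ} (hc : O1 l c) (h : Bd M l x) : Bd M l fun δ => c δ • x δ :=
  (h.smul (c := fun δ => (c δ : ℂ)) (isBigO_ofReal_left.2 hc)).eq fun δ => Complex.coe_smul _ _

theorem Bd.zero : Bd M l fun _ => 0 := (Bd.Ω.sub Bd.Ω).eq fun _ => sub_self _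

theorem Bd.sp (m : M2) (h : Bd M l x) : Bd M l fun δ => M.sp m (x δ) := by
  induction h with
  | base m' hf => simpa only [M.sp_sp] using Bd.base (m * m') hf
  | smul hc _ ih => simpa only [map_smul] using ih.smul hc
  | add _ _ ih ih' => simpa only [map_add] using ih.add ih'
  | congr _ h ih => exact ih.congr (h.mono fun δ hδ => by simp only [hδ])

theorem Bd.W {f : ℝ → M.H} (hf : O1 l f) (h : Bd M l x) : Bd M l fun δ => M.W (f δ) (x δ) := by
  induction h with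
  | base m hg =>
    exact ((Bd.base m (hf.add hg)).smul (Ph.exp _).bdd).eq fun δ => by rw [W_sp, W_W, map_smul]
  | smul hc _ ih => simpa only [map_smul] using ih.smul hc
  | add _ _ ih ih' => simpa only [map_add] using ih.add ih'
  | congr _ h ih => exact ih.congr (h.mono fun δ hδ => by simp only [hδ])

theorem Loc.bd (h : Loc M l G) (hx : Bd M l x) : Bd M l fun δ => G δ (x δ) := by
  obtain ⟨x', h1, h2⟩ := h (fun _ => 0) x hx
  exact h1.eq fun δ => by simpa [M.W_zero] using (h2 δ).symm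

theorem Loc.sp (m : M2) : Loc M l fun _ => M.sp m := fun _ _ hx =>
  ⟨_, hx.sp m, fun _ => (W_sp _ _ _).symm⟩

theorem Loc.one : Loc M l fun _ => 1 := fun _ x hx => ⟨x, hx, fun _ => rfl⟩

theorem Loc.W {f : ℝ → M.H} (hf : O1 l f) : Loc M l fun δ => M.W (f δ) := fun d _ hx =>
  ⟨_, (hx.W hf).smul (Ph.exp fun δ => 2 * (⟪f δ, d δ⟫_ℂ).im).bdd, fun δ => by
    rw [W_comm, map_smul]⟩

theorem Loc.mul (h : Loc M l G) (h' : Loc M l G') : Loc M l fun δ => G δ * G' δ := fun d x hx => by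
  obtain ⟨x1, h1, h2⟩ := h' d x hx
  obtain ⟨x2, h3, h4⟩ := h d x1 h1
  exact ⟨x2, h3, fun δ => by rw [← h4, ← h2]; rfl⟩

theorem Loc.add (h : Loc M l G) (h' : Loc M l G') : Loc M l fun δ => G δ + G' δ := fun d x hx => by
  obtain ⟨x1, h1, h2⟩ := h d x hx
  obtain ⟨x2, h3, h4⟩ := h' d x hx
  exact ⟨_, h1.add h3, fun δ => by rw [map_add, ← h4, ← h2]; rfl⟩

theorem Loc.Zo : Loc M l fun _ => Zo M := Loc.sp _

theorem Loc.Rt (b : ℝ) : Loc M l fun _ => Rt M b := Loc.sp _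

theorem Loc.Pr (σ : Bool) : Loc M l fun _ => Pr M σ := Loc.sp _

theorem Loc.Zb (b : ℝ) : Loc M l fun _ => Zb M b := by rw [Zb_sp]; exact Loc.sp _

theorem Loc.WZ {f : ℝ → M.H} (hf : O1 l f) : Loc M l fun δ => WZ M (f δ) :=
  ((Loc.sp _).mul (Loc.W hf)).add ((Loc.sp _).mul (Loc.W hf.neg_left))

theorem Loc.WB (b : ℝ) {f : ℝ → M.H} (hf : O1 l f) : Loc M l fun δ => WB M b (f δ) :=
  ((Loc.Rt _).mul (Loc.WZ hf)).mul (Loc.Rt _)

theorem Loc.CW (β : ℕ → ℝ) {f : ℝ → ℕ → M.H} (hf : ∀ j, O1 l fun δ => f δ j) :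
    ∀ j, Loc M l fun δ => CW M β (f δ) j
  | 0 => Loc.one
  | j + 1 => ((Loc.Rt _).mul (Loc.WZ (hf j))).mul (Loc.CW β hf j)

theorem Loc.star_CW (β : ℕ → ℝ) {f : ℝ → ℕ → M.H} (hf : ∀ j, O1 l fun δ => f δ j) :
    ∀ j, Loc M l fun δ => star (I.CW M β (f δ) j)
  | 0 => by simpa [I.CW] using Loc.one
  | j + 1 => by
    simpa only [I.CW, star_mul, Rt_star, WZ_star] using
      (Loc.star_CW β hf j).mul ((Loc.WZ (hf j).neg_left).mul (Loc.Rt _))

theorem Bd.xi_CW (β : ℕ → ℝ) {f : ℝ → ℕ → M.H} (hf : ∀ j, O1 l fun δ => f δ j) (j : ℕ) :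
    Bd M l fun δ => M.xi (CW M β (f δ) j) :=
  (Loc.star_CW β hf j).bd (Loc.Zo.bd ((Loc.CW β hf j).bd Bd.Ω))

theorem Bd.n0 (h : Bd M l x) : N0 M l x := ⟨x, h, by simpa using o1.zero⟩

theorem Bd.n1 (h : Bd M l x) : N1 M l x := ⟨x, h, by simp⟩

theorem N1.n0 (hl : l ≤ 𝓝[>] 0) (h : N1 M l x) : N0 M l x :=
  h.imp fun _ hy => ⟨hy.1, od.small hl hy.2⟩

theorem N0.close (h : N0 M l x) (h' : o1 l fun δ => y δ - x δ) : N0 M l y :=
  h.imp fun _ hz => ⟨hz.1, (h'.add hz.2).congr' (.of_forall fun δ => by simp)⟩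

theorem N1.close (h : N1 M l x) (h' : od l fun δ => y δ - x δ) : N1 M l y :=
  h.imp fun _ hz => ⟨hz.1, (h'.add hz.2).congr_left fun δ => by simp⟩

theorem N0.bdd (h : N0 M l x) : O1 l x := by
  obtain ⟨y, h1, h2⟩ := h
  exact (h2.bdd.add h1.bdd).congr_left fun δ => by simp

theorem N0.add (h : N0 M l x) (h' : N0 M l y) : N0 M l fun δ => x δ + y δ := by
  obtain ⟨a, h1, h2⟩ := h
  obtain ⟨b, h3, h4⟩ := h'
  exact ⟨_, h1.add h3, (h2.add h4).congr' (.of_forall fun δ => by simp only []; abel)⟩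

theorem N0.smul {c : ℝ → ℂ} (hc : O1 l c) (h : N0 M l x) : N0 M l fun δ => c δ • x δ := by
  obtain ⟨a, h1, h2⟩ := h
  exact ⟨_, h1.smul hc, (hc.smul_o1 h2).congr' (.of_forall fun δ => smul_sub _ _ _)⟩

theorem N0.rsmul {c : ℝ → ℝ} (hc : O1 l c) (h : N0 M l x) : N0 M l fun δ => c δ • x δ := by
  obtain ⟨a, h1, h2⟩ := h
  exact ⟨_, h1.rsmul hc, (hc.smul_o1 h2).congr' (.of_forall fun δ => smul_sub _ _ _)⟩

theorem N0.loc (hG : Loc M l G) (hG' : ∀ δ, ‖G δ‖ ≤ 1) (h : N0 M l x) :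
    N0 M l fun δ => G δ (x δ) := by
  obtain ⟨a, h1, h2⟩ := h
  exact ⟨_, hG.bd h1, o1.congr' ((app_O hG').trans_tendsto h2) (.of_forall fun δ => map_sub _ _ _)⟩

theorem N0.dec (hG : Loc M l G) (hG' : ∀ δ, M.Dec (G δ)) (h : N0 M l x) :
    N0 M l fun δ => G δ (x δ) := h.loc hG fun δ => norm_le_one (hG' δ)

theorem N0.sp (m : M2) (h : N0 M l x) : N0 M l fun δ => M.sp m (x δ) := by
  obtain ⟨a, h1, h2⟩ := h
  exact ⟨_, h1.sp m, (h2.clm _).congr' (.of_forall fun δ => map_sub _ _ _)⟩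

theorem N1.dec (hG : Loc M l G) (hG' : ∀ δ, M.Dec (G δ)) (h : N1 M l x) :
    N1 M l fun δ => G δ (x δ) := by
  obtain ⟨a, h1, h2⟩ := h
  exact ⟨_, hG.bd h1, ((dec_O hG').trans_isLittleO h2).congr_left fun δ => map_sub _ _ _⟩

/-! ### simulation -/

theorem Sim.exact (U G : ℝ → Op M) : Sim l U (fun δ => G δ * U δ) G :=
  ⟨_, Ph.one, fun x _ => by simpa using o1.zero⟩

/-- it is enough to check the simulation on coherent families -/
theorem Sim.of_bd {V : ℝ → Op M} (hV : ∀ δ, M.Dec (V δ)) (hG : ∀ δ, M.Dec (G δ)) (hu : Ph u)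
    (h : ∀ y, Bd M l y → o1 l fun δ => V δ (y δ) - u δ • G δ (y δ)) :
    Sim l U (fun δ => V δ * U δ) G := by
  refine ⟨u, hu, fun x ⟨y, h1, h2⟩ => ?_⟩
  refine (((h y h1).add (h2.dec hV)).sub (hu.bdd.smul_o1 (h2.dec hG))).congr' (.of_forall fun δ => ?_)
  simp only [map_sub, smul_sub, ContinuousLinearMap.mul_apply]
  abel

theorem Sim.n0 (h : Sim l U U' G) (hG : Loc M l G) (hG' : ∀ δ, M.Dec (G δ))
    (hx : N0 M l fun δ => U δ (x δ)) : N0 M l fun δ => U' δ (x δ) := by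
  obtain ⟨u, hu, h⟩ := h
  exact ((hx.dec hG hG').smul hu.bdd).close (h x hx)

theorem Sim.trans (h : Sim l U U' G) (h' : Sim l U' U'' G') (hG : Loc M l G)
    (hG1 : ∀ δ, M.Dec (G δ)) (hG2 : ∀ δ, M.Dec (G' δ)) : Sim l U U'' fun δ => G' δ * G δ := by
  obtain ⟨v, hv, h2⟩ := h'
  obtain ⟨u, hu, h1⟩ := id h
  refine ⟨_, hv.mul hu, fun x hx => ?_⟩
  refine ((h2 x (h.n0 hG hG1 hx)).add (hv.bdd.smul_o1 ((h1 x hx).dec hG2))).congr'
    (.of_forall fun δ => ?_)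
  simp only [map_sub, smul_sub, ContinuousLinearMap.mul_apply, map_smul, smul_smul]
  abel

theorem Sim.phase (h : Sim l U U' G) (hu : Ph u) (hG : ∀ δ, G δ = u δ • G' δ) :
    Sim l U U' G' := by
  obtain ⟨v, hv, h⟩ := h
  exact ⟨_, hv.mul hu, fun x hx => by simpa only [hG, smul_apply, smul_smul] using h x hx⟩

/-- inner products are transported by a simulation -/
theorem Sim.inner (h : Sim l U U' G) (hG : ∀ δ, M.Dec (G δ)) (A : Op M)
    (hx : N0 M l fun δ => U δ (x δ)) (hy : N0 M l fun δ => U δ (y δ)) : o1 l fun δ =>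
      ⟪U' δ (x δ), A (U' δ (y δ))⟫_ℂ - ⟪G δ (U δ (x δ)), A (G δ (U δ (y δ)))⟫_ℂ := by
  obtain ⟨u, hu, h⟩ := h
  have := inner_close (hu.bdd.smul_O ((dec_O hG).trans hx.bdd))
    ((clm_O A).trans (hu.bdd.smul_O ((dec_O hG).trans hy.bdd))) (h x hx)
    (((h y hy).clm A).congr' (.of_forall fun δ => map_sub _ _ _))
  simpa only [map_smul, hu.inner] using this

end Inner

/-! ### states -/

section State

variable {F : Fr M l} {U U' : ℝ → Op M} {E E' E'' : ℝ → M.H → ℝ} {D : ℝ → M.H} {a : ℝ}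

theorem Fr.n_O1 (F : Fr M l) : O1 l F.n := O1.of_le (F.hn.mono fun _ h => h.le)

theorem Fr.c_O1 (F : Fr M l) : O1 l F.c := O1.of_all F.hc

theorem SB.bdd (h : SB F U D a) (σ : Bool) : O1 l fun δ => U δ (F.aS σ δ) := by
  obtain ⟨u, hu, h⟩ := h
  refine ((h σ).bdd.add (O1.of_all (C := ‖Rt M a (Pr M σ M.Ω)‖)
    (f := fun δ => u δ • M.W (sg σ • D δ) (Rt M a (Pr M σ M.Ω))) fun δ => ?_)).congr_left
    fun δ => by simp
  rw [hu.norm, (dec_W _).norm]

theorem SB.rot (h : SB F U D a) (b : ℝ) : SB F (fun δ => Rt M b * U δ) D (a + b) := by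
  obtain ⟨u, hu, h⟩ := h
  refine ⟨u, hu, fun σ => ((h σ).clm (Rt M b)).congr' (.of_forall fun δ => ?_)⟩
  rw [map_sub, map_smul, ← W_Rt, Rt_Rt, add_comm b a]; rfl

theorem Rest.dec (h : Rest F U E D a) (δ : ℝ) : M.Dec (U δ) := (h.reach δ).dec

theorem Rest.D_O1 (h : Rest F U E D a) : O1 l fun δ => δ • D δ := (dec_O' h.dec).trans h.nD.bdd

theorem Rest.nΩ (hl : l ≤ 𝓝[>] 0) (h : Rest F U E D a) : N0 M l fun δ => U δ M.Ω := by
  refine ((h.nT.n0 hl).rsmul F.c_O1).close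
    (((o1_id hl).smul_O1 ((h.sb.bdd true).add (h.sb.bdd false))).congr' ?_)
  filter_upwards [F.dec] with δ hδ
  conv_rhs => rw [hδ]
  simp only [map_add, map_rsmul]
  abel

theorem Rest.nxi (hl : l ≤ 𝓝[>] 0) (h : Rest F U E D a) (b : ℝ) :
    N0 M l fun δ => U δ (M.xi (Rt M b * U δ)) := by
  simpa only [apply_xi_Rt (h.dec _)] using (h.nΩ hl).dec (Loc.Zb b) fun _ => dec_Zb b

theorem Rest.nxi0 (hl : l ≤ 𝓝[>] 0) (h : Rest F U E D a) : N0 M l fun δ => U δ (M.xi (U δ)) := by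
  simpa only [Rt_zero, one_mul] using h.nxi hl 0

theorem Rest.rot (h : Rest F U E D a) (b : ℝ) : Rest F (fun δ => Rt M b * U δ) E D (a + b) :=
  ⟨fun δ => (h.reach δ).rot b, by exact (h.nT.dec (Loc.Rt b) fun _ => dec_Rt b :), h.sb.rot b,
    by exact (h.nD.dec (Loc.Rt b) fun _ => dec_Rt b :)⟩

theorem mark_rot (U : ℝ → Op M) (D : ℝ → M.H) (a b : ℝ) :
    mark (fun δ => Rt M a * U δ) D b = mark U D (b + a) := by
  funext δ; rw [mark, mark, ← mul_assoc, Rt_add]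

/-- the marks are transported by a simulation of a rotation -/
theorem Rest.mark_close (hl : l ≤ 𝓝[>] 0) (h : Rest F U E D a) {c : ℝ}
    (hs : Sim l U U' fun _ => Rt M c) (b : ℝ) :
    o1 l fun δ => mark U' D b δ - mark U D (b + c) δ := by
  have := (hs.inner (fun _ => dec_Rt c) (Zb M b) h.nD (h.nΩ hl)).im
  refine this.congr' (.of_forall fun δ => ?_)
  rw [← mark_rot, mark_eq, mark_eq, sub_im]; rfl

theorem EC.es (h : EC l E E') : ES F E E' := fun η h1 _ => h η h1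

theorem EC.refl : EC l E E := fun _ _ => by simpa using o1.zero

theorem EC.trans (h : EC l E E') (h' : EC l E' E'') : EC l E E'' := fun η h1 =>
  ((h' η h1).add (h η h1)).congr' (.of_forall fun δ => by ring)

theorem ES.trans (h : ES F E E') (h' : ES F E' E'') : ES F E E'' := fun η h1 h2 =>
  ((h' η h1 h2).add (h η h1 h2)).congr' (.of_forall fun δ => by ring)

/-- the energy of a small pulse -/
theorem EC.small {t : ℝ → ℝ} {e : ℝ → M.H} (ht : o1 l t) (he : O1 l e) :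
    EC l E fun δ η => E δ η + t δ * (⟪η, e δ⟫_ℂ ^ 2).im := fun η hη => by
  have h1 : O1 l fun δ => (⟪η δ, e δ⟫_ℂ ^ 2).im :=
    im_O.trans (by simpa using (inner_O hη he).pow 2)
  simpa using ht.smul_O1 h1

theorem md_O1 (F : Fr M l) (g s : ℕ → ℝ) {x : ℕ → ℝ → M.H} (hx : ∀ j δ, ‖x j δ‖ ≤ 1) (j : ℕ) :
    O1 l fun δ => md F g s x δ j :=
  ((O1.const (g j)).smul_O (O1.of_all (hx j))).add ((O1.const (s j)).smul_O F.n_O1)

end State

end Vale.Agent.P367.Q.I
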