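import Vale.Agent.P367.QBase

/-! Step (I): plain QAOA words simulate a random field. Definitions. -/

namespace Vale.Agent.P367.Q.I

open Complex MeasureTheory Filter Topology Asymptotics
open scoped InnerProductSpace

abbrev Mod : Type 1 := FS (Lab 0) (muK 0)

abbrev Op (M : Mod) : Type := M.H →L[ℂ] M.H

variable (M : Mod)

/-- the Pauli operator `Z` -/
noncomputable def Zo : Op M := M.sp (pau 2)

/-- `exp (-i b X)` -/
noncomputable def Rt (b : ℝ) : Op M := M.sp (rot 0 b)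

/-- the spectral projections of `Z` -/
noncomputable def Pr (σ : Bool) : Op M := M.sp (pr σ)

/-- `Z` in the frame `b` -/
noncomputable def Zb (b : ℝ) : Op M := Rt M (-b) * Zo M * Rt M b

/-- `exp (-i Z φ(x))` -/
noncomputable def WZ (x : M.H) : Op M := M.EZc M.W x

/-- `exp (-i Z_b φ(x))` -/
noncomputable def WB (b : ℝ) (x : M.H) : Op M := Rt M (-b) * WZ M x * Rt M b

/-- layers with prescribed bath vectors -/
noncomputable def CW (β : ℕ → ℝ) (f : ℕ → M.H) : ℕ → Op M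
  | 0 => 1
  | j + 1 => Rt M (β j) * WZ M (f j) * CW β f j

/-- plain words together with their energy functional -/
inductive Reach : Op M → (M.H → ℝ) → Prop
  | one : Reach 1 fun _ => 0
  | rot (b : ℝ) {U E} : Reach U E → Reach (Rt M b * U) E
  | pul (g : ℝ) {U E} : Reach U E →
      Reach (WZ M (g • M.xi U) * U) fun η => E η + g * (⟪η, M.xi U⟫_ℂ ^ 2).im

/-- bounded families -/
abbrev O1 {E : Type} [Norm E] (l : Filter ℝ) (f : ℝ → E) : Prop := f =O[l] fun _ => (1 : ℝ)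

/-- families which tend to zero -/
abbrev o1 {E : Type} [Zero E] [TopologicalSpace E] (l : Filter ℝ) (f : ℝ → E) : Prop :=
  Tendsto f l (𝓝 0)

/-- families of order `δ` -/
abbrev Od {E : Type} [Norm E] (l : Filter ℝ) (f : ℝ → E) : Prop := f =O[l] fun δ => δ

/-- families of order smaller than `δ` -/
abbrev od {E : Type} [Norm E] (l : Filter ℝ) (f : ℝ → E) : Prop := f =o[l] fun δ => δ

/-- families which stay away from zero -/
def Away (l : Filter ℝ) (m : ℝ → ℝ) : Prop := ∃ c, 0 < c ∧ ∀ᶠ δ in l, c ≤ |m δ|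

/-- families of phases -/
def Ph (u : ℝ → ℂ) : Prop := ∀ δ, ‖u δ‖ = 1

variable (l : Filter ℝ)

/-- finite sums of coherent vectors with bounded displacement -/
inductive Bd : (ℝ → M.H) → Prop
  | base (m : M2) {f : ℝ → M.H} : O1 l f → Bd fun δ => M.sp m (M.W (f δ) M.Ω)
  | smul {c : ℝ → ℂ} {x} : O1 l c → Bd x → Bd fun δ => c δ • x δ
  | add {x y} : Bd x → Bd y → Bd fun δ => x δ + y δ
  | congr {x y} : Bd x → x =ᶠ[l] y → Bd y

/-- coherent up to `o(1)` -/
def N0 (x : ℝ → M.H) : Prop := ∃ y, Bd M l y ∧ o1 l fun δ => x δ - y δ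

/-- coherent up to `o(δ)` -/
def N1 (x : ℝ → M.H) : Prop := ∃ y, Bd M l y ∧ od l fun δ => x δ - y δ

/-- operators which keep the coherent vectors around any displacement -/
def Loc (O : ℝ → Op M) : Prop := ∀ d x : ℝ → M.H, Bd M l x →
  ∃ x', Bd M l x' ∧ ∀ δ, O δ (M.W (d δ) (x δ)) = M.W (d δ) (x' δ)

/-- the splitting of the initial vector in a typical branch and two rare branches -/
structure Fr where
  aT : ℝ → M.H
  aS : Bool → ℝ → M.H
  c : ℝ → ℝ
  hc : ∀ δ, |c δ| ≤ 1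
  dec : ∀ᶠ δ in l, M.Ω = c δ • aT δ + δ • (aS true δ + aS false δ)
  hn : ∀ᶠ δ in l, ‖aS true δ - aS false δ‖ = 1

variable {M l}

/-- the mode which plays the role of the random field -/
def Fr.n (F : Fr M l) (δ : ℝ) : M.H := F.aS true δ - F.aS false δ

/-- the rare branches are single coherent vectors -/
def SB (F : Fr M l) (U : ℝ → Op M) (D : ℝ → M.H) (a : ℝ) : Prop :=
  ∃ u, Ph u ∧ ∀ σ, o1 l fun δ =>
    U δ (F.aS σ δ) - u δ • M.W (sg σ • D δ) (Rt M a (Pr M σ M.Ω))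

/-- the state between two composite gates -/
structure Rest (F : Fr M l) (U : ℝ → Op M) (E : ℝ → M.H → ℝ) (D : ℝ → M.H) (a : ℝ) : Prop where
  reach : ∀ δ, Reach M (U δ) (E δ)
  nT : N1 M l fun δ => U δ (F.aT δ)
  sb : SB F U D a
  nD : N0 M l fun δ => U δ (δ • D δ)

/-- the state inside an echo -/
structure Mid (F : Fr M l) (U : ℝ → Op M) (D d : ℝ → M.H) : Prop where
  dec : ∀ δ, M.Dec (U δ)
  nT : ∀ σ, ∃ y, Bd M l y ∧ od l fun δ => Pr M σ (U δ (F.aT δ)) - M.W (sg σ • d δ) (y δ)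
  sb : SB F U D 0
  fd : Away l fun δ => δ * ‖d δ‖
  fD : Away l fun δ => δ * ‖D δ + d δ‖

/-- the phase seen by the rare branches in a pulse in the frame `b` -/
noncomputable def mark (U : ℝ → Op M) (D : ℝ → M.H) (b δ : ℝ) : ℝ :=
  δ * (⟪D δ, M.xi (Rt M b * U δ)⟫_ℂ).im

variable (l)

/-- `U'` is `G U` on the typical vectors -/
def Sim (U U' G : ℝ → Op M) : Prop :=
  ∃ u, Ph u ∧ ∀ x : ℝ → M.H, (N0 M l fun δ => U δ (x δ)) →
    o1 l fun δ => U' δ (x δ) - u δ • G δ (U δ (x δ))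

/-- the energy functionals are close on bounded vectors -/
def EC (E E' : ℝ → M.H → ℝ) : Prop :=
  ∀ η : ℝ → M.H, O1 l η → o1 l fun δ => E' δ (η δ) - E δ (η δ)

variable {l}

/-- the energy functionals are close on bounded vectors orthogonal to the field -/
def ES (F : Fr M l) (E E' : ℝ → M.H → ℝ) : Prop :=
  ∀ η : ℝ → M.H, O1 l η → (o1 l fun δ => ⟪η δ, F.n δ⟫_ℂ) →
    o1 l fun δ => E' δ (η δ) - E δ (η δ)

/-- the bath vectors of the ideal process -/
noncomputable def md (F : Fr M l) (g s : ℕ → ℝ) (x : ℕ → ℝ → M.H) (δ : ℝ) (j : ℕ) : M.H :=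
  g j • x j δ + s j • F.n δ

/-- the invariant after the interaction of layer `t` -/
structure TI (F : Fr M l) (β g s : ℕ → ℝ) (t : ℕ) (U : ℝ → Op M) (E : ℝ → M.H → ℝ)
    (D : ℝ → M.H) (x : ℕ → ℝ → M.H) : Prop where
  rest : Rest F U E D 0
  good : ∃ b, Away l (mark U D b)
  bd : ∀ j δ, ‖x j δ‖ ≤ 1
  pair : ∃ u, Ph u ∧
    (o1 l fun δ => U δ M.Ω - u δ • WZ M (md F g s x δ t) (CW M β (md F g s x δ) t M.Ω)) ∧
    ∀ j ≤ t, o1 l fun δ => U δ (x j δ) -
      u δ • WZ M (md F g s x δ t) (CW M β (md F g s x δ) t (M.xi (CW M β (md F g s x δ) j)))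
  en : ES F (fun δ η => ∑ j ∈ Finset.range (t + 1), g j * (⟪η, x j δ⟫_ℂ ^ 2).im) E

end Vale.Agent.P367.Q.I
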