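import Vale.Agent.P367.QIStm

/-! Step (I): the limit of the Gram matrix and of the energy. -/

namespace Vale.Agent.P367.Q.I

open Complex MeasureTheory Filter Topology Asymptotics
open scoped InnerProductSpace

namespace QILimAux

theorem ps_lim {l : Filter ℝ} (β : ℕ → ℝ) {Γ : ℝ → ℕ → ℕ → ℂ} {Γ₀ : ℕ → ℕ → ℂ} (d : ℕ)
    (F : (ℕ → Bool × Bool) → ℂ)
    (h : ∀ i < d, ∀ j < d, Tendsto (fun δ => Γ δ i j) l (𝓝 (Γ₀ i j))) :
    Tendsto (fun δ => PS β (Γ δ) d F) l (𝓝 (PS β Γ₀ d F)) := by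
  unfold PS EE
  refine tendsto_finsetSum _ fun a _ => Tendsto.mul_const _ (Tendsto.const_mul _ ?_)
  refine Tendsto.cexp (tendsto_finsetSum _ fun i hi => tendsto_finsetSum _ fun j hj => ?_)
  exact (h i (Finset.mem_range.1 hi) j (Finset.mem_range.1 hj)).const_mul _

theorem md_lim {M : Mod} {l : Filter ℝ} (F : Fr M l) (g s : ℕ → ℝ) (x : ℕ → ℝ → M.H) {i j : ℕ}
    {z : ℂ} (hi : o1 l fun δ => ⟪x i δ, F.n δ⟫_ℂ) (hj : o1 l fun δ => ⟪x j δ, F.n δ⟫_ℂ)
    (h : Tendsto (fun δ => ⟪x i δ, x j δ⟫_ℂ) l (𝓝 z)) :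
    Tendsto (fun δ => ⟪md F g s x δ i, md F g s x δ j⟫_ℂ) l (𝓝 (g i * g j * z + s i * s j)) := by
  have hj' : o1 l fun δ => ⟪F.n δ, x j δ⟫_ℂ :=
    hj.of_le (.of_forall fun δ => (norm_inner_symm _ _).le)
  have h1 := ((h.const_mul ((g i : ℂ) * g j)).add (Tendsto.const_mul ((g i : ℂ) * s j) hi)).add
    ((Tendsto.const_mul ((s i : ℂ) * g j) hj').add (tendsto_const_nhds (x := (s i : ℂ) * s j)))
  simp only [mul_zero, add_zero, zero_add] at h1
  refine h1.congr' ?_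
  filter_upwards [F.hn] with δ hδ
  have hn : ⟪F.n δ, F.n δ⟫_ℂ = 1 := by
    rw [inner_self_eq_norm_sq_to_K, Fr.n, hδ]
    simp
  simp only [md, inner_add_left, inner_add_right, inner_rl, inner_rr, hn]
  ring

end QILimAux

open QILimAux

theorem lim (h : S_ps) : S_lim := by
  intro M l F β g s p x h1 h2
  have key : ∀ d ≤ p, ∀ Γ₀ : ℕ → ℕ → ℂ, (∀ i < d, ∀ j < d,
      Tendsto (fun δ => ⟪md F g s x δ i, md F g s x δ j⟫_ℂ) l (𝓝 (Γ₀ i j))) → ∀ i ≤ d, ∀ j ≤ d,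
      Tendsto (fun δ => ⟪x i δ, x j δ⟫_ℂ) l
        (𝓝 (PS β Γ₀ d fun a => (sg (a i).2 * sg (a j).1 : ℝ))) := by
    intro d hd Γ₀ hΓ i hi j hj
    have h3 := Tendsto.add (h2 i (hi.trans hd) j (hj.trans hd))
      (ps_lim β d (fun a => (sg (a i).2 * sg (a j).1 : ℝ)) hΓ)
    rw [zero_add] at h3
    refine h3.congr fun δ => ?_
    rw [h M β (md F g s x δ) d i j hi hj, sub_add_cancel]
  have main : ∀ d, d ≤ p → ∀ i ≤ d, ∀ j ≤ d,
      Tendsto (fun δ => ⟪x i δ, x j δ⟫_ℂ) l (𝓝 (GR β g s d i j)) := by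
    intro d
    induction d with
    | zero => exact fun hd => key 0 hd 0 fun i hi => absurd hi (Nat.not_lt_zero i)
    | succ d ih =>
      exact fun hd => key (d + 1) hd (fun i j => g i * g j * GR β g s d i j + s i * s j)
        fun i hi j hj => md_lim F g s x (h1 i (by omega)) (h1 j (by omega))
          (ih (by omega) i (by omega) j (by omega))
  exact main p le_rfl

theorem fin (h1 : S_orth) (h2 : S_lim) : S_fin := by
  intro M l hl F β g s p U E D x hT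
  obtain ⟨b, hb⟩ := hT.good
  obtain ⟨u, hu, hΩ, hx⟩ := hT.pair
  have hU : ∀ δ, M.Dec (U δ) := hT.rest.dec
  have hm := md_O1 F g s hT.bd
  have hbd : ∀ j, Bd M l fun δ => u δ • WZ M (md F g s x δ p)
      (CW M β (md F g s x δ) p (M.xi (CW M β (md F g s x δ) j))) := fun j =>
    ((Loc.WZ (hm p)).bd ((Loc.CW β hm p).bd (Bd.xi_CW β hm j))).smul hu.bdd
  have horth : ∀ j ≤ p, o1 l fun δ => ⟪x j δ, F.n δ⟫_ℂ := fun j hj =>
    h1 M l hl F U E D (x j) b hT.rest hb ((hbd j).n0.close (hx j hj))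
  have hG := h2 M l F β g s p x horth fun i hi j hj => by
    refine (inner_close (hbd i).bdd (hbd j).bdd (hx i hi) (hx j hj)).congr' (.of_forall fun δ => ?_)
    rw [hu.inner, (hU δ).inner, (dec_WZ _).inner, (dec_CW _ _ _).inner]
  have hη : O1 l fun δ => M.xi (U δ) := O1.of_all fun δ => (norm_xi (hU δ)).le
  have hηn : o1 l fun δ => ⟪M.xi (U δ), F.n δ⟫_ℂ :=
    h1 M l hl F U E D _ b hT.rest hb (hT.rest.nxi0 hl)
  have hc : o1 l fun δ => M.xi (U δ) - x p δ := by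
    refine o1.of_dec hU (((hΩ.clm (Zo M)).sub (hx p le_rfl)).congr' (.of_forall fun δ => ?_))
    rw [map_sub, map_sub, map_smul, Zo_WZ, apply_xi (hU δ), apply_xi (dec_CW _ _ _)]
    abel
  have hin : ∀ j ≤ p, Tendsto (fun δ => (⟪M.xi (U δ), x j δ⟫_ℂ ^ 2).im) l
      (𝓝 (GR β g s p p j ^ 2).im) := fun j hj => by
    have h3 := Tendsto.add (inner_o1_left hc (O1.of_all (hT.bd j))) (hG p le_rfl j hj)
    simp only [inner_sub_left, sub_add_cancel, zero_add] at h3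
    exact (continuous_im.tendsto _).comp (h3.pow 2)
  have hp : Tendsto (fun δ => (⟪M.xi (U δ), x p δ⟫_ℂ ^ 2).im) l (𝓝 0) := by
    have h3 := (hin p le_rfl).sub ((continuous_im.tendsto _).comp ((hG p le_rfl p le_rfl).pow 2))
    rw [sub_self] at h3
    refine h3.congr fun δ => ?_
    simp only [Function.comp_apply, sq, mul_im, im_self, mul_zero, zero_mul, add_zero, sub_zero]
  have h4 := Tendsto.add (hT.en _ hη hηn) ((tendsto_finsetSum (Finset.range p) fun j hj =>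
    (hin j (Finset.mem_range.1 hj).le).const_mul (g j)).add (hp.const_mul (g p)))
  rw [mul_zero, add_zero, zero_add] at h4
  refine h4.congr fun δ => ?_
  simp only [Finset.sum_range_succ, sub_add_cancel]

end Vale.Agent.P367.Q.I
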