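import Vale.Agent.P367.QIStm
import Vale.Agent.P367.QG0
import Vale.Agent.P367.QZa

/-! Step (I): the Gram matrix of the ideal words. -/

namespace Vale.Agent.P367.Q.I

open Complex MeasureTheory ProbabilityTheory Filter Topology
open scoped InnerProductSpace

theorem vacR_W (M : Mod) :
    M.VacR M.W ⊤ (fun c => c.1) fun L => ∫ r, exp (-I * (L * r : ℝ)) ∂nu0 := by
  refine ⟨measurable_fst, za_chi, by simp, fun x _ L m => ?_⟩
  rw [M.W_vac x (BM.phs (g := fun c : Lab 0 => L * c.1) (by fun_prop) (BM.const m))]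
  simp only [vac_smul]
  have := integral_fun_fst (μ := nu0) (ν := Measure.pi fun _ : Fin 0 => gaussianReal 0 1)
    (fun r : ℝ => exp (-I * (L * r : ℝ)))
  rw [probReal_univ, one_smul] at this
  rw [integral_mul_const, ← this]
  rfl

theorem OO_eq (M : Mod) (β : ℕ → ℝ) (f : ℕ → M.H) :
    ∀ j, M.OO M.W (fun c => c.1) β 0 f j = CW M β f j
  | 0 => rfl
  | j + 1 => by
    rw [FS.OO, CW, OO_eq M β f j, FS.lay]
    simp only [Pi.zero_apply, zero_mul, M.lr_zero, mul_one]
    rfl

theorem ps : S_ps := fun M β f d u t hu ht => by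
  have := FS.g0a M.isW (vacR_W M) β 0 (f := f) d (fun _ _ => Submodule.mem_top) hu ht
  rw [OO_eq, OO_eq] at this
  simpa [LS] using this

end Vale.Agent.P367.Q.I
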