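import Vale.Agent.P367.QIAsy

/-! Step (I): the intermediate statements. -/

namespace Vale.Agent.P367.Q.I

open Complex MeasureTheory Filter Topology Asymptotics
open scoped InnerProductSpace

/-- the Gram matrix of a word with prescribed bath vectors is a path sum -/
def S_ps : Prop := ∀ (M : Mod) (β : ℕ → ℝ) (f : ℕ → M.H) (d u t : ℕ), u ≤ d → t ≤ d →
  ⟪M.xi (CW M β f u), M.xi (CW M β f t)⟫_ℂ =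
    PS β (fun i j => ⟪f i, f j⟫_ℂ) d fun a => (sg (a u).2 * sg (a t).1 : ℝ)

def S_reach : Prop := ∀ (M : Mod) (U : Op M) (E : M.H → ℝ), Reach M U E →
  ∃ β γ p, vR β γ 0 p = E (M.xi U)

def S_cont : Prop := ∀ (β γ s : ℕ → ℝ) (p : ℕ) (ε : ℝ), 0 < ε → ∃ η, 0 < η ∧
  ∀ β' s' : ℕ → ℝ, (∀ j, |β' j - β j| ≤ η) → (∀ j, |s' j - s j| ≤ η) →
    |vR β' γ s' p - vR β γ s p| < ε

def S_b2 : Prop := ∀ (M : Mod) (l : Filter ℝ) (x : ℝ → M.H), Bd M l x → ∃ C, ∀ᶠ δ in l,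
  ∀ f d : M.H, ‖M.W f (M.W d (x δ)) - M.W d (x δ)‖ ≤ C * (‖f‖ + |(⟪f, d⟫_ℂ).im|)

def S_b3 : Prop := ∀ (M : Mod) (l : Filter ℝ) (x : ℝ → M.H), Bd M l x → ∃ C, ∀ᶠ δ in l,
  ∀ f f' d : M.H, ‖f‖ ≤ 1 → ‖f'‖ ≤ 1 → ‖(M.W f - 1) ((M.W f' - 1) (M.W d (x δ)))‖ ≤
    C * ((‖f‖ + |(⟪f, d⟫_ℂ).im|) * (‖f'‖ + |(⟪f', d⟫_ℂ).im|))

def S_far : Prop := ∀ (M : Mod) (l : Filter ℝ), l ≤ 𝓝[>] 0 → ∀ x y d d' : ℝ → M.H,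
  Bd M l x → Bd M l y → (Away l fun δ => δ * ‖d' δ - d δ‖) →
    od l fun δ => ⟪M.W (d δ) (x δ), M.W (d' δ) (y δ)⟫_ℂ

def S_id : Prop := ∀ (M : Mod) (l : Filter ℝ) (ρ : ℝ → ℝ) (b : ℝ) (f d x : ℝ → M.H),
  Bd M l x → f =o[l] ρ → (fun δ => (⟪f δ, d δ⟫_ℂ).im) =o[l] ρ →
    (fun δ => WB M b (f δ) (M.W (d δ) (x δ)) - M.W (d δ) (x δ)) =o[l] ρ

def S_V : Prop := ∀ (M : Mod) (l : Filter ℝ), l ≤ 𝓝[>] 0 → ∀ (b : ℝ) (f1 f2 f3 d x : ℝ → M.H),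
  Bd M l x → Od l f1 → Od l f2 → (od l fun δ => f1 δ + f3 δ) →
  (od l fun δ => (⟪f1 δ, d δ⟫_ℂ).im) → (od l fun δ => (⟪f2 δ, d δ⟫_ℂ).im) →
  (od l fun δ => (⟪f3 δ, d δ⟫_ℂ).im) → od l fun δ =>
    WB M b (f3 δ) (WZ M (f2 δ) (WB M b (f1 δ) (M.W (d δ) (x δ)))) - WZ M (f2 δ) (M.W (d δ) (x δ))

def S_M : Prop := ∀ (M : Mod) (l : Filter ℝ), l ≤ 𝓝[>] 0 →
  ∀ (F : Fr M l) (U : ℝ → Op M) (D d : ℝ → M.H) (O : ℝ → Op M), Mid F U D d →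
    (∀ δ, star (O δ) = O δ) → (∀ δ, ‖O δ‖ ≤ 1) → Loc M l O →
      od l fun δ => (⟪star (U δ) (O δ (U δ M.Ω)), M.xi (U δ)⟫_ℂ).im

def S_xid : Prop := ∀ (M : Mod) (l : Filter ℝ), l ≤ 𝓝[>] 0 →
  ∀ (F : Fr M l) (U : ℝ → Op M) (D d : ℝ → M.H) (G : ℝ → Op M), Mid F U D d →
    (∀ δ, M.Dec (G δ)) → (∀ σ x, Bd M l x →
      o1 l fun δ => G δ (M.W (sg σ • d δ) (x δ)) - M.W (sg σ • d δ) (x δ)) →
    ∀ b : ℝ, o1 l fun δ => M.xi (Rt M b * (G δ * U δ)) - M.xi (Rt M b * U δ)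

def S_sps : Prop := ∀ (M : Mod) (l : Filter ℝ) (F : Fr M l) (U : ℝ → Op M) (D f : ℝ → M.H)
  (a b : ℝ) (e : Bool), SB F U D a → o1 l f →
    Tendsto (fun δ => (⟪D δ, f δ⟫_ℂ).im) l (𝓝 (sg e * (Real.pi / 4))) →
      SB F (fun δ => WB M b (f δ) * U δ) D (-(2 * b) - a)

def S_pulS : Prop := ∀ (M : Mod) (l : Filter ℝ) (F : Fr M l) (U : ℝ → Op M) (D x : ℝ → M.H),
  (SB F U D 0 → SB F (fun δ => WZ M (x δ) * U δ) (fun δ => D δ + x δ) 0) ∧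
  (SB F U D (-(Real.pi / 2)) →
    SB F (fun δ => WZ M (x δ) * U δ) (fun δ => D δ - x δ) (-(Real.pi / 2)))

def S_sp : Prop := ∀ (M : Mod) (l : Filter ℝ), l ≤ 𝓝[>] 0 →
  ∀ (F : Fr M l) (U : ℝ → Op M) (E : ℝ → M.H → ℝ) (D : ℝ → M.H) (a b : ℝ), Rest F U E D a →
    Away l (mark U D b) →
      ∃ U' E', Rest F U' E' D (-(2 * b) - a) ∧ Sim l U U' (fun _ => Rt M 0) ∧ EC l E E'

def S_pulse : Prop := ∀ (M : Mod) (l : Filter ℝ), l ≤ 𝓝[>] 0 →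
  ∀ (F : Fr M l) (U : ℝ → Op M) (E : ℝ → M.H → ℝ) (D : ℝ → M.H) (g : ℝ), Rest F U E D 0 →
    Rest F (fun δ => WZ M (g • M.xi (U δ)) * U δ)
      (fun δ η => E δ η + g * (⟪η, M.xi (U δ)⟫_ℂ ^ 2).im) (fun δ => D δ + g • M.xi (U δ)) 0 ∧
    mark (fun δ => WZ M (g • M.xi (U δ)) * U δ) (fun δ => D δ + g • M.xi (U δ)) 0 = mark U D 0

def S_mid : Prop := ∀ (M : Mod) (l : Filter ℝ), l ≤ 𝓝[>] 0 →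
  ∀ (F : Fr M l) (U : ℝ → Op M) (E : ℝ → M.H → ℝ) (D d : ℝ → M.H) (s : ℝ), Rest F U E D 0 →
    Away l (mark U D 0) → s ≠ 0 → (∀ δ, d δ = (s / (2 * δ)) • M.xi (U δ)) →
      Mid F (fun δ => WZ M (d δ) * U δ) (fun δ => D δ + d δ) d ∧
      (O1 l fun δ => δ • (D δ + d δ)) ∧
      ∀ b, Real.cos (2 * b) ≠ 0 → Away l (mark (fun δ => WZ M (d δ) * U δ) (fun δ => D δ + d δ) b)

def S_vee : Prop := ∀ (M : Mod) (l : Filter ℝ), l ≤ 𝓝[>] 0 →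
  ∀ (F : Fr M l) (U : ℝ → Op M) (E : ℝ → M.H → ℝ) (D d : ℝ → M.H) (g : ℝ → ℝ), Mid F U D d →
    (∀ δ, Reach M (U δ) (E δ)) → (∀ δ, d δ = g δ • M.xi (U δ)) → (O1 l fun δ => δ * g δ) →
    (O1 l fun δ => δ • D δ) → Away l (mark U D 0) → Away l (mark U D (Real.pi / 8)) →
      ∃ (V : ℝ → Op M) (f : ℝ → M.H) (E' : ℝ → M.H → ℝ), (∀ δ, Reach M (V δ * U δ) (E' δ)) ∧
        (∀ δ, M.Dec (V δ)) ∧ SB F (fun δ => V δ * U δ) D (-(Real.pi / 2)) ∧ Od l f ∧ EC l E E' ∧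
        ∀ σ x, Bd M l x → od l fun δ =>
          V δ (M.W (sg σ • d δ) (x δ)) - WZ M (f δ) (M.W (sg σ • d δ) (x δ))

def S_dxi : Prop := ∀ (M : Mod) (l : Filter ℝ), l ≤ 𝓝[>] 0 →
  ∀ (F : Fr M l) (U V : ℝ → Op M) (D d f : ℝ → M.H), Mid F U D d → (∀ δ, M.Dec (V δ)) →
    SB F (fun δ => V δ * U δ) D (-(Real.pi / 2)) →
    (∀ σ x, Bd M l x → od l fun δ =>
      V δ (M.W (sg σ • d δ) (x δ)) - WZ M (f δ) (M.W (sg σ • d δ) (x δ))) →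
    od l fun δ => M.xi (U δ) - M.xi (V δ * U δ) - (2 * δ) • F.n δ

def S_echo : Prop := ∀ (M : Mod) (l : Filter ℝ), l ≤ 𝓝[>] 0 →
  ∀ (F : Fr M l) (U : ℝ → Op M) (E : ℝ → M.H → ℝ) (D : ℝ → M.H) (s : ℝ), Rest F U E D 0 →
    Away l (mark U D 0) → s ≠ 0 → ∃ U' E' D', Rest F U' E' D' (-(Real.pi / 2)) ∧
      Sim l U U' (fun δ => WZ M (s • F.n δ)) ∧ ES F E E' ∧ Away l (mark U' D' 0)

def S_gen : Prop := ∀ (M : Mod) (l : Ultrafilter ℝ) (U : ℝ → Op M) (D : ℝ → M.H) (b0 : ℝ),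
  (∀ δ, M.Dec (U δ)) → (O1 l fun δ => δ • D δ) → Away l (mark U D b0) →
    {b | ¬ Away l (mark U D b)}.Countable

def S_rg : Prop := ∀ (M : Mod) (l : Ultrafilter ℝ), (l : Filter ℝ) ≤ 𝓝[>] 0 →
  ∀ (F : Fr M l) (U : ℝ → Op M) (E : ℝ → M.H → ℝ) (D : ℝ → M.H) (s : ℝ), Rest F U E D 0 →
    Away l (mark U D 0) → s ≠ 0 → ∃ U' E' D', Rest F U' E' D' 0 ∧
      Sim l U U' (fun δ => WZ M (s • F.n δ)) ∧ ES F E E' ∧ Away l (mark U' D' 0)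

def S_rot : Prop := ∀ (M : Mod) (l : Filter ℝ), l ≤ 𝓝[>] 0 →
  ∀ (F : Fr M l) (U : ℝ → Op M) (E : ℝ → M.H → ℝ) (D : ℝ → M.H) (b : ℝ), Rest F U E D 0 →
    Away l (mark U D (b / 2)) → Away l (mark U D b) → ∃ U' E', Rest F U' E' D 0 ∧
      Sim l U U' (fun _ => Rt M b) ∧ EC l E E' ∧ Away l (mark U' D 0)

def S_mark : Prop := ∀ (M : Mod) (l : Filter ℝ), l ≤ 𝓝[>] 0 → ∀ s : ℝ,
  ∃ (F : Fr M l) (U : ℝ → Op M) (E : ℝ → M.H → ℝ) (D : ℝ → M.H), Rest F U E D 0 ∧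
    Sim l (fun _ => 1) U (fun δ => WZ M (s • F.n δ)) ∧
    (o1 l fun δ => δ • D δ - s • Zo M M.Ω) ∧ ES F (fun _ _ => 0) E

def S_init : Prop := ∀ (M : Mod) (l : Filter ℝ), l ≤ 𝓝[>] 0 → ∀ β g s : ℕ → ℝ, s 0 ≠ 0 →
  ∃ (F : Fr M l) (U : ℝ → Op M) (E : ℝ → M.H → ℝ) (D : ℝ → M.H) (x : ℕ → ℝ → M.H),
    TI F β g s 0 U E D x

def S_step : Prop := ∀ (M : Mod) (l : Ultrafilter ℝ), (l : Filter ℝ) ≤ 𝓝[>] 0 →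
  ∀ (F : Fr M l) (β g s : ℕ → ℝ) (t : ℕ) (U : ℝ → Op M) (E : ℝ → M.H → ℝ) (D : ℝ → M.H)
    (x : ℕ → ℝ → M.H) (η : ℝ), TI F β g s t U E D x → s (t + 1) ≠ 0 → 0 < η →
      ∃ b U' E' D' y, |b - β t| ≤ η ∧
        TI F (Function.update β t b) g s (t + 1) U' E' D' (Function.update x (t + 1) y)

def S_orth : Prop := ∀ (M : Mod) (l : Filter ℝ), l ≤ 𝓝[>] 0 →
  ∀ (F : Fr M l) (U : ℝ → Op M) (E : ℝ → M.H → ℝ) (D x : ℝ → M.H) (b : ℝ), Rest F U E D 0 →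
    Away l (mark U D b) → (N0 M l fun δ => U δ (x δ)) → o1 l fun δ => ⟪x δ, F.n δ⟫_ℂ

def S_lim : Prop := ∀ (M : Mod) (l : Filter ℝ) (F : Fr M l) (β g s : ℕ → ℝ) (p : ℕ)
  (x : ℕ → ℝ → M.H), (∀ j ≤ p, o1 l fun δ => ⟪x j δ, F.n δ⟫_ℂ) →
  (∀ i ≤ p, ∀ j ≤ p, o1 l fun δ => ⟪x i δ, x j δ⟫_ℂ -
    ⟪M.xi (CW M β (md F g s x δ) i), M.xi (CW M β (md F g s x δ) j)⟫_ℂ) →
  ∀ i ≤ p, ∀ j ≤ p, Tendsto (fun δ => ⟪x i δ, x j δ⟫_ℂ) l (𝓝 (GR β g s p i j))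

def S_fin : Prop := ∀ (M : Mod) (l : Filter ℝ), l ≤ 𝓝[>] 0 →
  ∀ (F : Fr M l) (β g s : ℕ → ℝ) (p : ℕ) (U : ℝ → Op M) (E : ℝ → M.H → ℝ) (D : ℝ → M.H)
    (x : ℕ → ℝ → M.H), TI F β g s p U E D x →
      Tendsto (fun δ => E δ (M.xi (U δ))) l (𝓝 (vR β g s p))

/-- plain words simulate the random field -/
def S_I : Prop := ∀ (β γ s : ℕ → ℝ) (p : ℕ) (ε : ℝ), 0 < ε →
  ∃ β' γ' p', |vR β' γ' 0 p' - vR β γ s p| < ε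

end Vale.Agent.P367.Q.I
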