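import Vale.Agent.P367.QCellA

/-! Auxiliary facts for the step of the invariant. -/

namespace Vale.Agent.P367.Q

open Complex MeasureTheory ProbabilityTheory Filter Topology Matrix
open scoped InnerProductSpace

namespace FS

variable {K : ℕ} {M : FS (Lab K) (muK K)} {D : Fin K → Lab K → ℝ} {T A A' B b C : Set ℝ}
  {a : SimpleFunc (Lab K) ℝ} {L s ω m : ℝ} {U R V V' : M.H →L[ℂ] M.H} {e d x y ψ : M.H}

theorem qis_res (hB : MeasurableSet B) (hC : MeasurableSet C) (hBC : B ⊆ C)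
    (h : M.sc (ind C) * V = M.sc (ind C) * V') : M.sc (ind B) * V = M.sc (ind B) * V' := by
  have e : M.sc (ind B) = M.sc (ind B) * M.sc (ind C) := by
    rw [sc_ind_ind hB hC, Set.inter_eq_left.2 hBC]
  rw [e, mul_assoc, h, mul_assoc]

theorem qis_app (hB : MeasurableSet B) (hV : M.Dec V) (hV' : M.Dec V')
    (h : M.sc (ind B) * V = M.sc (ind B) * V') (x : M.H) :
    V (M.sc (ind B) x) = V' (M.sc (ind B) x) := by
  rw [hV.sc_apply (BR.ind hB), hV'.sc_apply (BR.ind hB)]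
  exact congrArg (· x) h

theorem qis_mx (hD : Fam T D) (hB : MeasurableSet B) (hV : M.Dec V) (hU : M.Dec U)
    (hx : x ∈ M.XX) (h : M.sc (ind B) * V = M.sc (ind B) * M.EZc (M.WZ D) x) :
    M.mx B (V * U) = M.mx B U := by
  have hE := (isW_WZ hD).EZc_dec hx
  have h1 := (hE.mul hU).xi_sub_le (hV.mul hU) (BR.ind hB)
  have h2 : ∀ z, (V * U) (M.sc (ind B) z) = (M.EZc (M.WZ D) x * U) (M.sc (ind B) z) := fun z => by
    rw [ContinuousLinearMap.mul_apply, ContinuousLinearMap.mul_apply, hU.sc_apply (BR.ind hB)]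
    exact qis_app hB hV hE h _
  rw [h2, h2, sub_self, sub_self, norm_zero, add_zero, xi_mul hE.1 ((isW_WZ hD).EZc_Z hx)] at h1
  exact sub_eq_zero.1 (norm_le_zero_iff.1 h1)

theorem qis_pyth (hB : MeasurableSet B) (hb : MeasurableSet b) (h : Disjoint B b) (x y : M.H) :
    ‖M.sc (ind B) x + M.sc (ind b) y‖ ^ 2 = ‖M.sc (ind B) x‖ ^ 2 + ‖M.sc (ind b) y‖ ^ 2 := by
  rw [@norm_add_sq ℂ, inner_ind_ind hB hb h]
  simp

theorem qis_un (hB : MeasurableSet B) (hb : MeasurableSet b) (h : Disjoint B b) (x : M.H) :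
    M.sc (ind (B ∪ b)) x = M.sc (ind B) x + M.sc (ind b) x := by
  rw [sc_ind_union hB hb h]
  rfl

theorem qis_norm (hb : MeasurableSet b) : ‖M.sc (ind b) M.Ω‖ = √(nu0.real b) := by
  rw [← norm_ind_sq (M := M) hb, Real.sqrt_sq (norm_nonneg _)]

theorem qis_norm_mx (hb : MeasurableSet b) (hU : M.Dec U) : ‖M.mx b U‖ = √(nu0.real b) := by
  rw [mx, hU.norm_sc_xi (BR.ind hb), qis_norm hb]

theorem qis_comm {g g' : Lab K → ℝ} (hg : BR g) (hg' : BR g') (x : M.H) :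
    M.sc g (M.sc g' x) = M.sc g' (M.sc g x) :=
  congrArg (· x) (M.sc_loc hg hg'.bm)

theorem qis_mem (hb : MeasurableSet b) : M.sc a (M.sc (ind b) M.Ω) ∈ M.Md b := by
  rw [qis_comm (BR.simple a) (BR.ind hb)]
  exact ind_mem_Md hb (M.sc_mem (BR.simple a))

theorem qis_esub (hB : MeasurableSet B) (hb : MeasurableSet b) (hBb : Disjoint B b) {k : ℝ}
    (he : e ∈ M.Md B) (hd : d ∈ M.Md b)
    (h1 : ‖e - M.sc a (M.sc (ind B) M.Ω)‖ ^ 2 ≤ k ^ 2 * nu0.real B)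
    (h2 : ‖d - M.sc a (M.sc (ind b) M.Ω)‖ ≤ k * √(nu0.real b)) :
    ‖e + d - M.sc a (M.sc (ind (B ∪ b)) M.Ω)‖ ^ 2 ≤ k ^ 2 * nu0.real (B ∪ b) := by
  have h3 := (sub_mem he (qis_mem (a := a) hB)).2
  have h4 := (sub_mem hd (qis_mem (a := a) hb)).2
  have h5 := pow_le_pow_left₀ (norm_nonneg _) h2 2
  rw [mul_pow, Real.sq_sqrt measureReal_nonneg] at h5
  rw [qis_un hB hb hBb, map_add, add_sub_add_comm, ← h3, ← h4, qis_pyth hB hb hBb, h3, h4,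
    measureReal_union hBb hb]
  linarith

theorem qis_out (hD : Fam T D) (hA : MeasurableSet A) (hB : MeasurableSet B)
    (hb : MeasurableSet b) (hBb : Disjoint B b) (he : e ∈ M.Md B) (hd : d ∈ M.Md b)
    (h0 : M.sc (ind (A \ B)) * R = M.sc (ind (A \ B)) * M.EZc (M.WZ D) (s • e))
    (h1 : M.sc (ind (A \ b)) * V = M.sc (ind (A \ b)) * M.EZc (M.WZ D) (s • d)) :
    M.sc (ind (A \ (B ∪ b))) * (V * R) =
      M.sc (ind (A \ (B ∪ b))) * M.EZc (M.WZ D) (s • (e + d)) := by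
  have hm := hA.diff (hB.union hb)
  have he' := (M.Md B).smul_mem s he
  have hd' := (M.Md b).smul_mem s hd
  rw [cell_mul (qis_res hm (hA.diff hb) (Set.diff_subset_diff_right Set.subset_union_right) h1)
      (qis_res hm (hA.diff hB) (Set.diff_subset_diff_right Set.subset_union_left) h0)
      (((isW_WZ hD).EZc_dec hd'.1).2.2 _ (BR.ind hm)),
    (isW_WZ hD).EZc_mul hd'.1 he'.1, Md_orth hb hB hBb.symm hd' he', smul_add, add_comm (s • e)]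
  simp

theorem qis_LL (hD : Fam T D) (hA : MeasurableSet A) (hb : MeasurableSet b) (hbA : b ⊆ A)
    (hR : M.Dec R) (hU : M.Dec U) (hx : x ∈ M.Md A')
    (h0 : M.sc (ind b) * R = M.sc (ind b) * M.EZc (M.WZ D) x)
    (hUA : U (M.sc (ind A) M.Ω) ∈ M.LL D A A') : (R * U) (M.sc (ind b) M.Ω) ∈ M.LL D b A' := by
  have e : U (M.sc (ind b) M.Ω) = M.sc (ind b) (U (M.sc (ind A) M.Ω)) := by
    rw [← hU.sc_apply (BR.ind hb), ← ContinuousLinearMap.mul_apply (M.sc (ind b)),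
      sc_ind_ind hb hA, Set.inter_eq_left.2 hbA]
  rw [ContinuousLinearMap.mul_apply, e, qis_app hb hR ((isW_WZ hD).EZc_dec hx.1) h0]
  exact LL_EZc hD (LL_ind hb hUA) hx

theorem qis_xib (hD : Fam T D) (hb : MeasurableSet b) (hU : M.Dec U) (hV : M.Dec V)
    {f : SimpleFunc (Lab K) M.H} (hf : ∀ c, f c ∈ M.XX) (hUb : U (M.sc (ind b) M.Ω) ∈ M.LL D b A')
    {k : ℝ} (h2 : ∀ ψ ∈ M.LL D b A', ‖V ψ - M.Wf (M.WZ D) f ψ‖ ≤ k * ‖ψ‖) :
    ‖M.mx b (V * U) - M.mx b U‖ ≤ 2 * k * √(nu0.real b) := by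
  have hW := (isW_WZ hD).Wf_dec hf
  have h1 := (hW.mul hU).xi_sub_le (hV.mul hU) (BR.ind hb)
  rw [xi_mul hW.1 ((isW_WZ hD).Wf_loc hf (BM.const _)).symm] at h1
  have e : U (M.sc (ind b) (M.xi U)) = M.sp (pau 2) (U (M.sc (ind b) M.Ω)) := by
    rw [hU.sc_apply (BR.ind hb), xi, hU.apply_star, hU.sc_apply (BR.ind hb),
      (M.dec_pau 2).sc_apply (BR.ind hb)]
  have h3 := h2 _ hUb
  have h4 := h2 _ (LL_loc hUb (BM.const (pau 2)))
  rw [hU.norm, qis_norm hb] at h3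
  erw [(M.dec_pau 2).norm, hU.norm, qis_norm hb] at h4
  simp only [ContinuousLinearMap.mul_apply, e] at h1
  exact h1.trans ((add_le_add h3 h4).trans_eq (by ring))

theorem qis_ysub (hD : Fam T D) (hA : MeasurableSet A) (hB : MeasurableSet B)
    (hb : MeasurableSet b) (hBA : B ⊆ A) (hbA : b ⊆ A) (hR : M.Dec R) (hU : M.Dec U)
    (hx : x ∈ M.XX) (h0 : M.sc (ind (A \ B)) * R = M.sc (ind (A \ B)) * M.EZc (M.WZ D) x)
    {k : ℝ} (hk : 0 ≤ k) (h1 : ‖M.mx B (R * U) - M.mx B U‖ ^ 2 ≤ k ^ 2 * nu0.real B)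
    (hm : nu0.real b ≤ m) : ‖M.mx (A \ b) (R * U) - M.mx A U‖ ≤ k + √m := by
  have e1 : ∀ X, M.mx A X = M.mx B X + M.mx (A \ B) X := fun X => by
    rw [mx, mx, mx, ← qis_un hB (hA.diff hB) Set.disjoint_sdiff_right, Set.union_diff_cancel hBA]
  have e2 : ∀ X, M.mx A X = M.mx b X + M.mx (A \ b) X := fun X => by
    rw [mx, mx, mx, ← qis_un hb (hA.diff hb) Set.disjoint_sdiff_right, Set.union_diff_cancel hbA]
  have e3 : M.mx (A \ b) (R * U) - M.mx A U = (M.mx B (R * U) - M.mx B U) - M.mx b (R * U) := by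
    have h3 := e1 (R * U)
    rw [qis_mx hD (hA.diff hB) hR hU hx h0, e2] at h3
    rw [e1 U, eq_sub_of_add_eq' h3]
    abel
  have h4 : ‖M.mx B (R * U) - M.mx B U‖ ≤ k :=
    (pow_le_pow_iff_left₀ (norm_nonneg _) hk two_ne_zero).1
      (h1.trans (mul_le_of_le_one_right (sq_nonneg k) measureReal_le_one))
  rw [e3]
  refine (norm_sub_le _ _).trans (add_le_add h4 ?_)
  rw [qis_norm_mx hb (hR.mul hU)]
  exact Real.sqrt_le_sqrt hm

theorem qis_im (hb : MeasurableSet b) (hd : d ∈ M.Md b) (hy : y ∈ M.XX) {k l : ℝ}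
    (h2 : ‖d - M.sc a (M.sc (ind b) M.Ω)‖ ≤ k) (h3 : ‖M.sc (ind b) y‖ ≤ l) :
    |(⟪d, y⟫_ℂ).im| ≤ k * l := by
  have h4 := (sub_mem hd (qis_mem (a := a) hb)).2
  have h5 : (⟪M.sc a (M.sc (ind b) M.Ω), y⟫_ℂ).im = 0 := by
    rw [← ContinuousLinearMap.mul_apply, ← M.sc_mul (BR.simple a) (BR.ind hb)]
    exact hy _ ((BR.simple a).mul (BR.ind hb))
  have h6 : (⟪d, y⟫_ℂ).im = (⟪d - M.sc a (M.sc (ind b) M.Ω), M.sc (ind b) y⟫_ℂ).im := by
    rw [← M.inner_star, M.sc_star (BR.ind hb), h4, inner_sub_left, sub_im, h5, sub_zero]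
  rw [h6]
  exact (abs_im_le_norm _).trans ((norm_inner_le_norm _ _).trans
    (mul_le_mul h2 h3 (norm_nonneg _) ((norm_nonneg _).trans h2)))

/-- the estimate on the old cells -/
theorem qis_old (hD : Fam T D) (hB : MeasurableSet B) (hV : M.Dec V) (hx : x ∈ M.XX)
    {f g f' g' : SimpleFunc (Lab K) M.H} (hf : ∀ c, f c ∈ M.XX) (hg : ∀ c, g c ∈ M.XX)
    (hf' : ∀ c : Lab K, c.1 ∈ B → f' c = f c) (hg' : ∀ c : Lab K, c.1 ∈ B → g' c = x + g c)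
    (h1 : M.sc (ind B) * V = M.sc (ind B) * M.EZc (M.WZ D) x) (ho : ∀ c, ⟪x, g c⟫_ℂ = 0)
    {k : ℝ} (hk : 0 ≤ k) (hi : ∀ c, |2 * (⟪x, f c⟫_ℂ).im| ≤ k) (φ : M.H) :
    ‖M.sc (ind B) (V φ - M.Wf (M.WZ D) f' (M.EZ (M.WZ D) g' ψ))‖ ≤
      ‖M.sc (ind B) (φ - M.Wf (M.WZ D) f (M.EZ (M.WZ D) g ψ))‖ + 8 * k * ‖M.sc (ind B) ψ‖ := by
  have hw := isW_WZ (M := M) hD
  have hP := BR.ind (K := K) hB
  have hE := hw.EZc_dec hx
  have hW := hw.Wf_dec hf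
  have hG := hw.EZ_dec hg
  have hc : ∀ c, SimpleFunc.const (Lab K) x c ∈ M.XX := fun _ => hx
  have e0 : M.EZ (M.WZ D) (SimpleFunc.const (Lab K) x) = M.EZc (M.WZ D) x :=
    EZ_const' _ fun _ => rfl
  have e1 := hw.EZ_mul hc hg
  have e2 := hw.EZ_Wf hf hc
  simp only [SimpleFunc.const_apply, ho, zero_im, ph_zero, one_mul, e0] at e1 e2
  have hm : Measurable fun c => 2 * (⟪x, f c⟫_ℂ).im :=
    (meas_im (SimpleFunc.const (Lab K) x) f).1.const_mul 2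
  have e3 : M.sc (ind B) * M.Wf (M.WZ D) f' = M.sc (ind B) * M.Wf (M.WZ D) f := by
    rw [ind_eq]
    exact sc_Wf_congr _ (measurable_fst hB) hf'
  have e4 : M.sc (ind B) * M.EZ (M.WZ D) g' =
      M.sc (ind B) * (M.EZc (M.WZ D) x * M.EZ (M.WZ D) g) := by
    rw [e1, ind_eq]
    exact sc_EZ_congr _ (measurable_fst hB) hg'
  have e5 : M.sc (ind B) (M.Wf (M.WZ D) f' (M.EZ (M.WZ D) g' ψ)) =
      M.Wf (M.WZ D) f (M.EZc (M.WZ D) x (M.EZ (M.WZ D) g (M.sc (ind B) ψ))) := by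
    have := congrArg (· ψ) (cell_mul e3 e4 (hW.2.2 _ hP))
    rw [hG.sc_apply hP, hE.sc_apply hP, hW.sc_apply hP]
    exact this
  have e6 : M.sc (ind B) (V φ) = M.EZc (M.WZ D) x (M.sc (ind B) φ) := by
    rw [← hV.sc_apply hP, qis_app hB hV hE h1]
  have e7 : M.EZc (M.WZ D) x (M.sc (ind B) (M.Wf (M.WZ D) f (M.EZ (M.WZ D) g ψ))) =
      M.Wf (M.WZ D) f (M.EZc (M.WZ D) x (M.lr 2 (fun c => 2 * (⟪x, f c⟫_ℂ).im)
        (M.EZ (M.WZ D) g (M.sc (ind B) ψ)))) := by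
    rw [← hW.sc_apply hP, ← hG.sc_apply hP]
    exact congrArg (· (M.EZ (M.WZ D) g (M.sc (ind B) ψ))) e2
  rw [map_sub, map_sub, e5, e6]
  refine (norm_sub_le_norm_sub_add_norm_sub _
    (M.EZc (M.WZ D) x (M.sc (ind B) (M.Wf (M.WZ D) f (M.EZ (M.WZ D) g ψ)))) _).trans
    (add_le_add ?_ ?_)
  · rw [← map_sub, hE.norm]
  · rw [e7, ← map_sub, hW.norm, ← map_sub, hE.norm, ← hG.norm (M.sc (ind B) ψ)]
    exact norm_lr_sub 2 hm hk hi _

/-- the estimate on the new cell -/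
theorem qis_new (hD : Fam T D) (hb : MeasurableSet b) (hV : M.Dec V) (hR : M.Dec R)
    (hx : x ∈ M.Md A') {f f' g' : SimpleFunc (Lab K) M.H} (hf : ∀ c, f c ∈ M.XX)
    (hf' : ∀ c : Lab K, c.1 ∈ b → f' c = f c) (hg' : ∀ c : Lab K, c.1 ∈ b → g' c = x)
    (h0 : M.sc (ind b) * R = M.sc (ind b) * M.EZc (M.WZ D) x) {k : ℝ}
    (h2 : ∀ ψ ∈ M.LL D b A', ‖V ψ - M.Wf (M.WZ D) f ψ‖ ≤ k * ‖ψ‖) (hψ : ψ ∈ M.LL D A A') :
    ‖M.sc (ind b) (V (R ψ) - M.Wf (M.WZ D) f' (M.EZ (M.WZ D) g' ψ))‖ ≤ k * ‖M.sc (ind b) ψ‖ := by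
  have hw := isW_WZ (M := M) hD
  have hP := BR.ind (K := K) hb
  have hE := hw.EZc_dec hx.1
  have hW := hw.Wf_dec hf
  have e3 : M.sc (ind b) * M.Wf (M.WZ D) f' = M.sc (ind b) * M.Wf (M.WZ D) f := by
    rw [ind_eq]
    exact sc_Wf_congr _ (measurable_fst hb) hf'
  have e4 : M.sc (ind b) * M.EZ (M.WZ D) g' = M.sc (ind b) * M.EZc (M.WZ D) x := by
    rw [ind_eq]
    exact sc_EZ _ (measurable_fst hb) hg'
  have e5 : M.sc (ind b) (M.Wf (M.WZ D) f' (M.EZ (M.WZ D) g' ψ)) =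
      M.Wf (M.WZ D) f (M.EZc (M.WZ D) x (M.sc (ind b) ψ)) := by
    have := congrArg (· ψ) (cell_mul e3 e4 (hW.2.2 _ hP))
    rw [hE.sc_apply hP, hW.sc_apply hP]
    exact this
  rw [map_sub, e5, ← hV.sc_apply hP, ← hR.sc_apply hP, qis_app hb hR hE h0,
    ← hE.norm (M.sc (ind b) ψ)]
  exact h2 _ (LL_EZc hD (LL_ind hb hψ) hx)

theorem qis_glue (hB : MeasurableSet B) (hb : MeasurableSet b) (h : Disjoint B b) {k : ℝ}
    (hk : 0 ≤ k) (h1 : ‖M.sc (ind B) x‖ ≤ k * ‖M.sc (ind B) y‖)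
    (h2 : ‖M.sc (ind b) x‖ ≤ k * ‖M.sc (ind b) y‖) :
    ‖M.sc (ind (B ∪ b)) x‖ ≤ k * ‖M.sc (ind (B ∪ b)) y‖ := by
  refine (pow_le_pow_iff_left₀ (norm_nonneg _) (by positivity) two_ne_zero).1 ?_
  have h3 := pow_le_pow_left₀ (norm_nonneg _) h1 2
  have h4 := pow_le_pow_left₀ (norm_nonneg _) h2 2
  rw [mul_pow] at h3 h4 ⊢
  rw [qis_un hB hb h, qis_un hB hb h, qis_pyth hB hb h, qis_pyth hB hb h]
  linarith

end FS

end Vale.Agent.P367.Q
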