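import Vale.Agent.P367.QCell
import Vale.Agent.P367.QEv
import Vale.Agent.P367.QInvS

/-! The invariant of the loop over the cells. -/

namespace Vale.Agent.P367.Q

open Complex MeasureTheory ProbabilityTheory Filter Topology Matrix
open scoped InnerProductSpace

namespace FS

variable {K : ℕ} (M : FS (Lab K) (muK K)) (D : Fin K → Lab K → ℝ)

/-- pointwise product of simple functions -/
noncomputable def sm (a : SimpleFunc (Lab K) ℝ) (y : SimpleFunc (Lab K) M.H) :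
    SimpleFunc (Lab K) M.H := (a.pair y).map fun p => p.1 • p.2

theorem sm_apply (a : SimpleFunc (Lab K) ℝ) (y : SimpleFunc (Lab K) M.H) (c : Lab K) :
    M.sm a y c = a c • y c := rfl

/-- the state of the bus after the cells in `B` -/
def InvC (C B : Set ℝ) (ω : ℝ) (U' : M.H →L[ℂ] M.H) : Prop :=
  ∃ E, M.Ev (M.WZ D) (M.Md B) E ∧ M.sc (ind C) * U' = M.sc (ind C) * E ∧
    (1 - 2 ^ 17 * ω ^ 2 * nu0.real B) * nu0.real C ≤
      ‖⟪M.sc (ind C) M.Ω, E (M.sc (ind C) M.Ω)⟫_ℂ‖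

/-- the action `R` of the cells in `B` on the class `A` -/
structure InvA (A A' B : Set ℝ) (a : SimpleFunc (Lab K) ℝ) (L s ω m : ℝ)
    (U R : M.H →L[ℂ] M.H) (e : M.H) (y g : SimpleFunc (Lab K) M.H) : Prop where
  dec : M.Dec R
  e_mem : e ∈ M.Md B
  e_sub : ‖e - M.sc a (M.sc (ind B) M.Ω)‖ ^ 2 ≤ (100 * L * ω) ^ 2 * nu0.real B
  out : M.sc (ind (A \ B)) * R = M.sc (ind (A \ B)) * M.EZc (M.WZ D) (s • e)
  xi_sub : ‖M.mx B (R * U) - M.mx B U‖ ^ 2 ≤ (600 * ω) ^ 2 * nu0.real B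
  y_lev : Lev 0 y
  y_mem : ∀ c, y c ∈ M.Md A
  y_sub : ∀ c, ‖y c - s • M.mx A U‖ ≤ |s| * (600 * ω + √m)
  y_ind : ∀ c b, MeasurableSet b → ‖M.sc (ind b) (y c)‖ ≤ |s| * √(nu0.real b)
  g_lev : Lev 0 g
  g_mem : ∀ c, g c ∈ M.Md B
  g_sub : ∀ c, ‖g c - s • e‖ ≤ |s| * L * √m
  app : ∀ ψ ∈ M.LL D A A', ‖M.sc (ind B) (R ψ - M.Wf (M.WZ D) (M.sm a y) (M.EZ (M.WZ D) g ψ))‖ ≤
    (300 * ω + 1600 * L ^ 2 * s ^ 2 * ω * nu0.real B) * ‖M.sc (ind B) ψ‖

variable {M D} {T A A' B b C : Set ℝ} {a : SimpleFunc (Lab K) ℝ} {L s ω m : ℝ}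
  {U U' R V : M.H →L[ℂ] M.H} {e : M.H} {y g : SimpleFunc (Lab K) M.H}

theorem InvC.vac (h : M.InvC D C B ω U') (hD : Fam T D) (hB : MeasurableSet B)
    (hb : MeasurableSet b) (hC : MeasurableSet C) (hBb : Disjoint B b) (hU : M.Dec U')
    (hω : 2 ^ 17 * ω ^ 2 ≤ 1 / 10) :
    M.Vac (M.WZ D) (M.Md b) (M.orb (U' (M.sc (ind C) M.Ω))) ∧ nu0.real C / 2 ≤
      (⟪U' (M.sc (ind C) M.Ω), M.sp (pau 0) (U' (M.sc (ind C) M.Ω))⟫_ℂ).re := by
  obtain ⟨E, hE, h1, h2⟩ := h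
  have hw := isW_WZ (M := M) hD
  have hd : M.Dec E := hw.Ev_dec Md_le hE
  have hbr : BR (ind C : Lab K → ℝ) := BR.ind hC
  have e : U' (M.sc (ind C) M.Ω) = E (M.sc (ind C) M.Ω) := by
    rw [hU.sc_apply hbr, hd.sc_apply hbr]
    exact congrArg (fun X : M.H →L[ℂ] M.H => X M.Ω) h1
  have hX : M.sp (pau 0) (M.sc (ind C) M.Ω) = M.sc (ind C) M.Ω := by
    rw [(M.dec_pau 0).sc_apply hbr, M.pX_Ω]
  rw [e]
  refine ⟨(Ev.vac hw (vac_ind hD hC) Md_le Md_le (fun x hx y hy => Md_orth hB hb hBb hx hy)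
    hE).mono le_rfl Set.subset_union_left, ?_⟩
  have h3 := inner_X_ge hX (E (M.sc (ind C) M.Ω))
  rw [hd.norm, norm_ind_sq hC] at h3
  have hn : 0 ≤ nu0.real C := measureReal_nonneg
  rcases hn.eq_or_lt with h0 | h0
  · have hz : M.sc (ind C) M.Ω = 0 := by
      rw [← norm_eq_zero, ← sq_eq_zero_iff, norm_ind_sq hC, ← h0]
    rw [hz, ← h0]
    simp
  · have h4 : 2 ^ 17 * ω ^ 2 * nu0.real B ≤ 1 / 10 :=
      (mul_le_of_le_one_right (by positivity) measureReal_le_one).trans hω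
    have h5 : 9 / 10 * nu0.real C ≤ ‖⟪M.sc (ind C) M.Ω, E (M.sc (ind C) M.Ω)⟫_ℂ‖ :=
      le_trans (mul_le_mul_of_nonneg_right (by linarith) hn) h2
    have h6 := pow_le_pow_left₀ (by positivity) h5 2
    refine le_of_mul_le_mul_left ?_ h0
    nlinarith

theorem InvC.step (h : M.InvC D C B ω U') (hD : Fam T D) (hB : MeasurableSet B)
    (hb : MeasurableSet b) (hC : MeasurableSet C) (hBb : Disjoint B b)
    (hω : 2 ^ 17 * ω ^ 2 ≤ 1 / 10) (hV : M.InvC D C b ω V) : M.InvC D C (B ∪ b) ω (V * U') := by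
  obtain ⟨E, hE, h1, h2⟩ := h
  obtain ⟨E', hE', h1', h2'⟩ := hV
  have hw := isW_WZ (M := M) hD
  have hd' : M.Dec E' := hw.Ev_dec Md_le hE'
  have hbr : BR (ind C : Lab K → ℝ) := BR.ind hC
  have hX : M.sp (pau 0) (M.sc (ind C) M.Ω) = M.sc (ind C) M.Ω := by
    rw [(M.dec_pau 0).sc_apply hbr, M.pX_Ω]
  refine ⟨E' * E, (hE'.mono (Md_mono hb (hB.union hb) Set.subset_union_right)).mul
    (hE.mono (Md_mono hB (hB.union hb) Set.subset_union_left)), ?_, ?_⟩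
  · rw [← mul_assoc, h1', ← hd'.2.2 _ hbr, mul_assoc, h1, ← mul_assoc, hd'.2.2 _ hbr, mul_assoc]
  · have h3 := congrArg norm (Ev.mult hw (vac_ind hD hC) hX Md_le Md_le
      (fun x hx y hy => Md_orth hB hb hBb hx hy) hE hE')
    rw [norm_mul, norm_mul, inner_self_eq_norm_sq_to_K, norm_pow, RCLike.norm_ofReal, abs_norm,
      norm_ind_sq hC] at h3
    have hn : 0 ≤ nu0.real C := measureReal_nonneg
    rcases hn.eq_or_lt with h0 | h0
    · rw [← h0, mul_zero]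
      exact norm_nonneg _
    · have h4 : 2 ^ 17 * ω ^ 2 * nu0.real B ≤ 1 / 10 :=
        (mul_le_of_le_one_right (by positivity) measureReal_le_one).trans hω
      have h4' : 2 ^ 17 * ω ^ 2 * nu0.real b ≤ 1 / 10 :=
        (mul_le_of_le_one_right (by positivity) measureReal_le_one).trans hω
      have h5 := mul_le_mul h2' h2 (mul_nonneg (by linarith) hn) (norm_nonneg _)
      rw [← h3] at h5
      refine le_of_mul_le_mul_right (le_trans ?_ h5) h0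
      rw [measureReal_union hBb hb]
      have h6 : 0 ≤ (2 ^ 17 * ω ^ 2 * nu0.real b) * (2 ^ 17 * ω ^ 2 * nu0.real B) *
          (nu0.real C * nu0.real C) := by positivity
      nlinarith

theorem InvA.init (hD : Fam T D) (hA : MeasurableSet A) (hU : M.Dec U) (hL : 0 ≤ L) (hω : 0 ≤ ω) :
    M.InvA D A A' ∅ a L s ω m U 1 0 (SimpleFunc.const _ (s • M.mx A U)) 0 := by
  have hw := isW_WZ (M := M) hD
  refine ⟨Dec.one, zero_mem _, ?_, ?_, ?_, fun _ _ _ _ => rfl,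
    fun _ => (M.Md A).smul_mem s (ind_mem_Md hA hU.xi_mem), fun c => ?_, fun c b hb => ?_,
    fun _ _ _ _ => rfl, fun _ => zero_mem _, fun c => ?_, fun ψ _ => ?_⟩
  · simp [sc_ind_empty]
  · rw [smul_zero, hw.EZc_zero]
  · simp [mx, sc_ind_empty]
  · rw [SimpleFunc.const_apply, sub_self, norm_zero]
    positivity
  · rw [SimpleFunc.const_apply, ContinuousLinearMap.map_smul_of_tower, norm_smul, Real.norm_eq_abs]
    refine mul_le_mul_of_nonneg_left ?_ (abs_nonneg _)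
    have e : M.sc (ind b) (M.mx A U) = M.sc (ind A) (M.sc (ind b) (M.xi U)) := by
      show (M.sc (ind b) * M.sc (ind A)) _ = (M.sc (ind A) * M.sc (ind b)) _
      rw [sc_ind_ind hb hA, sc_ind_ind hA hb, Set.inter_comm]
    rw [e]
    refine (norm_ind_le hA _).trans ?_
    rw [hU.norm_sc_xi (BR.ind hb), ← norm_ind_sq (M := M) hb, Real.sqrt_sq (norm_nonneg _)]
  · rw [smul_zero, sub_zero]
    show ‖(0 : M.H)‖ ≤ _
    rw [norm_zero]
    positivity
  · simp [sc_ind_empty]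

theorem InvA.step (h : M.InvA D A A' B a L s ω m U R e y g) (hD : Fam T D) (hA : MeasurableSet A)
    (hA' : MeasurableSet A') (hB : MeasurableSet B) (hb : MeasurableSet b) (hAA' : A ⊆ A')
    (hBA : B ⊆ A) (hbA : b ⊆ A) (hBb : Disjoint B b) (hL : ∀ c, |a c| ≤ L) (hω : 0 ≤ ω)
    (hm : nu0.real b ≤ m) (hU : M.Dec U) (hUA : U (M.sc (ind A) M.Ω) ∈ M.LL D A A')
    (hV : M.Dec V) {d : M.H} (hd : d ∈ M.Md b) (hd1 : ‖d‖ ≤ L * √(nu0.real b))
    (hd2 : ‖d - M.sc a (M.sc (ind b) M.Ω)‖ ≤ 100 * L * ω * √(nu0.real b))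
    (h1 : M.sc (ind (A \ b)) * V = M.sc (ind (A \ b)) * M.EZc (M.WZ D) (s • d))
    (h2 : ∀ ψ ∈ M.LL D b A', ‖V ψ - M.Wf (M.WZ D) (M.bk A b a s (R * U)) ψ‖ ≤ 300 * ω * ‖ψ‖) :
    ∃ y' g', M.InvA D A A' (B ∪ b) a L s ω m U (V * R) (e + d) y' g' := by
  classical
  have hw := isW_WZ (M := M) hD
  have hS : MeasurableSet (Prod.fst ⁻¹' b : Set (Lab K)) := measurable_fst hb
  have hL0 : 0 ≤ L := (abs_nonneg _).trans (hL (0, 0))
  have hRU := h.dec.mul hU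
  have hAb := hA.diff hb
  have hBb' := hB.union hb
  have hse := (M.Md B).smul_mem s h.e_mem
  have hsd := (M.Md b).smul_mem s hd
  have hse' : s • e ∈ M.Md A' := Md_mono hB hA' (hBA.trans hAA') hse
  have hmx : M.mx (A \ b) (R * U) ∈ M.Md (A \ b) := ind_mem_Md hAb hRU.xi_mem
  have hbk : ∀ c, M.bk A b a s (R * U) c ∈ M.XX := fun c =>
    M.XX.smul_mem (a c) (M.XX.smul_mem s hmx.1)
  have hR0 := qis_res hb (hA.diff hB) (Set.subset_sdiff.2 ⟨hbA, hBb.symm⟩) h.out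
  have hV0 := qis_res hB hAb (Set.subset_sdiff.2 ⟨hBA, hBb⟩) h1
  have hB0 : 0 ≤ nu0.real B := measureReal_nonneg
  have hb0 : 0 ≤ nu0.real b := measureReal_nonneg
  obtain ⟨y', y1, y2⟩ : ∃ y' : SimpleFunc (Lab K) M.H,
      (∀ c : Lab K, c.1 ∈ b → y' c = s • M.mx (A \ b) (R * U)) ∧ ∀ c : Lab K, c.1 ∉ b → y' c = y c :=
    ⟨SimpleFunc.piecewise _ hS (SimpleFunc.const _ (s • M.mx (A \ b) (R * U))) y,
      fun c hc => if_pos hc, fun c hc => if_neg hc⟩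
  obtain ⟨g', g1, g2⟩ : ∃ g' : SimpleFunc (Lab K) M.H,
      (∀ c : Lab K, c.1 ∈ b → g' c = s • e) ∧ ∀ c : Lab K, c.1 ∉ b → g' c = s • d + g c :=
    ⟨SimpleFunc.piecewise _ hS (SimpleFunc.const _ (s • e)) (SimpleFunc.const (Lab K) (s • d) + g),
      fun c hc => if_pos hc, fun c hc => (if_neg hc).trans rfl⟩
  refine ⟨y', g', hV.mul h.dec, add_mem (Md_mono hB hBb' Set.subset_union_left h.e_mem)
    (Md_mono hb hBb' Set.subset_union_right hd), qis_esub hB hb hBb h.e_mem hd h.e_sub hd2,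
    qis_out hD hA hB hb hBb h.e_mem hd h.out h1, ?_, fun c c' e1 e2 => ?_, fun c => ?_, fun c => ?_,
    fun c b' hb' => ?_, fun c c' e1 e2 => ?_, fun c => ?_, fun c => ?_, fun ψ hψ => ?_⟩
  · have h3 := qis_xib hD hb hRU hV hbk (qis_LL hD hA hb hbA h.dec hU hse' hR0 hUA) h2
    rw [qis_mx hD hb h.dec hU hse.1 hR0] at h3
    have h4 := pow_le_pow_left₀ (norm_nonneg _) h3 2
    have h5 := h.xi_sub
    rw [← qis_mx hD hB hV hRU hsd.1 hV0] at h5
    rw [mul_pow, Real.sq_sqrt hb0] at h4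
    simp only [mx, ← map_sub] at h4 h5 ⊢
    rw [qis_un hB hb hBb, qis_pyth hB hb hBb, measureReal_union hBb hb, mul_assoc V]
    linarith
  · by_cases hc : c.1 ∈ b
    · rw [y1 c hc, y1 c' (e1 ▸ hc)]
    · rw [y2 c hc, y2 c' (e1 ▸ hc), h.y_lev c c' e1 e2]
  · by_cases hc : c.1 ∈ b
    · rw [y1 c hc]
      exact (M.Md A).smul_mem s (Md_mono hAb hA Set.diff_subset hmx)
    · rw [y2 c hc]
      exact h.y_mem c
  · by_cases hc : c.1 ∈ b
    · rw [y1 c hc, ← smul_sub, norm_smul, Real.norm_eq_abs]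
      exact mul_le_mul_of_nonneg_left (qis_ysub hD hA hB hb hBA hbA h.dec hU hse.1 h.out
        (by positivity) h.xi_sub hm) (abs_nonneg s)
    · rw [y2 c hc]
      exact h.y_sub c
  · by_cases hc : c.1 ∈ b
    · rw [y1 c hc, ContinuousLinearMap.map_smul_of_tower, norm_smul, Real.norm_eq_abs, mx,
        qis_comm (BR.ind hb') (BR.ind hAb)]
      exact mul_le_mul_of_nonneg_left ((norm_ind_le hAb _).trans (qis_norm_mx hb' hRU).le)
        (abs_nonneg s)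
    · rw [y2 c hc]
      exact h.y_ind c b' hb'
  · by_cases hc : c.1 ∈ b
    · rw [g1 c hc, g1 c' (e1 ▸ hc)]
    · rw [g2 c hc, g2 c' (e1 ▸ hc), h.g_lev c c' e1 e2]
  · by_cases hc : c.1 ∈ b
    · rw [g1 c hc]
      exact Md_mono hB hBb' Set.subset_union_left hse
    · rw [g2 c hc]
      exact add_mem (Md_mono hb hBb' Set.subset_union_right hsd)
        (Md_mono hB hBb' Set.subset_union_left (h.g_mem c))
  · by_cases hc : c.1 ∈ b
    · rw [g1 c hc, smul_add, sub_add_cancel_left, norm_neg, norm_smul, Real.norm_eq_abs, mul_assoc]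
      exact mul_le_mul_of_nonneg_left (hd1.trans (mul_le_mul_of_nonneg_left
        (Real.sqrt_le_sqrt hm) hL0)) (abs_nonneg s)
    · rw [g2 c hc, smul_add, add_comm (s • d), add_sub_add_right_eq_sub]
      exact h.g_sub c
  · have hn : ∀ c : Lab K, c.1 ∈ B → c.1 ∉ b := fun c hc => Set.disjoint_left.1 hBb hc
    have hi : ∀ c, |2 * (⟪s • d, M.sm a y c⟫_ℂ).im| ≤ 200 * L ^ 2 * s ^ 2 * ω * nu0.real b := by
      intro c
      have h3 := qis_im hb hd (h.y_mem c).1 hd2 (h.y_ind c b hb)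
      have h4 : (⟪s • d, M.sm a y c⟫_ℂ).im = s * (a c * (⟪d, y c⟫_ℂ).im) := by
        rw [sm_apply, ← Complex.coe_smul, ← Complex.coe_smul, inner_smul_left, inner_smul_right]
        simp
      have h5 := mul_le_mul_of_nonneg_left (mul_le_mul (hL c) h3 (abs_nonneg _) hL0) (abs_nonneg s)
      rw [h4, abs_mul, abs_mul, abs_mul, abs_two, ← sq_abs s]
      have h6 := Real.mul_self_sqrt hb0
      calc 2 * (|s| * (|a c| * |(⟪d, y c⟫_ℂ).im|)) ≤ 2 * (|s| * (L * (100 * L * ω * √(nu0.real b) *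
            (|s| * √(nu0.real b))))) := by linarith
        _ = 200 * L ^ 2 * |s| ^ 2 * ω * (√(nu0.real b) * √(nu0.real b)) := by ring
        _ = _ := by rw [h6]
    have h3 := qis_old (ψ := ψ) (f := M.sm a y) (f' := M.sm a y') (g' := g') hD hB hV hsd.1
      (fun c => M.XX.smul_mem (a c) (h.y_mem c).1) (fun c => (h.g_mem c).1)
      (fun c hc => by rw [sm_apply, sm_apply, y2 c (hn c hc)]) (fun c hc => g2 c (hn c hc)) hV0
      (fun c => Md_orth hb hB hBb.symm hsd (h.g_mem c)) (by positivity) hi (R ψ)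
    have h4 := qis_new (f' := M.sm a y') hD hb hV h.dec hse' hbk
      (fun c hc => by rw [sm_apply, y1 c hc]; rfl) g1 hR0 h2 hψ
    have h5 := h.app ψ hψ
    refine qis_glue hB hb hBb (by positivity) (h3.trans ?_) (h4.trans
      (mul_le_mul_of_nonneg_right (le_add_of_nonneg_right (by positivity)) (norm_nonneg _)))
    rw [measureReal_union hBb hb]
    linarith

theorem InvA.LL (h : M.InvA D A A' B a L s ω m U R e y g) (hD : Fam T D) (hA : MeasurableSet A)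
    (hA' : MeasurableSet A') (hB : MeasurableSet B) (hb : MeasurableSet b) (hAA' : A ⊆ A')
    (hBA : B ⊆ A) (hbA : b ⊆ A) (hBb : Disjoint B b) (hU : M.Dec U)
    (hUA : U (M.sc (ind A) M.Ω) ∈ M.LL D A A') : (R * U) (M.sc (ind b) M.Ω) ∈ M.LL D b A' := by
  have hw := isW_WZ (M := M) hD
  have he : s • e ∈ M.Md A' :=
    (M.Md A').smul_mem s (Md_mono hB hA' (hBA.trans hAA') h.e_mem)
  have hd : M.Dec (M.EZc (M.WZ D) (s • e)) := hw.EZc_dec (Md_le he)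
  have e1 : M.sc (ind b) * M.sc (ind (A \ B)) = M.sc (ind b) := by
    rw [sc_ind_ind hb (hA.diff hB), Set.inter_eq_left.2 (Set.subset_sdiff.2 ⟨hbA, hBb.symm⟩)]
  have e2 : M.sc (ind b) * M.sc (ind A) = M.sc (ind b) := by
    rw [sc_ind_ind hb hA, Set.inter_eq_left.2 hbA]
  have e3 : M.sc (ind b) * R = M.sc (ind b) * M.EZc (M.WZ D) (s • e) := by
    rw [← e1, mul_assoc, h.out, mul_assoc]
  have e4 : (R * U) (M.sc (ind b) M.Ω) =
      M.sc (ind b) (M.EZc (M.WZ D) (s • e) (U (M.sc (ind A) M.Ω))) := by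
    rw [(h.dec.mul hU).sc_apply (BR.ind hb), hU.sc_apply (BR.ind hA), hd.sc_apply (BR.ind hA)]
    show (M.sc (ind b) * R) (U M.Ω) =
      (M.sc (ind b) * M.sc (ind A) * M.EZc (M.WZ D) (s • e)) (U M.Ω)
    rw [e2, e3]
  rw [e4]
  exact LL_ind hb (LL_EZc hD hUA he)

/-- the conclusion after all the cells -/
theorem InvA.fin (hD : Fam T D) (hA : MeasurableSet A) (hA' : MeasurableSet A') (hAA' : A ⊆ A')
    (hL : ∀ c, |a c| ≤ L) (ha : ∀ c : Lab K, c.1 ∉ A → a c = 0) (hU : M.Dec U) {ψ : M.H}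
    (hψ : ψ ∈ M.LL D A A') {ε : ℝ} (hε : 0 < ε) : ∃ δ > 0, ∀ ω m R e y g, 0 ≤ ω → ω ≤ δ → m ≤ δ →
      M.InvA D A A' A a L s ω m U R e y g → ‖R ψ - M.EZc (M.WZ D) (s • M.sc a M.Ω)
        (M.Wf (M.WZ D) (a.map fun r => r • s • M.mx A U) ψ)‖ < ε := by
  have hw := isW_WZ (M := M) hD
  have L0 : 0 ≤ L := (abs_nonneg _).trans (hL (0, 0))
  have ea : M.sc a * M.sc (ind A) = M.sc a := by
    rw [← M.sc_mul (BR.simple a) (BR.ind hA)]
    refine congrArg M.sc (funext fun c => ?_)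
    unfold ind
    split_ifs with h
    · exact mul_one _
    · rw [ha c h, zero_mul]
  have ea' : M.sc a (M.sc (ind A) M.Ω) = M.sc a M.Ω := congrArg (· M.Ω) ea
  have m0 : s • M.mx A U ∈ M.XX := M.XX.smul_mem s (Md_le (ind_mem_Md hA hU.xi_mem))
  have x0 : s • M.sc a M.Ω ∈ M.Md A' := (M.Md A').smul_mem s (Md_mono hA hA' hAA'
    (ea' ▸ sc_mem_Md hA (M.sc_mem (BR.ind hA)) (BR.simple a) ha))
  have f0 : ∀ c, (a.map fun r => r • s • M.mx A U) c ∈ M.XX := fun c => M.XX.smul_mem _ m0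
  have ec : M.EZ (M.WZ D) (SimpleFunc.const _ (s • M.sc a M.Ω)) = M.EZc (M.WZ D) (s • M.sc a M.Ω) :=
    EZ_const' _ fun _ => rfl
  have e0 := hw.EZ_Wf (g := SimpleFunc.const _ (s • M.sc a M.Ω)) f0 fun _ => Md_le x0
  have e1 : ∀ c, 2 * (⟪SimpleFunc.const (Lab K) (s • M.sc a M.Ω) c,
      (a.map fun r => r • s • M.mx A U) c⟫_ℂ).im = 0 := fun c => by
    rw [SimpleFunc.const_apply, ← Complex.coe_smul, inner_smul_left, conj_ofReal, im_ofReal_mul,
      f0 c a (BR.simple a), mul_zero, mul_zero]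
  rw [funext e1, M.lr_zero, mul_one, ec] at e0
  have hφ := LL_EZc hD hψ x0
  have nφ := (hw.EZc_dec (Md_le x0)).norm ψ
  have h8 : 0 < ε / 8 := by positivity
  obtain ⟨δ₁, d1, k1⟩ := LL_equi hD hψ h8
  obtain ⟨δ₂, d2, k2⟩ := LL_equi' hD hφ a h8
  obtain ⟨τ, t0, t1⟩ := exists_pos_mul_lt (lt_min d1 (lt_min d2 (half_pos hε)))
    (101 * |s| * L + 601 * |s| + ((300 + 1600 * L ^ 2 * s ^ 2) + 4 * (101 * |s| * L *
      ‖s • M.sc a M.Ω‖) + 4 * (L * (601 * |s|) * (L * ‖s • M.mx A U‖))) * ‖ψ‖)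
  simp only [lt_min_iff, add_mul] at t1
  refine ⟨min τ (τ ^ 2), by positivity, fun ω m R e y g ω0 ω1 m1 h => ?_⟩
  replace ω1 := ω1.trans (min_le_left _ _)
  replace m1 := Real.sqrt_le_iff.2 ⟨t0.le, m1.trans (min_le_right _ _)⟩
  have ν1 : nu0.real A ≤ 1 := measureReal_le_one
  have s0 := abs_nonneg s
  have gx : ∀ c, g c ∈ M.XX := fun c => Md_le (h.g_mem c)
  have yx : ∀ c, y c ∈ M.XX := fun c => Md_le (h.y_mem c)
  have sx : ∀ c, M.sm a y c ∈ M.XX := fun c => M.XX.smul_mem _ (yx c)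
  have b1 : ∀ c, ‖g c - s • M.sc a M.Ω‖ ≤ 101 * |s| * L * τ := fun c => by
    have q := h.e_sub.trans (mul_le_of_le_one_right (sq_nonneg _) ν1)
    rw [ea', sq_le_sq₀ (norm_nonneg _) (by positivity)] at q
    have q1 : ‖s • e - s • M.sc a M.Ω‖ ≤ |s| * (100 * L * τ) := by
      rw [← smul_sub, norm_smul, Real.norm_eq_abs]
      exact mul_le_mul_of_nonneg_left (q.trans (by gcongr)) s0
    have q2 : |s| * L * √m ≤ |s| * L * τ := by gcongr
    linarith [norm_sub_le_norm_sub_add_norm_sub (g c) (s • e) (s • M.sc a M.Ω), h.g_sub c]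
  have b2 : ∀ c, ‖y c - s • M.mx A U‖ ≤ 601 * |s| * τ := fun c =>
    (h.y_sub c).trans (by nlinarith)
  have p1 : 0 ≤ 101 * |s| * L * τ := by positivity
  have p2 : 0 ≤ 601 * |s| * τ := by positivity
  have p3 : 0 ≤ 300 * ‖ψ‖ * τ := by positivity
  have p4 : 0 ≤ 1600 * L ^ 2 * s ^ 2 * ‖ψ‖ * τ := by positivity
  have p5 : 0 ≤ 4 * (101 * |s| * L * ‖s • M.sc a M.Ω‖) * ‖ψ‖ * τ := by positivity
  have p6 : 0 ≤ 4 * (L * (601 * |s|) * (L * ‖s • M.mx A U‖)) * ‖ψ‖ * τ := by positivity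
  have a1 := h.app ψ hψ
  rw [map_sub, ← h.dec.sc_apply (BR.ind hA), ← (hw.Wf_dec sx).sc_apply (BR.ind hA),
    ← (hw.EZ_dec gx).sc_apply (BR.ind hA), LL_supp hA hψ] at a1
  have a1' : (300 * ω + 1600 * L ^ 2 * s ^ 2 * ω * nu0.real A) * ‖ψ‖ ≤
      (300 * τ + 1600 * L ^ 2 * s ^ 2 * τ * 1) * ‖ψ‖ := by gcongr
  have a2 := hw.EZ_sub_EZ (g := SimpleFunc.const _ (s • M.sc a M.Ω)) gx (fun _ => Md_le x0)
    (mul_nonneg p1 (norm_nonneg (s • M.sc a M.Ω)))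
    (fun c => mul_le_mul_of_nonneg_right (b1 c) (norm_nonneg (s • M.sc a M.Ω))) ψ
  have hx : ∀ c, (g - SimpleFunc.const (Lab K) (s • M.sc a M.Ω)) c ∈ M.XX := fun c =>
    sub_mem (gx c) (Md_le x0)
  have a3 := hw.EZ_sub_le hx ψ
  have a4 := k1 _ (fun c c' u u' => congrArg (· - s • M.sc a M.Ω) (h.g_lev c c' u u')) hx
    fun c => (b1 c).trans (by linarith)
  have a5 := k1 (-(g - SimpleFunc.const _ (s • M.sc a M.Ω)))
    (fun c c' u u' => congrArg (fun z => -(z - s • M.sc a M.Ω)) (h.g_lev c c' u u'))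
    (fun c => neg_mem (hx c)) fun c => (norm_neg _).trans_le ((b1 c).trans (by linarith))
  have a6 := hw.Wf_sub_Wf sx f0 (a := L * (601 * |s| * τ) * (L * ‖s • M.mx A U‖)) (by positivity)
    (fun c => by
      rw [sm_apply, SimpleFunc.map_apply, ← smul_sub, norm_smul, norm_smul, Real.norm_eq_abs]
      have := b2 c
      have := hL c
      gcongr) (M.EZc (M.WZ D) (s • M.sc a M.Ω) ψ)
  have a7 := k2 (y - SimpleFunc.const _ (s • M.mx A U)) (M.sm a y - a.map fun r => r • s • M.mx A U)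
    (fun c c' u u' => congrArg (· - s • M.mx A U) (h.y_lev c c' u u'))
    (fun c => sub_mem (yx c) m0) (fun c => (b2 c).trans (by linarith))
    fun c => (smul_sub _ _ _).symm
  rw [ec, ← (hw.Wf_dec sx).norm, map_sub] at a2
  rw [← mul_apply_eq_comp, e0, mul_apply_eq_comp]
  refine ((norm_sub_le_norm_sub_add_norm_sub _ _ _).trans (add_le_add a1
    ((norm_sub_le_norm_sub_add_norm_sub _ _ _).trans (add_le_add a2 a6)))).trans_lt ?_
  rw [nφ]
  linarith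

end FS

end Vale.Agent.P367.Q
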