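import Vale.Agent.P367.QZ1

/-! # P367, local control: definitions and interface statements -/

namespace Vale.Agent.P367.Q

open Complex MeasureTheory Filter Topology Matrix

namespace FS

variable {K : ℕ} (M : FS (Lab K) (muK K)) (D : Fin K → Lab K → ℝ) (P : Gate K → Prop)

/-- local unitaries which preserve the closure of the reachable set -/
def GU (u : Lab K → M2) : Prop :=
  BM u ∧ (∀ c, (u c)ᴴ * u c = 1) ∧ ∀ U, M.SC D P U → M.SC D P (M.loc u * U)

/-- angle functions all of whose multiples are available -/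
def RV (N : Fin 3) (α : Lab K → ℝ) : Prop :=
  Measurable α ∧ ∀ t : ℝ, M.GU D P fun c => rot N (t * α c)

/-- available interactions -/
def PV (a b : SimpleFunc (Lab K) ℝ) : Prop :=
  ∀ U, M.SC D P U → M.SC D P (M.ev D (.pul a b) U)

/-- closure properties of the reachable set -/
structure ScS : Prop where
  one : M.SC D P 1
  gate : ∀ g U, P g → M.SC D P U → M.SC D P (M.ev D g U)
  lim : ∀ (V : ℕ → M.H →L[ℂ] M.H) U, (∀ n, M.SC D P (V n)) → M.Dec U →
    (∀ x, Tendsto (fun n => V n x) atTop (𝓝 (U x))) → M.SC D P U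

/-- closure properties of the available local unitaries -/
structure GuS : Prop where
  one : M.GU D P fun _ => 1
  mul : ∀ u v, M.GU D P u → M.GU D P v → M.GU D P fun c => u c * v c
  lim : ∀ (u : ℕ → Lab K → M2) (v : Lab K → M2), (∀ n, M.GU D P (u n)) → BM v →
    (∀ c, (v c)ᴴ * v c = 1) →
    (∀ᵐ c ∂muK K, ∀ i j, Tendsto (fun n => u n c i j) atTop (𝓝 (v c i j))) → M.GU D P v

/-- closure properties of the available angle functions -/
structure RvS : Prop where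
  gate : ∀ N α, Measurable α → (∀ t : ℝ, P (.loc N fun c => t * α c)) → M.RV D P N α
  use : ∀ N α U, M.RV D P N α → M.SC D P U → M.SC D P (M.ev D (.loc N α) U)
  add : ∀ N α α', M.RV D P N α → M.RV D P N α' → M.RV D P N fun c => α c + α' c
  smul : ∀ N (t : ℝ) α, M.RV D P N α → M.RV D P N fun c => t * α c
  lim : ∀ N (α : ℕ → Lab K → ℝ) (α' : Lab K → ℝ), (∀ n, M.RV D P N (α n)) → Measurable α' →
    (∀ᵐ c ∂muK K, Tendsto (fun n => α n c) atTop (𝓝 (α' c))) → M.RV D P N α'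
  sin : ∀ N N' N'' f g, N ≠ N' → N ≠ N'' → N' ≠ N'' → M.RV D P N f → M.RV D P N' g →
    M.RV D P N'' fun c => f c * Real.sin (2 * g c)
  mul : ∀ N N' N'' f g, N ≠ N' → N ≠ N'' → N' ≠ N'' → M.RV D P N f → M.RV D P N' g →
    M.RV D P N'' fun c => f c * g c

/-- closure properties of the available interactions -/
structure PvS : Prop where
  zero : ∀ a b : SimpleFunc (Lab K) ℝ, (∀ c c', a c * b c' + b c * a c' = 0) → M.PV D P a b
  add : ∀ a b a1 b1 a2 b2 : SimpleFunc (Lab K) ℝ, (∀ c c', a c * b c' + b c * a c' =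
    (a1 c * b1 c' + b1 c * a1 c') + (a2 c * b2 c' + b2 c * a2 c')) →
    M.PV D P a1 b1 → M.PV D P a2 b2 → M.PV D P a b
  flip : ∀ (E : Set (Lab K)) (a b a' b' : SimpleFunc (Lab K) ℝ), M.RV D P 0 (E.indicator 1) →
    (∀ c ∈ E, a' c = -a c ∧ b' c = -b c) → (∀ c ∉ E, a' c = a c ∧ b' c = b c) →
    M.PV D P a b → M.PV D P a' b'

end FS

/-- Closure of the reachable set. -/
def S_sc : Prop := ∀ (K : ℕ) (M : FS (Lab K) (muK K)) (T : Set ℝ) (D : Fin K → Lab K → ℝ)
  (P : Gate K → Prop), Fam T D → (∀ g, P g → g.Meas) → M.ScS D P ∧ M.GuS D P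

/-- The product formula for two by two unitaries. -/
def S_trot : Prop := ∀ (F : ℝ → M2) (N : Fin 3) (a : ℝ), F 0 = 1 → (∀ t, (F t)ᴴ * F t = 1) →
  (∀ i j, HasDerivAt (fun t => F t i j) (((-I * a) • pau N) i j) 0) →
  ∀ (t : ℝ) i j, Tendsto (fun n : ℕ => (F (t / n) ^ n) i j) atTop (𝓝 (rot N (t * a) i j))

/-- Conjugation and the product formula. -/
def S_sin : Prop := ∀ (K : ℕ) (M : FS (Lab K) (muK K)) (D : Fin K → Lab K → ℝ)
  (P : Gate K → Prop), M.GuS D P → ∀ N N' N'' f g, N ≠ N' → N ≠ N'' → N' ≠ N'' →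
  M.RV D P N f → M.RV D P N' g → M.RV D P N'' fun c => f c * Real.sin (2 * g c)

/-- Closure of the available angle functions. -/
def S_rv : Prop := ∀ (K : ℕ) (M : FS (Lab K) (muK K)) (D : Fin K → Lab K → ℝ)
  (P : Gate K → Prop), M.ScS D P → M.GuS D P → M.RvS D P

/-- Algebras closed under pointwise limits consist of all measurable functions of a sigma-algebra. -/
def S_alg : Prop := ∀ (Λ : Type) (W : (Λ → ℝ) → Prop), (W fun _ => 1) →
  (∀ f g, W f → W g → W fun c => f c + g c) → (∀ (t : ℝ) f, W f → W fun c => t * f c) →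
  (∀ f g, W f → W g → W fun c => f c * g c) →
  (∀ (f : ℕ → Λ → ℝ) (g : Λ → ℝ), (∀ n, W (f n)) →
    (∀ c, Tendsto (fun n => f n c) atTop (𝓝 (g c))) → W g) →
  ∃ m : MeasurableSpace Λ, ∀ f, W f ↔ @Measurable Λ ℝ m _ f

/-- Closure of the available interactions. -/
def S_pv : Prop := ∀ (K : ℕ) (M : FS (Lab K) (muK K)) (T : Set ℝ) (D : Fin K → Lab K → ℝ)
  (P : Gate K → Prop), Fam T D → M.PvS D P

/-- Reduction of an interaction to the interaction of two classes. -/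
def S_red : Prop := ∀ (K : ℕ) (M : FS (Lab K) (muK K)) (D : Fin K → Lab K → ℝ)
  (P : Gate K → Prop), M.PvS D P → ∀ (A1 A2 : Set (Lab K)) (a b : SimpleFunc (Lab K) ℝ),
  MeasurableSet A1 → MeasurableSet A2 → Disjoint A1 A2 →
  (∀ (γ : ℝ) (a0 b0 : SimpleFunc (Lab K) ℝ), (∀ c, a0 c = γ * A1.indicator 1 c) →
    (∀ c, b0 c = A2.indicator 1 c) → M.PV D P a0 b0) →
  (∀ c, a c ≠ 0 → c ∈ A1) → (∀ c, b c ≠ 0 → c ∈ A2) →
  (∀ v, M.RV D P 0 ((A1 \ a ⁻¹' {v}).indicator 1)) →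
  (∀ v, M.RV D P 0 ((A2 \ b ⁻¹' {v}).indicator 1)) → M.PV D P a b

/-- The interaction of two classes from the full interaction. -/
def S_bip : Prop := ∀ (K : ℕ) (M : FS (Lab K) (muK K)) (D : Fin K → Lab K → ℝ)
  (P : Gate K → Prop), M.PvS D P → ∀ (A1 A2 : Set (Lab K)),
  MeasurableSet A1 → MeasurableSet A2 → Disjoint A1 A2 →
  (∀ γ : ℝ, M.PV D P (SimpleFunc.const _ (γ / 2)) (SimpleFunc.const _ 1)) →
  M.RV D P 0 (A1.indicator 1) → M.RV D P 0 (A2.indicator 1) →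
  ∀ (γ : ℝ) (a0 b0 : SimpleFunc (Lab K) ℝ), (∀ c, a0 c = γ * A1.indicator 1 c) →
    (∀ c, b0 c = A2.indicator 1 c) → M.PV D P a0 b0

/-- Rotations of the next level. -/
def S_rk : Prop := ∀ (K : ℕ) (M : FS (Lab K) (muK K)) (D : Fin K → Lab K → ℝ) (A : Set ℝ)
  (k : Fin K), MeasurableSet A → M.RvS D (Gate.Prim k A) → ∀ N α, Measurable α →
  Lev (k.val + 1) α → (∀ c : Lab K, c.1 ∉ A → α c = 0) → M.RV D (Gate.Prim k A) N α

/-- Rotations of level zero. -/
def S_r0 : Prop := ∀ (K : ℕ) (M : FS (Lab K) (muK K)) (D : Fin K → Lab K → ℝ),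
  M.RvS D Gate.Base → ∀ N α, Measurable α → Lev 0 α → M.RV D Gate.Base N α

end Vale.Agent.P367.Q
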