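import Vale.Agent.P367.QLDefs

/-! # P367, local control: QLSc -/

namespace Vale.Agent.P367.Q

open Complex MeasureTheory Filter Topology Matrix
open scoped InnerProductSpace

namespace QLScAux

open FS

variable {K : ℕ} {M : FS (Lab K) (muK K)} {T : Set ℝ} {D : Fin K → Lab K → ℝ} {P : Gate K → Prop}

theorem form (hD : Fam T D) {g : Gate K} (hg : g.Meas) : ∃ G : M.H → M.H →L[ℂ] M.H,
    (∀ V, M.ev D g V = G (M.xi V) * V) ∧ (∀ x ∈ M.XX, M.Dec (G x)) ∧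
      ∀ ψ, ContinuousOn (fun x => G x ψ) M.XX := by
  cases g with
  | loc N α =>
    exact ⟨fun _ => M.lr N α, fun _ => rfl, fun _ _ => M.dec_lr N hg, fun _ => continuousOn_const⟩
  | pul a b =>
    exact ⟨fun x => M.EZ (M.WZ D) (M.pv a b x), fun _ => rfl,
      fun _ hx => (isW_WZ hD).EZ_dec (pv_mem a b hx), EZ_pv_cont hD a b⟩

theorem gate (hD : Fam T D) (hP : ∀ g, P g → g.Meas) (g : Gate K) (U : M.H →L[ℂ] M.H) (hg : P g)
    (hU : M.SC D P U) : M.SC D P (M.ev D g U) := by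
  classical
  refine ⟨ev_dec hD (hP g hg) hU.1, fun ε hε F => ?_⟩
  obtain ⟨G, h1, h2, h3⟩ := form (M := M) hD (hP g hg)
  have h4 : ∀ᶠ y in 𝓝[M.XX] (M.xi U), ∀ x ∈ F, dist (G y (U x)) (G (M.xi U) (U x)) < ε / 2 :=
    (eventually_all_finset F).2 fun x _ =>
      Metric.tendsto_nhds.1 (h3 (U x) _ hU.1.xi_mem) _ (half_pos hε)
  obtain ⟨δ, hδ, h5⟩ := Metric.eventually_nhds_iff.1 (eventually_nhdsWithin_iff.1 h4)
  obtain ⟨V, h6, h7⟩ := hU.2 (min (δ / 2) (ε / 2)) (lt_min (half_pos hδ) (half_pos hε))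
    (insert M.Ω (insert (M.xi U) F))
  have hV := h6.dec hD hP Dec.one
  refine ⟨_, .step hg h6, fun x hx => ?_⟩
  have h8 := hU.1.xi_sub_le hV (BR.const 1)
  simp only [M.sc_const, ofReal_one, one_smul, one_apply_eq_self] at h8
  have a1 := (h7 M.Ω (by simp)).trans_le (min_le_left _ _)
  have a2 := (h7 (M.xi U) (by simp)).trans_le (min_le_left _ _)
  have a3 := (h7 x (by simp [hx])).trans_le (min_le_right _ _)
  have a4 := h5 (y := M.xi V) (by rw [dist_eq_norm]; linarith) hV.xi_mem x hx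
  rw [dist_eq_norm] at a4
  rw [← (h2 _ hV.xi_mem).norm, map_sub] at a3
  rw [h1, h1, mul_apply_eq_comp, mul_apply_eq_comp]
  linarith [norm_sub_le_norm_sub_add_norm_sub (G (M.xi V) (V x)) (G (M.xi V) (U x))
    (G (M.xi U) (U x))]

theorem lim (V : ℕ → M.H →L[ℂ] M.H) (U : M.H →L[ℂ] M.H) (h : ∀ n, M.SC D P (V n)) (hU : M.Dec U)
    (ht : ∀ x, Tendsto (fun n => V n x) atTop (𝓝 (U x))) : M.SC D P U := by
  refine ⟨hU, fun ε hε F => ?_⟩
  obtain ⟨n, hn⟩ := ((eventually_all_finset F).2 fun x _ =>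
    Metric.tendsto_nhds.1 (ht x) _ (half_pos hε)).exists
  obtain ⟨W, h1, h2⟩ := (h n).2 _ (half_pos hε) F
  refine ⟨W, h1, fun x hx => ?_⟩
  have h3 := hn x hx
  rw [dist_eq_norm] at h3
  linarith [norm_sub_le_norm_sub_add_norm_sub (W x) (V n x) (U x), h2 x hx]

end QLScAux

theorem scE : S_sc := fun _ M _ _ _ hD hP => by
  refine ⟨⟨⟨FS.Dec.one, fun ε hε F => ⟨1, .refl, fun x _ => by simpa using hε⟩⟩,
    QLScAux.gate hD hP, QLScAux.lim⟩, ⟨BM.const 1, fun _ => by simp, fun U h => ?_⟩,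
    fun u v hu hv => ⟨hu.1.mul hv.1, fun c => ?_, fun U h => ?_⟩,
    fun u v hu hv h1 h2 => ⟨hv, h1, fun U h => ?_⟩⟩
  · rwa [M.loc_one, one_mul]
  · rw [conjTranspose_mul, mul_assoc, ← mul_assoc (u c)ᴴ, hu.2.1, one_mul, hv.2.1]
  · rw [M.loc_mul hu.1 hv.1, mul_assoc]
    exact hu.2.2 _ (hv.2.2 U h)
  · exact QLScAux.lim _ _ (fun n => (hu n).2.2 U h) ((M.dec_loc hv h1).mul h.1) fun x =>
      M.loc_dom (C := 1) (fun n => (hu n).1) hv (fun n c i j =>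
        entry_norm_bound_of_unitary (Matrix.mem_unitaryGroup_iff'.2 ((hu n).2.1 c)) i j) h2 (U x)

end Vale.Agent.P367.Q
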