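import Vale.Agent.P367.QRel

/-! Auxiliary facts for the rotation by a classical field. -/

namespace Vale.Agent.P367.Q

open Complex MeasureTheory ProbabilityTheory Filter Topology Matrix
open scoped InnerProductSpace

namespace FS

variable {K : ℕ} {M : FS (Lab K) (muK K)} {D : Fin K → Lab K → ℝ} {T A : Set ℝ} {φ : M.H}

theorem levp_EZc (hD : Fam T D) (k : Fin K) (s : ℝ) :
    M.EZc (M.WZ D) (s • M.sc (D k) M.Ω) = M.lr 2 fun c => s * c.2 k := by
  have m : ∀ s : ℝ, Measurable fun c : Lab K => s * c.2 k := fun s => by fun_prop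
  rw [EZc, ← neg_smul, WZ_cl hD, WZ_cl hD, sp, sp, ph, ph, ← M.loc_mul (BM.const _) (BM.ph (m _)),
    ← M.loc_mul (BM.const _) (BM.ph (m _)),
    ← M.loc_add ((BM.const _).mul (BM.ph (m _))) ((BM.const _).mul (BM.ph (m _))), lr]
  congr 1
  funext c
  simp [rot_Z]

theorem levp_lr (hD : Fam T D) (hA : MeasurableSet A) (k : Fin K) (s : ℝ)
    (h : M.sc (ind A) φ = φ) : M.lr 2 (fun c => s * ind A c * c.2 k) φ =
      M.EZc (M.WZ D) (s • M.sc (D k) M.Ω) φ := by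
  have m1 : Measurable fun c : Lab K => s * c.2 k := by fun_prop
  have m2 : Measurable fun c : Lab K => s * ind A c * c.2 k :=
    (measurable_const.mul (BR.ind hA).1).mul (by fun_prop)
  have e := sc_loc_congr (M := M) (measurable_fst hA) (BM.rot 2 m2) (BM.rot 2 m1)
    fun c hc => by simp [ind, show c.1 ∈ A from hc]
  rw [← ind_eq, M.sc_loc (BR.ind hA) (BM.rot 2 m2), M.sc_loc (BR.ind hA) (BM.rot 2 m1)] at e
  have := congrArg (· φ) e
  simp only [ContinuousLinearMap.mul_apply, h] at this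
  rw [levp_EZc hD]
  exact this

theorem levp_comm (hD : Fam T D) {a : Lab K → ℝ} (ha : BR a) (s : ℝ)
    {f : SimpleFunc (Lab K) M.H} (hf : ∀ c, f c ∈ M.XX) (φ : M.H) :
    M.EZc (M.WZ D) (s • M.sc a M.Ω) (M.Wf (M.WZ D) f φ) =
      M.Wf (M.WZ D) f (M.EZc (M.WZ D) (s • M.sc a M.Ω) φ) := by
  have e := (isW_WZ hD).EZ_Wf (g := SimpleFunc.const _ (s • M.sc a M.Ω)) hf
    fun _ => M.XX.smul_mem s (M.sc_mem ha)
  have z : (fun c => 2 * (⟪(SimpleFunc.const (Lab K) (s • M.sc a M.Ω)) c, f c⟫_ℂ).im) =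
      fun _ => 0 := by
    funext c
    rw [SimpleFunc.const_apply, ← Complex.coe_smul, inner_smul_left, conj_ofReal, im_ofReal_mul,
      hf c a ha]
    simp
  rw [z, lr_zero, mul_one, EZ_const' _ (x := s • M.sc a M.Ω) fun _ => rfl] at e
  exact congrArg (· φ) e

theorem levp_br (a : SimpleFunc (Lab K) ℝ) : BR a :=
  ⟨a.measurable, (a.map abs).exists_forall_le.imp fun _ h c => h c⟩

theorem levp_approx (hD : Fam T D) (k : Fin K) (s : ℝ) (F : Finset M.H) {ε : ℝ} (hε : 0 < ε) :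
    ∃ a : SimpleFunc (Lab K) ℝ, Lev k a ∧ (∀ c : Lab K, c.1 ∉ T → a c = 0) ∧ ∀ φ ∈ F,
      ‖M.EZc (M.WZ D) (s • M.sc a M.Ω) φ - M.EZc (M.WZ D) (s • M.sc (D k) M.Ω) φ‖ < ε := by
  have h0 := M.XX.smul_mem s (M.sc_mem (hD.br k))
  have h1 : ∀ᶠ x in 𝓝[M.XX] (s • M.sc (D k) M.Ω), ∀ φ ∈ F,
      ‖M.EZc (M.WZ D) x φ - M.EZc (M.WZ D) (s • M.sc (D k) M.Ω) φ‖ < ε :=
    (F.eventually_all).2 fun φ _ => by
      simpa only [dist_eq_norm] using
        Metric.tendsto_nhds.1 ((isW_WZ hD).EZc_cont φ _ h0).tendsto ε hε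
  obtain ⟨δ, hδ, h2⟩ := Metric.mem_nhdsWithin_iff.1 h1
  have hp : 0 < δ / (|s| + 1) := by positivity
  obtain ⟨a, a1, a2, a3⟩ := approx_simple (hD.br k) (hD.lev k) hp
  refine ⟨a, a1, fun c hc => a2 c (hD.supp k c hc), h2 ⟨?_, M.XX.smul_mem s (M.sc_mem (levp_br a))⟩⟩
  have b1 : BR fun c => a c + -1 * D k c := (levp_br a).add ((BR.const _).mul (hD.br k))
  have e : M.sc a M.Ω - M.sc (D k) M.Ω = M.sc (fun c => a c + -1 * D k c) M.Ω := by
    rw [M.sc_add (levp_br a) ((BR.const _).mul (hD.br k)), M.sc_smul _ (hD.br k)]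
    simp [sub_eq_add_neg]
  have b2 : ‖M.sc a M.Ω - M.sc (D k) M.Ω‖ ≤ δ / (|s| + 1) := by
    refine (abs_le_of_sq_le_sq' ?_ hp.le).2
    rw [e, M.norm_sc_sq b1]
    refine (integral_mono_of_nonneg (.of_forall fun c => sq_nonneg _)
      (integrable_const ((δ / (|s| + 1)) ^ 2)) (.of_forall fun c => ?_)).trans (by simp)
    exact sq_le_sq' (by linarith [(abs_le.1 (a3 c)).1]) (by linarith [(abs_le.1 (a3 c)).2])
  rw [Metric.mem_ball, dist_eq_norm, ← smul_sub, norm_smul, Real.norm_eq_abs]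
  calc _ ≤ |s| * (δ / (|s| + 1)) := by gcongr
    _ < (|s| + 1) * (δ / (|s| + 1)) := by gcongr; linarith
    _ = δ := by field_simp

end FS

end Vale.Agent.P367.Q
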