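import Vale.Agent.P367.QRel
import Vale.Agent.P367.QLevP

/-! Removing the rotation by a classical field. -/

namespace Vale.Agent.P367.Q

open Complex MeasureTheory ProbabilityTheory Filter Topology Matrix
open scoped InnerProductSpace

namespace FS

variable {K : ℕ} (M : FS (Lab K) (muK K)) (D : Fin K → Lab K → ℝ)

/-- `U` can be simulated, up to a gauge, by gates of level `k` -/
def Sim (k : ℕ) (A : Set ℝ) (U : M.H →L[ℂ] M.H) : Prop :=
  ∀ C, MeasurableSet C → Disjoint A C → 0 < nu0.real C → ∀ F : Finset M.H,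
    (∀ ψ ∈ F, ψ ∈ M.LL D A A) → ∀ ε > 0, ∃ (U' : M.H →L[ℂ] M.H) (α : Lab K → ℝ)
      (f : SimpleFunc (Lab K) M.H), M.Steps D (Gate.OK k (A ∪ C)) 1 U' ∧ Measurable α ∧ Lev k f ∧
      (∀ c, f c ∈ M.Md A) ∧ ∀ ψ ∈ F, ‖U' ψ - M.ph α (M.Wf (M.WZ D) f (U ψ))‖ < ε

variable {M D} {T A C : Set ℝ} {U : M.H →L[ℂ] M.H} {k : Fin K}

theorem lev_dec (hD : Fam T D) {α : Lab K → ℝ} (hα : Measurable α) {f : SimpleFunc (Lab K) M.H}
    (hf : ∀ c, f c ∈ M.Md A) : M.Dec (M.ph α * M.Wf (M.WZ D) f) :=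
  (M.dec_ph hα).mul ((isW_WZ hD).Wf_dec fun c => Md_le (hf c))

theorem lev_loc (hD : Fam T D) {α : Lab K → ℝ} (hα : Measurable α) {f : SimpleFunc (Lab K) M.H}
    (hf : ∀ c, f c ∈ M.Md A) {u : Lab K → M2} (hu : BM u) :
    M.loc u * (M.ph α * M.Wf (M.WZ D) f) = M.ph α * M.Wf (M.WZ D) f * M.loc u := by
  rw [← mul_assoc, ← M.ph_loc hα hu, mul_assoc, mul_assoc,
    (isW_WZ hD).Wf_loc (fun c => Md_le (hf c)) hu]

theorem lev_sc {a : SimpleFunc (Lab K) ℝ} (hA : MeasurableSet A)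
    (h : ∀ c : Lab K, a c ≠ 0 → c.1 ∈ A) (x : M.H) : M.sc a (M.sc (ind A) x) = M.sc a x := by
  have e : (fun c => a c * ind A c) = a := by
    funext c
    by_cases h1 : a c = 0
    · rw [h1, zero_mul]
    · simp [ind, h c h1]
  have e2 := M.sc_mul (BR.simple a) (BR.ind hA)
  rw [e] at e2
  exact (congrArg (· x) e2).symm

theorem lev_pv {k : ℕ} {a b : SimpleFunc (Lab K) ℝ} (hA : MeasurableSet A)
    (hg : Gate.OK k A (.pul a b)) (x : M.H) : M.pv a b (M.sc (ind A) x) = M.pv a b x := by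
  obtain ⟨-, -, E, -, h3, h4⟩ := hg
  refine SimpleFunc.ext fun c => ?_
  rw [pv_apply, pv_apply, lev_sc hA fun c h => (h3 c h).1, lev_sc hA fun c h => (h4 c h).1]

theorem lev_ok {k : ℕ} {a b : SimpleFunc (Lab K) ℝ} (hg : Gate.OK k A (.pul a b)) (x : M.H)
    {f : SimpleFunc (Lab K) M.H} (hf : Lev k f) :
    Gate.OK k A (.loc 2 fun c => -(2 * (⟪M.pv a b x c, f c⟫_ℂ).im)) := by
  obtain ⟨h1, h2, E, -, h3, h4⟩ := hg
  refine ⟨(measurable_const.mul (meas_im (M.pv a b x) f).1).neg, fun c c' e1 e2 => ?_,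
    fun c hc => ?_⟩
  · simp only [pv_apply, h1 c c' e1 e2, h2 c c' e1 e2, hf c c' e1 e2]
  · have ha : a c = 0 := by_contra fun h => hc (h3 c h).1
    have hb : b c = 0 := by_contra fun h => hc (h4 c h).1
    simp [pv_apply, ha, hb]

theorem lev_gauge (hD : Fam T D) {α : Lab K → ℝ} (hα : Measurable α)
    {f g : SimpleFunc (Lab K) M.H} (hf : ∀ c, f c ∈ M.Md A) (hg : ∀ c, g c ∈ M.XX) :
    M.lr 2 (fun c => -(2 * (⟪g c, f c⟫_ℂ).im)) * M.EZ (M.WZ D) g * (M.ph α * M.Wf (M.WZ D) f) =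
      M.ph α * M.Wf (M.WZ D) f * M.EZ (M.WZ D) g := by
  have hw := isW_WZ (M := M) hD
  have hm : Measurable fun c => 2 * (⟪g c, f c⟫_ℂ).im := measurable_const.mul (meas_im g f).1
  have hn : Measurable fun c => -(2 * (⟪g c, f c⟫_ℂ).im) := hm.neg
  have e1 := (hw.EZ_dec hg).ph hα
  have e2 := hw.EZ_Wf (fun c => Md_le (hf c)) hg
  have e3 := lev_loc hD hα hf (BM.rot 2 hn)
  have e4 := hw.EZ_diag hg (BM.rot 2 hn) fun c => rot_pau 2 _
  have e5 := M.lr_add 2 hn hm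
  simp only [neg_add_cancel, M.lr_zero] at e5
  rw [mul_assoc, ← mul_assoc (M.EZ _ g), e1, mul_assoc (M.ph α), e2, ← mul_assoc (M.ph α),
    ← mul_assoc (M.ph α), ← mul_assoc, ← mul_assoc, lr, e3, mul_assoc _ _ (M.EZ _ g), e4,
    ← mul_assoc, mul_assoc _ _ (M.lr 2 _)]
  exact (congrArg _ e5).trans (mul_one _)

theorem lev_aux (hD : Fam T D) (hA : MeasurableSet A) (hU : M.Steps D (Gate.Prim k A) 1 U)
    (h : M.Sim D k A U) (hC : MeasurableSet C) (hAC : Disjoint A C) (hC0 : 0 < nu0.real C)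
    (F : Finset M.H) (hF : ∀ ψ ∈ F, ψ ∈ M.LL D A A) {ε : ℝ} (hε : 0 < ε) :
    ∃ (U' : M.H →L[ℂ] M.H) (α : Lab K → ℝ) (f : SimpleFunc (Lab K) M.H),
      M.Steps D (Gate.OK k (A ∪ C)) 1 U' ∧ Measurable α ∧ Lev k f ∧ (∀ c, f c ∈ M.Md A) ∧
      (∀ ψ ∈ F, ‖U' ψ - M.ph α (M.Wf (M.WZ D) f (U ψ))‖ < ε) ∧
      ‖M.sc (ind A) (M.xi U') - M.sc (ind A) (M.xi U)‖ < ε := by
  classical
  have hd : M.Dec U := hU.dec hD (fun _ hg => hg.meas hA) Dec.one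
  have h1 : M.sc (ind A) M.Ω ∈ M.LL D A A := ind_mem_LL hD hA
  have h2 : M.sc (ind A) (M.xi U) ∈ M.LL D A A := by
    rw [xi, ← hd.star.sc_apply (BR.ind hA), ← (M.dec_pau 2).sc_apply (BR.ind hA),
      ← hd.sc_apply (BR.ind hA)]
    exact (hU.LL_prim hD hA (LL_loc (hU.LL_prim hD hA h1).1 (BM.const _))).2
  obtain ⟨U', α, f, h3, h4, h5, h6, h7⟩ := h C hC hAC hC0
    (insert (M.sc (ind A) M.Ω) (insert (M.sc (ind A) (M.xi U)) F)) (fun ψ hψ => by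
      rcases Finset.mem_insert.1 hψ with rfl | hψ
      · exact h1
      · rcases Finset.mem_insert.1 hψ with rfl | hψ
        · exact h2
        · exact hF ψ hψ) (ε / 2) (half_pos hε)
  refine ⟨U', α, f, h3, h4, h5, h6, fun ψ hψ => (h7 ψ (by simp [hψ])).trans (half_lt_self hε), ?_⟩
  have hG := lev_dec hD h4 h6
  have h8 := (hG.mul hd).xi_sub_le (h3.dec hD (fun _ hg => hg.meas) Dec.one) (BR.ind hA)
  rw [xi_mul hG.1 (lev_loc hD h4 h6 (BM.const _))] at h8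
  exact h8.trans_lt ((add_lt_add (h7 _ (by simp)) (h7 _ (by simp))).trans_eq (add_halves ε))

theorem Sim.one (hD : Fam T D) (k : ℕ) : M.Sim D k A 1 := by
  intro C _ _ _ F _ ε hε
  refine ⟨1, fun _ => 0, 0, .refl, measurable_const, fun _ _ _ _ => rfl, fun _ => zero_mem _,
    fun ψ _ => ?_⟩
  rw [M.ph_zero, (isW_WZ hD).Wf_zero]
  simpa using hε

theorem Sim.loc (hD : Fam T D) {k : ℕ} (h : M.Sim D k A U) {N : Fin 3} {α : Lab K → ℝ}
    (hg : Gate.OK k A (.loc N α)) : M.Sim D k A (M.ev D (.loc N α) U) := by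
  intro C hC hAC hC0 F hF ε hε
  obtain ⟨U', α', f, h1, h2, h3, h4, h5⟩ := h C hC hAC hC0 F hF ε hε
  refine ⟨_, α', f, .step (hg.mono le_rfl Set.subset_union_left) h1, h2, h3, h4, fun ψ hψ => ?_⟩
  have e : M.ph α' (M.Wf (M.WZ D) f (M.lr N α (U ψ))) =
      M.lr N α (M.ph α' (M.Wf (M.WZ D) f (U ψ))) :=
    (congrArg (· (U ψ)) (lev_loc hD h2 h4 (BM.rot N hg.1))).symm
  show ‖M.lr N α (U' ψ) - M.ph α' (M.Wf (M.WZ D) f (M.lr N α (U ψ)))‖ < ε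
  rw [e, ← map_sub, (M.dec_lr N hg.1).norm]
  exact h5 ψ hψ

theorem Sim.pul (hD : Fam T D) (hA : MeasurableSet A) (hU : M.Steps D (Gate.Prim k A) 1 U)
    (h : M.Sim D k A U) {a b : SimpleFunc (Lab K) ℝ} (hg : Gate.OK k A (.pul a b)) :
    M.Sim D k A (M.ev D (.pul a b) U) := by
  intro C hC hAC hC0 F hF ε hε
  have hd : M.Dec U := hU.dec hD (fun _ hg => hg.meas hA) Dec.one
  have hev : ∀ᶠ x in 𝓝[M.XX] (M.sc (ind A) (M.xi U)), ∀ ψ ∈ F,
      dist (M.EZ (M.WZ D) (M.pv a b x) (U ψ))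
        (M.EZ (M.WZ D) (M.pv a b (M.sc (ind A) (M.xi U))) (U ψ)) < ε / 2 :=
    (eventually_all_finset F).2 fun ψ _ => Metric.tendsto_nhds.1
      (EZ_pv_cont hD a b (U ψ) _ (XX.sc M hd.xi_mem (BR.ind hA))) _ (half_pos hε)
  obtain ⟨δ, hδ, hev⟩ := Metric.eventually_nhds_iff.1 (eventually_nhdsWithin_iff.1 hev)
  obtain ⟨U', α, f, h1, h2, h3, h4, h5, h6⟩ :=
    lev_aux hD hA hU h hC hAC hC0 F hF (lt_min hδ (half_pos hε))
  have hd' : M.Dec U' := h1.dec hD (fun _ hg => hg.meas) Dec.one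
  have hok := lev_ok hg (M.xi U') h3
  refine ⟨_, α, f, .step (hok.mono le_rfl Set.subset_union_left)
    (.step (hg.mono le_rfl Set.subset_union_left) h1), h2, h3, h4, fun ψ hψ => ?_⟩
  have h7 := hev (y := M.sc (ind A) (M.xi U'))
    (by rw [dist_eq_norm]; exact h6.trans_le (min_le_left _ _))
    (XX.sc M hd'.xi_mem (BR.ind hA)) ψ hψ
  rw [lev_pv hA hg, lev_pv hA hg, dist_eq_norm, ← (lev_dec hD h2 h4).norm, map_sub] at h7
  have h8 := (h5 ψ hψ).trans_le (min_le_right _ _)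
  have hV := (M.dec_lr 2 hok.1).mul ((isW_WZ hD).EZ_dec (pv_mem a b hd'.xi_mem))
  rw [← hV.norm, map_sub] at h8
  have e := congrArg (· (U ψ)) (lev_gauge hD h2 h4 (pv_mem a b hd'.xi_mem))
  refine (norm_sub_le_norm_sub_add_norm_sub _ _ _).trans_lt
    ((add_lt_add (lt_of_eq_of_lt ?_ h8) h7).trans_eq (add_halves ε))
  exact congrArg (fun z => ‖_ - z‖) e.symm

theorem Sim.prim (hD : Fam T D) (hA : MeasurableSet A) (hT : T ⊆ A)
    (hU : M.Steps D (Gate.Prim k A) 1 U) (h : M.Sim D k A U) (s : ℝ) :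
    M.Sim D k A (M.ev D (.loc 2 fun c => s * ind A c * c.2 k) U) := by
  classical
  intro C hC hAC hC0 F hF ε hε
  have hε3 : 0 < ε / 3 := by positivity
  have hw := isW_WZ (M := M) hD
  obtain ⟨a, a1, a2, a3⟩ := levp_approx (M := M) hD k s (F.image U) hε3
  obtain ⟨C₁, c1, c2, c3, c4⟩ := split_pos hC hC0
  obtain ⟨U', α, f, u1, u2, u3, u4, u5⟩ := h C₁ c1 (hAC.mono_right c2) c3 F hF _ hε3
  have hA' := hA.union c1
  have hd : M.Dec U' := u1.dec hD (fun _ => Gate.OK.meas) Dec.one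
  obtain ⟨R, r1, r2⟩ := rel hD hA hA' (hC.diff c1) (hT.trans Set.subset_union_left)
    Set.subset_union_left
    (Set.disjoint_union_left.2 ⟨hAC.mono_right Set.diff_subset, Set.disjoint_sdiff_right⟩) c4 a1
    (fun c hc => a2 c fun h => hc (hT h)) s u1 (F.image U') (fun φ hφ => by
      obtain ⟨ψ, hψ, rfl⟩ := Finset.mem_image.1 hφ
      exact (u1.LL_ok hD hA' (LL_mono hA hA' le_rfl Set.subset_union_left (hF ψ hψ))).1) hε3
  set g : SimpleFunc (Lab K) M.H := a.map fun r => r • s • M.mx A U' with hg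
  have g1 : ∀ c, g c ∈ M.Md A := fun c =>
    (M.Md A).smul_mem _ ((M.Md A).smul_mem _ (ind_mem_Md hA hd.xi_mem))
  have g2 : ∀ c, g c ∈ M.XX := fun c => Md_le (g1 c)
  have f2 : ∀ c, f c ∈ M.XX := fun c => Md_le (u4 c)
  have hx := M.XX.smul_mem s (M.sc_mem (levp_br a))
  have m1 := (meas_im (M := M) g f).1
  refine ⟨R * U', fun c => α c + (⟪g c, f c⟫_ℂ).im, g + f,
    (u1.mono fun _ h => h.mono le_rfl (Set.union_subset_union_right _ c2)).trans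
      (r1.mono fun _ h => h.mono le_rfl (Set.union_subset_union_right _ Set.diff_subset)),
    u2.add m1, fun c c' h1 h2 => ?_, fun c => add_mem (g1 c) (u4 c), fun ψ hψ => ?_⟩
  · simp only [hg, SimpleFunc.add_apply, SimpleFunc.map_apply, a1 c c' h1 h2, u3 c c' h1 h2]
  have e0 : M.ev D (.loc 2 fun c => s * ind A c * c.2 k) U ψ =
      M.EZc (M.WZ D) (s • M.sc (D k) M.Ω) (U ψ) :=
    levp_lr hD hA k s (LL_supp hA (hU.LL_prim hD hA (hF ψ hψ)).1)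
  have dG := ((M.dec_ph u2).mul (hw.Wf_dec g2)).mul (hw.Wf_dec f2)
  have e1 : ∀ φ, M.ph (fun c => α c + (⟪g c, f c⟫_ℂ).im) (M.Wf (M.WZ D) (g + f) φ) =
      (M.ph α * M.Wf (M.WZ D) g * M.Wf (M.WZ D) f) φ := fun φ => by
    rw [mul_assoc, hw.Wf_mul g2 f2, ← mul_assoc, M.ph_add u2 m1]; rfl
  have e2 : M.EZc (M.WZ D) (s • M.sc a M.Ω) (M.Wf (M.WZ D) g (M.ph α (M.Wf (M.WZ D) f (U ψ)))) =
      (M.ph α * M.Wf (M.WZ D) g * M.Wf (M.WZ D) f) (M.EZc (M.WZ D) (s • M.sc a M.Ω) (U ψ)) := by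
    have p1 := fun φ => congrArg (· φ) ((hw.EZc_dec hx).ph u2)
    have p2 := fun φ => congrArg (· φ) ((hw.Wf_dec g2).ph u2)
    simp only [ContinuousLinearMap.mul_apply] at p1 p2 ⊢
    rw [p2, p1, levp_comm hD (levp_br a) s g2, levp_comm hD (levp_br a) s f2]
  have n1 := r2 _ (Finset.mem_image_of_mem U' hψ)
  have n2 := u5 ψ hψ
  have n3 := a3 _ (Finset.mem_image_of_mem U hψ)
  rw [← (hw.Wf_dec g2).norm, ← (hw.EZc_dec hx).norm, map_sub, map_sub, e2] at n2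
  rw [← dG.norm, map_sub] at n3
  rw [e0, e1]
  have t1 := norm_sub_le_norm_sub_add_norm_sub (R (U' ψ))
    (M.EZc (M.WZ D) (s • M.sc a M.Ω) (M.Wf (M.WZ D) g (U' ψ)))
    ((M.ph α * M.Wf (M.WZ D) g * M.Wf (M.WZ D) f) (M.EZc (M.WZ D) (s • M.sc a M.Ω) (U ψ)))
  have t2 := norm_sub_le_norm_sub_add_norm_sub (R (U' ψ))
    ((M.ph α * M.Wf (M.WZ D) g * M.Wf (M.WZ D) f) (M.EZc (M.WZ D) (s • M.sc a M.Ω) (U ψ)))
    ((M.ph α * M.Wf (M.WZ D) g * M.Wf (M.WZ D) f) (M.EZc (M.WZ D) (s • M.sc (D k) M.Ω) (U ψ)))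
  rw [ContinuousLinearMap.mul_apply]
  linarith

theorem Sim.xi (hD : Fam T D) (hA : MeasurableSet A) (hU : M.Steps D (Gate.Prim k A) 1 U)
    (h : M.Sim D k A U) (hC : MeasurableSet C) (hAC : Disjoint A C) (hC0 : 0 < nu0.real C)
    {ε : ℝ} (hε : 0 < ε) : ∃ U', M.Steps D (Gate.OK k (A ∪ C)) 1 U' ∧
      ‖M.sc (ind A) (M.xi U' - M.xi U)‖ < ε := by
  obtain ⟨U', -, -, h1, -, -, -, -, h2⟩ :=
    lev_aux hD hA hU h hC hAC hC0 ∅ (fun _ h => absurd h (Finset.notMem_empty _)) hε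
  exact ⟨U', h1, by rwa [map_sub]⟩

theorem level (hD : Fam T D) (k : Fin K) (hA : MeasurableSet A) (hC : MeasurableSet C)
    (hT : T ⊆ A) (hAC : Disjoint A C) (hC0 : 0 < nu0.real C) :
    M.Near D (Gate.Prim k A) (Gate.OK k (A ∪ C)) A := by
  intro U hU ε hε
  refine Sim.xi hD hA hU ?_ hC hAC hC0 hε
  induction hU with
  | refl => exact Sim.one hD k
  | @step g U' hg hU' ih =>
    rcases hg with hg | ⟨s, rfl⟩
    · cases g with
      | loc N α => exact ih.loc hD hg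
      | pul a b => exact ih.pul hD hA hU' hg
    · exact ih.prim hD hA hT hU' s

end FS

end Vale.Agent.P367.Q
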