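import Vale.Agent.P367.QBase

/-! # P367, existence of the model: definitions and interface statements -/

namespace Vale.Agent.P367.Q

open Complex MeasureTheory Filter Topology Matrix TopologicalSpace
open scoped InnerProductSpace ENNReal

/-- the overlap of two coherent vectors -/
noncomputable def kk {h : Type} [NormedAddCommGroup h] [InnerProductSpace ℂ h] (a b : h) : ℂ :=
  exp (⟪a, b⟫_ℂ - (‖a‖ ^ 2 / 2 : ℝ) - (‖b‖ ^ 2 / 2 : ℝ))

/-- a total family of coherent vectors -/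
structure CohV (h : Type) [NormedAddCommGroup h] [InnerProductSpace ℂ h] where
  G : Type
  [nG : NormedAddCommGroup G]
  [iG : InnerProductSpace ℂ G]
  [cG : CompleteSpace G]
  e : h → G
  inner_e : ∀ a b, ⟪e a, e b⟫_ℂ = kk a b
  dense : Dense (Submodule.span ℂ (Set.range e) : Set G)

attribute [instance] CohV.nG CohV.iG CohV.cG

/-- the Fock representation of the Weyl relations -/
structure Fock (h : Type) [NormedAddCommGroup h] [InnerProductSpace ℂ h] where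
  G : Type
  [nG : NormedAddCommGroup G]
  [iG : InnerProductSpace ℂ G]
  [cG : CompleteSpace G]
  [sG : SeparableSpace G]
  o : G
  D : h → G →L[ℂ] G
  zero : D 0 = 1
  mul : ∀ x y, D x * D y = exp (-I * (⟪x, y⟫_ℂ).im) • D (x + y)
  star : ∀ x, star (D x) = D (-x)
  norm : ∀ x ψ, ‖D x ψ‖ = ‖ψ‖
  vac : ∀ x, ⟪o, D x o⟫_ℂ = exp (-(‖x‖ ^ 2 / 2 : ℝ))
  cont : ∀ ψ, Continuous fun x => D x ψ

attribute [instance] Fock.nG Fock.iG Fock.cG Fock.sG

/-- the one particle space -/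
abbrev h0 : Type := Lp ℂ 2 (@AddCircle.haarAddCircle 1 ⟨one_pos⟩)

/-- two components -/
abbrev E2 (G : Type) : Type := PiLp 2 fun _ : Fin 2 => G

/-- matrices and bath operators acting on two components -/
structure MatS (G : Type) [NormedAddCommGroup G] [InnerProductSpace ℂ G] [CompleteSpace G]
    (mat : M2 → E2 G →L[ℂ] E2 G) (dg : (G →L[ℂ] G) → E2 G →L[ℂ] E2 G) (om : G → E2 G) : Prop where
  cont : Continuous mat
  one : mat 1 = 1
  add : ∀ m m', mat (m + m') = mat m + mat m'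
  smul : ∀ (a : ℂ) m, mat (a • m) = a • mat m
  mul : ∀ m m', mat (m * m') = mat m * mat m'
  star : ∀ m, star (mat m) = mat mᴴ
  le : ∀ (m : M2) (C : ℝ), (∀ i j, ‖m i j‖ ≤ C) → ‖mat m‖ ≤ 4 * C
  dg_one : dg 1 = 1
  dg_smul : ∀ (a : ℂ) T, dg (a • T) = a • dg T
  dg_mul : ∀ T T', dg (T * T') = dg T * dg T'
  dg_star : ∀ T, Star.star (dg T) = dg (Star.star T)
  dg_le : ∀ T, (∀ ψ, ‖T ψ‖ = ‖ψ‖) → ‖dg T‖ ≤ 1
  dg_cont : ∀ {X : Type} [TopologicalSpace X] (T : X → G →L[ℂ] G),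
    (∀ ψ, Continuous fun x => T x ψ) → ∀ y, Continuous fun x => dg (T x) y
  comm : ∀ m T, dg T * mat m = mat m * dg T
  vac : ∀ m T o, ⟪om o, mat m (dg T (om o))⟫_ℂ = vac m * ⟪o, T o⟫_ℂ

/-- decomposable operators -/
structure MoS {Λ : Type} [MeasurableSpace Λ] (μ : Measure Λ) (E : Type) [NormedAddCommGroup E]
    [InnerProductSpace ℂ E] [CompleteSpace E]
    (mo : (Λ → E →L[ℂ] E) → Lp E 2 μ →L[ℂ] Lp E 2 μ) : Prop where
  ae : ∀ A, MemLp A ∞ μ → ∀ f, mo A f =ᵐ[μ] fun c => A c (f c)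
  one : mo (fun _ => 1) = 1
  add : ∀ A B, MemLp A ∞ μ → MemLp B ∞ μ → mo (fun c => A c + B c) = mo A + mo B
  smul : ∀ (a : ℂ) A, MemLp A ∞ μ → mo (fun c => a • A c) = a • mo A
  mul : ∀ A B, MemLp A ∞ μ → MemLp B ∞ μ → mo (fun c => A c * B c) = mo A * mo B
  star : ∀ A, MemLp A ∞ μ → star (mo A) = mo fun c => Star.star (A c)
  le : ∀ A (C : ℝ), MemLp A ∞ μ → 0 ≤ C → (∀ c, ‖A c‖ ≤ C) → ‖mo A‖ ≤ C
  dom : ∀ (A : ℕ → Λ → E →L[ℂ] E) (B : Λ → E →L[ℂ] E) (C : ℝ),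
    (∀ n, MemLp (A n) ∞ μ) → MemLp B ∞ μ →
    (∀ n c, ‖A n c‖ ≤ C) → (∀ᵐ c ∂μ, ∀ y, Tendsto (fun n => A n c y) atTop (𝓝 (B c y))) →
    ∀ f, Tendsto (fun n => mo (A n) f) atTop (𝓝 (mo B f))

/-- The kernel is positive semidefinite. -/
def S_psd : Prop := ∀ (h : Type) [NormedAddCommGroup h] [InnerProductSpace ℂ h] (s : Finset h)
  (c : h → ℂ), 0 ≤ (∑ a ∈ s, ∑ b ∈ s, (starRingEnd ℂ) (c a) * c b * kk a b).re

/-- Coherent vectors exist. -/
def S_coh : Prop := ∀ (h : Type) [NormedAddCommGroup h] [InnerProductSpace ℂ h], Nonempty (CohV h)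

/-- The Fock representation exists. -/
def S_fock : Prop := ∀ (h : Type) [NormedAddCommGroup h] [InnerProductSpace ℂ h]
  [SeparableSpace h], Nonempty (Fock h)

/-- Separable Hilbert spaces embed in the one particle space. -/
def S_emb : Prop := ∀ (H : Type) [NormedAddCommGroup H] [InnerProductSpace ℂ H] [CompleteSpace H]
  [SeparableSpace H], Nonempty (H →ₗᵢ[ℂ] h0)

/-- The operators on two components exist. -/
def S_mat : Prop := ∀ (G : Type) [NormedAddCommGroup G] [InnerProductSpace ℂ G] [CompleteSpace G],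
  ∃ mat dg om, MatS G mat dg om

/-- The decomposable operators exist. -/
def S_mo : Prop := ∀ (Λ : Type) [MeasurableSpace Λ] (μ : Measure Λ) [IsFiniteMeasure μ] (E : Type)
  [NormedAddCommGroup E] [InnerProductSpace ℂ E] [CompleteSpace E], ∃ mo, MoS μ E mo

end Vale.Agent.P367.Q
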