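import Vale.Agent.P367.QMDefs

/-! # P367, existence of the model: QMPsd -/

namespace Vale.Agent.P367.Q

open Complex MeasureTheory Filter Topology Matrix TopologicalSpace
open scoped InnerProductSpace ENNReal

namespace QMPsdAux

open scoped ComplexOrder

variable {h : Type} [NormedAddCommGroup h] [InnerProductSpace ℂ h]

theorem pow_psd (s : Finset h) (k : ℕ) :
    (Matrix.of fun a b : s => ⟪(a : h), (b : h)⟫_ℂ ^ k).PosSemidef := by
  induction k with
  | zero =>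
    have e : (Matrix.of fun a b : s => ⟪(a : h), (b : h)⟫_ℂ ^ 0) = gram ℂ fun _ : s => (1 : ℂ) := by
      ext a b
      simp
    rw [e]
    exact posSemidef_gram ℂ _
  | succ k ih =>
    have e : (Matrix.of fun a b : s => ⟪(a : h), (b : h)⟫_ℂ ^ (k + 1)) =
        (Matrix.of fun a b : s => ⟪(a : h), (b : h)⟫_ℂ ^ k) ⊙ gram ℂ fun a : s => (a : h) := by
      ext a b
      simp [pow_succ]
    rw [e]
    exact ih.hadamard (posSemidef_gram ℂ _)

theorem pow_nonneg' (s : Finset h) (d : h → ℂ) (k : ℕ) :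
    0 ≤ (∑ a ∈ s, ∑ b ∈ s, (starRingEnd ℂ) (d a) * d b * (⟪a, b⟫_ℂ ^ k / k.factorial)).re := by
  have h1 := (pow_psd s k).dotProduct_mulVec_nonneg fun a => d a
  have e : ∑ a ∈ s, ∑ b ∈ s, (starRingEnd ℂ) (d a) * d b * (⟪a, b⟫_ℂ ^ k / k.factorial) =
      (star (fun a : s => d a) ⬝ᵥ (Matrix.of fun a b : s => ⟪(a : h), (b : h)⟫_ℂ ^ k) *ᵥ
        fun a : s => d a) / ((k.factorial : ℝ) : ℂ) := by
    simp only [dotProduct, mulVec, Finset.mul_sum, Finset.sum_div, Pi.star_apply, of_apply,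
      ← Finset.sum_coe_sort s]
    refine Finset.sum_congr rfl fun a _ => Finset.sum_congr rfl fun b _ => ?_
    simp only [RCLike.star_def, ofReal_natCast]
    ring
  rw [e, div_ofReal_re]
  exact div_nonneg (Complex.nonneg_iff.1 h1).1 (Nat.cast_nonneg _)

theorem exp_nonneg' (s : Finset h) (d : h → ℂ) :
    0 ≤ (∑ a ∈ s, ∑ b ∈ s, (starRingEnd ℂ) (d a) * d b * exp ⟪a, b⟫_ℂ).re := by
  have hs : ∀ z : ℂ, HasSum (fun k : ℕ => z ^ k / k.factorial) (exp z) := fun z => by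
    rw [Complex.exp_eq_exp_ℂ]
    exact NormedSpace.expSeries_div_hasSum_exp z
  have h1 : HasSum (fun k : ℕ => ∑ a ∈ s, ∑ b ∈ s,
      (starRingEnd ℂ) (d a) * d b * (⟪a, b⟫_ℂ ^ k / k.factorial))
      (∑ a ∈ s, ∑ b ∈ s, (starRingEnd ℂ) (d a) * d b * exp ⟪a, b⟫_ℂ) :=
    hasSum_sum fun a _ => hasSum_sum fun b _ => (hs ⟪a, b⟫_ℂ).mul_left _
  exact (Complex.hasSum_re h1).nonneg fun k => pow_nonneg' s d k

end QMPsdAux

open QMPsdAux in
theorem psd : S_psd := by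
  intro h _ _ s c
  have e : ∀ a b : h, (starRingEnd ℂ) (c a) * c b * kk a b =
      (starRingEnd ℂ) (c a * Real.exp (-(‖a‖ ^ 2 / 2))) * (c b * Real.exp (-(‖b‖ ^ 2 / 2))) *
        exp ⟪a, b⟫_ℂ := fun a b => by
    rw [kk, map_mul, conj_ofReal, ofReal_exp, ofReal_exp, sub_eq_add_neg, sub_eq_add_neg, exp_add,
      exp_add, ofReal_neg, ofReal_neg]
    ring
  simp only [e]
  exact exp_nonneg' s fun a => c a * Real.exp (-(‖a‖ ^ 2 / 2))

end Vale.Agent.P367.Q
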