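import Vale.Agent.P367.QBase

/-! Partitions into small cells and simple approximation. -/

namespace Vale.Agent.P367.Q

open Complex MeasureTheory ProbabilityTheory Filter Topology Matrix

namespace PartAux

open Set

theorem app {S : Set ℝ} (hS : MeasurableSet S) :
    nu0 S = gaussianReal 0 1 ((fun r => |r|) ⁻¹' S) := Measure.map_apply (by fun_prop) hS

theorem le_vol : gaussianReal 0 1 ≤ volume := by
  rw [gaussianReal_of_var_ne_zero _ one_ne_zero]
  refine (withDensity_mono (g := 1) (ae_of_all _ fun x => ?_)).trans_eq withDensity_one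
  refine ENNReal.ofReal_le_one.2 (mul_le_one₀ (inv_le_one_of_one_le₀ (Real.one_le_sqrt.2 ?_))
    (Real.exp_pos _).le (Real.exp_le_one_iff.2 ?_))
  · simp only [NNReal.coe_one]; linarith [Real.pi_gt_three]
  · exact div_nonpos_of_nonpos_of_nonneg (neg_nonpos.2 (sq_nonneg _)) (by positivity)

theorem band {S : Set ℝ} {a d : ℝ} (hd : 0 ≤ d) (h : ∀ x ∈ S, a ≤ |x| ∧ |x| ≤ a + d) :
    nu0.real S ≤ 2 * d := by
  refine ENNReal.toReal_le_of_le_ofReal (by positivity) ?_
  have m : MeasurableSet ((fun r : ℝ => |r|) ⁻¹' Icc a (a + d)) := by measurability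
  refine (measure_mono (t := (fun r : ℝ => |r|) ⁻¹' Icc a (a + d)) h).trans ?_
  rw [app m]
  refine (le_vol _).trans ((measure_mono (t := Icc a (a + d) ∪ Icc (-(a + d)) (-a))
    fun x hx => ?_).trans ((measure_union_le _ _).trans_eq ?_))
  · simp only [mem_preimage, abs_abs, mem_Icc, mem_union] at hx ⊢
    rcases abs_cases x with k | k
    exacts [.inl (k.1 ▸ hx), .inr ⟨by linarith, by linarith⟩]
  · rw [Real.volume_Icc, Real.volume_Icc, ← ENNReal.ofReal_add (by linarith) (by linarith)]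
    congr 1; ring

theorem tail {m d : ℝ} (hm : 0 < m) (hd : 0 < d) : ∃ n : ℕ, nu0.real {x | n * d ≤ |x|} ≤ m := by
  have h := tendsto_measure_iInter_atTop (μ := nu0) (s := fun n : ℕ => {x : ℝ | n * d ≤ |x|})
    (fun n => (measurableSet_le measurable_const (by fun_prop)).nullMeasurableSet)
    (fun i j hij x (hx : (j : ℝ) * d ≤ |x|) => show (i : ℝ) * d ≤ |x| from le_trans (by gcongr) hx)
    ⟨0, measure_ne_top _ _⟩
  have e : ⋂ n : ℕ, {x : ℝ | n * d ≤ |x|} = ∅ := eq_empty_of_forall_notMem fun x hx => by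
    obtain ⟨n, hn⟩ := exists_nat_gt (|x| / d)
    exact ((div_lt_iff₀ hd).1 hn).not_ge (mem_iInter.1 hx n)
  rw [e, measure_empty] at h
  obtain ⟨n, hn⟩ := (h.eventually_lt_const (ENNReal.ofReal_pos.2 hm)).exists
  exact ⟨n, ENNReal.toReal_le_of_le_ofReal hm.le hn.le⟩

end PartAux

open PartAux

theorem part {m : ℝ} (hm : 0 < m) : ∃ (n : ℕ) (B : ℕ → Set ℝ), (∀ j, MeasurableSet (B j)) ∧
    Monotone B ∧ B 0 = ∅ ∧ B n = Set.univ ∧ ∀ j, nu0.real (B (j + 1) \ B j) ≤ m := by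
  obtain ⟨n, hn⟩ := tail hm (half_pos hm)
  refine ⟨n + 1, fun j => {x | |x| < j * (m / 2) ∨ n < j}, fun j =>
    MeasurableSet.union (s₁ := {x | |x| < j * (m / 2)})
      (measurableSet_lt (by fun_prop) measurable_const) (MeasurableSet.const _),
    fun i j hij x hx => hx.imp (fun k => k.trans_le (by gcongr)) fun k => k.trans_le hij,
    by ext; simp, by simp, fun j => ?_⟩
  rcases eq_or_ne j n with rfl | h
  · exact (measureReal_mono fun x hx => not_lt.1 fun k => hx.2 (.inl k)).trans hn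
  · refine (band (a := j * (m / 2)) (half_pos hm).le fun x hx =>
      ⟨not_lt.1 fun k => hx.2 (.inl k), ?_⟩).trans_eq (by ring)
    rcases hx.1 with k | k
    · push_cast at k; linarith
    · exact (hx.2 (.inr (by omega))).elim

theorem split_pos {C : Set ℝ} (hC : MeasurableSet C) (h : 0 < nu0.real C) :
    ∃ C₁, MeasurableSet C₁ ∧ C₁ ⊆ C ∧ 0 < nu0.real C₁ ∧ 0 < nu0.real (C \ C₁) := by
  classical
  obtain ⟨n, B, h1, -, h3, h4, h5⟩ := part (half_pos h)
  have ex : ∃ j, 0 < nu0.real (C ∩ B j) := ⟨n, by rwa [h4, Set.inter_univ]⟩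
  obtain ⟨j, hj⟩ := Nat.exists_eq_succ_of_ne_zero (n := Nat.find ex) fun e => by
    simpa [e, h3] using Nat.find_spec ex
  have k1 := Nat.find_spec ex
  have k2 := Nat.find_min ex (hj ▸ j.lt_succ_self)
  rw [hj] at k1
  refine ⟨C ∩ B (j + 1), hC.inter (h1 _), Set.inter_subset_left, k1, ?_⟩
  have k3 : nu0.real C ≤ nu0.real (C \ (C ∩ B (j + 1)) ∪ (C ∩ B j ∪ B (j + 1) \ B j)) :=
    measureReal_mono fun x hx => by
      simp only [Set.mem_union, Set.mem_sdiff, Set.mem_inter_iff]; tauto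
  have k4 := measureReal_union_le (μ := nu0) (C \ (C ∩ B (j + 1))) (C ∩ B j ∪ B (j + 1) \ B j)
  have k5 := measureReal_union_le (μ := nu0) (C ∩ B j) (B (j + 1) \ B j)
  linarith [h5 j]

theorem nu0_Ico {a b : ℝ} (ha : 0 ≤ a) (h : a < b) : 0 < nu0.real (Set.Ico a b) := by
  refine ENNReal.toReal_pos (fun e => ?_) (measure_ne_top _ _)
  rw [app measurableSet_Ico] at e
  have := gaussianReal_absolutelyContinuous' 0 one_ne_zero (measure_mono_null
    (s := Set.Ioo a b) (fun x hx => by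
      rw [Set.mem_preimage, abs_of_pos (ha.trans_lt hx.1)]; exact ⟨hx.1.le, hx.2⟩) e)
  simp at this
  linarith

theorem nu0_Ici {ε : ℝ} (hε : 0 < ε) : ∃ η > 0, 1 - ε ≤ nu0.real (Set.Ici η) := by
  refine ⟨ε / 2, half_pos hε, ?_⟩
  have k1 := band (S := Set.Ico 0 (ε / 2)) (a := 0) (half_pos hε).le fun x hx =>
    ⟨abs_nonneg x, by rw [abs_of_nonneg hx.1, zero_add]; exact hx.2.le⟩
  have k2 := measureReal_union_le (μ := nu0) (Set.Ico 0 (ε / 2)) (Set.Ici (ε / 2))
  have k3 : nu0.real (Set.Ici 0) = 1 := by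
    rw [Measure.real, app measurableSet_Ici,
      Set.eq_univ_of_forall (s := (fun r : ℝ => |r|) ⁻¹' Set.Ici 0) abs_nonneg]
    simp
  rw [Set.Ico_union_Ici_eq_Ici (half_pos hε).le] at k2
  linarith

theorem approx_simple {K k : ℕ} {g : Lab K → ℝ} (hg : BR g) (hk : Lev k g) {δ : ℝ} (hδ : 0 < δ) :
    ∃ a : SimpleFunc (Lab K) ℝ, Lev k a ∧ (∀ c, g c = 0 → a c = 0) ∧ ∀ c, |a c - g c| ≤ δ := by
  obtain ⟨h1, C, h2⟩ := hg
  have m : Measurable fun c => δ * (⌊g c / δ⌋ : ℝ) :=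
    ((measurable_from_top (f := Int.cast)).comp (h1.div_const δ).floor).const_mul δ
  refine ⟨⟨fun c => δ * (⌊g c / δ⌋ : ℝ), fun x => m (measurableSet_singleton x),
    ((Set.finite_Icc ⌊-C / δ⌋ ⌊C / δ⌋).image fun z : ℤ => δ * (z : ℝ)).subset ?_⟩,
    fun c c' e e' => ?_, fun c e => ?_, fun c => ?_⟩
  · rintro _ ⟨c, rfl⟩
    have := abs_le.1 (h2 c)
    exact ⟨_, ⟨Int.floor_mono (by gcongr; exact this.1), Int.floor_mono (by gcongr; exact this.2)⟩,
      rfl⟩
  · simp only [SimpleFunc.coe_mk, hk c c' e e']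
  · simp [e]
  · have a1 := (le_div_iff₀ hδ).1 (Int.floor_le (g c / δ))
    have a2 := (div_lt_iff₀ hδ).1 (Int.lt_floor_add_one (g c / δ))
    simp only [SimpleFunc.coe_mk]
    rw [abs_le]; constructor <;> linarith

end Vale.Agent.P367.Q
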