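import Vale.Agent.P367.QInv
import Vale.Agent.P367.QPart

/-! The relay gate. -/

namespace Vale.Agent.P367.Q

open Complex MeasureTheory ProbabilityTheory Filter Topology Matrix
open scoped InnerProductSpace

namespace FS

variable {K : ℕ} {M : FS (Lab K) (muK K)} {D : Fin K → Lab K → ℝ} {T A A' C : Set ℝ}
  {U : M.H →L[ℂ] M.H}

theorem rel (hD : Fam T D) (hA : MeasurableSet A) (hA' : MeasurableSet A') (hC : MeasurableSet C)
    (hT : T ⊆ A') (hAA' : A ⊆ A') (hAC : Disjoint A' C) (hC0 : 0 < nu0.real C) {k : ℕ}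
    {a : SimpleFunc (Lab K) ℝ} (ha : Lev k a) (has : ∀ c : Lab K, c.1 ∉ A → a c = 0) (s : ℝ)
    (hU : M.Steps D (Gate.OK k A') 1 U) (F : Finset M.H) (hF : ∀ ψ ∈ F, ψ ∈ M.LL D A A') {ε : ℝ}
    (hε : 0 < ε) : ∃ R, M.Steps D (Gate.OK k (A ∪ C)) U (R * U) ∧ ∀ ψ ∈ F,
      ‖R ψ - M.EZc (M.WZ D) (s • M.sc a M.Ω)
        (M.Wf (M.WZ D) (a.map fun r => r • s • M.mx A U) ψ)‖ < ε := by
  obtain ⟨L, hL⟩ := (BR.simple a).2
  have dU := hU.dec hD (fun _ h => h.meas) Dec.one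
  have hUA := (hU.LL_ok hD hA' (ind_mem_LL hD hA)).1
  have ev : ∀ᶠ ω in 𝓝[>] (0 : ℝ), ∀ ψ ∈ F, ∀ m R e y g, m ≤ ω →
      M.InvA D A A' A a L s ω m U R e y g → ‖R ψ - M.EZc (M.WZ D) (s • M.sc a M.Ω)
        (M.Wf (M.WZ D) (a.map fun r => r • s • M.mx A U) ψ)‖ < ε :=
    (eventually_all_finset F).2 fun ψ hψ => by
      obtain ⟨δ, d, h⟩ := InvA.fin (s := s) hD hA hA' hAA' hL has dU (hF ψ hψ) hε
      filter_upwards [Ioc_mem_nhdsGT d] with ω q m R e y g k
      exact h ω m R e y g q.1.le q.2 (k.trans q.2)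
  obtain ⟨ω, fin, ω0, ω1⟩ := (ev.and (Ioc_mem_nhdsGT (show (0 : ℝ) < 1 / 2000 by norm_num))).exists
  have hω : 2 ^ 17 * ω ^ 2 ≤ 1 / 10 := by nlinarith
  have ν1 : nu0.real C ≤ 1 := measureReal_le_one
  obtain ⟨γ, hγ⟩ : ∃ γ, γ = 1 / (ω * nu0.real C) := ⟨_, rfl⟩
  have γ1 : 1 ≤ γ := hγ ▸ one_le_one_div (by positivity) (by nlinarith)
  have γ2 : ω * (γ * nu0.real C) = 1 := by
    rw [hγ]
    field_simp
  obtain ⟨n, B, mB, mono, B0, Bn, hm⟩ := part (lt_min ω0 (show 0 < 1 / (16 * γ ^ 4) by positivity))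
  have key : ∀ j, ∃ R e y g, M.Steps D (Gate.OK k (A ∪ C)) U (R * U) ∧
      M.InvA D A A' (B j ∩ A) a L s ω (min ω (1 / (16 * γ ^ 4))) U R e y g ∧
      M.InvC D C (B j ∩ A) ω (R * U) := by
    intro j
    induction j with
    | zero =>
      rw [B0, Set.empty_inter]
      refine ⟨1, _, _, _, (one_mul U).symm ▸ Steps.refl,
        InvA.init hD hA dU ((abs_nonneg _).trans (hL (0, 0))) ω0.le, 1, Ev.one,
        (one_mul U).symm ▸ hU.id_compl hD hA' hC hAC, ?_⟩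
      rw [one_apply_eq_self, inner_self_eq_norm_sq_to_K, norm_pow, RCLike.norm_ofReal,
        abs_norm, norm_ind_sq hC, measureReal_empty, mul_zero, sub_zero, one_mul]
    | succ j ih =>
      obtain ⟨R, e, y, g, st, iA, iC⟩ := ih
      have hB := (mB j).inter hA
      have hb := ((mB (j + 1)).diff (mB j)).inter hA
      have dj : Disjoint (B j ∩ A) ((B (j + 1) \ B j) ∩ A) :=
        Set.disjoint_left.2 fun _ u v => v.1.2 u.1
      have un : B (j + 1) ∩ A = B j ∩ A ∪ (B (j + 1) \ B j) ∩ A := by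
        rw [← Set.union_inter_distrib_right, Set.union_sdiff_cancel (mono j.le_succ)]
      have bm := (measureReal_mono (Set.inter_subset_left (t := A))).trans (hm j)
      obtain ⟨v1, v2⟩ := iC.vac hD hB hb hC dj (iA.dec.mul dU) hω
      obtain ⟨V, s1, dV, ⟨d, d1, d2, d3, d4⟩, c2, c3⟩ := cell hD hA hA' hb hC hT
        Set.inter_subset_right hAA' hAC ha hL s γ1 γ2 (by
          have := bm.trans (min_le_right _ _)
          rw [le_div_iff₀ (by positivity)] at this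
          linarith) (iA.dec.mul dU)
        (iA.LL hD hA hA' hB hb hAA' Set.inter_subset_right Set.inter_subset_right dj dU hUA) v1 v2
      obtain ⟨y', g', iA'⟩ := iA.step hD hA hA' hB hb hAA' Set.inter_subset_right
        Set.inter_subset_right dj hL ω0.le bm dU hUA dV d1 d2 d3 d4 c2
      rw [un]
      exact ⟨V * R, _, y', g', (mul_assoc V R U).symm ▸ st.trans s1, iA',
        (mul_assoc V R U).symm ▸ iC.step hD hB hb hC dj hω c3⟩
  obtain ⟨R, e, y, g, st, iA, -⟩ := key n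
  rw [Bn, Set.univ_inter] at iA
  exact ⟨R, st, fun ψ hψ => fin ψ hψ _ R e y g (min_le_left _ _) iA⟩

end FS

end Vale.Agent.P367.Q
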