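import Vale.Agent.P367.QV

/-! Functions of one field: the state of the spin after a measurement like word. -/

namespace Vale.Agent.P367.Q

open Complex MeasureTheory ProbabilityTheory Filter Topology Matrix
open scoped InnerProductSpace

namespace FS

variable {Λ : Type} [MeasurableSpace Λ] {μ : Measure Λ} {M : FS Λ μ}
  {w : M.H → M.H →L[ℂ] M.H} {Y Y' : Submodule ℝ M.H} {x y ψ : M.H}

theorem QRep_sp_sum {ι : Type} (s : Finset ι) (m : ι → M2) :
    M.sp (∑ j ∈ s, m j) = ∑ j ∈ s, M.sp (m j) := by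
  classical
  induction s using Finset.induction_on with
  | empty => simpa using M.sp_zero
  | insert a s ha ih => rw [Finset.sum_insert ha, Finset.sum_insert ha, sp_add, ih]

theorem QRep_im (a : ℝ) (x y : M.H) : (⟪a • x, y⟫_ℂ).im = a * (⟪x, y⟫_ℂ).im := by
  rw [← Complex.coe_smul, inner_smul_left, conj_ofReal, im_ofReal_mul]

theorem QRep_line (hw : M.IsW w Y) (hy : y ∈ Y) (a b : ℝ) (p m : M2) :
    M.sp p * w (a • y) * (M.sp m * w (b • y)) = M.sp (p * m) * w ((a + b) • y) := by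
  have h1 : w (a • y) * M.sp m = M.sp m * w (a • y) := hw.loc _ (Y.smul_mem a hy) (BM.const m)
  have h2 : (⟪a • y, b • y⟫_ℂ).im = 0 := by
    rw [QRep_im, ← Complex.coe_smul, inner_smul_right, im_ofReal_mul,
      show (⟪y, y⟫_ℂ).im = 0 from inner_self_im (𝕜 := ℂ) y, mul_zero, mul_zero]
  rw [mul_assoc, ← mul_assoc (w _), h1, mul_assoc, hw.mul _ (Y.smul_mem a hy) _ (Y.smul_mem b hy),
    h2, ← add_smul, sp_mul, mul_assoc]
  simp

/-- expansion of a word in Weyl operators -/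
theorem IsW.Rep_sum (hw : M.IsW w Y) (hy : y ∈ Y) {V : M.H →L[ℂ] M.H} {A : ℝ → M2}
    (h : M.Rep w y V A) : ∃ (ι : Type) (s : Finset ι) (θ : ι → ℝ) (m : ι → M2),
      V = ∑ j ∈ s, M.sp (m j) * w (θ j • y) ∧
        ∀ r, A r = ∑ j ∈ s, exp (-I * (θ j * r : ℝ)) • m j := by
  induction h with
  | one => exact ⟨Unit, Finset.univ, fun _ => 0, fun _ => 1, by simp [hw.zero, sp_one], by simp⟩
  | rot N a _ ih =>
    obtain ⟨ι, s, θ, m, h1, h2⟩ := ih
    refine ⟨ι, s, θ, fun j => rot N a * m j, ?_, fun r => ?_⟩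
    · simp only [h1, Finset.mul_sum, sp_mul, mul_assoc]
    · simp only [h2, Finset.mul_sum, mul_smul_comm]
  | ez t _ ih =>
    obtain ⟨ι, s, θ, m, h1, h2⟩ := ih
    refine ⟨Bool × ι, Finset.univ ×ˢ s, fun z => (if z.1 then t else -t) + θ z.2,
      fun z => pr z.1 * m z.2, ?_, fun r => ?_⟩
    · rw [h1, EZc, ← neg_smul, add_mul, Finset.sum_product, Fintype.sum_bool]
      simp only [Finset.mul_sum, QRep_line hw hy, if_true, Bool.false_eq_true, if_false]
    · beta_reduce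
      rw [h2, rot_Z, add_mul, Finset.sum_product, Fintype.sum_bool]
      simp only [Finset.mul_sum, smul_mul_smul_comm, ← exp_add, if_true, Bool.false_eq_true,
        if_false]
      congr 1 <;> refine Finset.sum_congr rfl fun j _ => ?_ <;> congr 2 <;> push_cast <;> ring

theorem Vac.Rep_norm (hv : M.Vac w Y' (M.orb ψ)) (hw : M.IsW w Y) (hY : Y' ≤ Y) (hx : x ∈ Y)
    (hy : y ∈ Y') {V : M.H →L[ℂ] M.H} {A : ℝ → M2} (h : M.Rep w y V A) (n m : M2) :
    ‖M.sp n (V (w x (M.sp m ψ)))‖ ^ 2 =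
      ∫ g, ‖M.sp (n * A (2 * (⟪y, x⟫_ℂ).im + ‖y‖ * g) * m) ψ‖ ^ 2 ∂gaussianReal 0 1 := by
  obtain ⟨ι, s, θ, a, h1, h2⟩ := hw.Rep_sum (hY hy) h
  have c : ∀ z ∈ Y, ∀ p, M.sp p * w z = w z * M.sp p := fun z hz p =>
    (hw.loc z hz (BM.const p)).symm
  have e : ∀ j, M.sp n * (M.sp (a j) * w (θ j • y)) * w x * M.sp m = w x * (w (θ j • y) *
      M.sp (exp (-I * (θ j * (2 * (⟪y, x⟫_ℂ).im) : ℝ)) • (n * a j * m))) := fun j => by
    have hj := Y.smul_mem (θ j) (hY hy)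
    rw [← mul_assoc, ← sp_mul, mul_assoc (M.sp _), hw.w_comm hj hx, QRep_im, mul_left_comm 2,
      sp_smul, sp_mul _ _ m]
    simp only [mul_smul_comm, smul_mul_assoc]
    rw [← mul_assoc (M.sp _), c x hx, mul_assoc (w x), c _ hj]
    simp only [mul_assoc]
  have e2 : M.sp n (V (w x (M.sp m ψ))) = w x (∑ j ∈ s, w (θ j • y)
      (M.sp (exp (-I * (θ j * (2 * (⟪y, x⟫_ℂ).im) : ℝ)) • (n * a j * m)) ψ)) := by
    rw [h1, _root_.sum_apply, map_sum, map_sum]
    exact Finset.sum_congr rfl fun j _ => congrArg (· ψ) (e j)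
  rw [e2, (IsW.dec M hw hx).norm, hv.norm_comb hw hY hy s θ _ fun j => ⟨_, rfl⟩]
  refine integral_congr_ae (ae_of_all _ fun g => ?_)
  simp only [h2, Finset.mul_sum, Finset.sum_mul, QRep_sp_sum, _root_.sum_apply,
    mul_smul_comm, smul_mul_assoc, sp_smul, _root_.smul_apply, smul_smul, ← exp_add]
  congr 2
  refine Finset.sum_congr rfl fun j _ => ?_
  congr 2
  push_cast
  ring

end FS

end Vale.Agent.P367.Q
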