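import Vale.Agent.P367.QF
import Vale.Agent.P367.QFin
import Vale.Agent.P367.QDMain
import Vale.Agent.P367.QMMain
import Vale.Agent.P367.CIface
import Vale.Agent.P367.QI

/-! Assembly. -/

namespace Vale.Agent.P367.Q

open Filter Topology

theorem main (hL : LStm) :
    Tendsto gse atTop (𝓝 Pstar) ∧
      (∀ (p : ℕ) (γ β : Fin p → ℝ), Tendsto (energy γ β) atTop (𝓝 (vLim γ β))) ∧
      Tendsto Qp atTop (𝓝 Pstar) := by
  have hD : ∀ (p : ℕ) (γ β : Fin p → ℝ), ∃ v, Tendsto (energy γ β) atTop (𝓝 v) :=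
    fun p γ β => ⟨_, dStm p γ β⟩
  have key := fin hD fun ε hε => by
    have h3 : 0 < ε / 3 := by positivity
    obtain ⟨K, m, D, a1, a2, a3, a4, a5, a6⟩ := cStm _ h3
    obtain ⟨β, γ, s, p, hq⟩ := quant model hL a1 a2 a3 a4 a5 h3
    obtain ⟨β', γ', p', h⟩ := stepI (model 0) β γ s p _ h3
    refine ⟨p', fun j => γ' j, fun j => β' j, fun n hn => ?_⟩
    have e : vLim (fun j : Fin p' => γ' j) (fun j => β' j) = vR β' γ' 0 p' := by
      rw [vLim, (dStm p' _ _).limUnder_eq]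
      exact vR_congr p' fun j hj => by simp [co, hj]
    have := a6 n hn
    rw [e]
    unfold gK at this
    linarith [(abs_lt.1 h).1]
  exact ⟨key.1, fun p γ β => tendsto_nhds_limUnder (hD p γ β), key.2⟩

end Vale.Agent.P367.Q
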