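import Vale.Agent.P367.QBase

/-! Calculus of the operators `exp (-i Z φ(x))`. -/

namespace Vale.Agent.P367.Q

open Complex MeasureTheory ProbabilityTheory Filter Topology Matrix
open scoped InnerProductSpace

namespace FS

variable {Λ : Type} [MeasurableSpace Λ] {μ : Measure Λ} {M : FS Λ μ}
  {w : M.H → M.H →L[ℂ] M.H} {Y : Submodule ℝ M.H} {x y : M.H}

theorem qwa_pp (M : FS Λ μ) (σ τ : Bool) :
    M.sp (pr σ) * M.sp (pr τ) = if σ = τ then M.sp (pr σ) else 0 := by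
  rw [← sp_mul, pr_mul]
  split_ifs
  · rfl
  · exact M.sp_zero

theorem qwa_sum (M : FS Λ μ) : M.sp (pr true) + M.sp (pr false) = 1 := by
  rw [← sp_add, pr_add, sp_one]

theorem IsW.qwa_sp (hw : M.IsW w Y) (hx : x ∈ Y) (m : M2) : w x * M.sp m = M.sp m * w x :=
  hw.loc x hx (BM.const m)

theorem qwa_mul {A B C D : M.H →L[ℂ] M.H} (hA : ∀ m, A * M.sp m = M.sp m * A)
    (hB : ∀ m, B * M.sp m = M.sp m * B) :
    (M.sp (pr true) * A + M.sp (pr false) * B) * (M.sp (pr true) * C + M.sp (pr false) * D) =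
      M.sp (pr true) * (A * C) + M.sp (pr false) * (B * D) := by
  have h : ∀ (E F : M.H →L[ℂ] M.H) σ τ, (∀ m, E * M.sp m = M.sp m * E) →
      M.sp (pr σ) * E * (M.sp (pr τ) * F) = (M.sp (pr σ) * M.sp (pr τ)) * (E * F) :=
    fun E F σ τ hE => by
      rw [mul_assoc, ← mul_assoc E, hE, mul_assoc, mul_assoc]
  rw [add_mul, mul_add, mul_add, h A C _ _ hA, h A D _ _ hA, h B C _ _ hB, h B D _ _ hB]
  simp [qwa_pp]

theorem qwa_pY (σ : Bool) : pau 1 * pr σ = pr (!σ) * pau 1 := by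
  cases σ <;> ext i j <;> fin_cases i <;> fin_cases j <;> simp [pr, pau, Matrix.mul_apply]

theorem qwa_diag {m : M2} (h : m * pau 2 = pau 2 * m) (σ : Bool) : m * pr σ = pr σ * m := by
  have e : pr σ = (1 / 2 : ℂ) • (1 + (sg σ : ℂ) • pau 2) := by
    rw [← pr_add, ← pr_sub]
    cases σ <;> simp only [sg, Bool.false_eq_true, if_true, if_false, ofReal_neg, ofReal_one] <;>
      module
  rw [e, mul_smul_comm, smul_mul_assoc, mul_add, add_mul, mul_smul_comm, smul_mul_assoc, h,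
    mul_one, one_mul]

theorem qwa_im (x y : M.H) : (⟪y, x⟫_ℂ).im = -(⟪x, y⟫_ℂ).im := by
  rw [← inner_conj_symm, conj_im]

theorem qwa_sub {U V W : M.H →L[ℂ] M.H} (hU : M.Dec U) (hW : M.Dec W) (x y : M.H)
    (h : U * V = exp (-I * (⟪y, x⟫_ℂ).im) • W) (ψ : M.H) :
    ‖W ψ - U ψ‖ ≤ ‖V ψ - ψ‖ + ‖x‖ * ‖y‖ * ‖ψ‖ := by
  have h1 : U (V ψ) = exp (-I * (⟪y, x⟫_ℂ).im) • W ψ := congrArg (· ψ) h
  have h2 : W ψ - U ψ = U (V ψ - ψ) - (exp (-I * (⟪y, x⟫_ℂ).im) - 1) • W ψ := by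
    rw [map_sub, h1, sub_smul, one_smul]
    abel
  have h3 : ‖exp (-I * (⟪y, x⟫_ℂ).im) - 1‖ ≤ ‖x‖ * ‖y‖ := by
    have k := Real.norm_exp_I_mul_ofReal_sub_one_le (x := (⟪x, y⟫_ℂ).im)
    rw [qwa_im x y, ofReal_neg, neg_mul_neg]
    exact k.trans ((abs_im_le_norm _).trans (norm_inner_le_norm x y))
  rw [h2]
  refine (norm_sub_le _ _).trans ?_
  rw [hU.norm, norm_smul, hW.norm]
  exact add_le_add le_rfl (mul_le_mul_of_nonneg_right h3 (norm_nonneg _))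

theorem IsW.pr_EZc (hw : M.IsW w Y) (σ : Bool) (x : M.H) :
    M.sp (pr σ) * M.EZc w x = M.sp (pr σ) * w (sg σ • x) := by
  rw [EZc, mul_add, ← mul_assoc, ← mul_assoc, qwa_pp, qwa_pp]
  cases σ <;> simp [sg]

theorem IsW.EZc_zero (hw : M.IsW w Y) : M.EZc w 0 = 1 := by
  rw [EZc, neg_zero, hw.zero, mul_one, mul_one, qwa_sum]

theorem IsW.EZc_mul (hw : M.IsW w Y) (hx : x ∈ Y) (hy : y ∈ Y) :
    M.EZc w x * M.EZc w y = exp (-I * (⟪x, y⟫_ℂ).im) • M.EZc w (x + y) := by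
  rw [EZc, EZc, EZc, qwa_mul (hw.qwa_sp hx) (hw.qwa_sp (neg_mem hx)), hw.mul x hx y hy,
    hw.mul _ (neg_mem hx) _ (neg_mem hy), inner_neg_neg, neg_add, mul_smul_comm, mul_smul_comm,
    smul_add]

theorem IsW.EZc_star (hw : M.IsW w Y) (hx : x ∈ Y) : Star.star (M.EZc w x) = M.EZc w (-x) := by
  rw [EZc, EZc, star_add, star_mul, star_mul, sp_star, sp_star, pr_star, pr_star, hw.star x hx,
    hw.star _ (neg_mem hx), hw.qwa_sp (neg_mem hx), hw.qwa_sp (neg_mem (neg_mem hx))]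

theorem IsW.qwa_loc (hw : M.IsW w Y) (hx : x ∈ Y) {u : Λ → M2} (hu : BM u)
    (h : ∀ c, u c * pau 2 = pau 2 * u c) : M.loc u * M.EZc w x = M.EZc w x * M.loc u := by
  have k : ∀ σ, M.loc u * M.sp (pr σ) = M.sp (pr σ) * M.loc u := fun σ =>
    M.loc_comm hu (BM.const _) fun c => qwa_diag (h c) σ
  rw [EZc, mul_add, add_mul, ← mul_assoc, ← mul_assoc, k, k, mul_assoc, mul_assoc, mul_assoc,
    mul_assoc, hw.loc x hx hu, hw.loc _ (neg_mem hx) hu]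

theorem IsW.EZc_dec (hw : M.IsW w Y) (hx : x ∈ Y) : M.Dec (M.EZc w x) :=
  ⟨by rw [hw.EZc_star hx, hw.EZc_mul (neg_mem hx) hx]; simp [hw.EZc_zero, ← ofReal_pow],
    by rw [hw.EZc_star hx, hw.EZc_mul hx (neg_mem hx)]; simp [hw.EZc_zero, ← ofReal_pow],
    fun _ hg => (hw.qwa_loc hx hg.bm fun c => by simp).symm⟩

/-- `EZc` commutes with every function of the label and of `Z` -/
theorem IsW.EZc_diag (hw : M.IsW w Y) (hx : x ∈ Y) {u : Λ → M2} (hu : BM u)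
    (h : ∀ c, u c * pau 2 = pau 2 * u c) : M.loc u * M.EZc w x = M.EZc w x * M.loc u :=
  hw.qwa_loc hx hu h

theorem IsW.EZc_Z (hw : M.IsW w Y) (hx : x ∈ Y) :
    M.sp (pau 2) * M.EZc w x = M.EZc w x * M.sp (pau 2) :=
  hw.EZc_diag hx (BM.const _) fun _ => rfl

theorem IsW.qwa_flip (hw : M.IsW w Y) (hx : x ∈ Y) {m : M2}
    (h : ∀ σ, m * pr σ = pr (!σ) * m) : M.sp m * M.EZc w x = M.EZc w (-x) * M.sp m := by
  have k : ∀ σ, M.sp m * M.sp (pr σ) = M.sp (pr (!σ)) * M.sp m := fun σ => by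
    rw [← sp_mul, ← sp_mul, h]
  rw [EZc, EZc, neg_neg, mul_add, add_mul, ← mul_assoc, ← mul_assoc, k, k, mul_assoc, mul_assoc,
    mul_assoc, mul_assoc, hw.qwa_sp hx, hw.qwa_sp (neg_mem hx), add_comm]
  rfl

theorem IsW.EZc_X (hw : M.IsW w Y) (hx : x ∈ Y) :
    M.sp (pau 0) * M.EZc w x = M.EZc w (-x) * M.sp (pau 0) := hw.qwa_flip hx pX_pr

theorem IsW.EZc_Y (hw : M.IsW w Y) (hx : x ∈ Y) :
    M.sp (pau 1) * M.EZc w x = M.EZc w (-x) * M.sp (pau 1) := hw.qwa_flip hx qwa_pY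

theorem IsW.w_comm (hw : M.IsW w Y) (hx : x ∈ Y) (hy : y ∈ Y) :
    w x * w y = exp (-I * (2 * (⟪x, y⟫_ℂ).im : ℝ)) • (w y * w x) := by
  rw [hw.mul x hx y hy, hw.mul y hy x hx, smul_smul, ← exp_add, add_comm y, qwa_im x y]
  congr 2
  push_cast
  ring

theorem IsW.EZc_w (hw : M.IsW w Y) (hx : x ∈ Y) (hy : y ∈ Y) :
    M.EZc w x * w y = w y * M.EZc w x * M.sp (rot 2 (2 * (⟪x, y⟫_ℂ).im)) := by
  have h1 : M.sp (rot 2 (2 * (⟪x, y⟫_ℂ).im)) =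
      M.sp (pr true) * (exp (-I * (2 * (⟪x, y⟫_ℂ).im : ℝ)) • 1) +
        M.sp (pr false) * (exp (-I * (2 * (⟪-x, y⟫_ℂ).im : ℝ)) • 1) := by
    rw [rot_Z, sp_add, sp_smul, sp_smul, mul_smul_comm, mul_smul_comm, mul_one, mul_one,
      inner_neg_left, neg_im, mul_neg, ofReal_neg, neg_mul_neg]
  rw [mul_assoc, h1, EZc, qwa_mul (hw.qwa_sp hx) (hw.qwa_sp (neg_mem hx)), add_mul, mul_add,
    mul_assoc, mul_assoc, hw.w_comm hx hy, hw.w_comm (neg_mem hx) hy, ← mul_assoc (w y),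
    ← mul_assoc (w y), hw.qwa_sp hy, hw.qwa_sp hy]
  simp only [mul_smul_comm, mul_one, mul_assoc]

theorem IsW.EZc_cont (hw : M.IsW w Y) (ψ : M.H) : ContinuousOn (fun x => M.EZc w x ψ) Y :=
  ((M.sp (pr true)).continuous.comp_continuousOn (hw.cont ψ)).add
    ((M.sp (pr false)).continuous.comp_continuousOn
      ((hw.cont ψ).comp continuous_neg.continuousOn fun _ hx => neg_mem hx))

theorem qwa_pr_sq (ψ : M.H) :
    ‖M.sp (pr true) ψ‖ ^ 2 + ‖M.sp (pr false) ψ‖ ^ 2 = ‖ψ‖ ^ 2 := by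
  have h1 : M.sp (pr true) ψ + M.sp (pr false) ψ = ψ := congrArg (· ψ) (qwa_sum M)
  have h2 : ⟪M.sp (pr true) ψ, M.sp (pr false) ψ⟫_ℂ = 0 := by
    rw [← M.inner_star', sp_star, pr_star, sp_sp, pr_mul, if_neg (by simp), sp_zero]
    simp
  have h3 := norm_add_sq_eq_norm_sq_add_norm_sq_of_inner_eq_zero _ _ h2
  rw [h1] at h3
  linarith

theorem norm_pr_le (σ : Bool) (ψ : M.H) : ‖M.sp (pr σ) ψ‖ ≤ ‖ψ‖ := by
  refine le_of_pow_le_pow_left₀ two_ne_zero (norm_nonneg _) ?_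
  rw [← qwa_pr_sq ψ]
  cases σ
  · exact le_add_of_nonneg_left (sq_nonneg _)
  · exact le_add_of_nonneg_right (sq_nonneg _)

theorem norm_pr_sq (ψ : M.H) : ‖M.sp (pr true) ψ‖ ^ 2 + ‖M.sp (pr false) ψ‖ ^ 2 = ‖ψ‖ ^ 2 :=
  qwa_pr_sq ψ

theorem IsW.EZc_sub_le (hw : M.IsW w Y) (hx : x ∈ Y) (ψ : M.H) :
    ‖M.EZc w x ψ - ψ‖ ≤ ‖w x ψ - ψ‖ + ‖w (-x) ψ - ψ‖ := by
  have h1 : M.sp (pr true) ψ + M.sp (pr false) ψ = ψ := congrArg (· ψ) (qwa_sum M)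
  have h2 : M.EZc w x ψ = M.sp (pr true) (w x ψ) + M.sp (pr false) (w (-x) ψ) := rfl
  have h3 : M.EZc w x ψ - ψ = M.sp (pr true) (w x ψ - ψ) + M.sp (pr false) (w (-x) ψ - ψ) := by
    rw [map_sub, map_sub, sub_add_sub_comm, h1, h2]
  rw [h3]
  exact (norm_add_le _ _).trans (add_le_add (norm_pr_le _ _) (norm_pr_le _ _))

theorem IsW.w_sub_w (hw : M.IsW w Y) (hx : x ∈ Y) (hy : y ∈ Y) (ψ : M.H) :
    ‖w x ψ - w y ψ‖ ≤ ‖w (x - y) ψ - ψ‖ + ‖x - y‖ * ‖y‖ * ‖ψ‖ :=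
  qwa_sub (hw.dec M hy) (hw.dec M hx) _ _
    (by rw [hw.mul y hy _ (sub_mem hx hy), add_sub_cancel]) ψ

theorem IsW.EZc_sub_EZc (hw : M.IsW w Y) (hx : x ∈ Y) (hy : y ∈ Y) (ψ : M.H) :
    ‖M.EZc w x ψ - M.EZc w y ψ‖ ≤ ‖M.EZc w (x - y) ψ - ψ‖ + ‖x - y‖ * ‖y‖ * ‖ψ‖ :=
  qwa_sub (hw.EZc_dec hy) (hw.EZc_dec hx) _ _
    (by rw [hw.EZc_mul hy (sub_mem hx hy), add_sub_cancel]) ψ

theorem norm_rot_sub (N : Fin 3) (a : ℝ) (ψ : M.H) : ‖M.sp (rot N a) ψ - ψ‖ ≤ |a| * ‖ψ‖ := by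
  have h0 : (⟪ψ, M.sp (pau N) ψ⟫_ℂ).im = 0 := by
    rw [← conj_eq_iff_im, inner_conj_symm, ← M.inner_star', sp_star, pau_star]
  have h1 : M.sp (rot N a) ψ = (Real.cos a : ℂ) • ψ - (I * Real.sin a) • M.sp (pau N) ψ := by
    rw [rot, sp_sub, sp_smul, sp_smul, sp_one]
    rfl
  have h2 : (⟪ψ, M.sp (rot N a) ψ⟫_ℂ).re = Real.cos a * ‖ψ‖ ^ 2 := by
    rw [h1, inner_sub_right, inner_smul_right, inner_smul_right, inner_self_eq_norm_sq_to_K]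
    simp [h0, ← ofReal_pow, -ofReal_cos, -ofReal_sin]
  have h3 : ‖ψ - M.sp (rot N a) ψ‖ ^ 2 = (2 - 2 * Real.cos a) * ‖ψ‖ ^ 2 := by
    rw [@norm_sub_sq ℂ, (M.dec_rot N a).norm, RCLike.re_to_complex, h2]
    ring
  refine le_of_pow_le_pow_left₀ two_ne_zero (by positivity) ?_
  rw [norm_sub_rev, h3, mul_pow, sq_abs]
  exact mul_le_mul_of_nonneg_right (by linarith [Real.one_sub_sq_div_two_le_cos (x := a)])
    (sq_nonneg _)

theorem norm_loc_sub {u : Λ → M2} (hu : BM u) {C : ℝ} (h0 : 0 ≤ C)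
    (h : ∀ c i j, ‖(u c - 1) i j‖ ≤ C) (ψ : M.H) : ‖M.loc u ψ - ψ‖ ≤ 4 * C * ‖ψ‖ := by
  have hb : BM fun c => u c - 1 := by
    simpa only [sub_eq_add_neg] using hu.add (BM.const (-1))
  have e : M.loc u ψ - ψ = M.loc (fun c => u c - 1) ψ := by
    rw [M.loc_sub hu (BM.const 1), M.loc_one]
    rfl
  rw [e]
  exact (ContinuousLinearMap.le_opNorm _ _).trans
    (mul_le_mul_of_nonneg_right (M.loc_le hb h0 h) (norm_nonneg _))

theorem one_entry_le (i j : Fin 2) : ‖(1 : M2) i j‖ ≤ 1 := by fin_cases i <;> fin_cases j <;> simp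

theorem norm_lr_sub (N : Fin 3) {g : Λ → ℝ} (hg : Measurable g) {a : ℝ} (h0 : 0 ≤ a)
    (ha : ∀ c, |g c| ≤ a) (ψ : M.H) : ‖M.lr N g ψ - ψ‖ ≤ 8 * a * ‖ψ‖ := by
  refine (norm_loc_sub (BM.rot N hg) (C := 2 * a) (by positivity) (fun c i j => ?_) ψ).trans_eq
    (by ring)
  have e : rot N (g c) - 1 =
      ((Real.cos (g c) - 1 : ℝ) : ℂ) • (1 : M2) - (I * Real.sin (g c)) • pau N := by
    rw [rot, ofReal_sub, ofReal_one]
    module
  have h1 : |Real.cos (g c) - 1| ≤ a := by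
    have := Real.abs_cos_sub_cos_le (g c) 0
    rw [Real.cos_zero, sub_zero] at this
    exact this.trans (ha c)
  have h2 := mul_le_mul h1 (one_entry_le i j) (norm_nonneg _) h0
  have h3 := mul_le_mul (Real.abs_sin_le_abs.trans (ha c)) (pau_le N i j) (norm_nonneg _) h0
  rw [e]
  refine (norm_sub_le _ _).trans ?_
  simp only [Matrix.smul_apply, smul_eq_mul, norm_mul, norm_real, Real.norm_eq_abs, norm_I, one_mul]
  linarith

theorem norm_ph_sub {g : Λ → ℝ} (hg : Measurable g) {a : ℝ} (h0 : 0 ≤ a)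
    (ha : ∀ c, |g c| ≤ a) (ψ : M.H) : ‖M.ph g ψ - ψ‖ ≤ 4 * a * ‖ψ‖ := by
  refine norm_loc_sub (BM.ph hg) h0 (fun c i j => ?_) ψ
  have e : exp (-I * g c) • (1 : M2) - 1 = (exp (I * (-g c : ℝ)) - 1) • (1 : M2) := by
    rw [sub_smul, one_smul, ofReal_neg, mul_neg, neg_mul]
  have h1 : ‖exp (I * (-g c : ℝ)) - 1‖ ≤ a :=
    Real.norm_exp_I_mul_ofReal_sub_one_le.trans (by simpa using ha c)
  rw [e, Matrix.smul_apply, smul_eq_mul, norm_mul]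
  exact (mul_le_mul h1 (one_entry_le i j) (norm_nonneg _) h0).trans_eq (mul_one a)

theorem IsW.lay_dec (hw : M.IsW w Y) (hx : x ∈ Y) {ρ : Λ → ℝ} (hρ : Measurable ρ) (β s : ℝ) :
    M.Dec (M.lay w ρ β s x) :=
  ((M.dec_rot 0 β).mul (M.dec_lr 2 (hρ.const_mul s))).mul (hw.EZc_dec hx)

theorem IsW.OO_dec (hw : M.IsW w Y) {ρ : Λ → ℝ} (hρ : Measurable ρ) (β s : ℕ → ℝ) {f : ℕ → M.H}
    (d : ℕ) (hf : ∀ j < d, f j ∈ Y) : M.Dec (M.OO w ρ β s f d) := by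
  induction d with
  | zero => exact Dec.one
  | succ d ih =>
    exact (hw.lay_dec (hf d d.lt_succ_self) hρ _ _).mul (ih fun j hj => hf j (by omega))

theorem IsW.proc_dec (hw : M.IsW w Y) (hY : M.XX ≤ Y) {ρ : Λ → ℝ} (hρ : Measurable ρ)
    (β γ s : ℕ → ℝ) (d : ℕ) : M.Dec (M.proc w ρ β γ s d) := by
  induction d with
  | zero => exact Dec.one
  | succ d ih => exact (hw.lay_dec (Y.smul_mem _ (hY ih.xi_mem)) hρ _ _).mul ih

theorem proc_eq_OO (w : M.H → M.H →L[ℂ] M.H) (ρ : Λ → ℝ) (β γ s : ℕ → ℝ) (d : ℕ) :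
    M.proc w ρ β γ s d = M.OO w ρ β s (fun j => γ j • M.xi (M.proc w ρ β γ s j)) d := by
  induction d with
  | zero => rfl
  | succ d ih => rw [OO, ← ih, proc]

theorem IsW.Ev_dec (hw : M.IsW w Y) {Y' : Submodule ℝ M.H} (hY : Y' ≤ Y) {V : M.H →L[ℂ] M.H}
    (h : M.Ev w Y' V) : M.Dec V := by
  induction h with
  | one => exact Dec.one
  | rot a _ ih => exact (M.dec_rot 0 a).mul ih
  | ez hx _ ih => exact (hw.EZc_dec (hY hx)).mul ih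

theorem Ev.mul {V V' : M.H →L[ℂ] M.H} (h : M.Ev w Y V) (h' : M.Ev w Y V') : M.Ev w Y (V * V') := by
  induction h with
  | one => rwa [one_mul]
  | rot a _ ih => rw [mul_assoc]; exact ih.rot a
  | ez hx _ ih => rw [mul_assoc]; exact ih.ez hx

theorem Ev.mono {Y' : Submodule ℝ M.H} (hY : Y ≤ Y') {V : M.H →L[ℂ] M.H} (h : M.Ev w Y V) :
    M.Ev w Y' V := by
  induction h with
  | one => exact Ev.one
  | rot a _ ih => exact ih.rot a
  | ez hx _ ih => exact ih.ez (hY hx)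

theorem IsW.Rep_dec (hw : M.IsW w Y) (hy : y ∈ Y) {V : M.H →L[ℂ] M.H} {A : ℝ → M2}
    (h : M.Rep w y V A) : M.Dec V := by
  induction h with
  | one => exact Dec.one
  | rot N a _ ih => exact (M.dec_rot N a).mul ih
  | ez t _ ih => exact (hw.EZc_dec (Y.smul_mem t hy)).mul ih

/-- approximation of `ξ`: it suffices to approximate the unitary on two vectors -/
theorem Dec.xi_sub_le {U U' : M.H →L[ℂ] M.H} (h : M.Dec U) (h' : M.Dec U') {g : Λ → ℝ}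
    (hg : BR g) : ‖M.sc g (M.xi U') - M.sc g (M.xi U)‖ ≤
      ‖U' (M.sc g M.Ω) - U (M.sc g M.Ω)‖ + ‖U' (M.sc g (M.xi U)) - U (M.sc g (M.xi U))‖ := by
  have e : ∀ {V : M.H →L[ℂ] M.H}, M.Dec V →
      V (M.sc g (M.xi V)) = M.sp (pau 2) (V (M.sc g M.Ω)) := fun hV => by
    rw [xi, ← hV.star.sc_apply hg, hV.apply_star, ← (M.dec_pau 2).sc_apply hg, ← hV.sc_apply hg]
  rw [← h'.norm, map_sub, e h', ← (M.dec_pau 2).norm (_ - U (M.sc g M.Ω)), map_sub, ← e h,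
    norm_sub_rev (U' (M.sc g (M.xi U)))]
  exact norm_sub_le_norm_sub_add_norm_sub _ _ _

end FS

end Vale.Agent.P367.Q
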