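import Vale.Agent.P367.QW1

/-! Calculus of displacements which depend on the label. -/

namespace Vale.Agent.P367.Q

open Complex MeasureTheory ProbabilityTheory Filter Topology Matrix
open scoped InnerProductSpace

namespace FS

variable {Λ : Type} [MeasurableSpace Λ] {μ : Measure Λ} {M : FS Λ μ}
  {w : M.H → M.H →L[ℂ] M.H} {Y : Submodule ℝ M.H} {f g : SimpleFunc Λ M.H}

theorem sc_ind_mul {E E' : Set Λ} (hE : MeasurableSet E) (hE' : MeasurableSet E') :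
    M.sc (E.indicator 1) * M.sc (E'.indicator 1) = M.sc ((E ∩ E').indicator 1) := by
  rw [← M.sc_mul (BR.indicator hE) (BR.indicator hE'), Set.inter_indicator_one]
  rfl

theorem sc_idc_empty : M.sc ((∅ : Set Λ).indicator 1) = 0 := by
  have := M.sc_const 0
  rw [Set.indicator_empty]
  simpa using this

theorem sc_idc_univ : M.sc ((Set.univ : Set Λ).indicator 1) = 1 := by
  have := M.sc_const 1
  rw [ofReal_one, one_smul] at this
  rwa [Set.indicator_univ]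

theorem norm_sc_ind_sq {E : Set Λ} (hE : MeasurableSet E) (ψ : M.H) :
    ‖M.sc (E.indicator 1) ψ‖ ^ 2 = (⟪ψ, M.sc (E.indicator 1) ψ⟫_ℂ).re := by
  rw [@norm_sq_eq_re_inner ℂ, ← M.inner_star', M.sc_star (BR.indicator hE),
    ← mul_apply_eq_comp, sc_ind_mul hE hE, Set.inter_self]
  rfl

theorem norm_sc_ind_le {E : Set Λ} (hE : MeasurableSet E) (ψ : M.H) :
    ‖M.sc (E.indicator 1) ψ‖ ≤ ‖ψ‖ := by
  have h := (norm_sc_ind_sq hE ψ).trans_le
    ((re_le_norm _).trans (norm_inner_le_norm _ _))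
  nlinarith [norm_nonneg ψ, norm_nonneg (M.sc (E.indicator 1) ψ)]

/-- the cells of a simple function give a resolution of the identity -/
theorem sum_cells {α : Type} (a : SimpleFunc Λ α) :
    ∑ v ∈ a.range, M.sc ((a ⁻¹' {v}).indicator 1) = 1 := by
  classical
  have h : ∀ s : Finset α, ∑ v ∈ s, M.sc ((a ⁻¹' {v}).indicator 1) =
      M.sc ((a ⁻¹' (s : Set α)).indicator 1) := fun s => by
    induction s using Finset.induction_on with
    | empty => simpa using sc_idc_empty.symm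
    | insert v s hv ih =>
      rw [Finset.sum_insert hv, ih, ← M.sc_add (BR.indicator (a.measurableSet_preimage _))
        (BR.indicator (a.measurableSet_preimage _)), Finset.coe_insert, Set.insert_eq,
        Set.preimage_union, Set.indicator_union_of_disjoint
          ((Set.disjoint_singleton_left.2 hv).preimage a)]
  rw [h, SimpleFunc.coe_range, Set.preimage_range, sc_idc_univ]

theorem norm_sq_cells {α : Type} (a : SimpleFunc Λ α) (ψ : M.H) :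
    ∑ v ∈ a.range, ‖M.sc ((a ⁻¹' {v}).indicator 1) ψ‖ ^ 2 = ‖ψ‖ ^ 2 := by
  rw [Finset.sum_congr rfl fun v _ => norm_sc_ind_sq (a.measurableSet_preimage {v}) ψ, ← re_sum,
    ← inner_sum, ← _root_.sum_apply, sum_cells, @norm_sq_eq_re_inner ℂ]
  rfl

theorem eq_cells {α : Type} (a : SimpleFunc Λ α) (A : M.H →L[ℂ] M.H) :
    A = ∑ v ∈ a.range, M.sc ((a ⁻¹' {v}).indicator 1) * A := by
  rw [← Finset.sum_mul, sum_cells, one_mul]

theorem ext_cells {α : Type} (a : SimpleFunc Λ α) {A B : M.H →L[ℂ] M.H}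
    (h : ∀ v ∈ a.range, M.sc ((a ⁻¹' {v}).indicator 1) * A = M.sc ((a ⁻¹' {v}).indicator 1) * B) :
    A = B := by
  rw [eq_cells a A, Finset.sum_congr rfl h, ← eq_cells]

theorem sc_loc_congr {E : Set Λ} (hE : MeasurableSet E) {u v : Λ → M2} (hu : BM u) (hv : BM v)
    (h : ∀ c ∈ E, u c = v c) :
    M.sc (E.indicator 1) * M.loc u = M.sc (E.indicator 1) * M.loc v := by
  rw [M.sc_mul_loc (BR.indicator hE) hu, M.sc_mul_loc (BR.indicator hE) hv]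
  congr 1
  funext c
  by_cases hc : c ∈ E
  · rw [h c hc]
  · simp [hc]

theorem sc_Wf (w : M.H → M.H →L[ℂ] M.H) {E : Set Λ} (hE : MeasurableSet E) {v : M.H}
    (h : ∀ c ∈ E, f c = v) :
    M.sc (E.indicator 1) * M.Wf w f = M.sc (E.indicator 1) * w v := by
  have hm := fun v => sc_ind_mul (M := M) hE (f.measurableSet_preimage {v})
  have h0 : ∀ v', v' ≠ v ∨ v' ∉ f.range → E ∩ f ⁻¹' {v'} = ∅ := fun v' hv' =>
    Set.eq_empty_of_forall_notMem fun c hc =>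
      hv'.elim (fun e => e (hc.2.symm.trans (h c hc.1))) fun e => e (hc.2 ▸ f.mem_range_self c)
  have h1 : E ∩ f ⁻¹' {v} = E := Set.inter_eq_left.2 h
  rw [Wf, Finset.mul_sum, Finset.sum_eq_single v, ← mul_assoc, hm, h1]
  · intro b _ hb
    rw [← mul_assoc, hm, h0 b (Or.inl hb), sc_idc_empty, zero_mul]
  · intro hv
    rw [← mul_assoc, hm, h0 v (Or.inr hv), sc_idc_empty, zero_mul]

theorem sc_EZ (w : M.H → M.H →L[ℂ] M.H) {E : Set Λ} (hE : MeasurableSet E) {v : M.H}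
    (h : ∀ c ∈ E, f c = v) :
    M.sc (E.indicator 1) * M.EZ w f = M.sc (E.indicator 1) * M.EZc w v := by
  have h' : ∀ c ∈ E, (-f) c = -v := fun c hc => congrArg Neg.neg (h c hc)
  simp only [EZ, EZc, mul_add, ← mul_assoc, M.sc_sp (BR.indicator hE)]
  simp only [mul_assoc, sc_Wf w hE h, sc_Wf w hE h']

theorem sc_Wf_congr (w : M.H → M.H →L[ℂ] M.H) {E : Set Λ} (hE : MeasurableSet E)
    (h : ∀ c ∈ E, f c = g c) :
    M.sc (E.indicator 1) * M.Wf w f = M.sc (E.indicator 1) * M.Wf w g := by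
  refine ext_cells f fun v _ => ?_
  have hm := f.measurableSet_preimage {v}
  rw [← mul_assoc, ← mul_assoc, sc_ind_mul hm hE, sc_Wf w (hm.inter hE) fun c hc => hc.1,
    sc_Wf w (hm.inter hE) fun c hc => (h c hc.2).symm.trans hc.1]

theorem sc_EZ_congr (w : M.H → M.H →L[ℂ] M.H) {E : Set Λ} (hE : MeasurableSet E)
    (h : ∀ c ∈ E, f c = g c) :
    M.sc (E.indicator 1) * M.EZ w f = M.sc (E.indicator 1) * M.EZ w g := by
  refine ext_cells f fun v _ => ?_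
  have hm := f.measurableSet_preimage {v}
  rw [← mul_assoc, ← mul_assoc, sc_ind_mul hm hE, sc_EZ w (hm.inter hE) fun c hc => hc.1,
    sc_EZ w (hm.inter hE) fun c hc => (h c hc.2).symm.trans hc.1]

theorem Wf_const' (w : M.H → M.H →L[ℂ] M.H) {x : M.H} (h : ∀ c, f c = x) : M.Wf w f = w x := by
  simpa only [sc_idc_univ, one_mul] using sc_Wf w MeasurableSet.univ fun c _ => h c

theorem EZ_const' (w : M.H → M.H →L[ℂ] M.H) {x : M.H} (h : ∀ c, f c = x) :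
    M.EZ w f = M.EZc w x := by
  simpa only [sc_idc_univ, one_mul] using sc_EZ w MeasurableSet.univ fun c _ => h c

theorem Wf_of_const [Nonempty Λ] (w : M.H → M.H →L[ℂ] M.H) {x : M.H} (h : ∀ c, f c = x) :
    M.Wf w f = w x := Wf_const' w h

theorem EZ_of_const [Nonempty Λ] (w : M.H → M.H →L[ℂ] M.H) {x : M.H} (h : ∀ c, f c = x) :
    M.EZ w f = M.EZc w x := EZ_const' w h

theorem meas_im (f g : SimpleFunc Λ M.H) : BR fun c => (⟪f c, g c⟫_ℂ).im :=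
  BR.simple ((f.pair g).map fun p : M.H × M.H => (⟪p.1, p.2⟫_ℂ).im)

theorem ext_pair (hf : ∀ c, f c ∈ Y) (hg : ∀ c, g c ∈ Y) {A B : M.H →L[ℂ] M.H}
    (h : ∀ E, MeasurableSet E → ∀ x ∈ Y, ∀ y ∈ Y, (∀ c ∈ E, f c = x) → (∀ c ∈ E, g c = y) →
      M.sc (E.indicator 1) * A = M.sc (E.indicator 1) * B) : A = B := by
  refine ext_cells (f.pair g) fun v hv => ?_
  obtain ⟨c, rfl⟩ := SimpleFunc.mem_range.1 hv
  exact h _ (SimpleFunc.measurableSet_preimage _ _) _ (hf c) _ (hg c)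
    (fun _ hc => congrArg Prod.fst hc) fun _ hc => congrArg Prod.snd hc

theorem cell_mul {P A A' B B' : M.H →L[ℂ] M.H} (hA : P * A = P * A') (hB : P * B = P * B')
    (h : A' * P = P * A') : P * (A * B) = P * (A' * B') := by
  rw [← mul_assoc, hA, ← h, mul_assoc, hB, ← mul_assoc, h, mul_assoc]

theorem cell_comm (hf : ∀ c, f c ∈ Y) {A L : M.H →L[ℂ] M.H} {a : M.H → M.H →L[ℂ] M.H}
    (hA : ∀ E, MeasurableSet E → ∀ x, (∀ c ∈ E, f c = x) →
      M.sc (E.indicator 1) * A = M.sc (E.indicator 1) * a x)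
    (hL : ∀ g, BR g → M.sc g * L = L * M.sc g) (h : ∀ x ∈ Y, L * a x = a x * L) :
    L * A = A * L :=
  ext_pair hf hf fun E hE x hx _ _ h1 _ => by
    rw [cell_mul rfl (hA E hE x h1) (hL _ (BR.indicator hE)).symm, h x hx, ← mul_assoc,
      ← hA E hE x h1, mul_assoc]

theorem sc_ph {E : Set Λ} (hE : MeasurableSet E) {α : Λ → ℝ} (hα : Measurable α) {a : ℝ}
    (h : ∀ c ∈ E, α c = a) :
    M.sc (E.indicator 1) * M.ph α = M.sc (E.indicator 1) * (exp (-I * a) • 1) := by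
  rw [← M.loc_one, ← M.loc_smul _ (BM.const 1)]
  exact sc_loc_congr hE (BM.ph hα) ((BM.const 1).smul _) fun c hc => by rw [h c hc]

theorem IsW.Wf_loc (hw : M.IsW w Y) (hf : ∀ c, f c ∈ Y) {u : Λ → M2} (hu : BM u) :
    M.Wf w f * M.loc u = M.loc u * M.Wf w f :=
  (cell_comm hf (fun _ hE _ h => sc_Wf w hE h) (fun _ hg => M.sc_loc hg hu)
    fun x hx => (hw.loc x hx hu).symm).symm

theorem IsW.Wf_zero (hw : M.IsW w Y) : M.Wf w 0 = 1 := (Wf_const' w fun _ => rfl).trans hw.zero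

theorem IsW.Wf_star (hw : M.IsW w Y) (hf : ∀ c, f c ∈ Y) :
    Star.star (M.Wf w f) = M.Wf w (-f) := by
  rw [eq_cells f (M.Wf w (-f)), Wf, star_sum]
  refine Finset.sum_congr rfl fun v hv => ?_
  obtain ⟨c, rfl⟩ := SimpleFunc.mem_range.1 hv
  have hm := f.measurableSet_preimage {f c}
  rw [star_mul, M.sc_star (BR.indicator hm), hw.star _ (hf c),
    sc_Wf (v := -f c) w hm fun _ hc => congrArg Neg.neg hc]
  exact hw.loc _ (neg_mem (hf c)) (BR.indicator hm).bm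

theorem IsW.Wf_dec (hw : M.IsW w Y) (hf : ∀ c, f c ∈ Y) : M.Dec (M.Wf w f) := by
  refine ⟨?_, ?_, fun _ hg => hw.Wf_loc hf hg.bm⟩ <;> rw [hw.Wf_star hf] <;>
    refine ext_pair hf hf fun E hE x hx _ _ h _ => ?_
  · rw [cell_mul (sc_Wf (v := -x) w hE fun c hc => congrArg Neg.neg (h c hc)) (sc_Wf w hE h)
      (hw.loc _ (neg_mem hx) (BR.indicator hE).bm), ← hw.star x hx, (IsW.dec M hw hx).1]
  · rw [cell_mul (sc_Wf w hE h) (sc_Wf (v := -x) w hE fun c hc => congrArg Neg.neg (h c hc))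
      (hw.loc _ hx (BR.indicator hE).bm), ← hw.star x hx, (IsW.dec M hw hx).2.1]

theorem IsW.Wf_mul (hw : M.IsW w Y) (hf : ∀ c, f c ∈ Y) (hg : ∀ c, g c ∈ Y) :
    M.Wf w f * M.Wf w g = M.ph (fun c => (⟪f c, g c⟫_ℂ).im) * M.Wf w (f + g) := by
  refine ext_pair hf hg fun E hE x hx y hy h1 h2 => ?_
  rw [cell_mul (sc_Wf w hE h1) (sc_Wf w hE h2) (hw.loc _ hx (BR.indicator hE).bm),
    cell_mul (sc_ph (a := (⟪x, y⟫_ℂ).im) hE (meas_im f g).1 fun c hc => by rw [h1 c hc, h2 c hc])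
      (sc_Wf (v := x + y) w hE fun c hc => congrArg₂ (· + ·) (h1 c hc) (h2 c hc)) (by simp),
    hw.mul x hx y hy, smul_mul_assoc, one_mul]

theorem IsW.EZ_diag (hw : M.IsW w Y) (hf : ∀ c, f c ∈ Y) {u : Λ → M2} (hu : BM u)
    (h : ∀ c, u c * pau 2 = pau 2 * u c) : M.loc u * M.EZ w f = M.EZ w f * M.loc u :=
  cell_comm hf (fun _ hE _ h => sc_EZ w hE h) (fun _ hg => M.sc_loc hg hu)
    fun _ hx => hw.EZc_diag hx hu h

theorem IsW.EZ_Z (hw : M.IsW w Y) (hf : ∀ c, f c ∈ Y) :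
    M.sp (pau 2) * M.EZ w f = M.EZ w f * M.sp (pau 2) := hw.EZ_diag hf (BM.const _) fun _ => rfl

theorem IsW.EZ_star (hw : M.IsW w Y) (hf : ∀ c, f c ∈ Y) :
    Star.star (M.EZ w f) = M.EZ w (-f) := by
  have hf' : ∀ c, (-f) c ∈ Y := fun c => neg_mem (hf c)
  rw [EZ, EZ, star_add, star_mul, star_mul, sp_star, sp_star, pr_star, pr_star, hw.Wf_star hf,
    hw.Wf_star hf', neg_neg, sp, sp, hw.Wf_loc hf (BM.const _), hw.Wf_loc hf' (BM.const _)]

theorem IsW.EZ_dec (hw : M.IsW w Y) (hf : ∀ c, f c ∈ Y) : M.Dec (M.EZ w f) := by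
  refine ⟨?_, ?_, fun _ hg => (hw.EZ_diag hf hg.bm fun c => by simp).symm⟩ <;>
    rw [hw.EZ_star hf] <;> refine ext_pair hf hf fun E hE x hx _ _ h _ => ?_
  · rw [cell_mul (sc_EZ (v := -x) w hE fun c hc => congrArg Neg.neg (h c hc)) (sc_EZ w hE h)
      ((hw.EZc_dec (neg_mem hx)).2.2 _ (BR.indicator hE)), ← hw.EZc_star hx, (hw.EZc_dec hx).1]
  · rw [cell_mul (sc_EZ w hE h) (sc_EZ (v := -x) w hE fun c hc => congrArg Neg.neg (h c hc))
      ((hw.EZc_dec hx).2.2 _ (BR.indicator hE)), ← hw.EZc_star hx, (hw.EZc_dec hx).2.1]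

theorem IsW.xi_EZ (hw : M.IsW w Y) (hf : ∀ c, f c ∈ Y) (U : M.H →L[ℂ] M.H) :
    M.xi (M.EZ w f * U) = M.xi U := xi_mul (hw.EZ_dec hf).1 (hw.EZ_Z hf)

theorem IsW.EZ_zero (hw : M.IsW w Y) : M.EZ w 0 = 1 :=
  (EZ_const' w fun _ => rfl).trans hw.EZc_zero

theorem IsW.EZ_mul (hw : M.IsW w Y) (hf : ∀ c, f c ∈ Y) (hg : ∀ c, g c ∈ Y) :
    M.EZ w f * M.EZ w g = M.ph (fun c => (⟪f c, g c⟫_ℂ).im) * M.EZ w (f + g) := by
  refine ext_pair hf hg fun E hE x hx y hy h1 h2 => ?_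
  rw [cell_mul (sc_EZ w hE h1) (sc_EZ w hE h2) ((hw.EZc_dec hx).2.2 _ (BR.indicator hE)),
    cell_mul (sc_ph (a := (⟪x, y⟫_ℂ).im) hE (meas_im f g).1 fun c hc => by rw [h1 c hc, h2 c hc])
      (sc_EZ (v := x + y) w hE fun c hc => congrArg₂ (· + ·) (h1 c hc) (h2 c hc)) (by simp),
    hw.EZc_mul hx hy, smul_mul_assoc, one_mul]

theorem IsW.EZ_Wf (hw : M.IsW w Y) (hf : ∀ c, f c ∈ Y) (hg : ∀ c, g c ∈ Y) :
    M.EZ w g * M.Wf w f = M.Wf w f * M.EZ w g * M.lr 2 fun c => 2 * (⟪g c, f c⟫_ℂ).im := by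
  refine ext_pair hf hg fun E hE x hx y hy h1 h2 => ?_
  have hP := BR.indicator hE
  have h3 : M.sc (E.indicator 1) * (M.lr 2 fun c => 2 * (⟪g c, f c⟫_ℂ).im) =
      M.sc (E.indicator 1) * M.sp (rot 2 (2 * (⟪y, x⟫_ℂ).im)) :=
    sc_loc_congr hE (BM.rot 2 ((meas_im g f).1.const_mul 2)) (BM.const _) fun c hc => by
      simp only [h1 c hc, h2 c hc]
  rw [cell_mul (sc_EZ w hE h2) (sc_Wf w hE h1) ((hw.EZc_dec hy).2.2 _ hP),
    cell_mul (cell_mul (sc_Wf w hE h1) (sc_EZ w hE h2) ((IsW.dec M hw hx).2.2 _ hP)) h3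
      (((IsW.dec M hw hx).mul (hw.EZc_dec hy)).2.2 _ hP), hw.EZc_w hy hx]

set_option linter.unusedVariables false in
theorem IsW.pr_EZ (hw : M.IsW w Y) (f : SimpleFunc Λ M.H) :
    M.sp (pr true) * M.EZ w f = M.sp (pr true) * M.Wf w f := by
  simp [EZ, mul_add, ← mul_assoc, ← sp_mul, pr_mul, sp_zero]

theorem cell_cont {α P : Type} [TopologicalSpace P] (a : SimpleFunc Λ α) {s : Set P}
    {A : P → M.H →L[ℂ] M.H} {B : P → α → M.H →L[ℂ] M.H} {ψ : M.H}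
    (h : ∀ p r, M.sc ((a ⁻¹' {r}).indicator 1) * A p = M.sc ((a ⁻¹' {r}).indicator 1) * B p r)
    (hB : ∀ r, ContinuousOn (fun p => B p r ψ) s) : ContinuousOn (fun p => A p ψ) s := by
  have e : ∀ p, A p ψ = ∑ r ∈ a.range, M.sc ((a ⁻¹' {r}).indicator 1) (B p r ψ) := fun p => by
    rw [eq_cells a (A p), Finset.sum_congr rfl fun r _ => h p r, _root_.sum_apply]
    rfl
  simp only [e]
  exact continuousOn_finsetSum _ fun r _ => (ContinuousLinearMap.continuous _).comp_continuousOn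
    (hB r)

/-- strong continuity in a parameter, the cells being fixed -/
theorem IsW.Wf_cont (hw : M.IsW w Y) {α P : Type} [TopologicalSpace P] (a : SimpleFunc Λ α)
    (φ : P → α → M.H) {s : Set P} (hφ : ∀ r, ContinuousOn (fun p => φ p r) s)
    (hY : ∀ p ∈ s, ∀ r, φ p r ∈ Y) (ψ : M.H) :
    ContinuousOn (fun p => M.Wf w (a.map (φ p)) ψ) s :=
  cell_cont a (B := fun p r => w (φ p r))
    (fun p _ => sc_Wf w (a.measurableSet_preimage _) fun _ hc => congrArg (φ p) hc)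
    fun r => (hw.cont ψ).comp (hφ r) fun p hp => hY p hp r

theorem IsW.EZ_cont (hw : M.IsW w Y) {α P : Type} [TopologicalSpace P] (a : SimpleFunc Λ α)
    (φ : P → α → M.H) {s : Set P} (hφ : ∀ r, ContinuousOn (fun p => φ p r) s)
    (hY : ∀ p ∈ s, ∀ r, φ p r ∈ Y) (ψ : M.H) :
    ContinuousOn (fun p => M.EZ w (a.map (φ p)) ψ) s :=
  cell_cont a (B := fun p r => M.EZc w (φ p r))
    (fun p _ => sc_EZ w (a.measurableSet_preimage _) fun _ hc => congrArg (φ p) hc)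
    fun r => (hw.EZc_cont ψ).comp (hφ r) fun p hp => hY p hp r

set_option linter.unusedVariables false in
theorem IsW.EZ_sub_le (hw : M.IsW w Y) (hf : ∀ c, f c ∈ Y) (ψ : M.H) :
    ‖M.EZ w f ψ - ψ‖ ≤ ‖M.Wf w f ψ - ψ‖ + ‖M.Wf w (-f) ψ - ψ‖ := by
  have h : M.sp (pr true) ψ + M.sp (pr false) ψ = ψ := by
    rw [← _root_.add_apply, ← sp_add, pr_add, sp_one, one_apply_eq_self]
  have e : M.EZ w f ψ - ψ =
      M.sp (pr true) (M.Wf w f ψ - ψ) + M.sp (pr false) (M.Wf w (-f) ψ - ψ) := by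
    rw [map_sub, map_sub, sub_add_sub_comm, h]
    rfl
  rw [e]
  exact (norm_add_le _ _).trans (add_le_add (norm_pr_le _ _) (norm_pr_le _ _))

theorem sub_of_mul {A B C : M.H →L[ℂ] M.H} (hA : M.Dec A) (hB : M.Dec B) {a : ℝ} (h0 : 0 ≤ a)
    (ha : ∀ c, ‖f c - g c‖ * ‖g c‖ ≤ a)
    (h : B * C = M.ph (fun c => (⟪g c, (f - g) c⟫_ℂ).im) * A) (ψ : M.H) :
    ‖A ψ - B ψ‖ ≤ ‖C ψ - ψ‖ + 4 * a * ‖ψ‖ := by
  have h1 := norm_ph_sub (meas_im g (f - g)).1 h0 (fun c => (abs_im_le_norm _).trans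
    ((norm_inner_le_norm _ _).trans ((mul_comm _ _).trans_le (ha c)))) (A ψ)
  have e : A ψ - B ψ = B (C ψ - ψ) - (M.ph (fun c => (⟪g c, (f - g) c⟫_ℂ).im) (A ψ) - A ψ) := by
    rw [map_sub, ← mul_apply_eq_comp B C, h, mul_apply_eq_comp]
    abel
  rw [e, ← hB.norm (C ψ - ψ), ← hA.norm ψ]
  exact (norm_sub_le _ _).trans (add_le_add le_rfl h1)

theorem IsW.Wf_sub_Wf (hw : M.IsW w Y) (hf : ∀ c, f c ∈ Y) (hg : ∀ c, g c ∈ Y) {a : ℝ}
    (h0 : 0 ≤ a) (ha : ∀ c, ‖f c - g c‖ * ‖g c‖ ≤ a) (ψ : M.H) :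
    ‖M.Wf w f ψ - M.Wf w g ψ‖ ≤ ‖M.Wf w (f - g) ψ - ψ‖ + 4 * a * ‖ψ‖ :=
  sub_of_mul (hw.Wf_dec hf) (hw.Wf_dec hg) h0 ha
    (by rw [hw.Wf_mul hg fun c => sub_mem (hf c) (hg c), add_sub_cancel]) ψ

theorem IsW.EZ_sub_EZ (hw : M.IsW w Y) (hf : ∀ c, f c ∈ Y) (hg : ∀ c, g c ∈ Y) {a : ℝ}
    (h0 : 0 ≤ a) (ha : ∀ c, ‖f c - g c‖ * ‖g c‖ ≤ a) (ψ : M.H) :
    ‖M.EZ w f ψ - M.EZ w g ψ‖ ≤ ‖M.EZ w (f - g) ψ - ψ‖ + 4 * a * ‖ψ‖ :=
  sub_of_mul (hw.EZ_dec hf) (hw.EZ_dec hg) h0 ha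
    (by rw [hw.EZ_mul hg fun c => sub_mem (hf c) (hg c), add_sub_cancel]) ψ

end FS

end Vale.Agent.P367.Q
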