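import Vale.Agent.P367.QBase

/-! The matrix computation behind the reset of a spin. -/

namespace Vale.Agent.P367.Q.QWdA

open Complex Matrix

theorem rot_X (a : ℝ) : rot 0 a =
    !![(Real.cos a : ℂ), -I * Real.sin a; -I * Real.sin a, (Real.cos a : ℂ)] := by
  ext i j; fin_cases i <;> fin_cases j <;> simp [rot, pau]

theorem rot_X' (a : ℝ) : rot 0 (-a) =
    !![(Real.cos a : ℂ), I * Real.sin a; I * Real.sin a, (Real.cos a : ℂ)] := by
  ext i j; fin_cases i <;> fin_cases j <;> simp [rot, pau]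

theorem rot_D (a : ℝ) : rot 2 a = !![exp (-I * a), 0; 0, exp (I * a)] := by
  rw [rot_Z]
  ext i j; fin_cases i <;> fin_cases j <;> simp [pr]

theorem rot_YZ (a : ℝ) : rot 1 a * pau 2 = pau 2 * rot 1 (-a) := by
  simp only [rot, sub_mul, mul_sub, smul_mul_assoc, mul_smul_comm, one_mul, mul_one, pau_YZ, pau_ZY,
    Real.cos_neg, Real.sin_neg]
  push_cast
  module

theorem conj (b : ℝ) (m : M2) :
    rot 1 (Real.pi / 4) * (rot 2 b * (rot 1 (-(Real.pi / 4)) * m)) = rot 0 b * m := by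
  have h1 : rot 1 (Real.pi / 4) * rot 1 (-(Real.pi / 4)) = 1 := by
    rw [rot_add, add_neg_cancel, rot_zero]
  have h2 : rot 1 (Real.pi / 4) * pau 2 * rot 1 (-(Real.pi / 4)) = pau 0 := by
    rw [rot_YZ, mul_assoc, rot_add, show -(Real.pi / 4) + -(Real.pi / 4) = -(Real.pi / 2) by ring,
      ← rot_star, rot_half, conjTranspose_smul, pau_star, mul_smul_comm, pau_ZY, smul_smul]
    simp
  rw [← mul_assoc, ← mul_assoc]
  congr 1
  rw [show rot 2 b = (Real.cos b : ℂ) • (1 : M2) - (I * Real.sin b) • pau 2 from rfl, mul_sub,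
    sub_mul, mul_smul_comm, mul_smul_comm, smul_mul_assoc, smul_mul_assoc, mul_one, h1, h2]
  rfl

theorem radd (N : Fin 3) (a b : ℝ) (m : M2) : rot N a * (rot N b * m) = rot N (a + b) * m := by
  rw [← mul_assoc, rot_add]

theorem key0 (c s u u' w w' : ℂ) (h1 : u * u' = 1) (h2 : u ^ 2 + u' ^ 2 = 1) :
    (!![c, -I * s; -I * s, c] * (!![u * w, 0; 0, u' * w'] * (!![c, I * s; I * s, c] *
      (!![u, 0; 0, u'] * !![c, -I * s; -I * s, c]))) : M2) 1 0 =
      -I * s * (c ^ 2 * u ^ 2 * (w - w') + s ^ 2 * w) := by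
  simp only [Matrix.mul_fin_two, of_apply, cons_val', cons_val_zero, cons_val_one, cons_val_fin_one]
  linear_combination (I * s ^ 3 * w * u * u') * I_sq + (-I * s ^ 3 * w + I * s * c ^ 2 * w') * h1 -
    (I * s * c ^ 2 * w') * h2

theorem key1 (c s u u' w w' : ℂ) (h1 : u * u' = 1) (h2 : u ^ 2 + u' ^ 2 = 1) :
    (!![c, -I * s; -I * s, c] * (!![u' * w, 0; 0, u * w'] * (!![c, I * s; I * s, c] *
      (!![u, 0; 0, u'] * !![c, -I * s; -I * s, c]))) : M2) 1 1 =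
      c * (-(s ^ 2 * u ^ 2 * (w - w')) + c ^ 2 * w') := by
  simp only [Matrix.mul_fin_two, of_apply, cons_val', cons_val_zero, cons_val_one, cons_val_fin_one]
  linear_combination (c * s ^ 2 * w * (u * u' - u' ^ 2) - c * s ^ 2 * u ^ 2 * w') * I_sq +
    (-c * s ^ 2 * w + c ^ 3 * w') * h1 + (c * s ^ 2 * w) * h2

theorem nrm (x : ℝ) : ‖exp (I * x)‖ = 1 := norm_exp_I_mul_ofReal x

theorem dif (e : ℝ) : ‖exp (I * (2 * e / 3 : ℝ)) - exp (I * (-(2 * e / 3) : ℝ))‖ ≤ 4 / 3 * |e| := by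
  have h1 := Real.norm_exp_I_mul_ofReal_sub_one_le (x := 2 * e / 3)
  have h2 := Real.norm_exp_I_mul_ofReal_sub_one_le (x := -(2 * e / 3))
  have h3 := norm_sub_le (exp (I * (2 * e / 3 : ℝ)) - 1) (exp (I * (-(2 * e / 3) : ℝ)) - 1)
  rw [sub_sub_sub_cancel_right] at h3
  rw [norm_neg] at h2
  rw [Real.norm_eq_abs, abs_div, abs_mul] at h1 h2
  norm_num at h1 h2 h3 ⊢
  linarith

theorem bound (e p q : ℝ) (hp : |p| ≤ |e|) (hp1 : |p| ≤ 1) (hq : |q| ≤ 1) (z x y : ℂ) (hz : ‖z‖ = |p|)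
    (hx : ‖x‖ ≤ q ^ 2 * (4 / 3 * |e|)) (hy : ‖y‖ = p ^ 2) : ‖z * (x + y)‖ ≤ 3 * e ^ 2 := by
  rw [norm_mul, hz, ← sq_abs e]
  have h0 := abs_nonneg p
  have h1 := abs_nonneg q
  have h2 : q ^ 2 ≤ 1 := by rw [← sq_abs]; nlinarith
  have h3 : p ^ 2 ≤ |e| := by rw [← sq_abs]; nlinarith
  have h4 : ‖x + y‖ ≤ 3 * |e| := by
    have := norm_add_le x y
    nlinarith [abs_nonneg e]
  calc |p| * ‖x + y‖ ≤ |e| * (3 * |e|) := mul_le_mul hp h4 (norm_nonneg _) (abs_nonneg _)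
    _ = _ := by ring

theorem main (θ : ℝ) (σ : Bool) :
    ‖(rot 0 (Real.pi / 4 - θ) * (rot 2 (-(2 * θ / 3)) * (rot 0 (-(Real.pi / 4 - θ)) *
      (rot 2 (-(Real.pi / 6)) * rot 0 (Real.pi / 4 - θ))))) 1 (if σ then 0 else 1)‖ ≤
      3 * (θ - sg σ * (Real.pi / 4)) ^ 2 := by
  have h1 : exp (I * (Real.pi / 6 : ℝ)) * exp (I * (-(Real.pi / 6) : ℝ)) = 1 := by
    rw [← exp_add, ← exp_zero]
    congr 1
    push_cast
    ring
  have h2 : exp (I * (Real.pi / 6 : ℝ)) ^ 2 + exp (I * (-(Real.pi / 6) : ℝ)) ^ 2 = 1 := by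
    have h := two_cos ((Real.pi / 3 : ℝ) : ℂ)
    rw [← ofReal_cos, Real.cos_pi_div_three] at h
    rw [← exp_nat_mul, ← exp_nat_mul,
      show ((2 : ℕ) : ℂ) * (I * (Real.pi / 6 : ℝ)) = (Real.pi / 3 : ℝ) * I by push_cast; ring,
      show ((2 : ℕ) : ℂ) * (I * (-(Real.pi / 6) : ℝ)) = -(Real.pi / 3 : ℝ) * I by push_cast; ring, ← h]
    push_cast
    ring
  have h3 : rot 2 (-(Real.pi / 6)) =
      !![exp (I * (Real.pi / 6 : ℝ)), 0; 0, exp (I * (-(Real.pi / 6) : ℝ))] := by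
    rw [rot_D, show -I * (-(Real.pi / 6) : ℝ) = I * (Real.pi / 6 : ℝ) by push_cast; ring]
  rw [rot_X', rot_X, h3, rot_D]
  cases σ
  · obtain ⟨e, rfl⟩ : ∃ e, θ = e - Real.pi / 4 := ⟨θ + Real.pi / 4, by ring⟩
    rw [show exp (-I * (-(2 * (e - Real.pi / 4) / 3) : ℝ)) =
        exp (I * (-(Real.pi / 6) : ℝ)) * exp (I * (2 * e / 3 : ℝ)) by
          rw [← exp_add]; congr 1; push_cast; ring,
      show exp (I * (-(2 * (e - Real.pi / 4) / 3) : ℝ)) =
        exp (I * (Real.pi / 6 : ℝ)) * exp (I * (-(2 * e / 3) : ℝ)) by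
          rw [← exp_add]; congr 1; push_cast; ring,
      show Real.pi / 4 - (e - Real.pi / 4) = Real.pi / 2 - e by ring, Real.cos_pi_div_two_sub,
      Real.sin_pi_div_two_sub, if_neg (by simp), key1 _ _ _ _ _ _ h1 h2,
      show e - Real.pi / 4 - sg false * (Real.pi / 4) = e by simp [sg]]
    refine bound e (Real.sin e) (Real.cos e) Real.abs_sin_le_abs (Real.abs_sin_le_one e)
      (Real.abs_cos_le_one e) _ _ _ (by rw [norm_real, Real.norm_eq_abs]) ?_ ?_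
    · rw [norm_neg, norm_mul, norm_mul, norm_pow, norm_pow, nrm, norm_real, Real.norm_eq_abs, sq_abs,
        one_pow, mul_one]
      exact mul_le_mul_of_nonneg_left (dif e) (sq_nonneg _)
    · rw [norm_mul, norm_pow, nrm, norm_real, Real.norm_eq_abs, sq_abs, mul_one]
  · obtain ⟨e, rfl⟩ : ∃ e, θ = e + Real.pi / 4 := ⟨θ - Real.pi / 4, by ring⟩
    rw [show exp (-I * (-(2 * (e + Real.pi / 4) / 3) : ℝ)) =
        exp (I * (Real.pi / 6 : ℝ)) * exp (I * (2 * e / 3 : ℝ)) by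
          rw [← exp_add]; congr 1; push_cast; ring,
      show exp (I * (-(2 * (e + Real.pi / 4) / 3) : ℝ)) =
        exp (I * (-(Real.pi / 6) : ℝ)) * exp (I * (-(2 * e / 3) : ℝ)) by
          rw [← exp_add]; congr 1; push_cast; ring,
      show Real.pi / 4 - (e + Real.pi / 4) = -e by ring, if_pos rfl, key0 _ _ _ _ _ _ h1 h2,
      show e + Real.pi / 4 - sg true * (Real.pi / 4) = e by simp [sg], Real.cos_neg]
    refine bound e (Real.sin (-e)) (Real.cos e) (by simpa using Real.abs_sin_le_abs)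
      (Real.abs_sin_le_one _) (Real.abs_cos_le_one e) _ _ _
      (by rw [norm_mul, norm_neg, norm_I, one_mul, norm_real, Real.norm_eq_abs]) ?_ ?_
    · rw [norm_mul, norm_mul, norm_pow, norm_pow, nrm, norm_real, Real.norm_eq_abs, sq_abs,
        one_pow, mul_one]
      exact mul_le_mul_of_nonneg_left (dif e) (sq_nonneg _)
    · rw [norm_mul, norm_pow, nrm, norm_real, Real.norm_eq_abs, sq_abs, mul_one]

end Vale.Agent.P367.Q.QWdA
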