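import Vale.Agent.P367.QRep

/-! Auxiliary facts for the reset of a spin. -/

namespace Vale.Agent.P367.Q

open Complex MeasureTheory ProbabilityTheory Filter Topology Matrix
open scoped InnerProductSpace

theorem QWdB_der {p p' q : ℝ → ℝ} (h : ∀ t, HasDerivAt p (p' t) t) (e : ∀ t, q t = p' t + t * p t) :
    deriv (fun t => p t * Real.exp (t ^ 2 / 2)) = fun t => q t * Real.exp (t ^ 2 / 2) := by
  funext t
  refine (((h t).fun_mul (((hasDerivAt_id' t).fun_pow 2).div_const 2).exp).congr_deriv ?_).deriv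
  rw [e]
  simp only [Nat.cast_ofNat, Nat.add_one_sub_one]
  ring

theorem QWdB_four : ∫ g : ℝ, g ^ 4 ∂gaussianReal 0 1 = 3 := by
  have h := iteratedDeriv_mgf_zero (X := fun x : ℝ => x) (μ := gaussianReal 0 1) (by simp) 4
  have e0 : mgf (fun x : ℝ => x) (gaussianReal 0 1) = fun t => 1 * Real.exp (t ^ 2 / 2) := by
    rw [mgf_fun_id_gaussianReal]
    simp
  have e1 := QWdB_der (p := fun _ => 1) (q := fun t => t) (fun t => hasDerivAt_const t 1)
    fun t => by ring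
  have e2 := QWdB_der (p := fun t => t) (q := fun t => 1 + t ^ 2) (fun t => hasDerivAt_id' t)
    fun t => by ring
  have e3 := QWdB_der (p := fun t => 1 + t ^ 2) (q := fun t => 3 * t + t ^ 3)
    (fun t => ((hasDerivAt_id' t).fun_pow 2).const_add 1) fun t => by
      simp only [Nat.cast_ofNat, Nat.add_one_sub_one]
      ring
  have e4 := QWdB_der (p := fun t => 3 * t + t ^ 3) (q := fun t => 3 + 6 * t ^ 2 + t ^ 4)
    (fun t => ((hasDerivAt_id' t).const_mul 3).fun_add ((hasDerivAt_id' t).fun_pow 3)) fun t => by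
      simp only [Nat.cast_ofNat, Nat.add_one_sub_one]
      ring
  rw [e0, iteratedDeriv_succ, iteratedDeriv_succ, iteratedDeriv_succ, iteratedDeriv_one, e1, e2,
    e3, e4] at h
  simpa using h.symm

theorem QWdB_int : Integrable (fun g : ℝ => g ^ 4) (gaussianReal 0 1) :=
  integrable_pow_of_mem_interior_integrableExpSet (X := fun x : ℝ => x) (by simp) 4

namespace FS

variable {Λ : Type} [MeasurableSpace Λ] {μ : Measure Λ} {M : FS Λ μ}
  {w : M.H → M.H →L[ℂ] M.H} {Y Y' : Submodule ℝ M.H} {x y ψ : M.H}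

theorem QWdB_entry (A : M2) (σ : Bool) (ψ : M.H) :
    ‖M.sp (pr false * A * pr σ) ψ‖ ≤ ‖A 1 (if σ then 0 else 1)‖ * ‖ψ‖ := by
  cases σ
  · have e : pr false * A * pr false = A 1 1 • pr false := by
      ext i j; fin_cases i <;> fin_cases j <;> simp [pr, Matrix.mul_apply, vecMul, dotProduct]
    rw [e, sp_smul, _root_.smul_apply, norm_smul]
    exact mul_le_mul_of_nonneg_left (norm_pr_le _ _) (norm_nonneg _)
  · have e : pr false * A * pr true = A 1 0 • (pau 0 * pr true) := by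
      ext i j; fin_cases i <;> fin_cases j <;> simp [pr, pau, Matrix.mul_apply, vecMul, dotProduct]
    rw [e, sp_smul, _root_.smul_apply, norm_smul, ← sp_sp, (M.dec_pau 0).norm]
    exact mul_le_mul_of_nonneg_left (norm_pr_le _ _) (norm_nonneg _)

theorem QWdB_half (hw : M.IsW w Y) (hY : Y' ≤ Y) (hx : x ∈ Y) (hy : y ∈ Y') {t : ℝ}
    (ht : t * (2 * (⟪y, x⟫_ℂ).im) = Real.pi / 4) {V : M.H →L[ℂ] M.H} {A : ℝ → M2}
    (hV : M.Rep w y V A) (σ : Bool)
    (hl : ∀ h : ℝ, ‖A h 1 (if σ then 0 else 1)‖ ≤ 3 * (t * h - sg σ * (Real.pi / 4)) ^ 2)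
    (hv : M.Vac w Y' (M.orb ψ)) :
    ‖M.sp (pr false) (V (w (sg σ • x) (M.sp (pr σ) ψ)))‖ ≤ 6 * t ^ 2 * ‖y‖ ^ 2 * ‖ψ‖ := by
  refine (abs_le_of_sq_le_sq' ?_ (by positivity)).2
  rw [hv.Rep_norm hw hY (Y.smul_mem _ hx) hy hV]
  have e : (⟪y, sg σ • x⟫_ℂ).im = sg σ * (⟪y, x⟫_ℂ).im := by
    rw [qwa_im, QRep_im, qwa_im y x]
    ring
  refine (integral_mono_of_nonneg (ae_of_all _ fun g => sq_nonneg _)
    (QWdB_int.const_mul ((3 * t ^ 2 * ‖y‖ ^ 2 * ‖ψ‖) ^ 2)) (ae_of_all _ fun g => ?_)).trans ?_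
  · have h1 := (QWdB_entry (A (2 * (⟪y, sg σ • x⟫_ℂ).im + ‖y‖ * g)) σ ψ).trans
      (mul_le_mul_of_nonneg_right (hl _) (norm_nonneg ψ))
    have h2 : t * (2 * (⟪y, sg σ • x⟫_ℂ).im + ‖y‖ * g) - sg σ * (Real.pi / 4) = t * ‖y‖ * g := by
      rw [e, ← ht]
      ring
    rw [h2] at h1
    refine (pow_le_pow_left₀ (norm_nonneg _) h1 2).trans (le_of_eq ?_)
    ring
  · rw [integral_const_mul, QWdB_four]
    nlinarith [sq_nonneg (t ^ 2 * ‖y‖ ^ 2 * ‖ψ‖)]

theorem QWdB_split (hw : M.IsW w Y) (hx : x ∈ Y) (ψ : M.H) : M.EZc w x ψ =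
    w (sg true • x) (M.sp (pr true) ψ) + w (sg false • x) (M.sp (pr false) ψ) := by
  have e1 : sg true • x = x := by simp [sg]
  have e2 : sg false • x = -x := by simp [sg]
  rw [e1, e2, EZc, ← hw.qwa_sp hx, ← hw.qwa_sp (neg_mem hx)]
  rfl

end FS

end Vale.Agent.P367.Q
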