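import Vale.Agent.P367.QRep
import Vale.Agent.P367.QWdB
import Vale.Agent.P367.QZ1
import Vale.Agent.P367.QWdA

/-! Words in rotations and pulses, and the reset of a spin. -/

namespace Vale.Agent.P367.Q

open Complex MeasureTheory ProbabilityTheory Filter Topology Matrix
open scoped InnerProductSpace

/-- `(some N, a)` is a rotation, `(none, t)` is a pulse -/
abbrev Wd : Type := List (Option (Fin 3) × ℝ)

/-- the matrix of a word for the value `h` of the field -/
noncomputable def wM : Wd → ℝ → M2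
  | [], _ => 1
  | (some N, a) :: l, h => rot N a * wM l h
  | (none, t) :: l, h => rot 2 (t * h) * wM l h

/-- the total strength of the pulses -/
noncomputable def wt : Wd → ℝ
  | [] => 0
  | (some _, _) :: l => wt l
  | (none, t) :: l => |t| + wt l

/-- the inverse word -/
def wInv (l : Wd) : Wd := (l.map fun p => (p.1, -p.2)).reverse

theorem wt_nonneg (l : Wd) : 0 ≤ wt l := by
  induction l with
  | nil => exact le_rfl
  | cons p l ih =>
    obtain ⟨_ | N, a⟩ := p
    · exact add_nonneg (abs_nonneg a) ih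
    · exact ih

theorem wt_append (l l' : Wd) : wt (l ++ l') = wt l + wt l' := by
  induction l with
  | nil => simp [wt]
  | cons p l ih =>
    obtain ⟨_ | N, a⟩ := p
    · simp only [List.cons_append, wt, ih, add_assoc]
    · simp only [List.cons_append, wt, ih]

theorem wt_inv (l : Wd) : wt (wInv l) = wt l := by
  unfold wInv
  induction l with
  | nil => rfl
  | cons p l ih =>
    rw [List.map_cons, List.reverse_cons, wt_append, ih]
    obtain ⟨_ | N, a⟩ := p
    · simp only [wt, abs_neg, add_zero, add_comm]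
    · simp only [wt, add_zero]

/-- a word which maps both basis states to the first one, to second order -/
theorem reset (t : ℝ) : ∃ l : Wd, wt l ≤ 4 * |t| ∧ ∀ (σ : Bool) (h : ℝ),
    ‖wM l h 1 (if σ then 0 else 1)‖ ≤ 3 * (t * h - sg σ * (Real.pi / 4)) ^ 2 := by
  refine ⟨[(some 0, Real.pi / 4), (some 1, Real.pi / 4), (none, -t), (some 1, -(Real.pi / 4)),
    (none, -(2 * t / 3)), (some 1, Real.pi / 4), (none, t), (some 1, -(Real.pi / 4)),
    (some 0, -(Real.pi / 4)), (some 2, -(Real.pi / 6)), (some 0, Real.pi / 4),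
    (some 1, Real.pi / 4), (none, -t), (some 1, -(Real.pi / 4))], ?_, fun σ h => ?_⟩
  · simp only [wt, abs_neg, abs_div, abs_mul, abs_two, add_zero]
    rw [abs_of_pos (by norm_num : (0 : ℝ) < 3)]
    linarith [abs_nonneg t]
  · simp only [wM, QWdA.conj, QWdA.radd (0 : Fin 3)]
    rw [mul_one, show Real.pi / 4 + -t * h = Real.pi / 4 - t * h by ring,
      show t * h + -(Real.pi / 4) = -(Real.pi / 4 - t * h) by ring,
      show -(2 * t / 3) * h = -(2 * (t * h) / 3) by ring]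
    exact QWdA.main (t * h) σ

namespace FS

section

variable {Λ : Type} [MeasurableSpace Λ] {μ : Measure Λ} (M : FS Λ μ)
  (w : M.H → M.H →L[ℂ] M.H)

/-- the operator of a word for the mode `y` -/
noncomputable def wO (y : M.H) : Wd → M.H →L[ℂ] M.H
  | [] => 1
  | (some N, a) :: l => M.sp (rot N a) * wO y l
  | (none, t) :: l => M.EZc w (t • y) * wO y l

/-- products of interactions of total size `r` -/
def Sm (Y : Submodule ℝ M.H) (r : ℝ) (P : M.H →L[ℂ] M.H) : Prop :=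
  M.Ev w Y P ∧ M.sp (pau 2) * P = P * M.sp (pau 2) ∧ ∀ (ψ : M.H) (C : ℝ), 0 ≤ C →
    (∀ x ∈ Y, ‖M.EZc w x ψ - ψ‖ ≤ C * ‖x‖) → ‖P ψ - ψ‖ ≤ C * r

variable {M w} {Y Y' : Submodule ℝ M.H} {x y ψ : M.H}

theorem wO_rep (y : M.H) (l : Wd) : M.Rep w y (M.wO w y l) (wM l) := by
  induction l with
  | nil => exact Rep.one
  | cons p l ih =>
    obtain ⟨_ | N, a⟩ := p
    · exact Rep.ez a ih
    · exact Rep.rot N a ih

theorem IsW.wO_dec (hw : M.IsW w Y) (hy : y ∈ Y) (l : Wd) : M.Dec (M.wO w y l) :=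
  hw.Rep_dec hy (wO_rep y l)

theorem wO_append (y : M.H) (l l' : Wd) : M.wO w y (l ++ l') = M.wO w y l * M.wO w y l' := by
  induction l with
  | nil => exact (one_mul _).symm
  | cons p l ih =>
    obtain ⟨_ | N, a⟩ := p <;> simp only [List.cons_append, wO, ih, mul_assoc]

theorem IsW.wO_inv (hw : M.IsW w Y) (hy : y ∈ Y) (l : Wd) :
    M.wO w y (wInv l) = Star.star (M.wO w y l) := by
  induction l with
  | nil => exact (star_one _).symm
  | cons p l ih =>
    have e : wInv (p :: l) = wInv l ++ [(p.1, -p.2)] := by simp [wInv]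
    rw [e, wO_append, ih]
    obtain ⟨_ | N, a⟩ := p
    · simp only [wO, mul_one, star_mul, hw.EZc_star (Y.smul_mem a hy), neg_smul]
    · simp only [wO, mul_one, star_mul, sp_star, rot_star]

theorem IsW.wO_w (hw : M.IsW w Y) (hx : x ∈ Y) (hy : y ∈ Y) (h : (⟪y, x⟫_ℂ).im = 0) (l : Wd) :
    M.wO w y l * w x = w x * M.wO w y l := by
  induction l with
  | nil => simp only [wO, one_mul, mul_one]
  | cons p l ih =>
    obtain ⟨_ | N, a⟩ := p
    · have e := hw.EZc_w (Y.smul_mem a hy) hx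
      rw [QRep_im, h, mul_zero, mul_zero, rot_zero, sp_one, mul_one] at e
      rw [wO, mul_assoc, ih, ← mul_assoc, e, mul_assoc]
    · rw [wO, mul_assoc, ih, ← mul_assoc, ← hw.qwa_sp hx, mul_assoc]

theorem Sm.mul (hw : M.IsW w Y) (hY : Y' ≤ Y) {r r' : ℝ} {P P' : M.H →L[ℂ] M.H}
    (h : M.Sm w Y' r P) (h' : M.Sm w Y' r' P') : M.Sm w Y' (r + r') (P * P') := by
  refine ⟨h.1.mul h'.1, by rw [← mul_assoc, h.2.1, mul_assoc, h'.2.1, mul_assoc],
    fun ψ C hC hψ => ?_⟩
  have e : (P * P') ψ - ψ = P (P' ψ - ψ) + (P ψ - ψ) := by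
    rw [map_sub, sub_add_sub_cancel]
    rfl
  rw [e]
  refine (norm_add_le _ _).trans ?_
  rw [(hw.Ev_dec hY h.1).norm, mul_add, add_comm]
  exact add_le_add (h.2.2 ψ C hC hψ) (h'.2.2 ψ C hC hψ)

theorem Sm.mono {r r' : ℝ} {P : M.H →L[ℂ] M.H} (h : M.Sm w Y r P) (hr : r ≤ r') :
    M.Sm w Y r' P :=
  ⟨h.1, h.2.1, fun ψ C hC hψ => (h.2.2 ψ C hC hψ).trans (mul_le_mul_of_nonneg_left hr hC)⟩

/-- after recording `Z` in the bath, the word brings the spin to the state `Z = 1` -/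
theorem reset_norm (hw : M.IsW w Y) (hY : Y' ≤ Y) (hx : x ∈ Y) (hy : y ∈ Y') {t : ℝ}
    (ht : t * (2 * (⟪y, x⟫_ℂ).im) = Real.pi / 4) {l : Wd}
    (hl : ∀ (σ : Bool) (h : ℝ),
      ‖wM l h 1 (if σ then 0 else 1)‖ ≤ 3 * (t * h - sg σ * (Real.pi / 4)) ^ 2)
    (hv : M.Vac w Y' (M.orb ψ)) :
    ‖M.sp (pr false) (M.wO w y l (M.EZc w x ψ))‖ ≤ 12 * t ^ 2 * ‖y‖ ^ 2 * ‖ψ‖ := by
  rw [QWdB_split hw hx, map_add, map_add]
  refine (norm_add_le _ _).trans ((add_le_add
    (QWdB_half hw hY hx hy ht (wO_rep y l) true (hl true) hv)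
    (QWdB_half hw hY hx hy ht (wO_rep y l) false (hl false) hv)).trans (le_of_eq ?_))
  ring

end

variable {K : ℕ} {M : FS (Lab K) (muK K)} {T : Set ℝ} {D : Fin K → Lab K → ℝ}
  {B C : Set ℝ} {U U' : M.H →L[ℂ] M.H}

theorem xi_congr (hB : MeasurableSet B) (hU : M.Dec U) (hU' : M.Dec U')
    (h : M.sc (ind B) * U' = M.sc (ind B) * U) :
    M.sc (ind B) (M.xi U') = M.sc (ind B) (M.xi U) := by
  have hb : BR (ind B : Lab K → ℝ) := BR.ind hB
  have h1 : M.sc (ind B) * star U' = M.sc (ind B) * star U := by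
    have := congrArg star h
    rwa [star_mul, star_mul, M.sc_star hb, hU'.star.2.2 _ hb, hU.star.2.2 _ hb] at this
  have h2 := cell_mul (A := M.sp (pau 2)) rfl h (M.sc_sp hb _).symm
  exact congrArg (· M.Ω) (cell_mul h1 h2 (hU.star.2.2 _ hb))

theorem qwd_simple (hB : MeasurableSet B) (t : ℝ) :
    ∃ a : SimpleFunc (Lab K) ℝ, (a : Lab K → ℝ) = fun c => t * ind B c :=
  ⟨SimpleFunc.piecewise (Prod.fst ⁻¹' B) (measurable_fst hB) (SimpleFunc.const _ t)
    (SimpleFunc.const _ 0), funext fun c => by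
      by_cases q : c.1 ∈ B <;> simp [SimpleFunc.piecewise_apply, ind, q]⟩

theorem qwd_lev (B : Set ℝ) (t : ℝ) : Lev 0 fun c : Lab K => t * ind B c := fun c c' e _ => by
  simp only [ind]
  rw [e]

theorem qwd_in {c : Lab K} (h : c.1 ∈ B) : ind B c = 1 := if_pos h

theorem qwd_out {c : Lab K} (h : c.1 ∉ B) : ind B c = 0 := if_neg h

/-- one pulse between two classes -/
theorem pulse (hD : Fam T D) (hB : MeasurableSet B) (hC : MeasurableSet C) (h : Disjoint B C)
    (hU : M.Dec U) (t : ℝ) : ∃ V, M.Steps D (Gate.OK 0 (B ∪ C)) U (V * U) ∧ M.Dec V ∧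
      M.sc (ind B) * V = M.sc (ind B) * M.EZc (M.WZ D) (t • M.sc (ind C) (M.xi U)) ∧
      M.sc (ind C) * V = M.sc (ind C) * M.EZc (M.WZ D) (t • M.sc (ind B) (M.xi U)) := by
  obtain ⟨a, ha⟩ := qwd_simple (K := K) hB t
  obtain ⟨b, hb⟩ := qwd_simple (K := K) hC 1
  have ok : Gate.OK 0 (B ∪ C) (.pul a b) := by
    refine ⟨ha ▸ qwd_lev B t, hb ▸ qwd_lev C 1, B, hB, fun c k => ?_, fun c k => ?_⟩
    · have q : c.1 ∈ B := by_contra fun q => k (by rw [ha]; simp only [qwd_out q, mul_zero])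
      exact ⟨Or.inl q, q⟩
    · have q : c.1 ∈ C := by_contra fun q => k (by rw [hb]; simp only [qwd_out q, mul_zero])
      exact ⟨Or.inr q, Set.disjoint_right.1 h q⟩
  simp only [one_mul] at hb
  refine ⟨M.EZ (M.WZ D) (M.pv a b (M.xi U)), Steps.step ok Steps.refl,
    (isW_WZ hD).EZ_dec (pv_mem a b hU.xi_mem), ?_, ?_⟩
  · have e := sc_EZ (M.WZ D) (f := M.pv a b (M.xi U)) (v := t • M.sc (ind C) (M.xi U))
      (measurable_fst hB) fun c hc => by
        rw [pv_apply, ha, hb]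
        simp only [qwd_in (B := B) hc, qwd_out (Set.disjoint_left.1 h hc), mul_one, zero_smul,
          add_zero]
    rwa [← ind_eq] at e
  · have e := sc_EZ (M.WZ D) (f := M.pv a b (M.xi U)) (v := t • M.sc (ind B) (M.xi U))
      (measurable_fst hC) fun c hc => by
        rw [pv_apply, ha, hb, M.sc_smul t (BR.ind hB)]
        simp only [qwd_in (B := C) hc, qwd_out (Set.disjoint_right.1 h hc), mul_zero, zero_smul,
          zero_add, one_smul, ContinuousLinearMap.smul_apply, Complex.coe_smul]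
    rwa [← ind_eq] at e

/-- one rotation of a class -/
theorem turn (hD : Fam T D) (hB : MeasurableSet B) (hC : MeasurableSet C) (h : Disjoint B C)
    (U : M.H →L[ℂ] M.H) (N : Fin 3) (a : ℝ) :
    ∃ V, M.Steps D (Gate.OK 0 B) U (V * U) ∧ M.Dec V ∧
      M.sc (ind B) * V = M.sc (ind B) * M.sp (rot N a) ∧ M.sc (ind C) * V = M.sc (ind C) := by
  have hm : Measurable fun c : Lab K => a * ind B c := (BR.ind hB).1.const_mul a
  have ok : Gate.OK 0 B (.loc N fun c : Lab K => a * ind B c) :=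
    ⟨hm, qwd_lev B a, fun c q => by simp only [qwd_out q, mul_zero]⟩
  refine ⟨M.lr N fun c => a * ind B c, Steps.step ok Steps.refl, M.dec_lr N hm, ?_, ?_⟩
  · have e := sc_loc_congr (M := M) (measurable_fst hB) (BM.rot N hm) (BM.const (rot N a))
      fun c hc => by simp only [qwd_in (B := B) hc, mul_one]
    rwa [← ind_eq] at e
  · have e := ind_mul_ev (M := M) hD hC h ok 1
    rwa [ev, mul_one, mul_one] at e

theorem qwd_sm (hD : Fam T D) (hB : MeasurableSet B) (hU : M.Dec U) (t : ℝ) :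
    M.Sm (M.WZ D) (M.Md B) (|t| * √(nu0.real B)) (M.EZc (M.WZ D) (t • M.sc (ind B) (M.xi U))) := by
  have hx : t • M.sc (ind B) (M.xi U) ∈ M.Md B := (M.Md B).smul_mem t (ind_mem_Md hB hU.xi_mem)
  have hn : ‖t • M.sc (ind B) (M.xi U)‖ = |t| * √(nu0.real B) := by
    rw [norm_smul, Real.norm_eq_abs, hU.norm_sc_xi (BR.ind hB), ← norm_ind_sq (M := M) hB,
      Real.sqrt_sq (norm_nonneg _)]
  refine ⟨?_, (isW_WZ hD).EZc_Z (Md_le hx), fun ψ C _ k => hn ▸ k _ hx⟩
  simpa only [mul_one] using Ev.ez (w := M.WZ D) hx Ev.one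

/-- realisation of a word on the class `B` with the mode produced by the class `C` -/
theorem word (hD : Fam T D) (hB : MeasurableSet B) (hC : MeasurableSet C) (h : Disjoint B C)
    (hU : M.Dec U) (l : Wd) : ∃ V P, M.Steps D (Gate.OK 0 (B ∪ C)) U (V * U) ∧ M.Dec V ∧
      M.sc (ind B) * V = M.sc (ind B) * M.wO (M.WZ D) (M.sc (ind C) (M.xi U)) l ∧
      M.sc (ind C) * V = M.sc (ind C) * P ∧
      M.Sm (M.WZ D) (M.Md B) (wt l * √(nu0.real B)) P := by
  have hw := isW_WZ (M := M) hD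
  induction l with
  | nil =>
    refine ⟨1, 1, ?_, Dec.one, rfl, rfl, Ev.one, by simp, fun ψ C _ _ => by simp [wt]⟩
    rw [one_mul]
    exact Steps.refl
  | cons p l ih =>
    obtain ⟨V, P, s1, d1, b1, c1, m1⟩ := ih
    obtain ⟨_ | N, t⟩ := p
    · obtain ⟨V', s2, d2, b2, c2⟩ := pulse hD hB hC h (d1.mul hU) t
      have dP := hw.Ev_dec Md_le m1.1
      have e : M.sc (ind C) (M.xi (V * U)) = M.sc (ind C) (M.xi U) := by
        rw [xi_congr hC (dP.mul hU) (d1.mul hU) (by rw [← mul_assoc, c1, mul_assoc]),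
          xi_mul dP.1 m1.2.1]
      have m2 := qwd_sm hD hB (d1.mul hU) t
      rw [e] at b2
      refine ⟨V' * V, _, mul_assoc V' V U ▸ s1.trans s2, d2.mul d1,
        cell_mul b2 b1 ((hw.EZc_dec ((M.XX).smul_mem t
          (Md_le (ind_mem_Md hC hU.xi_mem)))).2.2 _ (BR.ind hB)),
        cell_mul c2 c1 ((hw.Ev_dec Md_le m2.1).2.2 _ (BR.ind hC)), ?_⟩
      rw [wt, add_mul]
      exact Sm.mul hw Md_le m2 m1
    · obtain ⟨V', s2, d2, b2, c2⟩ := turn hD hB hC h (V * U) N t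
      refine ⟨V' * V, P, mul_assoc V' V U ▸ s1.trans
        (s2.mono fun g k => k.mono le_rfl Set.subset_union_left), d2.mul d1,
        cell_mul b2 b1 (M.sc_sp (BR.ind hB) _).symm, ?_, m1⟩
      rw [← mul_assoc, c2, c1]

end FS

end Vale.Agent.P367.Q
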