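import Vale.Agent.P367.CStmt

/-! # P367: QAOA on the Sherrington-Kirkpatrick model -/

namespace Vale.Agent.P367

open MeasureTheory Filter Complex Matrix

/-- The cost operator, diagonal in the computational basis. -/
noncomputable def Cm {n : ℕ} (g : P146.Edge n → ℝ) : Matrix (Fin n → Bool) (Fin n → Bool) ℂ :=
  Matrix.diagonal fun σ => (P146.ham g σ : ℂ)

/-- The Pauli matrix `X` on the factor `i`. -/
def Xm {n : ℕ} (i : Fin n) : Matrix (Fin n → Bool) (Fin n → Bool) ℂ :=
  Matrix.of fun σ τ => if τ = Function.update σ i (!σ i) then 1 else 0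

/-- The mixer `B = ∑ i, X i`. -/
def Bm (n : ℕ) : Matrix (Fin n → Bool) (Fin n → Bool) ℂ := ∑ i, Xm i

/-- The product of the layers `exp (-i β B) exp (-i γ C)`, the first layer acting first. -/
noncomputable def circuit {n p : ℕ} (g : P146.Edge n → ℝ) (γ β : Fin p → ℝ) :
    Matrix (Fin n → Bool) (Fin n → Bool) ℂ :=
  (List.ofFn fun t => NormedSpace.exp ((-I * β t) • Bm n) *
    NormedSpace.exp ((-I * γ t) • Cm g)).reverse.prod

/-- The QAOA state, the circuit applied to the uniform superposition. -/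
noncomputable def state {n p : ℕ} (g : P146.Edge n → ℝ) (γ β : Fin p → ℝ) :
    (Fin n → Bool) → ℂ := circuit g γ β *ᵥ fun _ => ((1 / √2 : ℝ) : ℂ) ^ n

/-- The expected energy per spin of the QAOA state. -/
noncomputable def energy {p : ℕ} (γ β : Fin p → ℝ) (n : ℕ) : ℝ :=
  (∫ g, (star (state g γ β) ⬝ᵥ Cm g *ᵥ state g γ β).re ∂P146.disorder n) / n

/-- `v_p (γ, β)` -/
noncomputable def vLim {p : ℕ} (γ β : Fin p → ℝ) : ℝ := limUnder atTop (energy γ β)

/-- `Q_p` -/
noncomputable def Qp (p : ℕ) : ℝ := ⨆ x : (Fin p → ℝ) × (Fin p → ℝ), vLim x.1 x.2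

/-- `P_*` -/
noncomputable def Pstar : ℝ := limUnder atTop gse

end Vale.Agent.P367
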